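import Mathlib

/-!
# P162T: words in an operator and its adjoint; the alternating word has maximal trace.
-/

open scoped InnerProductSpace
open Finset

namespace Vale.Agent.Lib.P162T.WordAux

variable {E : Type*} [NormedAddCommGroup E] [InnerProductSpace ℝ E] [FiniteDimensional ℝ E]

/-- The product of a word in `A` and its adjoint. -/
noncomputable def wOp (A : E →ₗ[ℝ] E) : List Bool → (E →ₗ[ℝ] E)
  | [] => 1
  | b :: w => (if b then A else LinearMap.adjoint A) * wOp A w

/-- Reversed and flipped word. -/
def bar (u : List Bool) : List Bool := (u.map not).reverse

theorem wOp_append (A : E →ₗ[ℝ] E) (u v : List Bool) : wOp A (u ++ v) = wOp A u * wOp A v := by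
  induction u with
  | nil => simp [wOp]
  | cons b u ih => simp [wOp, ih, mul_assoc]

theorem adjoint_mul' (X Y : E →ₗ[ℝ] E) :
    LinearMap.adjoint (X * Y) = LinearMap.adjoint Y * LinearMap.adjoint X := by
  exact LinearMap.adjoint_comp X Y

theorem adjoint_one' : LinearMap.adjoint (1 : E →ₗ[ℝ] E) = 1 := by
  ext v
  apply ext_inner_right ℝ
  intro w
  simp

theorem wOp_bar (A : E →ₗ[ℝ] E) (u : List Bool) :
    wOp A (bar u) = LinearMap.adjoint (wOp A u) := by
  induction u with
  | nil => simp [wOp, bar]
  | cons b u ih =>
    have : bar (b :: u) = bar u ++ [!b] := by simp [bar]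
    rw [this, wOp_append, ih]
    simp only [wOp, adjoint_mul']
    cases b <;> simp [LinearMap.adjoint_adjoint]

/-- Hilbert-Schmidt Cauchy-Schwarz. -/
theorem trace_mul_sq_le (U V : E →ₗ[ℝ] E) :
    (LinearMap.trace ℝ E (U * V)) ^ 2 ≤
      LinearMap.trace ℝ E (U * LinearMap.adjoint U) * LinearMap.trace ℝ E (LinearMap.adjoint V * V) := by
  classical
  let b := stdOrthonormalBasis ℝ E
  have tr : ∀ X : E →ₗ[ℝ] E, LinearMap.trace ℝ E X = ∑ i, ⟪b i, X (b i)⟫_ℝ := by
    intro X
    exact LinearMap.trace_eq_sum_inner X b
  have h1 : LinearMap.trace ℝ E (U * V) = ∑ i, ⟪LinearMap.adjoint U (b i), V (b i)⟫_ℝ := by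
    rw [tr]
    refine Finset.sum_congr rfl fun i _ => ?_
    simp [LinearMap.adjoint_inner_left]
  have h2 : LinearMap.trace ℝ E (U * LinearMap.adjoint U) =
      ∑ i, ‖LinearMap.adjoint U (b i)‖ ^ 2 := by
    rw [tr]
    refine Finset.sum_congr rfl fun i _ => ?_
    simp only [Module.End.mul_apply]
    rw [← LinearMap.adjoint_inner_left, real_inner_self_eq_norm_sq]
  have h3 : LinearMap.trace ℝ E (LinearMap.adjoint V * V) = ∑ i, ‖V (b i)‖ ^ 2 := by
    rw [tr]
    refine Finset.sum_congr rfl fun i _ => ?_
    simp only [Module.End.mul_apply]
    rw [LinearMap.adjoint_inner_right, real_inner_self_eq_norm_sq]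
  rw [h1, h2, h3]
  calc (∑ i, ⟪LinearMap.adjoint U (b i), V (b i)⟫_ℝ) ^ 2
      ≤ (∑ i, ‖LinearMap.adjoint U (b i)‖ * ‖V (b i)‖) ^ 2 := by
        apply sq_le_sq'
        · have : -(∑ i, ‖LinearMap.adjoint U (b i)‖ * ‖V (b i)‖) ≤
              ∑ i, ⟪LinearMap.adjoint U (b i), V (b i)⟫_ℝ := by
            rw [← Finset.sum_neg_distrib]
            refine Finset.sum_le_sum fun i _ => ?_
            have := abs_real_inner_le_norm (LinearMap.adjoint U (b i)) (V (b i))
            exact (abs_le.1 this).1
          exact this
        · refine Finset.sum_le_sum fun i _ => ?_
          exact real_inner_le_norm _ _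
    _ ≤ _ := Finset.sum_mul_sq_le_sq_mul_sq _ _ _

theorem trace_mul_adjoint_nonneg (U : E →ₗ[ℝ] E) :
    0 ≤ LinearMap.trace ℝ E (U * LinearMap.adjoint U) := by
  classical
  let b := stdOrthonormalBasis ℝ E
  rw [LinearMap.trace_eq_sum_inner _ b]
  refine Finset.sum_nonneg fun i _ => ?_
  simp only [Module.End.mul_apply]
  rw [← LinearMap.adjoint_inner_left, real_inner_self_eq_norm_sq]
  positivity

theorem trace_adjoint_mul_nonneg (V : E →ₗ[ℝ] E) :
    0 ≤ LinearMap.trace ℝ E (LinearMap.adjoint V * V) := by
  classical
  let b := stdOrthonormalBasis ℝ E
  rw [LinearMap.trace_eq_sum_inner _ b]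
  refine Finset.sum_nonneg fun i _ => ?_
  simp only [Module.End.mul_apply]
  rw [LinearMap.adjoint_inner_right, real_inner_self_eq_norm_sq]
  positivity

/-! ### Defects -/

/-- Indicator of equality. -/
def jn (a b : Bool) : ℕ := if a = b then 1 else 0

theorem jn_not (a b : Bool) : jn (!a) (!b) = jn a b := by cases a <;> cases b <;> rfl
theorem jn_comm (a b : Bool) : jn a b = jn b a := by cases a <;> cases b <;> rfl
theorem jn_self_not (a : Bool) : jn a (!a) = 0 := by cases a <;> rfl

/-- Last letter of `a :: t`. -/
def lst : Bool → List Bool → Bool
  | a, [] => a
  | _, b :: t => lst b t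

/-- Number of adjacent equal pairs of `a :: t`. -/
def idf : Bool → List Bool → ℕ
  | _, [] => 0
  | a, b :: t => jn a b + idf b t

theorem lst_append (a : Bool) (t : List Bool) (b : Bool) (s : List Bool) :
    lst a (t ++ b :: s) = lst b s := by
  induction t generalizing a with
  | nil => rfl
  | cons c t ih => exact ih c

theorem idf_append (a : Bool) (t : List Bool) (b : Bool) (s : List Bool) :
    idf a (t ++ b :: s) = idf a t + jn (lst a t) b + idf b s := by
  induction t generalizing a with
  | nil => simp [idf, lst]
  | cons c t ih =>
    simp only [List.cons_append, idf, lst, ih c]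
    omega

/-- Cyclic defects of a word. -/
def cdf : List Bool → ℕ
  | [] => 0
  | a :: t => idf a t + jn (lst a t) a

theorem cdf_rotate (p q : List Bool) : cdf (p ++ q) = cdf (q ++ p) := by
  cases p with
  | nil => simp
  | cons a p =>
    cases q with
    | nil => simp
    | cons b q =>
      simp only [List.cons_append, cdf, idf_append, lst_append]
      omega

theorem bar_cons (a : Bool) (t : List Bool) : bar (a :: t) = bar t ++ [!a] := by simp [bar]

theorem lst_bar (a : Bool) (t : List Bool) :
    ∃ s, bar (a :: t) = (!(lst a t)) :: s ∧ lst (!(lst a t)) s = !a ∧ idf (!(lst a t)) s = idf a t := by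
  induction t generalizing a with
  | nil => exact ⟨[], by simp [bar, lst], by simp [lst], by simp [idf]⟩
  | cons b t ih =>
    obtain ⟨s, hs, h1, h2⟩ := ih b
    refine ⟨s ++ [!a], ?_, ?_, ?_⟩
    · rw [bar_cons, hs]; simp [lst]
    · simp only [lst]; rw [lst_append]; rfl
    · simp only [lst, idf]
      rw [idf_append, h1, h2]
      simp only [idf, jn_not]
      have := jn_comm a b
      omega

/-- `u ++ bar u` has only the defects of `u`, twice. -/
theorem cdf_self_bar (a : Bool) (t : List Bool) :
    cdf ((a :: t) ++ bar (a :: t)) = 2 * idf a t := by
  obtain ⟨s, hs, h1, h2⟩ := lst_bar a t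
  rw [hs]
  simp only [List.cons_append, cdf]
  rw [idf_append, lst_append, h1, h2, jn_self_not]
  have : jn (!a) a = 0 := by cases a <;> rfl
  omega

/-- `bar v ++ v` has only the defects of `v`, twice. -/
theorem cdf_bar_self (a : Bool) (t : List Bool) :
    cdf (bar (a :: t) ++ (a :: t)) = 2 * idf a t := by
  rw [← cdf_rotate]; exact cdf_self_bar a t

/-- The alternating word. -/
def alt : Bool → ℕ → List Bool
  | _, 0 => []
  | b, n + 1 => b :: alt (!b) n

theorem alt_of_idf_zero (a : Bool) (t : List Bool) (h : idf a t = 0) :
    a :: t = alt a (t.length + 1) := by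
  induction t generalizing a with
  | nil => rfl
  | cons b t ih =>
    simp only [idf] at h
    have h1 : jn a b = 0 := by omega
    have h2 : idf b t = 0 := by omega
    have hb : b = !a := by cases a <;> cases b <;> simp_all [jn]
    have := ih b h2
    simp only [List.length_cons, alt]
    rw [this, hb]
    simp [alt]

theorem wOp_alt_true (A : E →ₗ[ℝ] E) (K : ℕ) :
    wOp A (alt true (2 * K)) = (A * LinearMap.adjoint A) ^ K := by
  induction K with
  | zero => simp [alt, wOp]
  | succ K ih =>
    have : 2 * (K + 1) = 2 * K + 1 + 1 := by ring
    rw [this]
    simp only [alt, wOp, Bool.not_true, Bool.not_false, if_true]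
    simp only [Bool.false_eq_true, if_false]
    rw [ih, pow_succ' _ K, mul_assoc]

theorem wOp_alt_false (A : E →ₗ[ℝ] E) (K : ℕ) :
    wOp A (alt false (2 * K)) = (LinearMap.adjoint A * A) ^ K := by
  induction K with
  | zero => simp [alt, wOp]
  | succ K ih =>
    have : 2 * (K + 1) = 2 * K + 1 + 1 := by ring
    rw [this]
    simp only [alt, wOp, Bool.not_true, Bool.not_false, if_true]
    simp only [Bool.false_eq_true, if_false]
    rw [ih, pow_succ' _ K, mul_assoc]

theorem trace_pow_swap (A : E →ₗ[ℝ] E) (K : ℕ) :
    LinearMap.trace ℝ E ((LinearMap.adjoint A * A) ^ K)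
      = LinearMap.trace ℝ E ((A * LinearMap.adjoint A) ^ K) := by
  cases K with
  | zero => simp
  | succ K =>
    have h1 : (LinearMap.adjoint A * A) ^ (K + 1) =
        LinearMap.adjoint A * ((A * LinearMap.adjoint A) ^ K * A) := by
      have : ∀ n : ℕ, (LinearMap.adjoint A * A) ^ (n + 1) =
          LinearMap.adjoint A * ((A * LinearMap.adjoint A) ^ n * A) := by
        intro n
        induction n with
        | zero => simp
        | succ n ih =>
          rw [pow_succ, ih, pow_succ]
          simp only [mul_assoc]
      exact this K
    rw [h1, LinearMap.trace_mul_comm, mul_assoc, ← pow_succ]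

/-- The main statement on words. -/
theorem trace_word_le_aux (A : E →ₗ[ℝ] E) (K : ℕ) (w : List Bool) (hw : w.length = 2 * K) :
    LinearMap.trace ℝ E (wOp A w) ≤ LinearMap.trace ℝ E ((A * LinearMap.adjoint A) ^ K) := by
  classical
  set f : List Bool → ℝ := fun w => LinearMap.trace ℝ E (wOp A w) with hf
  set T : ℝ := LinearMap.trace ℝ E ((A * LinearMap.adjoint A) ^ K) with hT
  have hT0 : f (alt true (2 * K)) = T := by simp only [hf, hT, wOp_alt_true]
  have hT1 : f (alt false (2 * K)) = T := by
    simp only [hf, hT, wOp_alt_false, trace_pow_swap]
  have hT2 : 0 ≤ T := by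
    cases K with
    | zero => simp [hT]
    | succ K =>
      rw [hT]
      have : (A * LinearMap.adjoint A) ^ (K + 1) =
          (A * LinearMap.adjoint A) ^ K * A * LinearMap.adjoint A := by
        rw [pow_succ, mul_assoc]
      obtain ⟨m, hm | hm⟩ := Nat.even_or_odd' (K + 1)
      · have : (A * LinearMap.adjoint A) ^ (K + 1) =
            (A * LinearMap.adjoint A) ^ m * ((A * LinearMap.adjoint A) ^ m) := by
          rw [hm, two_mul, pow_add]
        rw [this]
        have h2 : LinearMap.adjoint ((A * LinearMap.adjoint A) ^ m) = (A * LinearMap.adjoint A) ^ m := by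
          have : ∀ n : ℕ, LinearMap.adjoint ((A * LinearMap.adjoint A) ^ n) = (A * LinearMap.adjoint A) ^ n := by
            intro n
            induction n with
            | zero => simp
            | succ n ih =>
              rw [pow_succ, adjoint_mul', ih, adjoint_mul', LinearMap.adjoint_adjoint, ← pow_succ,
                pow_succ']
          exact this m
        have := trace_mul_adjoint_nonneg ((A * LinearMap.adjoint A) ^ m)
        rwa [h2] at this
      · have : (A * LinearMap.adjoint A) ^ (K + 1) =
            ((A * LinearMap.adjoint A) ^ m * A) * LinearMap.adjoint ((A * LinearMap.adjoint A) ^ m * A) := by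
          have h2 : ∀ n : ℕ, LinearMap.adjoint ((A * LinearMap.adjoint A) ^ n) = (A * LinearMap.adjoint A) ^ n := by
            intro n
            induction n with
            | zero => simp
            | succ n ih =>
              rw [pow_succ, adjoint_mul', ih, adjoint_mul', LinearMap.adjoint_adjoint, ← pow_succ,
                pow_succ']
          rw [adjoint_mul', h2, hm]
          have : 2 * m + 1 = m + 1 + m := by ring
          rw [this, pow_add, pow_succ]
          simp only [mul_assoc]
        rw [this]
        exact trace_mul_adjoint_nonneg _
  -- the maximum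
  obtain ⟨w₀, hw₀⟩ := Finite.exists_max (fun v : List.Vector Bool (2 * K) => f v.toList)
  set M := f w₀.toList with hM
  have hmax : ∀ v : List Bool, v.length = 2 * K → f v ≤ M := fun v hv => hw₀ ⟨v, hv⟩
  have hTM : T ≤ M := by
    rw [← hT0]
    apply hmax
    have : ∀ (n : ℕ) (b : Bool), (alt b n).length = n := by
      intro n
      induction n with
      | zero => intro b; rfl
      | succ n ih => intro b; simp [alt, ih]
    exact this _ _
  suffices h : M ≤ T from (hmax w hw).trans h
  by_contra hlt
  have hlt := not_le.1 hlt
  have hMpos : 0 < M := lt_of_le_of_lt hT2 hlt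
  -- strong induction on the number of defects
  have key : ∀ d : ℕ, ∀ v : List Bool, v.length = 2 * K → cdf v = d → f v = M → False := by
    intro d
    induction d using Nat.strong_induction_on with
    | _ d ih =>
      intro v hv hd hfv
      cases v with
      | nil =>
        have hK : K = 0 := by simp at hv; omega
        subst hK
        simp only [hf, wOp] at hfv
        have : T = LinearMap.trace ℝ E 1 := by simp [hT]
        rw [← this] at hfv
        exact absurd hfv (ne_of_lt hlt)
      | cons a t =>
        by_cases hd0 : d = 0
        · -- alternating
          have h1 : idf a t = 0 := by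
            have : idf a t + jn (lst a t) a = d := hd
            omega
          have h2 := alt_of_idf_zero a t h1
          have h3 : t.length + 1 = 2 * K := by simpa using hv
          rw [h3] at h2
          rw [h2] at hfv
          cases a
          · rw [hT1] at hfv; exact absurd hfv (ne_of_lt hlt)
          · rw [hT0] at hfv; exact absurd hfv (ne_of_lt hlt)
        · -- rotate so that the cyclic junction is a defect
          have hrot : ∃ x s, (x :: s).length = 2 * K ∧ cdf (x :: s) = d ∧ f (x :: s) = M ∧
              lst x s = x := by
            by_cases hj : lst a t = a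
            · exact ⟨a, t, hv, hd, hfv, hj⟩
            · -- an inner defect
              have hjn : jn (lst a t) a = 0 := by simp [jn, hj]
              have hi : 0 < idf a t := by
                have : idf a t + jn (lst a t) a = d := hd
                omega
              have : ∀ (c : Bool) (r : List Bool), 0 < idf c r →
                  ∃ (p : List Bool) (x : Bool) (q : List Bool), c :: r = p ++ x :: x :: q := by
                intro c r
                induction r generalizing c with
                | nil => intro h; simp [idf] at h
                | cons e r ih2 =>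
                  intro h
                  simp only [idf] at h
                  by_cases he : c = e
                  · exact ⟨[], c, r, by simp [he]⟩
                  · have : 0 < idf e r := by
                      have : jn c e = 0 := by simp [jn, he]
                      omega
                    obtain ⟨p, x, q, hpq⟩ := ih2 e this
                    exact ⟨c :: p, x, q, by simp [hpq]⟩
              obtain ⟨p, x, q, hpq⟩ := this a t hi
              refine ⟨x, q ++ p ++ [x], ?_, ?_, ?_, ?_⟩
              · have : (a :: t).length = (p ++ x :: x :: q).length := by rw [hpq]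
                rw [hv] at this
                simp only [List.length_append, List.length_cons, List.length_nil] at this ⊢
                omega
              · have h1 : a :: t = (p ++ [x]) ++ (x :: q) := by rw [hpq]; simp
                have h2 : cdf (a :: t) = cdf ((x :: q) ++ (p ++ [x])) := by rw [h1, cdf_rotate]
                rw [hd] at h2
                rw [h2]; simp
              · have h1 : a :: t = (p ++ [x]) ++ (x :: q) := by rw [hpq]; simp
                have h2 : f (a :: t) = f ((x :: q) ++ (p ++ [x])) := by
                  simp only [hf]
                  rw [h1, wOp_append A (p ++ [x]) (x :: q), wOp_append A (x :: q) (p ++ [x]),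
                    LinearMap.trace_mul_comm]
                rw [hfv] at h2
                rw [h2]; simp
              · have h3 : lst x ((q ++ p) ++ [x]) = lst x [] := lst_append x (q ++ p) x []
                exact h3
          obtain ⟨x, s, hsl, hsd, hsf, hsj⟩ := hrot
          -- cut in two halves
          have hKpos : 0 < K := by
            have : (x :: s).length = s.length + 1 := rfl
            omega
          set u := (x :: s).take K with hu
          set v' := (x :: s).drop K with hv'
          have huv : x :: s = u ++ v' := (List.take_append_drop K (x :: s)).symm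
          have hul : u.length = K := by
            rw [hu, List.length_take]; omega
          have hvl : v'.length = K := by
            rw [hv', List.length_drop]; omega
          have hbarlen : ∀ z : List Bool, (bar z).length = z.length := by intro z; simp [bar]
          have h1len : (u ++ bar u).length = 2 * K := by
            simp [hbarlen, hul]; omega
          have h2len : (bar v' ++ v').length = 2 * K := by
            simp [hbarlen, hvl]; omega
          have ha : f (u ++ bar u) ≤ M := hmax _ h1len
          have hb : f (bar v' ++ v') ≤ M := hmax _ h2len
          have ha0 : 0 ≤ f (u ++ bar u) := by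
            simp only [hf, wOp_append, wOp_bar]; exact trace_mul_adjoint_nonneg _
          have hb0 : 0 ≤ f (bar v' ++ v') := by
            simp only [hf, wOp_append, wOp_bar]; exact trace_adjoint_mul_nonneg _
          have hcs : M ^ 2 ≤ f (u ++ bar u) * f (bar v' ++ v') := by
            have := trace_mul_sq_le (wOp A u) (wOp A v')
            simp only [hf, wOp_append, wOp_bar]
            rw [← hsf, huv]
            simp only [hf, wOp_append]
            exact this
          have hae : f (u ++ bar u) = M := by
            by_contra hne
            have hlt2 : f (u ++ bar u) < M := lt_of_le_of_ne ha hne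
            have : f (u ++ bar u) * f (bar v' ++ v') < M * M := by
              calc f (u ++ bar u) * f (bar v' ++ v') ≤ f (u ++ bar u) * M :=
                    mul_le_mul_of_nonneg_left hb ha0
                _ < M * M := mul_lt_mul_of_pos_right hlt2 hMpos
            nlinarith
          have hbe : f (bar v' ++ v') = M := by
            by_contra hne
            have hlt2 : f (bar v' ++ v') < M := lt_of_le_of_ne hb hne
            have : f (u ++ bar u) * f (bar v' ++ v') < M * M := by
              calc f (u ++ bar u) * f (bar v' ++ v') ≤ M * f (bar v' ++ v') :=
                    mul_le_mul_of_nonneg_right ha hb0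
                _ < M * M := mul_lt_mul_of_pos_left hlt2 hMpos
            nlinarith
          -- count defects
          cases hucase : u with
          | nil => rw [hucase] at hul; simp at hul; omega
          | cons a1 t1 =>
            cases hvcase : v' with
            | nil => rw [hvcase] at hvl; simp at hvl; omega
            | cons a2 t2 =>
              rw [hucase] at huv hae h1len
              rw [hvcase] at huv hbe h2len
              have hc1 := cdf_self_bar a1 t1
              have hc2 := cdf_bar_self a2 t2
              have hxs : cdf (x :: s) = idf a1 t1 + jn (lst a1 t1) a2 + idf a2 t2 +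
                  jn (lst a2 t2) a1 := by
                rw [huv]
                simp only [List.cons_append, cdf, idf_append, lst_append]
              have hxa : x = a1 := by
                have : (x :: s).head? = ((a1 :: t1) ++ (a2 :: t2)).head? := by rw [huv]
                simpa using this
              have hls : lst a2 t2 = a1 := by
                rw [← hxa, ← hsj]
                have h9 : s = t1 ++ a2 :: t2 := by
                  have : x :: s = a1 :: (t1 ++ a2 :: t2) := by rw [huv]; simp
                  exact (List.cons.inj this).2
                rw [h9, lst_append]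
              have hj1 : jn (lst a2 t2) a1 = 1 := by simp [hls, jn]
              have hsum : idf a1 t1 + idf a2 t2 + 1 ≤ d := by
                rw [← hsd, hxs, hj1]; omega
              by_cases hcmp : idf a1 t1 ≤ idf a2 t2
              · exact ih (2 * idf a1 t1) (by omega) _ h1len hc1 hae
              · exact ih (2 * idf a2 t2) (by omega) _ h2len hc2 hbe
  exact key _ w₀.toList w₀.2 rfl rfl

end Vale.Agent.Lib.P162T.WordAux
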