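import Vale.Agent.Lib.P162.Regular

/-!
# P162T: the sum over injections and the vanishing of pure functions, abstract form

Here `f` is a function on the permutations with the purity identity as a hypothesis.
-/

open Finset

namespace Vale.Agent.Lib.P162T
namespace PureAux

open ThorpL2

set_option linter.unusedSectionVars false
set_option linter.unusedVariables false

variable {α : Type*} [DecidableEq α] [Fintype α]

/-- Admissible assignments of slots. -/
def Valid (J S : Finset α) (ρ : α → α) : Prop :=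
  (∀ j, j ∉ S → ρ j = j) ∧ (∀ j ∈ S, ρ j ∈ Jᶜ) ∧ (∀ j ∈ S, ∀ j' ∈ S, ρ j = ρ j' → j = j')

open Classical in
/-- The finite set of admissible assignments. -/
noncomputable def validSet (J S : Finset α) : Finset (α → α) := univ.filter (Valid J S)

lemma mem_validSet {J S : Finset α} {ρ : α → α} : ρ ∈ validSet J S ↔ Valid J S ρ := by
  classical
  simp [validSet]

/-- The permutations fixing the complement of `S`. -/
def fixSet (S : Finset α) : Finset (Equiv.Perm α) := univ.filter (fun g => ∀ a, a ∉ S → g a = a)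

lemma mem_fixSet {S : Finset α} {g : Equiv.Perm α} : g ∈ fixSet S ↔ ∀ a, a ∉ S → g a = a := by
  simp [fixSet]

/-- Peeling off one slot. -/
lemma sum_valid_insert (J S : Finset α) (i : α) (hi : i ∉ S) (hiJ : i ∈ J) (hS : S ⊆ J)
    (G : (α → α) → ℝ) :
    ∑ ρ ∈ validSet J (insert i S), G ρ
      = ∑ ρ' ∈ validSet J S, ∑ s ∈ Jᶜ \ S.image ρ', G (Function.update ρ' i s) := by
  rw [Finset.sum_sigma']
  refine Finset.sum_bij' (fun ρ _ => (⟨Function.update ρ i i, ρ i⟩ : Σ _ : α → α, α))
    (fun p _ => Function.update p.1 i p.2) ?_ ?_ ?_ ?_ ?_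
  · intro ρ hρ
    rw [mem_validSet] at hρ
    obtain ⟨h1, h2, h3⟩ := hρ
    simp only [Finset.mem_sigma, mem_validSet, Finset.mem_sdiff, Finset.mem_image, not_exists,
      not_and]
    refine ⟨⟨?_, ?_, ?_⟩, h2 i (Finset.mem_insert_self _ _), ?_⟩
    · intro j hj
      by_cases hji : j = i
      · subst hji; simp
      · rw [Function.update_of_ne hji]
        exact h1 j (by simp [hji, hj])
    · intro j hj
      have hji : j ≠ i := fun h => hi (h ▸ hj)
      rw [Function.update_of_ne hji]
      exact h2 j (Finset.mem_insert_of_mem hj)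
    · intro j hj j' hj' h
      have hji : j ≠ i := fun h => hi (h ▸ hj)
      have hji' : j' ≠ i := fun h => hi (h ▸ hj')
      rw [Function.update_of_ne hji, Function.update_of_ne hji'] at h
      exact h3 j (Finset.mem_insert_of_mem hj) j' (Finset.mem_insert_of_mem hj') h
    · intro j hj h
      have hji : j ≠ i := fun h => hi (h ▸ hj)
      rw [Function.update_of_ne hji] at h
      exact hji (h3 j (Finset.mem_insert_of_mem hj) i (Finset.mem_insert_self _ _) h)
  · rintro ⟨ρ, s⟩ hp
    simp only [Finset.mem_sigma, mem_validSet, Finset.mem_sdiff, Finset.mem_image, not_exists,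
      not_and] at hp
    obtain ⟨⟨h1, h2, h3⟩, hs, hs'⟩ := hp
    rw [mem_validSet]
    refine ⟨?_, ?_, ?_⟩
    · intro j hj
      simp only [Finset.mem_insert, not_or] at hj
      rw [Function.update_of_ne hj.1]
      exact h1 j hj.2
    · intro j hj
      by_cases hji : j = i
      · subst hji; simpa using hs
      · rw [Function.update_of_ne hji]
        exact h2 j ((Finset.mem_insert.1 hj).resolve_left hji)
    · intro j hj j' hj' h
      by_cases hji : j = i
      · by_cases hji' : j' = i
        · rw [hji, hji']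
        · subst hji
          rw [Function.update_self, Function.update_of_ne hji'] at h
          exact absurd h.symm (hs' j' ((Finset.mem_insert.1 hj').resolve_left hji'))
      · by_cases hji' : j' = i
        · subst hji'
          rw [Function.update_self, Function.update_of_ne hji] at h
          exact absurd h (hs' j ((Finset.mem_insert.1 hj).resolve_left hji))
        · rw [Function.update_of_ne hji, Function.update_of_ne hji'] at h
          exact h3 j ((Finset.mem_insert.1 hj).resolve_left hji) j'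
            ((Finset.mem_insert.1 hj').resolve_left hji') h
  · intro ρ _
    simp
  · rintro ⟨ρ, s⟩ hp
    simp only [Finset.mem_sigma, mem_validSet, Finset.mem_sdiff, Finset.mem_image, not_exists,
      not_and] at hp
    obtain ⟨⟨h1, h2, h3⟩, hs, hs'⟩ := hp
    have hρi : ρ i = i := h1 i hi
    simp only [Function.update_self, Function.update_idem, Sigma.mk.injEq, heq_eq_eq, and_true]
    rw [← hρi]
    simp [hρi]
  · intro ρ _
    simp

/-- The product of the swaps along a list. -/
def P (ρ : α → α) (E : List α) : Equiv.Perm α := (E.map (fun j => Equiv.swap j (ρ j))).prod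

@[simp] lemma P_nil (ρ : α → α) : P ρ [] = 1 := rfl

lemma P_cons (ρ : α → α) (i : α) (E : List α) : P ρ (i :: E) = Equiv.swap i (ρ i) * P ρ E := by
  simp [P]

lemma P_congr {ρ ρ' : α → α} {E : List α} (h : ∀ j ∈ E, ρ j = ρ' j) : P ρ E = P ρ' E := by
  unfold P
  congr 1
  exact List.map_congr_left (fun j hj => by rw [h j hj])

lemma P_apply_fix (ρ : α → α) (E : List α) (a : α) (h : ∀ j ∈ E, a ≠ j ∧ a ≠ ρ j) :
    P ρ E a = a := by
  induction E with
  | nil => simp
  | cons i E ih =>
    rw [P_cons, Equiv.Perm.mul_apply, ih (fun j hj => h j (List.mem_cons_of_mem _ hj))]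
    have := h i List.mem_cons_self
    exact Equiv.swap_apply_of_ne_of_ne this.1 this.2

lemma P_apply_rho (ρ : α → α) (E : List α) (hE : E.Nodup) (h1 : ∀ j ∈ E, ∀ j' ∈ E, ρ j ≠ j')
    (h2 : ∀ j ∈ E, ∀ j' ∈ E, ρ j = ρ j' → j = j') (j : α) (hj : j ∈ E) :
    P ρ E (ρ j) = j := by
  induction E with
  | nil => simp at hj
  | cons i E ih =>
    rw [P_cons, Equiv.Perm.mul_apply]
    have hi : i ∉ E := (List.nodup_cons.1 hE).1
    by_cases hji : j = i
    · subst hji
      rw [P_apply_fix]
      · simp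
      · intro j' hj'
        refine ⟨h1 _ List.mem_cons_self _ (List.mem_cons_of_mem _ hj'), ?_⟩
        intro h
        exact hi ((h2 _ List.mem_cons_self _ (List.mem_cons_of_mem _ hj') h) ▸ hj')
    · have hjE : j ∈ E := (List.mem_cons.1 hj).resolve_left hji
      rw [ih (List.nodup_cons.1 hE).2
        (fun a ha b hb => h1 a (List.mem_cons_of_mem _ ha) b (List.mem_cons_of_mem _ hb))
        (fun a ha b hb => h2 a (List.mem_cons_of_mem _ ha) b (List.mem_cons_of_mem _ hb)) hjE]
      refine Equiv.swap_apply_of_ne_of_ne hji ?_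
      intro h
      exact h1 i List.mem_cons_self j hj h.symm

lemma mul_swap_eq (p : Equiv.Perm α) (a b : α) :
    p * Equiv.swap a b = Equiv.swap (p a) (p b) * p := by
  rw [Equiv.swap_apply_apply]
  group

/-- The basic identity for one new slot. -/
lemma core (f : Equiv.Perm α → ℝ) (J : Finset α)
    (hsw : ∀ j ∈ J, ∀ x : Equiv.Perm α, ∑ s ∈ Jᶜ, f (x * Equiv.swap j s) = - f x)
    (x : Equiv.Perm α) (E : List α) (hE : E.Nodup) (hEJ : ∀ j ∈ E, j ∈ J) (i : α) (hiJ : i ∈ J)
    (hi : i ∉ E) (ρ : α → α) (hρ : Valid J E.toFinset ρ) :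
    ∑ s ∈ Jᶜ \ E.toFinset.image ρ, f (x * Equiv.swap i s * P ρ E)
      = - f (x * P ρ E) - ∑ j ∈ E.toFinset, f (x * Equiv.swap i j * P ρ E) := by
  obtain ⟨h1, h2, h3⟩ := hρ
  have h2' : ∀ j ∈ E, ρ j ∉ J := by
    intro j hj
    have := h2 j (List.mem_toFinset.2 hj)
    simpa using this
  have h3' : ∀ j ∈ E, ∀ j' ∈ E, ρ j = ρ j' → j = j' := fun j hj j' hj' =>
    h3 j (List.mem_toFinset.2 hj) j' (List.mem_toFinset.2 hj')
  have hfixi : P ρ E i = i := by
    refine P_apply_fix ρ E i (fun j hj => ⟨fun h => hi (h ▸ hj), fun h => h2' j hj (h ▸ hiJ)⟩)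
  have himg : E.toFinset.image ρ ⊆ Jᶜ := by
    intro s hs
    obtain ⟨j, hj, rfl⟩ := Finset.mem_image.1 hs
    exact h2 j hj
  have hsplit := Finset.sum_sdiff (f := fun s => f (x * P ρ E * Equiv.swap i s)) himg
  rw [hsw i hiJ (x * P ρ E)] at hsplit
  have hA : ∑ s ∈ Jᶜ \ E.toFinset.image ρ, f (x * Equiv.swap i s * P ρ E)
      = ∑ s ∈ Jᶜ \ E.toFinset.image ρ, f (x * P ρ E * Equiv.swap i s) := by
    refine Finset.sum_congr rfl ?_
    intro s hs
    simp only [Finset.mem_sdiff, Finset.mem_image, not_exists, not_and, Finset.mem_compl] at hs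
    have hfixs : P ρ E s = s := by
      refine P_apply_fix ρ E s (fun j hj => ⟨fun h => hs.1 (h ▸ hEJ j hj), fun h => ?_⟩)
      exact hs.2 j (List.mem_toFinset.2 hj) h.symm
    rw [mul_assoc x (P ρ E), mul_swap_eq (P ρ E) i s, hfixi, hfixs, mul_assoc]
  have hB : ∑ s ∈ E.toFinset.image ρ, f (x * P ρ E * Equiv.swap i s)
      = ∑ j ∈ E.toFinset, f (x * Equiv.swap i j * P ρ E) := by
    rw [Finset.sum_image]
    · refine Finset.sum_congr rfl ?_
      intro j hj
      have hj' : j ∈ E := List.mem_toFinset.1 hj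
      have : P ρ E (ρ j) = j := P_apply_rho ρ E hE
        (fun a ha b hb h => h2' a ha (h ▸ hEJ b hb)) h3' j hj'
      rw [mul_assoc x (P ρ E), mul_swap_eq (P ρ E) i (ρ j), hfixi, this, mul_assoc]
    · intro a ha b hb h
      exact h3 a ha b hb h
  rw [hA]
  rw [hB] at hsplit
  linarith

/-- Coset decomposition of the group of permutations of `insert i S`. -/
lemma sum_fix_insert (S : Finset α) (i : α) (hi : i ∉ S) (φ : Equiv.Perm α → ℝ) :
    ∑ g ∈ fixSet (insert i S), φ g
      = ∑ h ∈ fixSet S, φ h + ∑ j ∈ S, ∑ h ∈ fixSet S, φ (Equiv.swap i j * h) := by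
  have h1 : ∑ g ∈ fixSet (insert i S), φ g
      = ∑ j ∈ insert i S, ∑ h ∈ fixSet S, φ (Equiv.swap i j * h) := by
    rw [Finset.sum_sigma']
    refine Finset.sum_bij' (fun g _ => (⟨g i, Equiv.swap i (g i) * g⟩ : Σ _ : α, Equiv.Perm α))
      (fun p _ => Equiv.swap i p.1 * p.2) ?_ ?_ ?_ ?_ ?_
    · intro g hg
      rw [mem_fixSet] at hg
      simp only [Finset.mem_sigma, mem_fixSet]
      constructor
      · by_contra hcon
        have := hg (g i) hcon
        have h2 := g.injective this
        rw [h2] at hcon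
        exact hcon (Finset.mem_insert_self _ _)
      · intro a ha
        by_cases hai : a = i
        · subst hai; simp
        · have hga : g a = a := hg a (by simp [hai, ha])
          rw [Equiv.Perm.mul_apply, hga]
          refine Equiv.swap_apply_of_ne_of_ne hai ?_
          intro h
          have := g.injective (hga.trans h)
          exact hai this
    · rintro ⟨j, h⟩ hp
      simp only [Finset.mem_sigma, mem_fixSet] at hp
      rw [mem_fixSet]
      intro a ha
      simp only [Finset.mem_insert, not_or] at ha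
      rw [Equiv.Perm.mul_apply, hp.2 a ha.2]
      refine Equiv.swap_apply_of_ne_of_ne ha.1 ?_
      intro h'
      rcases Finset.mem_insert.1 hp.1 with h'' | h''
      · exact ha.1 (h'.trans h'')
      · exact ha.2 (h' ▸ h'')
    · intro g _
      simp
    · rintro ⟨j, h⟩ hp
      simp only [Finset.mem_sigma, mem_fixSet] at hp
      have hh : h i = i := hp.2 i hi
      simp [hh]
    · intro g _
      simp
  rw [h1, Finset.sum_insert hi]
  congr 1
  refine Finset.sum_congr rfl (fun h _ => ?_)
  rw [Equiv.swap_self]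
  exact congrArg φ (one_mul h)

/-- **The identity for the sum over injections.** -/
theorem sum_inj (f : Equiv.Perm α → ℝ) (J : Finset α)
    (hsw : ∀ j ∈ J, ∀ x : Equiv.Perm α, ∑ s ∈ Jᶜ, f (x * Equiv.swap j s) = - f x)
    (E : List α) (hE : E.Nodup) (hEJ : ∀ j ∈ E, j ∈ J) (x : Equiv.Perm α) :
    ∑ ρ ∈ validSet J E.toFinset, f (x * P ρ E)
      = (-1 : ℝ) ^ E.length * ∑ g ∈ fixSet E.toFinset, f (x * g) := by
  induction E generalizing x with
  | nil =>
    have h1 : validSet J ([] : List α).toFinset = {id} := by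
      ext ρ
      rw [mem_validSet, Finset.mem_singleton]
      constructor
      · intro h
        funext j
        exact h.1 j (by simp)
      · rintro rfl
        exact ⟨fun _ _ => rfl, fun j hj => by simp at hj, fun j hj => by simp at hj⟩
    have h2 : fixSet ([] : List α).toFinset = {1} := by
      ext g
      rw [mem_fixSet, Finset.mem_singleton]
      constructor
      · intro h
        ext a
        simpa using h a (by simp)
      · rintro rfl
        simp
    rw [h1, h2]
    simp
  | cons i E ih =>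
    have hi : i ∉ E := (List.nodup_cons.1 hE).1
    have hE' : E.Nodup := (List.nodup_cons.1 hE).2
    have hiJ : i ∈ J := hEJ i List.mem_cons_self
    have hEJ' : ∀ j ∈ E, j ∈ J := fun j hj => hEJ j (List.mem_cons_of_mem _ hj)
    have hi' : i ∉ E.toFinset := by simpa using hi
    have hsub : E.toFinset ⊆ J := fun j hj => hEJ' j (List.mem_toFinset.1 hj)
    rw [List.toFinset_cons, sum_valid_insert J _ i hi' hiJ hsub,
      sum_fix_insert _ i hi']
    have hstep : ∀ ρ' ∈ validSet J E.toFinset,
        ∑ s ∈ Jᶜ \ E.toFinset.image ρ', f (x * P (Function.update ρ' i s) (i :: E))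
          = - f (x * P ρ' E) - ∑ j ∈ E.toFinset, f (x * Equiv.swap i j * P ρ' E) := by
      intro ρ' hρ'
      rw [← core f J hsw x E hE' hEJ' i hiJ hi ρ' (mem_validSet.1 hρ')]
      refine Finset.sum_congr rfl ?_
      intro s _
      rw [P_cons, Function.update_self, ← mul_assoc]
      congr 2
      refine P_congr (fun j hj => ?_)
      rw [Function.update_of_ne]
      exact fun h => hi (h ▸ hj)
    rw [Finset.sum_congr rfl hstep, Finset.sum_sub_distrib, Finset.sum_neg_distrib, ih hE' hEJ' x,
      Finset.sum_comm]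
    have hstep2 : ∑ y ∈ E.toFinset, ∑ x_1 ∈ validSet J E.toFinset, f (x * Equiv.swap i y * P x_1 E)
        = ∑ y ∈ E.toFinset, (-1 : ℝ) ^ E.length * ∑ g ∈ fixSet E.toFinset, f (x * Equiv.swap i y * g) :=
      Finset.sum_congr rfl (fun j hj => ih hE' hEJ' _)
    rw [hstep2, ← Finset.mul_sum, List.length_cons, pow_succ]
    have hsimp : ∑ j ∈ E.toFinset, ∑ h ∈ fixSet E.toFinset, f (x * (Equiv.swap i j * h))
        = ∑ j ∈ E.toFinset, ∑ g ∈ fixSet E.toFinset, f (x * Equiv.swap i j * g) := by
      refine Finset.sum_congr rfl (fun j _ => Finset.sum_congr rfl (fun g _ => ?_))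
      rw [mul_assoc]
    rw [hsimp]
    ring

/-- The identity for the sum over injections, with the sums written as conditional sums. -/
theorem sum_inj' (f : Equiv.Perm α → ℝ) (J : Finset α)
    (hsw : ∀ j ∈ J, ∀ x : Equiv.Perm α, ∑ s ∈ Jᶜ, f (x * Equiv.swap j s) = - f x)
    (E : List α) (hE : E.Nodup) (hEJ : ∀ j ∈ E, j ∈ J) (x : Equiv.Perm α) :
    ∑ ρ : α → α,
      (if (∀ j, j ∉ E → ρ j = j) ∧ (∀ j ∈ E, ρ j ∈ Jᶜ) ∧ (∀ j ∈ E, ∀ j' ∈ E, ρ j = ρ j' → j = j')
        then f (x * (E.map (fun j => Equiv.swap j (ρ j))).prod) else 0)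
      = (-1 : ℝ) ^ E.length * ∑ g : Equiv.Perm α, (if (∀ a, a ∉ E → g a = a) then f (x * g) else 0) := by
  classical
  have h := sum_inj f J hsw E hE hEJ x
  have h1 : ∑ ρ ∈ validSet J E.toFinset, f (x * P ρ E) = ∑ ρ : α → α,
      (if (∀ j, j ∉ E → ρ j = j) ∧ (∀ j ∈ E, ρ j ∈ Jᶜ) ∧ (∀ j ∈ E, ∀ j' ∈ E, ρ j = ρ j' → j = j')
        then f (x * (E.map (fun j => Equiv.swap j (ρ j))).prod) else 0) := by
    unfold validSet
    rw [Finset.sum_filter]
    refine Finset.sum_congr rfl (fun ρ _ => ?_)
    by_cases hv : (∀ j, j ∉ E → ρ j = j) ∧ (∀ j ∈ E, ρ j ∈ Jᶜ) ∧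
        (∀ j ∈ E, ∀ j' ∈ E, ρ j = ρ j' → j = j')
    · have hv' : Valid J E.toFinset ρ := by
        simpa [Valid] using hv
      rw [if_pos hv, if_pos hv']
      rfl
    · have hv' : ¬ Valid J E.toFinset ρ := by
        intro hh
        exact hv (by simpa [Valid] using hh)
      rw [if_neg hv, if_neg hv']
  have h2 : ∑ g ∈ fixSet E.toFinset, f (x * g)
      = ∑ g : Equiv.Perm α, (if (∀ a, a ∉ E → g a = a) then f (x * g) else 0) := by
    unfold fixSet
    rw [Finset.sum_filter]
    refine Finset.sum_congr rfl (fun g _ => ?_)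
    simp only [List.mem_toFinset]
  rw [← h1, ← h2]
  exact h

/-- Counting the extensions of an admissible assignment. -/
lemma fiber (J S : Finset α) (D : Finset α) :
    Disjoint D S → D ∪ S ⊆ J → (D ∪ S).card ≤ Jᶜ.card →
    ∃ c : ℕ, 0 < c ∧ ∀ G : (α → α) → ℝ,
      (∀ ρ ρ' : α → α, (∀ j ∈ S, ρ j = ρ' j) → G ρ = G ρ') →
      ∑ ρ ∈ validSet J (D ∪ S), G ρ = c * ∑ ρ ∈ validSet J S, G ρ := by
  induction D using Finset.induction_on with
  | empty =>
    intro _ _ _
    exact ⟨1, one_pos, fun G _ => by simp⟩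
  | insert i D hi ih =>
    intro hd hJ hc
    have hiS : i ∉ S := Finset.disjoint_left.1 hd (Finset.mem_insert_self _ _)
    have hd' : Disjoint D S := by
      rw [Finset.disjoint_left] at hd ⊢
      exact fun a ha => hd (Finset.mem_insert_of_mem ha)
    have hU : insert i D ∪ S = insert i (D ∪ S) := by simp
    rw [hU] at hJ hc ⊢
    have hiU : i ∉ D ∪ S := by simp [hi, hiS]
    rw [Finset.card_insert_of_notMem hiU] at hc
    have hJ' : D ∪ S ⊆ J := fun a ha => hJ (Finset.mem_insert_of_mem ha)
    obtain ⟨c, hc0, hc1⟩ := ih hd' hJ' (by omega)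
    refine ⟨(Jᶜ.card - (D ∪ S).card) * c, Nat.mul_pos (by omega) hc0, ?_⟩
    intro G hG
    rw [sum_valid_insert J _ i hiU (hJ (Finset.mem_insert_self _ _)) hJ' G]
    have hstep : ∀ ρ' ∈ validSet J (D ∪ S),
        ∑ s ∈ Jᶜ \ (D ∪ S).image ρ', G (Function.update ρ' i s)
          = ((Jᶜ.card - (D ∪ S).card : ℕ) : ℝ) * G ρ' := by
      intro ρ' hρ'
      obtain ⟨h1, h2, h3⟩ := mem_validSet.1 hρ'
      have hval : ∀ s, G (Function.update ρ' i s) = G ρ' := by
        intro s
        refine hG _ _ (fun j hj => ?_)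
        rw [Function.update_of_ne]
        exact fun h => hiS (h ▸ hj)
      simp only [hval, Finset.sum_const, nsmul_eq_mul]
      congr 2
      rw [Finset.card_sdiff_of_subset, Finset.card_image_of_injOn]
      · intro a ha b hb h
        exact h3 a ha b hb h
      · intro s hs
        obtain ⟨j, hj, rfl⟩ := Finset.mem_image.1 hs
        exact h2 j hj
    rw [Finset.sum_congr rfl hstep, ← Finset.mul_sum,
      hc1 G hG]
    push_cast
    ring

/-- The sum over a subgroup of the translated correlations is nonnegative. -/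
lemma sum_corr_nonneg (f : Equiv.Perm α → ℝ) (S : Finset α) :
    0 ≤ ∑ x, f x * ∑ g ∈ fixSet S, f (x * g) := by
  set X := ∑ x, f x * ∑ g ∈ fixSet S, f (x * g) with hX
  have h1 : (1 : Equiv.Perm α) ∈ fixSet S := by simp [mem_fixSet]
  have hpos : (0 : ℝ) < (fixSet S).card := by
    exact_mod_cast Finset.card_pos.2 ⟨1, h1⟩
  have hmul : ∀ g ∈ fixSet S, ∀ h ∈ fixSet S, g⁻¹ * h ∈ fixSet S := by
    intro g hg h hh
    rw [mem_fixSet] at hg hh ⊢
    intro a ha
    rw [Equiv.Perm.mul_apply, hh a ha, Equiv.Perm.inv_eq_iff_eq]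
    exact (hg a ha).symm
  have hinner : ∀ g ∈ fixSet S, ∑ h ∈ fixSet S, ∑ x, f (x * g) * f (x * h) = X := by
    intro g hg
    have hstep : ∀ h, ∑ x, f (x * g) * f (x * h) = ∑ x, f x * f (x * (g⁻¹ * h)) := by
      intro h
      refine Fintype.sum_equiv (Equiv.mulRight g) _ _ (fun x => ?_)
      simp [mul_assoc]
    rw [Finset.sum_congr rfl (fun h _ => hstep h)]
    rw [hX]
    simp only [Finset.mul_sum]
    rw [Finset.sum_comm]
    refine Fintype.sum_congr _ _ (fun x => ?_)
    refine Finset.sum_bij' (fun h _ => g⁻¹ * h) (fun h _ => g * h) ?_ ?_ ?_ ?_ ?_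
    · intro h hh
      exact hmul g hg h hh
    · intro h hh
      have := hmul g⁻¹ (by
        rw [mem_fixSet] at hg ⊢
        intro a ha
        rw [Equiv.Perm.inv_eq_iff_eq]
        exact (hg a ha).symm) h hh
      simpa using this
    · intro h _
      simp
    · intro h _
      simp
    · intro h _
      rfl
  have hsq : ∑ x, (∑ g ∈ fixSet S, f (x * g)) ^ 2 = (fixSet S).card * X := by
    calc ∑ x, (∑ g ∈ fixSet S, f (x * g)) ^ 2
        = ∑ x, ∑ g ∈ fixSet S, ∑ h ∈ fixSet S, f (x * g) * f (x * h) := by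
          refine Fintype.sum_congr _ _ (fun x => ?_)
          rw [sq, Finset.sum_mul_sum]
      _ = ∑ g ∈ fixSet S, ∑ h ∈ fixSet S, ∑ x, f (x * g) * f (x * h) := by
          rw [Finset.sum_comm]
          refine Finset.sum_congr rfl (fun g _ => ?_)
          rw [Finset.sum_comm]
      _ = ∑ g ∈ fixSet S, X := Finset.sum_congr rfl hinner
      _ = (fixSet S).card * X := by simp
  have hnn : 0 ≤ ∑ x, (∑ g ∈ fixSet S, f (x * g)) ^ 2 :=
    Finset.sum_nonneg (fun x _ => sq_nonneg _)
  rw [hsq] at hnn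
  exact nonneg_of_mul_nonneg_right hnn hpos

lemma list_sum_neg {β : Type*} (L : List β) (g : β → ℝ) :
    -(L.map g).sum = (L.map (fun T => - g T)).sum := by
  induction L with
  | nil => simp
  | cons a L ih =>
    simp only [List.map_cons, List.sum_cons, neg_add, ih]

lemma sum_list_map {β γ : Type*} (A : Finset β) (L : List γ) (F : β → γ → ℝ) :
    ∑ ρ ∈ A, (L.map (fun T => F ρ T)).sum = (L.map (fun T => ∑ ρ ∈ A, F ρ T)).sum := by
  induction L with
  | nil => simp
  | cons a L ih =>
    simp only [List.map_cons, List.sum_cons, Finset.sum_add_distrib, ih]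

/-- Expansion of the product of the differences. -/
lemma expand (f : Fn α) (E : List α) (ρ : α → α) (x : Equiv.Perm α) :
    (E.map (fun j => (1 : Fn α →ₗ[ℝ] Fn α) - regRep.ρ (Equiv.swap j (ρ j)))).prod f x
      = (E.sublists'.map (fun T => (-1 : ℝ) ^ T.length * f (x * P ρ T))).sum := by
  induction E generalizing x with
  | nil => simp
  | cons i E ih =>
    rw [List.map_cons, List.prod_cons, List.sublists'_cons, List.map_append, List.sum_append,
      List.map_map]
    have h : ∀ v : Fn α, (((1 : Fn α →ₗ[ℝ] Fn α) - regRep.ρ (Equiv.swap i (ρ i))) v) x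
        = v x - v (x * Equiv.swap i (ρ i)) := by
      intro v
      simp
    rw [Module.End.mul_apply, h, ih x, ih (x * Equiv.swap i (ρ i)), sub_eq_add_neg]
    congr 1
    rw [list_sum_neg]
    refine congrArg List.sum (List.map_congr_left (fun T _ => ?_))
    simp only [Function.comp, List.length_cons, P_cons, pow_succ, mul_assoc]
    ring

/-- **A pure function killed by all the alternating differences vanishes**, abstract form. -/
theorem eq_zero (f : Fn α) (J : Finset α)
    (hsw : ∀ j ∈ J, ∀ x : Equiv.Perm α, ∑ s ∈ Jᶜ, f (x * Equiv.swap j s) = - f x)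
    (hcard : 2 * J.card ≤ Fintype.card α)
    (hD : ∀ (E : List α), (∀ j, j ∈ E ↔ j ∈ J) → E.Nodup → ∀ ρ : α → α,
      (∀ j ∈ E, ρ j ∈ Jᶜ) → (∀ j ∈ E, ∀ j' ∈ E, ρ j = ρ j' → j = j') →
      ∀ x : Equiv.Perm α,
        (E.map (fun j => (1 : Fn α →ₗ[ℝ] Fn α) - regRep.ρ (Equiv.swap j (ρ j)))).prod f x = 0) :
    f = 0 := by
  set E := J.toList with hEdef
  have hEmem : ∀ j, j ∈ E ↔ j ∈ J := fun j => Finset.mem_toList
  have hEnd : E.Nodup := Finset.nodup_toList J
  have hEfin : E.toFinset = J := Finset.toList_toFinset J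
  have hcc : J.card ≤ Jᶜ.card := by
    rw [Finset.card_compl]
    omega
  -- the constants
  have hc : ∀ T : List α, ∃ c : ℕ, T ∈ E.sublists' → 0 < c ∧ ∀ G : (α → α) → ℝ,
      (∀ ρ ρ' : α → α, (∀ j ∈ T.toFinset, ρ j = ρ' j) → G ρ = G ρ') →
      ∑ ρ ∈ validSet J J, G ρ = c * ∑ ρ ∈ validSet J T.toFinset, G ρ := by
    intro T
    by_cases hT : T ∈ E.sublists'
    · have hsub : T.toFinset ⊆ J := by
        intro a ha
        rw [← hEmem]
        exact (List.mem_sublists'.1 hT).subset (List.mem_toFinset.1 ha)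
      obtain ⟨c, hc0, hc1⟩ := fiber J T.toFinset (J \ T.toFinset) Finset.sdiff_disjoint
        (by rw [Finset.sdiff_union_of_subset hsub]) (by rw [Finset.sdiff_union_of_subset hsub]; exact hcc)
      rw [Finset.sdiff_union_of_subset hsub] at hc1
      exact ⟨c, fun _ => ⟨hc0, hc1⟩⟩
    · exact ⟨0, fun h => absurd h hT⟩
  choose c hc using hc
  -- the sum over the assignments
  have hmain : ∀ x : Equiv.Perm α,
      (E.sublists'.map (fun T => (c T : ℝ) * ∑ g ∈ fixSet T.toFinset, f (x * g))).sum = 0 := by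
    intro x
    have h0 : ∑ ρ ∈ validSet J J, (E.map (fun j => (1 : Fn α →ₗ[ℝ] Fn α)
        - regRep.ρ (Equiv.swap j (ρ j)))).prod f x = 0 := by
      refine Finset.sum_eq_zero (fun ρ hρ => ?_)
      obtain ⟨h1, h2, h3⟩ := mem_validSet.1 hρ
      exact hD E hEmem hEnd ρ (fun j hj => h2 j ((hEmem j).1 hj))
        (fun j hj j' hj' => h3 j ((hEmem j).1 hj) j' ((hEmem j').1 hj')) x
    rw [Finset.sum_congr rfl (fun ρ _ => expand f E ρ x), sum_list_map] at h0
    rw [← h0]
    refine congrArg List.sum (List.map_congr_left (fun T hT => ?_))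
    have hTnd : T.Nodup := (List.mem_sublists'.1 hT).nodup hEnd
    have hTJ : ∀ j ∈ T, j ∈ J := fun j hj => (hEmem j).1 ((List.mem_sublists'.1 hT).subset hj)
    rw [← Finset.mul_sum]
    have hG := (hc T hT).2 (fun ρ => f (x * P ρ T)) (by
      intro ρ ρ' h
      have : P ρ T = P ρ' T := P_congr (fun j hj => h j (List.mem_toFinset.2 hj))
      simp only [this])
    rw [hG, sum_inj (fun y => f y) J hsw T hTnd hTJ x]
    have hsq : ((-1 : ℝ) ^ T.length) * ((-1 : ℝ) ^ T.length) = 1 := by
      rw [← mul_pow]; simp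
    linear_combination (-(c T : ℝ) * ∑ g ∈ fixSet T.toFinset, f (x * g)) * hsq
  -- take the inner product with f
  have hsum : (E.sublists'.map (fun T => (c T : ℝ) * ∑ x, f x * ∑ g ∈ fixSet T.toFinset, f (x * g))).sum = 0 := by
    have h1 : ∑ x, f x * (E.sublists'.map (fun T => (c T : ℝ) * ∑ g ∈ fixSet T.toFinset, f (x * g))).sum = 0 :=
      Finset.sum_eq_zero (fun x _ => by rw [hmain x, mul_zero])
    have h2 : ∀ x, f x * (E.sublists'.map (fun T => (c T : ℝ) * ∑ g ∈ fixSet T.toFinset, f (x * g))).sum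
        = (E.sublists'.map (fun T => f x * ((c T : ℝ) * ∑ g ∈ fixSet T.toFinset, f (x * g)))).sum := by
      intro x
      rw [← List.sum_map_mul_left]
    rw [Finset.sum_congr rfl (fun x _ => h2 x), sum_list_map] at h1
    rw [← h1]
    refine congrArg List.sum (List.map_congr_left (fun T _ => ?_))
    rw [Finset.mul_sum]
    refine Finset.sum_congr rfl (fun x _ => ?_)
    ring
  have hnil : ([] : List α) ∈ E.sublists' := List.mem_sublists'.2 (List.nil_sublist _)
  have hle := List.single_le_sum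
    (l := E.sublists'.map (fun T => (c T : ℝ) * ∑ x, f x * ∑ g ∈ fixSet T.toFinset, f (x * g)))
    (by
      intro y hy
      obtain ⟨T, _, rfl⟩ := List.mem_map.1 hy
      exact mul_nonneg (Nat.cast_nonneg _) (sum_corr_nonneg (fun y => f y) T.toFinset))
    _ (List.mem_map.2 ⟨[], hnil, rfl⟩)
  rw [hsum] at hle
  have hfix : fixSet ([] : List α).toFinset = {1} := by
    ext g
    rw [mem_fixSet, Finset.mem_singleton]
    constructor
    · intro h
      ext a
      simpa using h a (by simp)
    · rintro rfl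
      simp
  simp only [hfix, Finset.sum_singleton, mul_one] at hle
  have hc0 : (0 : ℝ) < c [] := by exact_mod_cast (hc [] hnil).1
  have hsq : ∑ x, f x * f x ≤ 0 := by
    by_contra hcon
    have hcon := not_le.1 hcon
    have := mul_pos hc0 hcon
    linarith
  have hzero : ∀ x, f x * f x = 0 := by
    intro x
    have h1 := (Finset.sum_eq_zero_iff_of_nonneg (fun x _ => mul_self_nonneg (f x))).1
      (le_antisymm hsq (Finset.sum_nonneg (fun x _ => mul_self_nonneg (f x)))) x (Finset.mem_univ _)
    exact h1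
  ext x
  simpa using hzero x

end PureAux
end Vale.Agent.Lib.P162T
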