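import Mathlib

/-!
# P162T: the min trick on paths, abstract form (section 7 of notes/P162_blueprint.md)
-/

namespace Vale.Agent.Lib.P162T

open Finset

section MinTrick

variable {V Y : Type*} [Fintype V] [Fintype Y] [DecidableEq V]

/-- Path sums with a functional of the list of edge exponents. -/
noncomputable def pathSum (w : V → Y → V → ℝ) (e : V → Y → V → ℕ) :
    ℕ → V → V → (List ℕ → ℝ) → ℝ
  | 0, a, b, f => if a = b then f [] else 0
  | n + 1, a, b, f => ∑ c, ∑ y, w a y c * pathSum w e n c b (fun L => f (e a y c :: L))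

variable (w : V → Y → V → ℝ) (e : V → Y → V → ℕ)

theorem pathSum_mono (hw : ∀ a y c, 0 ≤ w a y c) (n : ℕ) (a b : V) (f g : List ℕ → ℝ)
    (h : ∀ L : List ℕ, L.length = n → f L ≤ g L) :
    pathSum w e n a b f ≤ pathSum w e n a b g := by
  induction n generalizing a f g with
  | zero =>
    simp only [pathSum]
    split_ifs
    · exact h [] rfl
    · exact le_rfl
  | succ n ih =>
    simp only [pathSum]
    refine Finset.sum_le_sum fun c _ => Finset.sum_le_sum fun y _ => ?_
    refine mul_le_mul_of_nonneg_left (ih c _ _ fun L hL => h _ ?_) (hw _ _ _)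
    simp [hL]

theorem pathSum_sum {ι : Type*} (s : Finset ι) (n : ℕ) (a b : V) (f : ι → List ℕ → ℝ) :
    pathSum w e n a b (fun L => ∑ j ∈ s, f j L) = ∑ j ∈ s, pathSum w e n a b (f j) := by
  induction n generalizing a f with
  | zero =>
    simp only [pathSum]
    split_ifs <;> simp
  | succ n ih =>
    simp only [pathSum]
    have h1 : ∀ c y, pathSum w e n c b (fun L => ∑ j ∈ s, f j (e a y c :: L))
        = ∑ j ∈ s, pathSum w e n c b (fun L => f j (e a y c :: L)) := fun c y =>
      ih c (fun j L => f j (e a y c :: L))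
    simp_rw [h1, Finset.mul_sum]
    refine (Finset.sum_congr rfl fun c _ => Finset.sum_comm).trans ?_
    exact Finset.sum_comm

theorem pathSum_const_mul (r : ℝ) (n : ℕ) (a b : V) (f : List ℕ → ℝ) :
    pathSum w e n a b (fun L => r * f L) = r * pathSum w e n a b f := by
  induction n generalizing a f with
  | zero =>
    simp only [pathSum]
    split_ifs <;> simp
  | succ n ih =>
    simp only [pathSum]
    simp_rw [ih, Finset.mul_sum]
    refine Finset.sum_congr rfl fun c _ => Finset.sum_congr rfl fun y _ => ?_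
    ring

variable (K : ℝ → Matrix V V ℝ)
  (hK : ∀ α a b, K α a b = ∑ y, w a y b * Real.exp (α * (e a y b : ℝ)))

include hK

theorem pathSum_exp (σ : ℝ) (n : ℕ) (a b : V) :
    pathSum w e n a b (fun L => Real.exp (σ * (L.sum : ℝ))) = ((K σ) ^ n) a b := by
  induction n generalizing a with
  | zero =>
    simp [pathSum, Matrix.one_apply]
  | succ n ih =>
    rw [pow_succ', Matrix.mul_apply]
    simp only [pathSum]
    refine Finset.sum_congr rfl fun c _ => ?_
    rw [hK, Finset.sum_mul]
    refine Finset.sum_congr rfl fun y _ => ?_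
    have : (fun L : List ℕ => Real.exp (σ * ((e a y c :: L).sum : ℝ)))
        = fun L : List ℕ => Real.exp (σ * (e a y c : ℝ)) * Real.exp (σ * (L.sum : ℝ)) := by
      funext L
      rw [← Real.exp_add]
      congr 1
      simp only [List.sum_cons]
      push_cast
      ring
    rw [this, pathSum_const_mul, ih]
    ring

omit hK in
/-- Functional of the `j`-th path in the min trick. -/
noncomputable def gTrick (σ τ : ℝ) : ℕ → List ℕ → ℝ
  | _, [] => 1
  | 0, x :: L => Real.exp (τ * (x : ℝ)) * Real.exp (σ * (L.sum : ℝ))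
  | j + 1, x :: L => Real.exp (σ * (x : ℝ)) * gTrick σ τ j L

theorem pathSum_gTrick (σ τ : ℝ) (n j : ℕ) (hj : j ≤ n) (a b : V) :
    pathSum w e (n + 1) a b (gTrick σ τ j) = ((K σ) ^ j * K τ * (K σ) ^ (n - j)) a b := by
  induction n generalizing a j with
  | zero =>
    obtain rfl : j = 0 := by omega
    simp only [pathSum, gTrick, pow_zero, one_mul, mul_one, Nat.sub_zero, List.sum_nil]
    rw [hK]
    simp only [mul_ite, mul_zero]
    rw [Finset.sum_eq_single b]
    · simp only [if_true]
      rw [Finset.sum_congr rfl]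
      intro y _
      simp [mul_comm]
    · intro c _ hc
      simp [hc]
    · simp
  | succ n ih =>
    cases j with
    | zero =>
      simp only [pow_zero, one_mul, Nat.sub_zero]
      rw [Matrix.mul_apply]
      rw [pathSum]
      refine Finset.sum_congr rfl fun c _ => ?_
      rw [hK, Finset.sum_mul]
      refine Finset.sum_congr rfl fun y _ => ?_
      have : (fun L : List ℕ => gTrick σ τ 0 (e a y c :: L))
          = fun L : List ℕ => Real.exp (τ * (e a y c : ℝ)) * Real.exp (σ * (L.sum : ℝ)) := by
        funext L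
        simp [gTrick]
      rw [this, pathSum_const_mul, pathSum_exp w e K hK]
      ring
    | succ j =>
      have h : j ≤ n := by omega
      have hsub : n + 1 - (j + 1) = n - j := by omega
      rw [hsub, pow_succ', Matrix.mul_assoc, Matrix.mul_assoc, Matrix.mul_apply]
      rw [pathSum]
      refine Finset.sum_congr rfl fun c _ => ?_
      rw [hK, Finset.sum_mul]
      refine Finset.sum_congr rfl fun y _ => ?_
      have : (fun L : List ℕ => gTrick σ τ (j + 1) (e a y c :: L))
          = fun L : List ℕ => Real.exp (σ * (e a y c : ℝ)) * gTrick σ τ j L := by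
        funext L
        simp [gTrick]
      rw [this, pathSum_const_mul, ih j h c, Matrix.mul_assoc]
      ring

omit hK in
theorem gTrick_nonneg (σ τ : ℝ) (j : ℕ) (L : List ℕ) : 0 ≤ gTrick σ τ j L := by
  induction L generalizing j with
  | nil => simp [gTrick]
  | cons x L ih =>
    cases j with
    | zero => simp only [gTrick]; positivity
    | succ j =>
      simp only [gTrick]
      exact mul_nonneg (Real.exp_pos _).le (ih j)

omit hK in
theorem gTrick_eq (σ τ : ℝ) (L : List ℕ) (j : ℕ) (hj : j < L.length) :
    gTrick σ τ j L = Real.exp (σ * (L.sum : ℝ) + (τ - σ) * (L[j] : ℝ)) := by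
  induction L generalizing j with
  | nil => simp at hj
  | cons x L ih =>
    cases j with
    | zero =>
      simp only [gTrick, List.sum_cons, List.getElem_cons_zero]
      rw [← Real.exp_add]
      congr 1
      push_cast
      ring
    | succ j =>
      have hj' : j < L.length := by simpa using hj
      simp only [gTrick, List.sum_cons, List.getElem_cons_succ]
      rw [ih j hj', ← Real.exp_add]
      congr 1
      push_cast
      ring

omit hK in
theorem one_le_sum_gTrick (M : ℕ) (σ : ℝ) (hσ : 0 ≤ σ) (L : List ℕ) (hL : L.length = M + 1) :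
    1 ≤ ∑ j ∈ Finset.range (M + 1), gTrick σ (-(M * σ)) j L := by
  classical
  have hne : L.toFinset.Nonempty := by
    refine ⟨L[0]'(by omega), ?_⟩
    simp
  obtain ⟨m, hm, hmin⟩ := L.toFinset.exists_min_image id hne
  have hm' : m ∈ L := by simpa using hm
  obtain ⟨i, hi, rfl⟩ := List.mem_iff_getElem.mp hm'
  have hsum : ∀ x ∈ L, L[i] ≤ x := fun x hx => hmin x (by simpa using hx)
  have hcard := List.card_nsmul_le_sum L L[i] hsum
  rw [hL, smul_eq_mul] at hcard
  have hcard' : ((M : ℝ) + 1) * (L[i] : ℝ) ≤ (L.sum : ℝ) := by exact_mod_cast hcard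
  have hi' : i < M + 1 := by omega
  calc (1 : ℝ) ≤ gTrick σ (-(M * σ)) i L := by
        rw [gTrick_eq _ _ _ _ hi]
        apply Real.one_le_exp
        have : 0 ≤ σ * ((L.sum : ℝ) - ((M : ℝ) + 1) * (L[i] : ℝ)) :=
          mul_nonneg hσ (by linarith)
        nlinarith
    _ ≤ _ := Finset.single_le_sum (f := fun j => gTrick σ (-(M * σ)) j L)
        (fun j _ => gTrick_nonneg σ _ j L) (Finset.mem_range.mpr hi')

/-- **Min trick on paths, abstract form.** -/
theorem abstract_min_trick (hw : ∀ a y c, 0 ≤ w a y c) (M : ℕ) (σ : ℝ) (hσ : 0 ≤ σ) (a b : V) :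
    ((K 0) ^ (M + 1)) a b
      ≤ ∑ j ∈ Finset.range (M + 1), ((K σ) ^ j * K (-(M * σ)) * (K σ) ^ (M - j)) a b := by
  have h0 : ((K 0) ^ (M + 1)) a b = pathSum w e (M + 1) a b (fun L => 1) := by
    rw [← pathSum_exp w e K hK 0]
    simp
  rw [h0]
  calc pathSum w e (M + 1) a b (fun _ => 1)
      ≤ pathSum w e (M + 1) a b (fun L => ∑ j ∈ Finset.range (M + 1), gTrick σ (-(M * σ)) j L) :=
        pathSum_mono w e hw _ _ _ _ _ fun L hL => one_le_sum_gTrick M σ hσ L hL
    _ = _ := by
        rw [pathSum_sum]
        refine Finset.sum_congr rfl fun j hj => ?_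
        exact pathSum_gTrick w e K hK _ _ _ _ (by simpa [Nat.lt_succ_iff] using hj) _ _

end MinTrick

end Vale.Agent.Lib.P162T
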