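import Mathlib
import Vale.Agent.Lib.P162.Flips

/-!
# P162T: basic objects for the linear mixing bound (see notes/P162_blueprint.md)
-/

namespace Vale.Agent.Lib.P162T

open Equiv Finset
open Vale.Agent.Lib.P162 (flipAt)

/-- The cube of positions. -/
abbrev Cube (d : ℕ) := Fin d → Fin 2
/-- A coin function (only its values at arguments with the relevant bit cleared are used). -/
abbrev Coin (d : ℕ) := Cube d → Fin 2
/-- One coin function per layer. -/
abbrev Coins (d : ℕ) := Fin d → Coin d

/-- Uniform average over a finite type. -/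
noncomputable def Ex {C : Type*} [Fintype C] (F : C → ℝ) : ℝ :=
  (∑ c, F c) / (Fintype.card C : ℝ)

variable {d : ℕ}

/-- The flip of bit `i`, without coin. -/
def bitR (i : Fin d) : Perm (Cube d) := flipAt i (fun _ => 1)

/-- The flips along a list of bits; the first element of the list acts first. -/
def N : List (Fin d) → Coins d → Perm (Cube d)
  | [], _ => 1
  | j :: l, c => N l c * flipAt j (c j)

/-- The increasing list of bits in `[l₁, l₂)`. -/
def seg (d l₁ l₂ : ℕ) : List (Fin d) :=
  (List.finRange d).filter (fun j => l₁ ≤ j.val ∧ j.val < l₂)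

/-- The first `i` layers (bits `< i`, bit `0` first). -/
def low (c : Coins d) (i : ℕ) : Perm (Cube d) := N (seg d 0 i) c

/-- A full pass: all layers, bit `0` first. -/
def net (c : Coins d) : Perm (Cube d) := N (List.finRange d) c

/-- The matching at scale `i`: `y` and `Theta c i y` have the same `x_{<i}` and the same `y_{>i}`. -/
def Theta (c : Coins d) (i : Fin d) : Perm (Cube d) := (low c i)⁻¹ * bitR i * low c i

/-- The layers in `[l₁, l₂)` as a finite set. -/
def win (d l₁ l₂ : ℕ) : Finset (Fin d) := univ.filter (fun j => l₁ ≤ j.val ∧ j.val < l₂)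

/-- Take the coins of `c'` on the layers in `W`, those of `c` elsewhere. -/
def mergeOn (W : Finset (Fin d)) (c' c : Coins d) : Coins d := fun j => if j ∈ W then c' j else c j

section ExLemmas

variable {C : Type*} [Fintype C]

theorem Ex_mono {F G : C → ℝ} (h : ∀ c, F c ≤ G c) : Ex F ≤ Ex G := by
  unfold Ex
  exact div_le_div_of_nonneg_right (Finset.sum_le_sum fun c _ => h c) (Nat.cast_nonneg _)

theorem Ex_nonneg {F : C → ℝ} (h : ∀ c, 0 ≤ F c) : 0 ≤ Ex F := by
  unfold Ex
  exact div_nonneg (Finset.sum_nonneg fun c _ => h c) (Nat.cast_nonneg _)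

theorem Ex_const [Nonempty C] (a : ℝ) : Ex (fun _ : C => a) = a := by
  unfold Ex
  have h : (Fintype.card C : ℝ) ≠ 0 := by
    exact_mod_cast Fintype.card_ne_zero
  rw [Finset.sum_const, Finset.card_univ, nsmul_eq_mul]
  field_simp

theorem Ex_add (F G : C → ℝ) : Ex (fun c => F c + G c) = Ex F + Ex G := by
  unfold Ex
  rw [Finset.sum_add_distrib, add_div]

theorem Ex_mul_left (a : ℝ) (F : C → ℝ) : Ex (fun c => a * F c) = a * Ex F := by
  unfold Ex
  rw [← Finset.mul_sum, mul_div_assoc]

theorem Ex_sum {ι : Type*} (s : Finset ι) (F : ι → C → ℝ) :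
    Ex (fun c => ∑ i ∈ s, F i c) = ∑ i ∈ s, Ex (F i) := by
  unfold Ex
  rw [Finset.sum_comm, Finset.sum_div]

/-- Average over a product is the iterated average. -/
theorem Ex_prod {C' : Type*} [Fintype C'] (F : C × C' → ℝ) :
    Ex F = Ex (fun c => Ex (fun c' => F (c, c'))) := by
  unfold Ex
  rw [Fintype.sum_prod_type, Fintype.card_prod, Nat.cast_mul, ← Finset.sum_div, div_div,
    mul_comm (Fintype.card C' : ℝ)]

/-- Average is invariant under a bijection. -/
theorem Ex_equiv {C' : Type*} [Fintype C'] (e : C ≃ C') (F : C' → ℝ) :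
    Ex (fun c => F (e c)) = Ex F := by
  unfold Ex
  rw [Equiv.sum_comp e F, Fintype.card_congr e]

/-- Cauchy-Schwarz. -/
theorem Ex_mul_le_sqrt (F G : C → ℝ) :
    Ex (fun c => F c * G c) ≤ Real.sqrt (Ex (fun c => F c ^ 2)) * Real.sqrt (Ex (fun c => G c ^ 2)) := by
  unfold Ex
  rcases isEmpty_or_nonempty C with hC | hC
  · simp
  have hn : (0 : ℝ) < Fintype.card C := by exact_mod_cast Fintype.card_pos
  have h := Real.sum_mul_le_sqrt_mul_sqrt Finset.univ F G
  rw [← Real.sqrt_mul (div_nonneg (Finset.sum_nonneg fun c _ => sq_nonneg _) hn.le)]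
  have h2 : (∑ c, F c ^ 2) / (Fintype.card C : ℝ) * ((∑ c, G c ^ 2) / (Fintype.card C : ℝ))
      = ((∑ c, F c ^ 2) * (∑ c, G c ^ 2)) / (Fintype.card C : ℝ) ^ 2 := by
    field_simp
  rw [h2, Real.sqrt_div' _ (sq_nonneg _), Real.sqrt_sq hn.le,
    Real.sqrt_mul (Finset.sum_nonneg fun c _ => sq_nonneg _)]
  exact div_le_div_of_nonneg_right h hn.le

/-- Hölder in exponential form (convexity of the exponential).  The index set can be any finite set,
the weights nonnegative of total mass at most one. -/
theorem holder_exp [Nonempty C] {ι : Type*} (s : Finset ι) (Z : ι → C → ℝ) (B γ : ι → ℝ)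
    (hγ : ∀ i ∈ s, 0 ≤ γ i) (hsum : ∑ i ∈ s, γ i ≤ 1)
    (h : ∀ i ∈ s, Ex (fun c => Real.exp (Z i c)) ≤ Real.exp (B i)) :
    Ex (fun c => Real.exp (∑ i ∈ s, γ i * Z i c)) ≤ Real.exp (∑ i ∈ s, γ i * B i) := by
  classical
  -- pointwise convexity, with the missing mass at the point `0`
  have hpt : ∀ c : C, Real.exp (∑ i ∈ s, γ i * (Z i c - B i))
      ≤ ∑ i ∈ s, γ i * Real.exp (Z i c - B i) + (1 - ∑ i ∈ s, γ i) := by
    intro c
    have hconv := convexOn_exp.map_sum_le
      (t := Finset.insertNone s)
      (w := fun o => Option.elim o (1 - ∑ i ∈ s, γ i) γ)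
      (p := fun o => Option.elim o 0 (fun i => Z i c - B i))
      (by
        intro o ho
        cases o with
        | none => simpa using hsum
        | some i =>
          simp only [Option.elim]
          exact hγ i (by simpa using ho))
      (by
        rw [Finset.sum_insertNone]
        simp)
      (by simp)
    rw [Finset.sum_insertNone, Finset.sum_insertNone] at hconv
    simp only [Option.elim, smul_eq_mul, mul_zero, Real.exp_zero, mul_one, zero_add] at hconv
    simpa [add_comm] using hconv
  have hle : ∀ c : C, Real.exp (∑ i ∈ s, γ i * Z i c) * Real.exp (-∑ i ∈ s, γ i * B i)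
      ≤ ∑ i ∈ s, γ i * (Real.exp (Z i c) * Real.exp (-B i)) + (1 - ∑ i ∈ s, γ i) := by
    intro c
    have := hpt c
    have e1 : Real.exp (∑ i ∈ s, γ i * Z i c) * Real.exp (-∑ i ∈ s, γ i * B i)
        = Real.exp (∑ i ∈ s, γ i * (Z i c - B i)) := by
      rw [← Real.exp_add]
      congr 1
      rw [← sub_eq_add_neg, ← Finset.sum_sub_distrib]
      exact Finset.sum_congr rfl fun i _ => by ring
    rw [e1]
    refine this.trans (le_of_eq ?_)
    congr 1
    refine Finset.sum_congr rfl fun i _ => ?_
    rw [sub_eq_add_neg, Real.exp_add]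
  have hmain : Ex (fun c => Real.exp (∑ i ∈ s, γ i * Z i c) * Real.exp (-∑ i ∈ s, γ i * B i)) ≤ 1 := by
    refine (Ex_mono hle).trans ?_
    rw [Ex_add, Ex_const, Ex_sum]
    have : ∑ i ∈ s, Ex (fun c => γ i * (Real.exp (Z i c) * Real.exp (-B i))) ≤ ∑ i ∈ s, γ i := by
      refine Finset.sum_le_sum fun i hi => ?_
      have e2 : (fun c => γ i * (Real.exp (Z i c) * Real.exp (-B i)))
          = fun c => (γ i * Real.exp (-B i)) * Real.exp (Z i c) := by
        funext c; ring
      rw [e2, Ex_mul_left]
      have h3 := h i hi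
      have h4 : Real.exp (-B i) * Ex (fun c => Real.exp (Z i c)) ≤ 1 := by
        calc Real.exp (-B i) * Ex (fun c => Real.exp (Z i c))
            ≤ Real.exp (-B i) * Real.exp (B i) :=
              mul_le_mul_of_nonneg_left h3 (Real.exp_pos _).le
          _ = 1 := by rw [← Real.exp_add]; simp
      calc γ i * Real.exp (-B i) * Ex (fun c => Real.exp (Z i c))
          = γ i * (Real.exp (-B i) * Ex (fun c => Real.exp (Z i c))) := by ring
        _ ≤ γ i * 1 := mul_le_mul_of_nonneg_left h4 (hγ i hi)
        _ = γ i := mul_one _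
    linarith
  have e5 : (fun c => Real.exp (∑ i ∈ s, γ i * Z i c) * Real.exp (-∑ i ∈ s, γ i * B i))
      = fun c => Real.exp (-∑ i ∈ s, γ i * B i) * Real.exp (∑ i ∈ s, γ i * Z i c) := by
    funext c; ring
  rw [e5, Ex_mul_left] at hmain
  have hpos := Real.exp_pos (-∑ i ∈ s, γ i * B i)
  have h6 : Ex (fun c => Real.exp (∑ i ∈ s, γ i * Z i c))
      ≤ Real.exp (∑ i ∈ s, γ i * B i) * (Real.exp (-∑ i ∈ s, γ i * B i)
        * Ex (fun c => Real.exp (∑ i ∈ s, γ i * Z i c))) := by
    rw [← mul_assoc, ← Real.exp_add]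
    simp
  refine h6.trans ?_
  calc Real.exp (∑ i ∈ s, γ i * B i) * (Real.exp (-∑ i ∈ s, γ i * B i)
        * Ex (fun c => Real.exp (∑ i ∈ s, γ i * Z i c)))
      ≤ Real.exp (∑ i ∈ s, γ i * B i) * 1 :=
        mul_le_mul_of_nonneg_left hmain (Real.exp_pos _).le
    _ = _ := mul_one _

/-- Resampling principle: `m y x` takes part of its coordinates from `y` and the others from `x`. -/
theorem Ex_swap_merge (m : C → C → C) (h1 : ∀ x y, m (m x y) (m y x) = x) (F : C → ℝ) :
    Ex (fun x => Ex (fun y => F (m y x))) = Ex F := by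
  let φ : C × C ≃ C × C :=
    { toFun := fun p => (m p.2 p.1, m p.1 p.2)
      invFun := fun p => (m p.2 p.1, m p.1 p.2)
      left_inv := by
        rintro ⟨x, y⟩
        simp [h1]
      right_inv := by
        rintro ⟨x, y⟩
        simp [h1] }
  have e := Ex_equiv φ (fun p => F p.1)
  rw [Ex_prod (C := C) (C' := C) (fun p => F p.1)] at e
  have e0 : Ex (fun x => Ex (fun _ : C => F x)) = Ex F := by
    congr 1
    funext x
    have : Nonempty C := ⟨x⟩
    exact Ex_const _
  rw [e0] at e
  rw [← e, Ex_prod (C := C) (C' := C) (fun p => F (φ p).1)]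
  rfl

end ExLemmas

section Coordinates

variable {P A : Type*} [Fintype P] [DecidableEq P] [Fintype A]

open Classical in
/-- Take the coordinates in `I` from `s'`, the others from `s`. -/
noncomputable def mergeSet (I : Set P) (s' s : P → A) : P → A := fun p => if p ∈ I then s' p else s p

/-- Resampling the coordinates in `I`. -/
theorem Ex_mergeSet (I : Set P) (F : (P → A) → ℝ) :
    Ex (fun s => Ex (fun s' => F (mergeSet I s' s))) = Ex F := by
  classical
  refine Ex_swap_merge (mergeSet I) ?_ F
  intro x y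
  funext p
  by_cases hp : p ∈ I <;> simp [mergeSet, hp]

/-- Independence of functions of disjoint coordinates. -/
theorem Ex_mul_of_disjoint_pi {F G : (P → A) → ℝ} {I J : Set P}
    (hF : ∀ s s' : P → A, (∀ p ∈ I, s p = s' p) → F s = F s')
    (hG : ∀ s s' : P → A, (∀ p ∈ J, s p = s' p) → G s = G s')
    (hIJ : Disjoint I J) :
    Ex (fun s => F s * G s) = Ex F * Ex G := by
  classical
  rw [← Ex_mergeSet I (fun s => F s * G s)]
  have h1 : ∀ s s' : P → A, F (mergeSet I s' s) * G (mergeSet I s' s) = G s * F s' := by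
    intro s s'
    rw [hF (mergeSet I s' s) s' (fun p hp => by simp [mergeSet, hp]),
      hG (mergeSet I s' s) s (fun p hp => by
        have : p ∉ I := fun h => (Set.disjoint_left.1 hIJ) h hp
        simp [mergeSet, this])]
    ring
  simp_rw [h1, Ex_mul_left]
  have : (fun s => G s * Ex F) = fun s => Ex F * G s := by
    funext s; ring
  rw [this, Ex_mul_left]

end Coordinates

/-- Conditioning on the layers outside `W`. -/
theorem Ex_merge (W : Finset (Fin d)) (F : Coins d → ℝ) :
    Ex F = Ex (fun c => Ex (fun c' => F (mergeOn W c' c))) := by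
  refine (Ex_swap_merge (mergeOn W) ?_ F).symm
  intro x y
  funext j
  by_cases hj : j ∈ W <;> simp [mergeOn, hj]

/-- `F` depends only on the coin coordinates in `I`. -/
def DepOn {β : Type*} (F : Coins d → β) (I : Set (Fin d × Cube d)) : Prop :=
  ∀ c c' : Coins d, (∀ p ∈ I, c p.1 p.2 = c' p.1 p.2) → F c = F c'

/-- Independence of functions of disjoint coin coordinates. -/
theorem Ex_mul_of_disjoint {F G : Coins d → ℝ} {I J : Set (Fin d × Cube d)}
    (hF : DepOn F I) (hG : DepOn G J) (hIJ : Disjoint I J) :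
    Ex (fun c => F c * G c) = Ex F * Ex G := by
  classical
  let m : Coins d → Coins d → Coins d :=
    fun c' c j y => if (j, y) ∈ I then c' j y else c j y
  rw [← Ex_swap_merge m (fun s => by
      intro y; funext j z; by_cases hp : (j, z) ∈ I <;> simp [m, hp]) (fun c => F c * G c)]
  have h1 : ∀ s s' : Coins d, F (m s' s) * G (m s' s) = G s * F s' := by
    intro s s'
    rw [hF (m s' s) s' (fun p hp => by simp [m, hp]),
      hG (m s' s) s (fun p hp => by
        have : p ∉ I := fun h => (Set.disjoint_left.1 hIJ) h hp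
        simp [m, this])]
    ring
  simp_rw [h1, Ex_mul_left]
  have : (fun s => G s * Ex F) = fun s => Ex F * G s := by
    funext s; ring
  rw [this, Ex_mul_left]

end Vale.Agent.Lib.P162T
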