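import Vale.Agent.Lib.P162T.Overlap

/-!
# P162T: the next tuple (section 6 of notes/P162_blueprint.md)
-/

namespace Vale.Agent.Lib.P162T

open Equiv Finset

variable {d : ℕ}

open Classical in
/-- Occupancy functional after `i` layers. -/
noncomputable def Yb (i : ℕ) (S : Finset (Cube d)) (c : Coins d) : ℝ :=
  (((S ×ˢ S).filter (fun p => ∀ b : Fin d, b.val < i → low c i p.1 b = low c i p.2 b)).card : ℝ)
    / 2 ^ (d - i)

section Aux

theorem sgn_add_B (a b : Fin 2) : sgn (a + b) = sgn a * sgn b := by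
  have h : (1 : Fin 2) + 1 = 0 := by decide
  fin_cases a <;> fin_cases b <;> simp [sgn, h]

theorem ite_eq_bit (a b : Fin 2) : (if a = b then (1 : ℝ) else 0) = (1 + sgn a * sgn b) / 2 := by
  fin_cases a <;> fin_cases b <;> norm_num [sgn]

theorem sum_key_sq {α G : Type*} [Fintype G] [DecidableEq G] (S : Finset α) (key : α → G)
    (a : α → ℝ) :
    ∑ y ∈ S, ∑ y' ∈ S, (if key y = key y' then a y * a y' else 0)
      = ∑ g, (∑ y ∈ S.filter (fun y => key y = g), a y) ^ 2 := by
  have h1 : ∀ g, (∑ y ∈ S.filter (fun y => key y = g), a y) ^ 2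
      = ∑ y ∈ S, ∑ y' ∈ S, (if key y = g ∧ key y' = g then a y * a y' else 0) := by
    intro g
    rw [Finset.sum_filter, pow_two, Finset.sum_mul_sum]
    refine Finset.sum_congr rfl fun y _ => Finset.sum_congr rfl fun y' _ => ?_
    by_cases h : key y = g <;> by_cases h' : key y' = g <;> simp [h, h']
  simp_rw [h1]
  symm
  rw [Finset.sum_comm]
  refine Finset.sum_congr rfl fun y _ => ?_
  rw [Finset.sum_comm]
  refine Finset.sum_congr rfl fun y' _ => ?_
  symm
  by_cases h : key y = key y'
  · rw [if_pos h, Finset.sum_eq_single (key y)]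
    · simp [h]
    · intro g _ hg
      rw [if_neg]
      rintro ⟨h2, _⟩
      exact hg h2.symm
    · simp
  · rw [if_neg h]
    refine (Finset.sum_eq_zero fun g _ => ?_).symm
    rw [if_neg]
    rintro ⟨h2, h3⟩
    exact h (h2.trans h3.symm)

theorem sq_sum_sgn_le_B {α : Type*} [DecidableEq α] (T : Finset α) (e : α → Fin 2)
    (he : Set.InjOn e T) :
    (∑ y ∈ T, sgn (e y)) ^ 2 ≤ T.card ∧ (∑ y ∈ T, sgn (e y)) ^ 2 ≤ 1 := by
  have h1 : ∑ y ∈ T, sgn (e y) = ∑ x ∈ T.image e, sgn x := by
    rw [Finset.sum_image he]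
  have h2 : T.card = (T.image e).card := (Finset.card_image_of_injOn he).symm
  rw [h1, h2]
  generalize T.image e = E
  have h3 : ∑ x ∈ E, sgn x = (if (0 : Fin 2) ∈ E then 1 else 0) + (if (1 : Fin 2) ∈ E then -1 else 0) := by
    have : ∑ x ∈ E, sgn x = ∑ x : Fin 2, if x ∈ E then sgn x else 0 := by
      rw [Finset.sum_ite_mem]
      simp
    rw [this, Fin.sum_univ_two]
    simp [sgn]
  have h4 : (E.card : ℝ) = (if (0 : Fin 2) ∈ E then 1 else 0) + (if (1 : Fin 2) ∈ E then 1 else 0) := by
    have : E.card = ∑ x : Fin 2, if x ∈ E then 1 else 0 := by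
      rw [Finset.sum_ite_mem]
      simp
    rw [this, Fin.sum_univ_two]
    push_cast
    rfl
  rw [h3, h4]
  split_ifs <;> norm_num

/-- Average of a function of one coordinate. -/
theorem Ex_eval (I : Fin d) (G : Coin d → ℝ) :
    Ex (fun c : Coins d => G (c I)) = Ex G := by
  have h := Ex_equiv (Equiv.funSplitAt I (Coin d))
    (fun p : Coin d × ({ j // j ≠ I } → Coin d) => G p.1)
  have h2 : (fun c : Coins d => G (Equiv.funSplitAt I (Coin d) c).1) = fun c : Coins d => G (c I) := by
    funext c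
    rfl
  rw [h2] at h
  rw [h, Ex_prod]
  congr 1
  funext s
  show Ex (fun _ : { j // j ≠ I } → Coin d => G s) = G s
  exact Ex_const _

end Aux

section Layer

/-- The bits below `i`. -/
def keyL (i : ℕ) (w : Cube d) : { b : Fin d // b.val < i } → Fin 2 := fun b => w b.1

theorem keyL_eq_iff (i : ℕ) (w w' : Cube d) :
    keyL i w = keyL i w' ↔ ∀ b : Fin d, b.val < i → w b = w' b := by
  constructor
  · intro h b hb
    exact congrFun h ⟨b, hb⟩
  · intro h
    funext b
    exact h b.1 b.2

open Classical in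
/-- The number of pairs of `S` agreeing on the bits below `i` after `A`. -/
noncomputable def cntA (i : ℕ) (S : Finset (Cube d)) (A : Perm (Cube d)) : ℕ :=
  ((S ×ˢ S).filter (fun p => ∀ b : Fin d, b.val < i → A p.1 b = A p.2 b)).card

theorem cntA_cast (i : ℕ) (S : Finset (Cube d)) (A : Perm (Cube d)) :
    (cntA i S A : ℝ) = ∑ y ∈ S, ∑ y' ∈ S, (if keyL i (A y) = keyL i (A y') then 1 else 0) := by
  classical
  unfold cntA
  rw [Finset.card_filter, Nat.cast_sum, Finset.sum_product]
  refine Finset.sum_congr rfl fun y _ => Finset.sum_congr rfl fun y' _ => ?_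
  simp only [keyL_eq_iff]
  by_cases h : ∀ b : Fin d, b.val < i → A y b = A y' b
  · simp [h]
  · simp [h]

/-- The coefficient of the coin at `p` in the signed count of block `g`. -/
noncomputable def sigL (i : ℕ) (I : Fin d) (S : Finset (Cube d)) (A : Perm (Cube d))
    (g : { b : Fin d // b.val < i } → Fin 2) (p : Cube d) : ℝ :=
  ∑ y ∈ (S.filter (fun y => keyL i (A y) = g)).filter (fun y => Function.update (A y) I 0 = p),
    sgn (A y I)

theorem lin_sigL (i : ℕ) (I : Fin d) (S : Finset (Cube d)) (A : Perm (Cube d))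
    (g : { b : Fin d // b.val < i } → Fin 2) (s : Coin d) :
    lin (sigL i I S A g) s = ∑ y ∈ S.filter (fun y => keyL i (A y) = g),
      sgn ((Vale.Agent.Lib.P162.flipAt I s * A) y I) := by
  unfold lin sigL
  simp_rw [Finset.sum_mul]
  rw [← Finset.sum_fiberwise (S.filter (fun y => keyL i (A y) = g))
    (fun y => Function.update (A y) I 0)
    (fun y => sgn ((Vale.Agent.Lib.P162.flipAt I s * A) y I))]
  refine Finset.sum_congr rfl fun p _ => Finset.sum_congr rfl fun y hy => ?_
  have hp : Function.update (A y) I 0 = p := (Finset.mem_filter.1 hy).2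
  have : (Vale.Agent.Lib.P162.flipAt I s * A) y I = A y I + s p := by
    simp [Perm.mul_apply, hp]
  rw [this, sgn_add_B]

theorem sigL_sq_le (i : ℕ) (I : Fin d) (S : Finset (Cube d)) (A : Perm (Cube d))
    (g : { b : Fin d // b.val < i } → Fin 2) (p : Cube d) :
    (sigL i I S A g p) ^ 2
        ≤ (((S.filter (fun y => keyL i (A y) = g)).filter
            (fun y => Function.update (A y) I 0 = p)).card : ℝ)
      ∧ (sigL i I S A g p) ^ 2 ≤ 1 := by
  classical
  refine sq_sum_sgn_le_B _ (fun y => A y I) ?_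
  intro y hy y' hy' he
  have h1 : Function.update (A y) I 0 = p := (Finset.mem_filter.1 hy).2
  have h2 : Function.update (A y') I 0 = p := (Finset.mem_filter.1 hy').2
  apply A.injective
  funext b
  by_cases hb : b = I
  · subst hb
    exact he
  · have h3 := congrFun (h1.trans h2.symm) b
    simpa [Function.update_of_ne hb] using h3

theorem nrm_sigL_le_card (i : ℕ) (I : Fin d) (S : Finset (Cube d)) (A : Perm (Cube d))
    (g : { b : Fin d // b.val < i } → Fin 2) :
    nrm (sigL i I S A g) ≤ ((S.filter (fun y => keyL i (A y) = g)).card : ℝ) := by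
  unfold nrm
  calc ∑ p, (sigL i I S A g p) ^ 2
      ≤ ∑ p, (((S.filter (fun y => keyL i (A y) = g)).filter
            (fun y => Function.update (A y) I 0 = p)).card : ℝ) :=
        Finset.sum_le_sum fun p _ => (sigL_sq_le i I S A g p).1
    _ = ((S.filter (fun y => keyL i (A y) = g)).card : ℝ) := by
        rw [← Nat.cast_sum]
        congr 1
        exact (Finset.card_eq_sum_card_fiberwise (fun y _ => Finset.mem_univ _)).symm

theorem nrm_sigL_le_box (I : Fin d) (S : Finset (Cube d)) (A : Perm (Cube d))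
    (g : { b : Fin d // b.val < I.val } → Fin 2) :
    nrm (sigL I.val I S A g) ≤ (2 : ℝ) ^ (d - I.val - 1) := by
  classical
  unfold nrm
  let Box : Finset (Cube d) := univ.filter (fun p => p I = 0 ∧ keyL I.val p = g)
  have hsupp : ∀ p, p ∉ Box → (sigL I.val I S A g p) ^ 2 = 0 := by
    intro p hp
    have : (S.filter (fun y => keyL I.val (A y) = g)).filter
            (fun y => Function.update (A y) I 0 = p) = ∅ := by
      rw [Finset.eq_empty_iff_forall_notMem]
      intro y hy
      rcases Finset.mem_filter.1 hy with ⟨hy1, hy2⟩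
      rcases Finset.mem_filter.1 hy1 with ⟨_, hy3⟩
      apply hp
      refine Finset.mem_filter.2 ⟨Finset.mem_univ _, ?_, ?_⟩
      · rw [← hy2]; simp
      · rw [← hy3, ← hy2]
        funext b
        have : b.1 ≠ I := fun h => by
          have := b.2
          rw [h] at this
          exact lt_irrefl _ this
        simp [keyL, Function.update_of_ne this]
    unfold sigL
    rw [this]
    simp
  have h1 : ∑ p, (sigL I.val I S A g p) ^ 2 = ∑ p ∈ Box, (sigL I.val I S A g p) ^ 2 := by
    symm
    refine Finset.sum_subset (Finset.subset_univ _) fun p _ hp => hsupp p hp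
  rw [h1]
  have h2 : ∑ p ∈ Box, (sigL I.val I S A g p) ^ 2 ≤ Box.card := by
    calc ∑ p ∈ Box, (sigL I.val I S A g p) ^ 2 ≤ ∑ p ∈ Box, (1 : ℝ) :=
          Finset.sum_le_sum fun p _ => (sigL_sq_le I.val I S A g p).2
      _ = Box.card := by simp
  refine h2.trans ?_
  -- the box has at most `2^(d-i-1)` points
  have h3 : Box.card ≤ Fintype.card ({ b : Fin d // I.val < b.val } → Fin 2) := by
    rw [← Finset.card_univ]
    refine Finset.card_le_card_of_injOn (fun p b => p b.1) (fun _ _ => Finset.mem_univ _) ?_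
    intro p hp p' hp' he
    have hp1 := (Finset.mem_filter.1 hp).2
    have hp2 := (Finset.mem_filter.1 hp').2
    funext b
    rcases lt_trichotomy b.val I.val with hb | hb | hb
    · have h4 := congrFun (hp1.2.trans hp2.2.symm) ⟨b, hb⟩
      exact h4
    · have : b = I := Fin.ext hb
      rw [this, hp1.1, hp2.1]
    · exact congrFun he ⟨b, hb⟩
  have h4 : Fintype.card { b : Fin d // I.val < b.val } ≤ d - I.val - 1 := by
    let f : { b : Fin d // I.val < b.val } → Fin (d - I.val - 1) :=
      fun b => ⟨b.1.val - I.val - 1, by have := b.1.2; have := b.2; omega⟩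
    have hf : Function.Injective f := by
      intro a b hab
      have h5 : a.1.val - I.val - 1 = b.1.val - I.val - 1 := congrArg Fin.val hab
      have h6 := a.2
      have h7 := b.2
      apply Subtype.ext
      apply Fin.ext
      omega
    simpa using Fintype.card_le_of_injective f hf
  have h5 : (Box.card : ℝ) ≤ (2 : ℝ) ^ Fintype.card { b : Fin d // I.val < b.val } := by
    have : Fintype.card ({ b : Fin d // I.val < b.val } → Fin 2)
        = 2 ^ Fintype.card { b : Fin d // I.val < b.val } := by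
      simp [Fintype.card_fun]
    rw [this] at h3
    exact_mod_cast h3
  exact h5.trans (pow_le_pow_right₀ (by norm_num) h4)

theorem sigL_disj (i : ℕ) (I : Fin d) (S : Finset (Cube d)) (A : Perm (Cube d)) (hI : I.val = i)
    (g g' : { b : Fin d // b.val < i } → Fin 2) (p : Cube d) (hg : g ≠ g')
    (h : sigL i I S A g p ≠ 0) : sigL i I S A g' p = 0 := by
  classical
  have key : ∀ g'' : { b : Fin d // b.val < i } → Fin 2, sigL i I S A g'' p ≠ 0 → keyL i p = g'' := by
    intro g'' hne
    have : ((S.filter (fun y => keyL i (A y) = g'')).filter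
            (fun y => Function.update (A y) I 0 = p)).Nonempty := by
      by_contra hE
      rw [Finset.not_nonempty_iff_eq_empty] at hE
      apply hne
      unfold sigL
      rw [hE]
      simp
    obtain ⟨y, hy⟩ := this
    rcases Finset.mem_filter.1 hy with ⟨hy1, hy2⟩
    rcases Finset.mem_filter.1 hy1 with ⟨_, hy3⟩
    rw [← hy3, ← hy2]
    funext b
    have : b.1 ≠ I := fun h => by
      have := b.2
      rw [h, hI] at this
      exact lt_irrefl _ this
    simp [keyL, Function.update_of_ne this]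
  by_contra h2
  exact hg ((key g h).symm.trans (key g' h2))

/-- One layer: the count after the flip at `I`. -/
theorem cntA_step (I : Fin d) (S : Finset (Cube d)) (A : Perm (Cube d)) (s : Coin d) :
    (cntA (I.val + 1) S (Vale.Agent.Lib.P162.flipAt I s * A) : ℝ)
      = (1 / 2) * cntA I.val S A + (1 / 2) * ∑ g, (lin (sigL I.val I S A g) s) ^ 2 := by
  classical
  set f := Vale.Agent.Lib.P162.flipAt I s * A with hf
  have h1 : ∑ g, (lin (sigL I.val I S A g) s) ^ 2
      = ∑ y ∈ S, ∑ y' ∈ S, (if keyL I.val (A y) = keyL I.val (A y')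
          then sgn (f y I) * sgn (f y' I) else 0) := by
    rw [sum_key_sq S (fun y => keyL I.val (A y)) (fun y => sgn (f y I))]
    refine Finset.sum_congr rfl fun g _ => ?_
    rw [lin_sigL]
  rw [h1, cntA_cast, cntA_cast, Finset.mul_sum, Finset.mul_sum, ← Finset.sum_add_distrib]
  refine Finset.sum_congr rfl fun y _ => ?_
  rw [Finset.mul_sum, Finset.mul_sum, ← Finset.sum_add_distrib]
  refine Finset.sum_congr rfl fun y' _ => ?_
  have hlow : ∀ z : Cube d, keyL I.val (f z) = keyL I.val (A z) := by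
    intro z
    funext b
    have hb : b.1 ≠ I := fun h => by
      have := b.2
      rw [h] at this
      exact lt_irrefl _ this
    simp [keyL, hf, Perm.mul_apply, Function.update_of_ne hb]
  have hiff : keyL (I.val + 1) (f y) = keyL (I.val + 1) (f y')
      ↔ keyL I.val (A y) = keyL I.val (A y') ∧ f y I = f y' I := by
    rw [← hlow y, ← hlow y', keyL_eq_iff, keyL_eq_iff]
    constructor
    · intro h
      exact ⟨fun b hb => h b (Nat.lt_succ_of_lt hb), h I (Nat.lt_succ_self _)⟩
    · rintro ⟨h1, h2⟩ b hb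
      rcases Nat.lt_succ_iff_lt_or_eq.1 hb with hb | hb
      · exact h1 b hb
      · have : b = I := Fin.ext hb
        rw [this]
        exact h2
  by_cases hk : keyL I.val (A y) = keyL I.val (A y')
  · have h2 := ite_eq_bit (f y I) (f y' I)
    simp only [hiff, hk, true_and, if_true]
    rw [h2]
    ring
  · simp only [hiff, hk, false_and, if_false]
    ring

/-- One layer, average over the coin. -/
theorem layer_bound (I : Fin d) (S : Finset (Cube d)) (A : Perm (Cube d)) (lam : ℝ)
    (h0 : 0 ≤ lam) (h1 : lam ≤ 1 / 2) :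
    Ex (fun s : Coin d => Real.exp (lam *
        ((cntA (I.val + 1) S (Vale.Agent.Lib.P162.flipAt I s * A) : ℝ) / 2 ^ (d - (I.val + 1)))))
      ≤ Real.exp (lam * ((cntA I.val S A : ℝ) / 2 ^ (d - I.val))
          + 2 * (lam / 2 ^ (d - I.val)) * S.card) := by
  classical
  have hI := I.2
  have hpow : (2 : ℝ) ^ (d - I.val) = 2 * 2 ^ (d - (I.val + 1)) := by
    have : d - I.val = (d - (I.val + 1)) + 1 := by omega
    rw [this, pow_succ]
    have h3 : d - (I.val + 1) + 1 - 1 = d - (I.val + 1) := by omega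
    ring
  have hpos : (0 : ℝ) < 2 ^ (d - (I.val + 1)) := by positivity
  set b : ℝ := lam / 2 ^ (d - I.val) with hb
  have hb0 : 0 ≤ b := by positivity
  have hrew : ∀ s : Coin d, Real.exp (lam *
        ((cntA (I.val + 1) S (Vale.Agent.Lib.P162.flipAt I s * A) : ℝ) / 2 ^ (d - (I.val + 1))))
      = Real.exp (lam * ((cntA I.val S A : ℝ) / 2 ^ (d - I.val)))
        * Real.exp (∑ g, b * (lin (sigL I.val I S A g) s) ^ 2) := by
    intro s
    rw [← Real.exp_add, cntA_step, ← Finset.mul_sum, hb, hpow]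
    congr 1
    field_simp
  simp_rw [hrew]
  rw [Ex_mul_left, Real.exp_add]
  refine mul_le_mul_of_nonneg_left ?_ (Real.exp_pos _).le
  have hrad := rad2_blocks (P := Cube d) (sigL I.val I S A) (fun _ => b) (fun _ => hb0)
    (fun g g' p hg h => sigL_disj I.val I S A rfl g g' p hg h)
    (fun g => by
      have h4 := nrm_sigL_le_box I S A g
      have h5 : (d - I.val - 1) = d - (I.val + 1) := by omega
      rw [h5] at h4
      have h6 : 0 ≤ nrm (sigL I.val I S A g) := Finset.sum_nonneg fun p _ => sq_nonneg _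
      calc 4 * b * nrm (sigL I.val I S A g)
          ≤ 4 * b * 2 ^ (d - (I.val + 1)) := mul_le_mul_of_nonneg_left h4 (by positivity)
        _ = 2 * lam := by
            rw [hb, hpow]
            field_simp
            ring
        _ ≤ 1 := by linarith)
  refine hrad.trans (Real.exp_le_exp.2 ?_)
  have h7 : ∑ g, nrm (sigL I.val I S A g) ≤ S.card := by
    calc ∑ g, nrm (sigL I.val I S A g)
        ≤ ∑ g, ((S.filter (fun y => keyL I.val (A y) = g)).card : ℝ) :=
          Finset.sum_le_sum fun g _ => nrm_sigL_le_card I.val I S A g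
      _ = S.card := by
          rw [← Nat.cast_sum]
          congr 1
          exact (Finset.card_eq_sum_card_fiberwise (fun y _ => Finset.mem_univ _)).symm
  rw [← Finset.mul_sum]
  exact mul_le_mul_of_nonneg_left h7 (by positivity)

end Layer

theorem Yb_eq (i : ℕ) (S : Finset (Cube d)) (c : Coins d) :
    Yb i S c = (cntA i S (low c i) : ℝ) / 2 ^ (d - i) := rfl

theorem low_mergeOn_succ (c c' : Coins d) (I : Fin d) :
    low (mergeOn (win d I.val (I.val + 1)) c' c) (I.val + 1)
      = Vale.Agent.Lib.P162.flipAt I (c' I) * low c I.val := by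
  rw [low_mergeOn c c' I.val (I.val + 1) (I.val + 1) (Nat.le_succ _) le_rfl]
  have h1 : seg d (I.val + 1) (I.val + 1) = [] := by
    rw [List.eq_nil_iff_forall_not_mem]
    intro j hj
    have := (mem_seg _ _ j).1 hj
    omega
  have h2 : seg d I.val (I.val + 1) = [I] := by
    have h3 : (seg d I.val (I.val + 1)).length = 1 := by
      rw [seg_length _ _ (Nat.le_succ _) I.2]
      omega
    obtain ⟨a, ha⟩ := List.length_eq_one_iff.1 h3
    have h4 : I ∈ seg d I.val (I.val + 1) := (mem_seg _ _ I).2 ⟨le_rfl, Nat.lt_succ_self _⟩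
    rw [ha] at h4
    rw [ha, List.mem_singleton.1 h4]
  rw [h1, h2]
  simp [N, low]

theorem low_mergeOn_self (c c' : Coins d) (I : Fin d) :
    low (mergeOn (win d I.val (I.val + 1)) c' c) I.val = low c I.val := by
  unfold low
  refine N_congr _ _ _ fun j hj => ?_
  have h1 := (mem_seg _ _ j).1 hj
  unfold mergeOn
  rw [if_neg]
  intro hw
  have := (Finset.mem_filter.1 hw).2
  omega

/-- **Lemma B.** -/
theorem lemmaB (S : Finset (Cube d)) (i : ℕ) (hi : i ≤ d) (lam : ℝ) (h0 : 0 ≤ lam) (h1 : lam ≤ 1 / 2) :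
    Ex (fun c : Coins d => Real.exp (lam * Yb i S c))
      ≤ Real.exp (lam * S.card * ((S.card : ℝ) / 2 ^ d + 2 ^ (i + 1) / 2 ^ d)) := by
  classical
  induction i with
  | zero =>
    have h2 : ∀ c : Coins d, Yb 0 S c = (S.card : ℝ) * S.card / 2 ^ d := by
      intro c
      rw [Yb_eq, cntA_cast, Nat.sub_zero]
      have h3 : ∀ y y' : Cube d, keyL 0 (low c 0 y) = keyL 0 (low c 0 y') := by
        intro y y'
        funext b
        exact absurd b.2 (Nat.not_lt_zero _)
      have h4 : ∀ y y' : Cube d, (if keyL 0 (low c 0 y) = keyL 0 (low c 0 y') then (1 : ℝ) else 0) = 1 :=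
        fun y y' => if_pos (h3 y y')
      simp only [h4, Finset.sum_const, nsmul_eq_mul, mul_one]
    simp_rw [h2]
    rw [Ex_const]
    apply Real.exp_le_exp.2
    have h3 : 0 ≤ lam * (S.card : ℝ) * (2 ^ (0 + 1) / 2 ^ d) := by positivity
    calc lam * ((S.card : ℝ) * S.card / 2 ^ d)
        = lam * S.card * ((S.card : ℝ) / 2 ^ d) := by ring
      _ ≤ lam * S.card * ((S.card : ℝ) / 2 ^ d) + lam * (S.card : ℝ) * (2 ^ (0 + 1) / 2 ^ d) := by linarith
      _ = lam * S.card * ((S.card : ℝ) / 2 ^ d + 2 ^ (0 + 1) / 2 ^ d) := by ring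
  | succ i ih =>
    have hlt : i < d := hi
    let I : Fin d := ⟨i, hlt⟩
    have ih' := ih (by omega)
    rw [Ex_merge (win d i (i + 1))]
    have hstep : ∀ c : Coins d,
        Ex (fun c' : Coins d => Real.exp (lam * Yb (i + 1) S (mergeOn (win d i (i + 1)) c' c)))
          ≤ Real.exp (lam * Yb i S c) * Real.exp (2 * (lam / 2 ^ (d - i)) * S.card) := by
      intro c
      have h3 : ∀ c' : Coins d, Real.exp (lam * Yb (i + 1) S (mergeOn (win d i (i + 1)) c' c))
          = (fun s : Coin d => Real.exp (lam *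
              ((cntA (I.val + 1) S (Vale.Agent.Lib.P162.flipAt I s * low c I.val) : ℝ)
                / 2 ^ (d - (I.val + 1))))) (c' I) := by
        intro c'
        show Real.exp (lam * Yb (I.val + 1) S (mergeOn (win d I.val (I.val + 1)) c' c)) = _
        rw [Yb_eq, low_mergeOn_succ]
      have h4 := layer_bound I S (low c I.val) lam h0 h1
      rw [Real.exp_add] at h4
      rw [funext h3]
      exact (le_of_eq (Ex_eval I _)).trans h4
    refine (Ex_mono hstep).trans ?_
    have h5 : Ex (fun c : Coins d => Real.exp (lam * Yb i S c) * Real.exp (2 * (lam / 2 ^ (d - i)) * S.card))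
        = Ex (fun c : Coins d => Real.exp (lam * Yb i S c)) * Real.exp (2 * (lam / 2 ^ (d - i)) * S.card) := by
      unfold Ex
      rw [← Finset.sum_mul]
      ring
    rw [h5]
    calc _ ≤ Real.exp (lam * S.card * ((S.card : ℝ) / 2 ^ d + 2 ^ (i + 1) / 2 ^ d))
              * Real.exp (2 * (lam / 2 ^ (d - i)) * S.card) :=
          mul_le_mul_of_nonneg_right ih' (Real.exp_pos _).le
      _ = _ := by
          rw [← Real.exp_add]
          congr 1
          have h6 : (2 : ℝ) ^ d = 2 ^ (d - i) * 2 ^ i := by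
            rw [← pow_add]
            congr 1
            omega
          rw [h6]
          field_simp
          ring

/-- Overlap functional of the image is at most half the occupancy functional. -/
theorem Xo_le_Yb (S : Finset (Cube d)) (c : Coins d) (i : Fin d) :
    Xo (above i) i (S.map (net c).toEmbedding) ≤ (1 / 2) * Yb (i.val + 1) S c := by
  classical
  have hlen : (above i).length = d - (i.val + 1) := by
    unfold above
    rw [List.length_reverse, seg_length _ _ (by have := i.2; omega) le_rfl]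
  have hmem : ∀ b : Fin d, (b ∉ above i ∧ b ≠ i) ↔ b.val < i.val := by
    intro b
    unfold above
    rw [List.mem_reverse, mem_seg]
    constructor
    · rintro ⟨h1, h2⟩
      have h3 := b.2
      have h4 : b.val ≠ i.val := fun h => h2 (Fin.ext h)
      by_contra h5
      exact h1 ⟨by omega, h3⟩
    · intro h
      refine ⟨fun h2 => by omega, fun h2 => ?_⟩
      rw [h2] at h
      exact lt_irrefl _ h
  -- the three counts, as double sums
  set K : Cube d → Cube d → ℝ := fun y y' => if keyL i.val (net c y) = keyL i.val (net c y') then 1 else 0 with hK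
  set a : Cube d → Fin 2 := fun y => net c y i with ha
  have hA : (((S.map (net c).toEmbedding ×ˢ S.map (net c).toEmbedding).filter
      (fun p => p.1 i = 0 ∧ p.2 i = 1 ∧ ∀ b, b ∉ above i → b ≠ i → p.1 b = p.2 b)).card : ℝ)
      = ∑ y ∈ S, ∑ y' ∈ S, K y y' * ((if a y = 0 then 1 else 0) * (if a y' = 1 then 1 else 0)) := by
    rw [Finset.card_filter, Nat.cast_sum, Finset.sum_product, Finset.sum_map]
    refine Finset.sum_congr rfl fun y _ => ?_
    rw [Finset.sum_map]
    refine Finset.sum_congr rfl fun y' _ => ?_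
    simp only [Equiv.coe_toEmbedding, hK, ha, keyL_eq_iff]
    have hequiv : (∀ b, b ∉ above i → b ≠ i → net c y b = net c y' b)
        ↔ ∀ b : Fin d, b.val < i.val → net c y b = net c y' b := by
      constructor
      · intro h b hb
        have := (hmem b).2 hb
        exact h b this.1 this.2
      · intro h b hb1 hb2
        exact h b ((hmem b).1 ⟨hb1, hb2⟩)
    by_cases h1 : ∀ b : Fin d, b.val < i.val → net c y b = net c y' b
    · simp only [hequiv, h1]
      by_cases h2 : net c y i = 0 <;> by_cases h3 : net c y' i = 1 <;> simp [h2, h3]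
    · simp only [hequiv, h1]
      simp
  have hB : (Yb (i.val + 1) S c) * 2 ^ (d - (i.val + 1))
      = ∑ y ∈ S, ∑ y' ∈ S, K y y' * (if a y = a y' then 1 else 0) := by
    rw [Yb_eq, div_mul_cancel₀ _ (by positivity), cntA_cast]
    refine Finset.sum_congr rfl fun y _ => Finset.sum_congr rfl fun y' _ => ?_
    simp only [hK, ha, keyL_eq_iff]
    have h1 : ∀ z : Cube d, ∀ b : Fin d, b.val < i.val + 1 → low c (i.val + 1) z b = net c z b :=
      fun z b hb => (net_apply_lt c (i.val + 1) z b hb).symm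
    have hequiv : (∀ b : Fin d, b.val < i.val + 1 → low c (i.val + 1) y b = low c (i.val + 1) y' b)
        ↔ (∀ b : Fin d, b.val < i.val → net c y b = net c y' b) ∧ net c y i = net c y' i := by
      constructor
      · intro h
        refine ⟨fun b hb => ?_, ?_⟩
        · rw [← h1 y b (Nat.lt_succ_of_lt hb), ← h1 y' b (Nat.lt_succ_of_lt hb)]
          exact h b (Nat.lt_succ_of_lt hb)
        · rw [← h1 y i (Nat.lt_succ_self _), ← h1 y' i (Nat.lt_succ_self _)]
          exact h i (Nat.lt_succ_self _)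
      · rintro ⟨h2, h3⟩ b hb
        rw [h1 y b hb, h1 y' b hb]
        rcases Nat.lt_succ_iff_lt_or_eq.1 hb with hb | hb
        · exact h2 b hb
        · have : b = i := Fin.ext hb
          rw [this]
          exact h3
    simp only [hequiv]
    by_cases h2 : ∀ b : Fin d, b.val < i.val → net c y b = net c y' b <;>
      by_cases h3 : net c y i = net c y' i <;> simp [h2, h3]
  have hsq : 0 ≤ ∑ y ∈ S, ∑ y' ∈ S, K y y' * (sgn (a y) * sgn (a y')) := by
    have := sum_key_sq S (fun y => keyL i.val (net c y)) (fun y => sgn (a y))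
    have h2 : ∑ y ∈ S, ∑ y' ∈ S, K y y' * (sgn (a y) * sgn (a y'))
        = ∑ y ∈ S, ∑ y' ∈ S, (if keyL i.val (net c y) = keyL i.val (net c y')
            then sgn (a y) * sgn (a y') else 0) := by
      refine Finset.sum_congr rfl fun y _ => Finset.sum_congr rfl fun y' _ => ?_
      simp only [hK]
      split_ifs <;> simp
    rw [h2, this]
    exact Finset.sum_nonneg fun g _ => sq_nonneg _
  have hswap : ∑ y ∈ S, ∑ y' ∈ S, K y y' * ((if a y = 1 then 1 else 0) * (if a y' = 0 then 1 else 0))
      = ∑ y ∈ S, ∑ y' ∈ S, K y y' * ((if a y = 0 then 1 else 0) * (if a y' = 1 then 1 else 0)) := by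
    rw [Finset.sum_comm]
    refine Finset.sum_congr rfl fun y _ => Finset.sum_congr rfl fun y' _ => ?_
    have h1 : K y' y = K y y' := by
      simp only [hK, eq_comm]
    rw [h1]
    ring
  have hdecomp : ∑ y ∈ S, ∑ y' ∈ S, K y y' * (if a y = a y' then 1 else 0)
      = ∑ y ∈ S, ∑ y' ∈ S, K y y' * (sgn (a y) * sgn (a y'))
        + ∑ y ∈ S, ∑ y' ∈ S, K y y' * ((if a y = 0 then 1 else 0) * (if a y' = 1 then 1 else 0))
        + ∑ y ∈ S, ∑ y' ∈ S, K y y' * ((if a y = 1 then 1 else 0) * (if a y' = 0 then 1 else 0)) := by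
    rw [← Finset.sum_add_distrib, ← Finset.sum_add_distrib]
    refine Finset.sum_congr rfl fun y _ => ?_
    rw [← Finset.sum_add_distrib, ← Finset.sum_add_distrib]
    refine Finset.sum_congr rfl fun y' _ => ?_
    have hbit : ∀ p q : Fin 2, (if p = q then (1 : ℝ) else 0) = sgn p * sgn q
        + (if p = 0 then 1 else 0) * (if q = 1 then 1 else 0)
        + (if p = 1 then 1 else 0) * (if q = 0 then 1 else 0) := by
      intro p q
      fin_cases p <;> fin_cases q <;> norm_num [sgn]
    rw [hbit (a y) (a y')]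
    ring
  unfold Xo
  rw [hlen, hA]
  have hpos : (0 : ℝ) < 2 ^ (d - (i.val + 1)) := by positivity
  rw [div_le_iff₀ hpos]
  rw [mul_assoc, hB, hdecomp, hswap]
  linarith

/-- The error rate. -/
noncomputable def Ups (d k : ℕ) : ℝ :=
  ∑ i : Fin d, (1 / 64) * (24 / 25 : ℝ) ^ i.val * ((k : ℝ) / 2 ^ d + 2 ^ (i.val + 2) / 2 ^ d)

theorem Ups_nonneg (d k : ℕ) : 0 ≤ Ups d k := by
  unfold Ups
  exact Finset.sum_nonneg fun i _ => by positivity

theorem geom_r_le (d : ℕ) : ∑ i : Fin d, (24 / 25 : ℝ) ^ i.val ≤ 25 := by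
  rw [Fin.sum_univ_eq_sum_range (fun i => (24 / 25 : ℝ) ^ i) d]
  have h : ∀ n : ℕ, ∑ i ∈ Finset.range n, (24 / 25 : ℝ) ^ i = 25 - 25 * (24 / 25 : ℝ) ^ n := by
    intro n
    induction n with
    | zero => simp
    | succ n ih =>
      rw [Finset.sum_range_succ, ih, pow_succ]
      ring
  rw [h]
  have : 0 ≤ (24 / 25 : ℝ) ^ d := by positivity
  linarith

/-- **The next tuple.** -/
theorem next_tuple (S : Finset (Cube d)) :
    Ex (fun c : Coins d => Real.exp (2 * xi (S.map (net c).toEmbedding)))
      ≤ Real.exp (Ups d S.card * S.card) := by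
  classical
  have hpt : ∀ c : Coins d, Real.exp (2 * xi (S.map (net c).toEmbedding))
      ≤ Real.exp (∑ i : Fin d, ((1 / 25) * (24 / 25 : ℝ) ^ i.val) * ((25 / 64) * Yb (i.val + 1) S c)) := by
    intro c
    apply Real.exp_le_exp.2
    unfold xi
    rw [Finset.mul_sum]
    refine Finset.sum_le_sum fun i _ => ?_
    have h1 := Xo_le_Yb S c i
    have h2 : 0 ≤ (24 / 25 : ℝ) ^ i.val := by positivity
    calc 2 * (1 / 64 * (24 / 25 : ℝ) ^ i.val * Xo (above i) i (S.map (net c).toEmbedding))
        = (1 / 32 * (24 / 25 : ℝ) ^ i.val) * Xo (above i) i (S.map (net c).toEmbedding) := by ring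
      _ ≤ (1 / 32 * (24 / 25 : ℝ) ^ i.val) * ((1 / 2) * Yb (i.val + 1) S c) :=
          mul_le_mul_of_nonneg_left h1 (by positivity)
      _ = _ := by ring
  refine (Ex_mono hpt).trans ?_
  have hh := holder_exp (C := Coins d) (ι := Fin d) Finset.univ
    (fun i c => (25 / 64) * Yb (i.val + 1) S c)
    (fun i => (25 / 64) * S.card * ((S.card : ℝ) / 2 ^ d + 2 ^ (i.val + 1 + 1) / 2 ^ d))
    (fun i => (1 / 25) * (24 / 25 : ℝ) ^ i.val)
    (fun i _ => by positivity)
    (by
      rw [← Finset.mul_sum]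
      have := geom_r_le d
      linarith)
    (fun i _ => lemmaB S (i.val + 1) i.2 (25 / 64) (by norm_num) (by norm_num))
  refine hh.trans (Real.exp_le_exp.2 (le_of_eq ?_))
  unfold Ups
  rw [Finset.sum_mul]
  refine Finset.sum_congr rfl fun i _ => ?_
  ring

/-- Numerics: `257 Ups ≤ 110 (k/n + (24/25)^d)`. -/
theorem Ups_le (d k : ℕ) : 257 * Ups d k ≤ 110 * ((k : ℝ) / 2 ^ d + (24 / 25 : ℝ) ^ d) := by
  have h1 := geom_r_le d
  have h2 : ∑ i : Fin d, (48 / 25 : ℝ) ^ i.val ≤ (25 / 23) * (48 / 25 : ℝ) ^ d := by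
    rw [Fin.sum_univ_eq_sum_range (fun i => (48 / 25 : ℝ) ^ i) d]
    have h : ∀ n : ℕ, ∑ i ∈ Finset.range n, (48 / 25 : ℝ) ^ i = (25 / 23) * (48 / 25 : ℝ) ^ n - 25 / 23 := by
      intro n
      induction n with
      | zero => simp
      | succ n ih =>
        rw [Finset.sum_range_succ, ih, pow_succ]
        ring
    rw [h]
    linarith
  have h3 : Ups d k = ((k : ℝ) / 2 ^ d) * (1 / 64) * ∑ i : Fin d, (24 / 25 : ℝ) ^ i.val
      + (1 / 16) * (∑ i : Fin d, (48 / 25 : ℝ) ^ i.val) / 2 ^ d := by
    unfold Ups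
    rw [Finset.mul_sum, Finset.mul_sum, Finset.sum_div, ← Finset.sum_add_distrib]
    refine Finset.sum_congr rfl fun i _ => ?_
    have h4 : (48 / 25 : ℝ) ^ i.val = (24 / 25 : ℝ) ^ i.val * 2 ^ i.val := by
      rw [← mul_pow]
      norm_num
    rw [h4, pow_add]
    ring
  have h5 : (48 / 25 : ℝ) ^ d / 2 ^ d = (24 / 25 : ℝ) ^ d := by
    rw [← div_pow]
    norm_num
  rw [h3]
  have hk : 0 ≤ (k : ℝ) / 2 ^ d := by positivity
  have hr : 0 ≤ (24 / 25 : ℝ) ^ d := by positivity
  have h6 : ((k : ℝ) / 2 ^ d) * (1 / 64) * ∑ i : Fin d, (24 / 25 : ℝ) ^ i.val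
      ≤ ((k : ℝ) / 2 ^ d) * (1 / 64) * 25 := mul_le_mul_of_nonneg_left h1 (by positivity)
  have h7 : (1 / 16) * (∑ i : Fin d, (48 / 25 : ℝ) ^ i.val) / 2 ^ d
      ≤ (1 / 16) * (25 / 23) * (24 / 25 : ℝ) ^ d := by
    rw [← h5]
    have h8 : (0 : ℝ) < 2 ^ d := by positivity
    rw [div_le_iff₀ h8]
    have h9 : (1 / 16) * (25 / 23) * ((48 / 25 : ℝ) ^ d / 2 ^ d) * 2 ^ d = (1 / 16) * (25 / 23) * (48 / 25 : ℝ) ^ d := by
      field_simp
    rw [h9]
    linarith
  nlinarith

end Vale.Agent.Lib.P162T
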