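import Vale.Agent.Lib.P162T.Kraft
import Vale.Agent.Lib.P162T.LemmaB
import Vale.Agent.Lib.P162T.Aux_helper87

/-!
# P162T: the chain (section 7 of notes/P162_blueprint.md)
-/

namespace Vale.Agent.Lib.P162T

open Equiv Finset

variable {d k : ℕ}

/-- Set of values of a tuple. -/
def vals (a : Tup k d) : Finset (Cube d) := univ.map a

open Classical in
/-- The kernel with exponential weight `α * ee`. -/
noncomputable def Kf (α : ℝ) : Matrix (Tup k d) (Tup k d) ℝ := fun a b =>
  Ex (fun p : Coins d × Coins d =>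
    if ztup p.2 (ytup p.1 a) = b then Real.exp (α * ee (ytup p.1 a) a b) else 0)

theorem Kf_nonneg (α : ℝ) (a b : Tup k d) : 0 ≤ Kf α a b := by
  classical
  unfold Kf
  refine Ex_nonneg fun p => ?_
  split_ifs
  · exact (Real.exp_pos _).le
  · exact le_rfl

theorem ztup_eq_iff_C (x : Coins d) (y a : Tup k d) : ztup x y = a ↔ y = ytup x a := by
  constructor
  · rintro rfl
    ext i
    simp [ztup, ytup]
  · rintro rfl
    ext i
    simp [ztup, ytup]

theorem Ex_prod_mul {C C' : Type*} [Fintype C] [Fintype C'] (f : C → ℝ) (g : C' → ℝ) :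
    Ex (fun p : C × C' => f p.1 * g p.2) = Ex f * Ex g := by
  rw [Ex_prod]
  have : (fun c : C => Ex (fun c' : C' => f (c, c').1 * g (c, c').2)) = fun c => f c * Ex g := by
    funext c
    exact Ex_mul_left (f c) g
  simp only at this
  rw [this]
  unfold Ex
  rw [← Finset.sum_mul]
  ring

/-- The sum over the middle tuple. -/
theorem Kf_eq_sum (α : ℝ) (a b : Tup k d) :
    Kf α a b = ∑ y : Tup k d, Q0 y a * Q0 y b * Real.exp (α * ee y a b) := by
  classical
  unfold Kf
  have key : ∀ p : Coins d × Coins d,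
      (if ztup p.2 (ytup p.1 a) = b then Real.exp (α * ee (ytup p.1 a) a b) else 0)
        = ∑ y : Tup k d, ((if ztup p.1 y = a then 1 else 0) * (if ztup p.2 y = b then 1 else 0))
            * Real.exp (α * ee y a b) := by
    intro p
    rw [Finset.sum_eq_single (ytup p.1 a)]
    · have h1 : ztup p.1 (ytup p.1 a) = a := (ztup_eq_iff_C _ _ _).2 rfl
      rw [if_pos h1, one_mul]
      split_ifs <;> simp
    · intro y _ hy
      have h1 : ¬ ztup p.1 y = a := fun h => hy ((ztup_eq_iff_C _ _ _).1 h)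
      rw [if_neg h1]
      simp
    · simp
  have h2 : (fun p : Coins d × Coins d =>
      if ztup p.2 (ytup p.1 a) = b then Real.exp (α * ee (ytup p.1 a) a b) else 0)
      = fun p => ∑ y : Tup k d, ((if ztup p.1 y = a then 1 else 0) * (if ztup p.2 y = b then 1 else 0))
            * Real.exp (α * ee y a b) := funext key
  rw [h2, Ex_sum]
  refine Finset.sum_congr rfl fun y _ => ?_
  have h3 : (fun p : Coins d × Coins d => ((if ztup p.1 y = a then (1 : ℝ) else 0)
        * (if ztup p.2 y = b then 1 else 0)) * Real.exp (α * ee y a b))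
      = fun p => Real.exp (α * ee y a b) *
        ((if ztup p.1 y = a then (1 : ℝ) else 0) * (if ztup p.2 y = b then 1 else 0)) := by
    funext p
    ring
  rw [h3, Ex_mul_left, Ex_prod_mul (fun x : Coins d => if ztup x y = a then (1 : ℝ) else 0)
    (fun z : Coins d => if ztup z y = b then (1 : ℝ) else 0)]
  unfold Q0
  ring

theorem Kf_symm (α : ℝ) (a b : Tup k d) : Kf α a b = Kf α b a := by
  rw [Kf_eq_sum, Kf_eq_sum]
  refine Finset.sum_congr rfl fun y _ => ?_
  rw [ee_comm y a b]
  ring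

/-- Kraft in matrix form. -/
theorem Kf_neg_le (α : ℝ) (hα : 2 ≤ Real.exp α) (a b : Tup k d) :
    Kf (-α) a b ≤ (1 / 2 ^ d : ℝ) ^ k := by
  rw [Kf_eq_sum]
  refine le_trans (le_of_eq ?_) (kraft a b α hα)
  refine Finset.sum_congr rfl fun y _ => ?_
  congr 2
  ring

/-- The moment bound for a net, given the tuple `y` and the first net `cx`. -/
theorem moment_net (y : Tup k d) (cx : Coins d) :
    Ex (fun cz : Coins d => Real.exp ((Real.log 2 / 256) * (ee y (net cx ∘ y) (net cz ∘ y) : ℝ)))
      ≤ Real.exp (∑ i : Fin d, kap i.val * (pairs (univ.map y) (Theta cx i) i : ℝ)) := by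
  classical
  have h := moment (d := d) (fun i => (pairs (univ.map y) (Theta cx i) i : ℝ))
    (fun i => Nat.cast_nonneg _)
    (fun i c => cl i y (net cx ∘ y) (net c ∘ y))
    (fun i c c' hcc => cl_congr y cx c c' i hcc)
    (by
      intro i a l₁ l₂ c _ h₁ h₂
      have h1 : (1 : ℕ) ≤ 2 ^ a := Nat.one_le_two_pow
      have hw := window_bound (2 ^ a - 1) (univ.map y) (Theta cx i) i
        (Theta_involutive cx i) (Theta_apply_self cx i) l₁ l₂ h₁ h₂ c
      have hcast : (((2 ^ a - 1 : ℕ) : ℕ) : ℝ) = (2 : ℝ) ^ a - 1 := by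
        rw [Nat.cast_sub h1]
        push_cast
        ring
      rw [hcast] at hw
      refine le_trans (Ex_mono fun c' => ?_) hw
      have hl := link y cx (mergeOn (win d l₁ l₂) c' c) i (2 ^ a - 1)
      have hs : 2 ^ a - 1 + 1 = 2 ^ a := Nat.sub_add_cancel h1
      rw [hs] at hl
      have hl' : (((2 ^ a) ^ cl i y (net cx ∘ y) (net (mergeOn (win d l₁ l₂) c' c) ∘ y) : ℕ) : ℝ)
          ≤ (GG (2 ^ a - 1) (univ.map y) (Theta cx i) (Theta (mergeOn (win d l₁ l₂) c' c) i) : ℝ) := by
        exact_mod_cast hl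
      refine le_trans (le_of_eq ?_) hl'
      push_cast
      rfl)
    (by
      intro i c hi
      exact_mod_cast cl_zero_le y cx c i hi)
  refine le_trans (le_of_eq ?_) h
  congr 1
  funext cz
  unfold ee
  push_cast
  rfl

theorem net_comp_ytup (x : Coins d) (a : Tup k d) : (net x ∘ (ytup x a : Fin k → Cube d)) = a := by
  funext i
  simp [ytup]

theorem vals_map_ytup (x : Coins d) (a : Tup k d) :
    (vals a).map (net x)⁻¹.toEmbedding = univ.map (ytup x a) := by
  ext z
  constructor
  · intro h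
    obtain ⟨w, hw, rfl⟩ := Finset.mem_map.1 h
    obtain ⟨i, _, rfl⟩ := Finset.mem_map.1 hw
    exact Finset.mem_map.2 ⟨i, Finset.mem_univ _, rfl⟩
  · intro h
    obtain ⟨i, _, rfl⟩ := Finset.mem_map.1 h
    exact Finset.mem_map.2 ⟨a i, Finset.mem_map.2 ⟨i, Finset.mem_univ _, rfl⟩, rfl⟩

/-- One step of the chain. -/
theorem chain_step (g : Tup k d → ℝ) (hg : ∀ b, 0 ≤ g b) (A : ℝ)
    (hA : ∀ y : Tup k d, Ex (fun c : Coins d => g (ztup c y) ^ 2) ≤ Real.exp (2 * A)) (a : Tup k d) :
    ∑ b, Kf (Real.log 2 / 512) a b * g b ≤ Real.exp (xi (vals a) + A) := by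
  classical
  set σ := Real.log 2 / 512 with hσ
  -- the sum over `b` as an average
  have h1 : ∑ b, Kf σ a b * g b = Ex (fun x : Coins d => Ex (fun z : Coins d =>
      Real.exp (σ * ee (ytup x a) a (ztup z (ytup x a))) * g (ztup z (ytup x a)))) := by
    unfold Kf
    have h2 : ∀ b, Ex (fun p : Coins d × Coins d =>
          if ztup p.2 (ytup p.1 a) = b then Real.exp (σ * ee (ytup p.1 a) a b) else 0) * g b
        = Ex (fun p : Coins d × Coins d =>
          if ztup p.2 (ytup p.1 a) = b then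
            Real.exp (σ * ee (ytup p.1 a) a (ztup p.2 (ytup p.1 a))) * g (ztup p.2 (ytup p.1 a)) else 0) := by
      intro b
      rw [mul_comm, ← Ex_mul_left]
      congr 1
      funext p
      split_ifs with h
      · subst h
        ring
      · simp
    simp_rw [h2]
    rw [← Ex_sum, Ex_prod]
    congr 1
    funext x
    congr 1
    funext z
    rw [Finset.sum_ite_eq]
    simp
  rw [h1]
  -- Cauchy-Schwarz in `z`
  have h2 : ∀ x : Coins d, Ex (fun z : Coins d =>
      Real.exp (σ * ee (ytup x a) a (ztup z (ytup x a))) * g (ztup z (ytup x a)))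
      ≤ Real.exp ((1 / 2) * ∑ i : Fin d, kap i.val *
          (pairs ((vals a).map (net x)⁻¹.toEmbedding) (Theta x i) i : ℝ)) * Real.exp A := by
    intro x
    refine (Ex_mul_le_sqrt _ _).trans ?_
    have hy := net_comp_ytup x a
    have hm := moment_net (ytup x a) x
    rw [hy] at hm
    have h3 : Real.sqrt (Ex (fun z : Coins d =>
          Real.exp (σ * ee (ytup x a) a (ztup z (ytup x a))) ^ 2))
        ≤ Real.exp ((1 / 2) * ∑ i : Fin d, kap i.val *
          (pairs ((vals a).map (net x)⁻¹.toEmbedding) (Theta x i) i : ℝ)) := by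
      rw [vals_map_ytup]
      refine Real.sqrt_le_iff.2 ⟨(Real.exp_pos _).le, ?_⟩
      have h4 : Real.exp ((1 / 2) * ∑ i : Fin d, kap i.val *
          (pairs (univ.map (ytup x a)) (Theta x i) i : ℝ)) ^ 2
          = Real.exp (∑ i : Fin d, kap i.val *
          (pairs (univ.map (ytup x a)) (Theta x i) i : ℝ)) := by
        rw [← Real.exp_nat_mul]
        congr 1
        push_cast
        ring
      rw [h4]
      refine le_trans (le_of_eq ?_) hm
      congr 1
      funext z
      rw [← Real.exp_nat_mul]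
      congr 1
      have h5 : (ztup z (ytup x a) : Fin k → Cube d) = net z ∘ (ytup x a : Fin k → Cube d) := by
        funext i
        simp [ztup]
      rw [h5, hσ]
      push_cast
      ring
    have h6 : Real.sqrt (Ex (fun z : Coins d => g (ztup z (ytup x a)) ^ 2)) ≤ Real.exp A := by
      refine Real.sqrt_le_iff.2 ⟨(Real.exp_pos _).le, ?_⟩
      have h7 : Real.exp A ^ 2 = Real.exp (2 * A) := by
        rw [← Real.exp_nat_mul]
        push_cast
        rfl
      rw [h7]
      exact hA _
    exact mul_le_mul h3 h6 (Real.sqrt_nonneg _) (Real.exp_pos _).le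
  refine (Ex_mono h2).trans ?_
  have h8 : (fun x : Coins d => Real.exp ((1 / 2) * ∑ i : Fin d, kap i.val *
      (pairs ((vals a).map (net x)⁻¹.toEmbedding) (Theta x i) i : ℝ)) * Real.exp A)
      = fun x => Real.exp A * Real.exp ((1 / 2) * ∑ i : Fin d, kap i.val *
      (pairs ((vals a).map (net x)⁻¹.toEmbedding) (Theta x i) i : ℝ)) := by
    funext x
    ring
  rw [h8, Ex_mul_left, Real.exp_add, mul_comm]
  exact mul_le_mul_of_nonneg_right (lemmaA (vals a)) (Real.exp_pos _).le

theorem vals_ztup (c : Coins d) (y : Tup k d) :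
    vals (ztup c y) = (vals y).map (net c).toEmbedding := by
  simp only [vals, ztup, Finset.map_map]

theorem card_vals (y : Tup k d) : (vals y).card = k := by
  simp [vals]

theorem Kf_pow_nonneg (α : ℝ) (l : ℕ) (a b : Tup k d) :
    0 ≤ ((Kf α : Matrix (Tup k d) (Tup k d) ℝ) ^ l) a b := by
  induction l generalizing a with
  | zero =>
    rw [pow_zero, Matrix.one_apply]
    split_ifs <;> norm_num
  | succ l ih =>
    rw [pow_succ', Matrix.mul_apply]
    exact Finset.sum_nonneg fun c _ => mul_nonneg (Kf_nonneg α a c) (ih c)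

theorem Kf_pow_symm (α : ℝ) (l : ℕ) (a b : Tup k d) :
    ((Kf α : Matrix (Tup k d) (Tup k d) ℝ) ^ l) a b
      = ((Kf α : Matrix (Tup k d) (Tup k d) ℝ) ^ l) b a := by
  have h : (Kf α : Matrix (Tup k d) (Tup k d) ℝ).transpose = Kf α := by
    ext x y
    exact Kf_symm α y x
  have h2 := congrFun (congrFun (Matrix.transpose_pow (Kf α : Matrix (Tup k d) (Tup k d) ℝ) l) b) a
  rw [h, Matrix.transpose_apply] at h2
  exact h2

/-- **The bound on the powers of the weighted kernel.** -/
theorem W_bound (hk : k ≤ 2 ^ d) (l : ℕ) (a : Tup k d) :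
    ∑ b, ((Kf (Real.log 2 / 512) : Matrix (Tup k d) (Tup k d) ℝ) ^ l) a b
      ≤ Real.exp (xi (vals a) + l * (Ups d k * k / 2)) := by
  induction l generalizing a with
  | zero =>
    simp only [pow_zero, Matrix.one_apply, Finset.sum_ite_eq, Finset.mem_univ, if_true,
      Nat.cast_zero, zero_mul, add_zero]
    exact Real.one_le_exp (xi_nonneg _)
  | succ l ih =>
    set K : Matrix (Tup k d) (Tup k d) ℝ := Kf (Real.log 2 / 512) with hKdef
    set g : Tup k d → ℝ := fun c => ∑ b, (K ^ l) c b with hg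
    have h1 : ∑ b, (K ^ (l + 1)) a b = ∑ c, K a c * g c := by
      simp_rw [pow_succ', Matrix.mul_apply, hg, Finset.mul_sum]
      exact Finset.sum_comm
    rw [h1]
    have hg0 : ∀ b, 0 ≤ g b := fun b => Finset.sum_nonneg fun c _ => Kf_pow_nonneg _ l b c
    have hA : ∀ y : Tup k d, Ex (fun c : Coins d => g (ztup c y) ^ 2)
        ≤ Real.exp (2 * (((l + 1 : ℕ) : ℝ) * (Ups d k * k / 2))) := by
      intro y
      have hnext := next_tuple (d := d) (vals y)
      rw [card_vals] at hnext
      have hpt : ∀ c : Coins d, g (ztup c y) ^ 2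
          ≤ Real.exp (2 * (l * (Ups d k * k / 2)))
            * Real.exp (2 * xi ((vals y).map (net c).toEmbedding)) := by
        intro c
        have h2 := ih (ztup c y)
        rw [vals_ztup] at h2
        calc g (ztup c y) ^ 2
            ≤ Real.exp (xi ((vals y).map (net c).toEmbedding) + l * (Ups d k * k / 2)) ^ 2 :=
              pow_le_pow_left₀ (hg0 _) h2 2
          _ = _ := by
              rw [← Real.exp_nat_mul, ← Real.exp_add]
              congr 1
              push_cast
              ring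
      calc Ex (fun c : Coins d => g (ztup c y) ^ 2)
          ≤ Ex (fun c : Coins d => Real.exp (2 * (l * (Ups d k * k / 2)))
            * Real.exp (2 * xi ((vals y).map (net c).toEmbedding))) := Ex_mono hpt
        _ = Real.exp (2 * (l * (Ups d k * k / 2)))
            * Ex (fun c : Coins d => Real.exp (2 * xi ((vals y).map (net c).toEmbedding))) :=
              Ex_mul_left _ _
        _ ≤ Real.exp (2 * (l * (Ups d k * k / 2))) * Real.exp (Ups d k * k) :=
              mul_le_mul_of_nonneg_left hnext (Real.exp_pos _).le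
        _ = _ := by
              rw [← Real.exp_add]
              congr 1
              push_cast
              ring
    exact chain_step g hg0 _ hA a

/-- The min trick on paths, general form for kernels of the form of `Kf`. -/
theorem min_trick (M : ℕ) (σ : ℝ) (hσ : 0 ≤ σ) (a b : Tup k d) :
    ((Kf 0 : Matrix (Tup k d) (Tup k d) ℝ) ^ (M + 1)) a b
      ≤ ∑ j ∈ Finset.range (M + 1), (((Kf σ : Matrix (Tup k d) (Tup k d) ℝ) ^ j
          * Kf (-(M * σ)) * (Kf σ) ^ (M - j) : Matrix (Tup k d) (Tup k d) ℝ)) a b := by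
  refine abstract_min_trick (fun a y b => Q0 y a * Q0 y b) (fun a y b => ee y a b) Kf ?_ ?_
    M σ hσ a b
  · intro α a b
    exact Kf_eq_sum α a b
  · intro a y c
    exact mul_nonneg (Q0_nonneg _ _) (Q0_nonneg _ _)

/-- Sum of the exponential of `ξ` over all tuples. -/
theorem sum_exp_xi :
    ∑ a : Tup k d, Real.exp (2 * xi (vals a)) ≤ (2 ^ d : ℝ) ^ k * Real.exp (Ups d k * k) := by
  have hbij : ∀ c : Coins d, ∑ y : Tup k d, Real.exp (2 * xi (vals (ztup c y)))
      = ∑ a : Tup k d, Real.exp (2 * xi (vals a)) := by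
    intro c
    refine Fintype.sum_bijective (ztup c) ?_ _ _ fun y => rfl
    refine Function.bijective_iff_has_inverse.mpr ⟨ytup c, ?_, ?_⟩
    · intro y
      ext i
      simp [ztup, ytup]
    · intro y
      ext i
      simp [ztup, ytup]
  have h1 : ∑ a : Tup k d, Real.exp (2 * xi (vals a))
      = ∑ y : Tup k d, Ex (fun c : Coins d => Real.exp (2 * xi (vals (ztup c y)))) := by
    rw [← Ex_sum]
    simp_rw [hbij]
    rw [Ex_const]
  rw [h1]
  have h2 : ∀ y : Tup k d, Ex (fun c : Coins d => Real.exp (2 * xi (vals (ztup c y))))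
      ≤ Real.exp (Ups d k * k) := by
    intro y
    have hnext := next_tuple (d := d) (vals y)
    rw [card_vals] at hnext
    simpa only [vals_ztup] using hnext
  calc ∑ y : Tup k d, Ex (fun c : Coins d => Real.exp (2 * xi (vals (ztup c y))))
      ≤ ∑ _y : Tup k d, Real.exp (Ups d k * k) := Finset.sum_le_sum fun y _ => h2 y
    _ = (Fintype.card (Tup k d) : ℝ) * Real.exp (Ups d k * k) := by
        rw [Finset.sum_const, nsmul_eq_mul]; rfl
    _ ≤ (2 ^ d : ℝ) ^ k * Real.exp (Ups d k * k) := by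
        refine mul_le_mul_of_nonneg_right ?_ (Real.exp_pos _).le
        have h3 : Fintype.card (Tup k d) ≤ (2 ^ d) ^ k := by
          rw [Fintype.card_embedding_eq]
          simp only [Fintype.card_fin, Fintype.card_fun]
          exact Nat.descFactorial_le_pow _ _
        exact_mod_cast h3

/-- The trace of the `M`-th power on `k`-tuples. -/
noncomputable def PhiT (k d M : ℕ) : ℝ :=
  ∑ a : Tup k d, ((Kf 0 : Matrix (Tup k d) (Tup k d) ℝ) ^ M) a a

/-- One diagonal term of the min trick. -/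
theorem diag_term_le (hk : k ≤ 2 ^ d) (j : ℕ) (hj : j ≤ 512) (a : Tup k d) :
    (((Kf (Real.log 2 / 512) : Matrix (Tup k d) (Tup k d) ℝ) ^ j
          * Kf (-((512 : ℕ) * (Real.log 2 / 512))) * (Kf (Real.log 2 / 512)) ^ (512 - j)
          : Matrix (Tup k d) (Tup k d) ℝ)) a a
      ≤ (1 / 2 ^ d : ℝ) ^ k * Real.exp (2 * xi (vals a) + 512 * (Ups d k * k / 2)) := by
  set K : Matrix (Tup k d) (Tup k d) ℝ := Kf (Real.log 2 / 512) with hKdef
  set K' : Matrix (Tup k d) (Tup k d) ℝ := Kf (-((512 : ℕ) * (Real.log 2 / 512))) with hK'def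
  have hneg : ∀ c c' : Tup k d, K' c c' ≤ (1 / 2 ^ d : ℝ) ^ k := by
    intro c c'
    have h2 : ((512 : ℕ) : ℝ) * (Real.log 2 / 512) = Real.log 2 := by
      push_cast
      ring
    rw [hK'def, h2]
    refine Kf_neg_le _ ?_ c c'
    rw [Real.exp_log (by norm_num)]
  have hcoef : (0 : ℝ) ≤ (1 / 2 ^ d : ℝ) ^ k := by positivity
  have hW1 := W_bound (d := d) hk j a
  have hW2 := W_bound (d := d) hk (512 - j) a
  have hexpand : (K ^ j * K' * K ^ (512 - j)) a a
      = ∑ c', ∑ c, (K ^ j) a c * K' c c' * (K ^ (512 - j)) c' a := by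
    rw [Matrix.mul_apply]
    refine Finset.sum_congr rfl fun c' _ => ?_
    rw [Matrix.mul_apply, Finset.sum_mul]
  rw [hexpand]
  calc ∑ c', ∑ c, (K ^ j) a c * K' c c' * (K ^ (512 - j)) c' a
      ≤ ∑ c', ∑ c, (K ^ j) a c * (1 / 2 ^ d : ℝ) ^ k * (K ^ (512 - j)) a c' := by
        refine Finset.sum_le_sum fun c' _ => Finset.sum_le_sum fun c _ => ?_
        rw [Kf_pow_symm _ (512 - j) c' a]
        have h1 : 0 ≤ (K ^ j) a c := Kf_pow_nonneg _ _ _ _
        have h3 : 0 ≤ (K ^ (512 - j)) a c' := Kf_pow_nonneg _ _ _ _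
        exact mul_le_mul_of_nonneg_right (mul_le_mul_of_nonneg_left (hneg c c') h1) h3
    _ = (1 / 2 ^ d : ℝ) ^ k * ((∑ c, (K ^ j) a c) * ∑ c', (K ^ (512 - j)) a c') := by
        rw [Finset.sum_mul_sum, Finset.mul_sum, Finset.sum_comm]
        refine Finset.sum_congr rfl fun c' _ => ?_
        rw [Finset.mul_sum]
        refine Finset.sum_congr rfl fun c _ => ?_
        ring
    _ ≤ (1 / 2 ^ d : ℝ) ^ k * (Real.exp (xi (vals a) + j * (Ups d k * k / 2))
          * Real.exp (xi (vals a) + ((512 - j : ℕ) : ℝ) * (Ups d k * k / 2))) := by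
        refine mul_le_mul_of_nonneg_left ?_ hcoef
        refine mul_le_mul hW1 hW2 ?_ (Real.exp_pos _).le
        exact Finset.sum_nonneg fun c _ => Kf_pow_nonneg _ _ _ _
    _ = _ := by
        rw [← Real.exp_add]
        congr 2
        have : ((512 - j : ℕ) : ℝ) = 512 - (j : ℝ) := by
          rw [Nat.cast_sub hj]
          norm_num
        rw [this]
        ring

/-- **Theorem T1.** -/
theorem T1 (hk : k ≤ 2 ^ d) :
    PhiT k d 513 ≤ 513 * Real.exp (110 * k * ((k : ℝ) / 2 ^ d + (24 / 25 : ℝ) ^ d)) := by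
  have hσ : (0 : ℝ) ≤ Real.log 2 / 512 := by
    have := Real.log_nonneg (show (1 : ℝ) ≤ 2 by norm_num)
    positivity
  have hstep : ∀ a : Tup k d, ((Kf 0 : Matrix (Tup k d) (Tup k d) ℝ) ^ 513) a a
      ≤ 513 * ((1 / 2 ^ d : ℝ) ^ k * Real.exp (2 * xi (vals a) + 512 * (Ups d k * k / 2))) := by
    intro a
    have h1 := min_trick (k := k) (d := d) 512 (Real.log 2 / 512) hσ a a
    calc ((Kf 0 : Matrix (Tup k d) (Tup k d) ℝ) ^ 513) a a
        ≤ _ := h1
      _ ≤ ∑ _j ∈ Finset.range (512 + 1),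
            (1 / 2 ^ d : ℝ) ^ k * Real.exp (2 * xi (vals a) + 512 * (Ups d k * k / 2)) := by
          refine Finset.sum_le_sum fun j hj => ?_
          exact diag_term_le hk j (by simpa [Nat.lt_succ_iff] using hj) a
      _ = _ := by
          rw [Finset.sum_const, Finset.card_range, nsmul_eq_mul]
          norm_num
  have hn : (0 : ℝ) < (2 ^ d : ℝ) ^ k := by positivity
  have hcancel : (1 / 2 ^ d : ℝ) ^ k * (2 ^ d : ℝ) ^ k = 1 := by
    rw [← mul_pow]
    have : (1 / 2 ^ d : ℝ) * 2 ^ d = 1 := by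
      field_simp
    rw [this, one_pow]
  have hU : 257 * Ups d k * k ≤ 110 * k * ((k : ℝ) / 2 ^ d + (24 / 25 : ℝ) ^ d) := by
    have h := Ups_le d k
    have hk0 : (0 : ℝ) ≤ k := Nat.cast_nonneg k
    nlinarith [mul_le_mul_of_nonneg_right h hk0]
  calc PhiT k d 513 = ∑ a : Tup k d, ((Kf 0 : Matrix (Tup k d) (Tup k d) ℝ) ^ 513) a a := rfl
    _ ≤ ∑ a : Tup k d, 513 * ((1 / 2 ^ d : ℝ) ^ k
          * Real.exp (2 * xi (vals a) + 512 * (Ups d k * k / 2))) :=
        Finset.sum_le_sum fun a _ => hstep a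
    _ = 513 * ((1 / 2 ^ d : ℝ) ^ k * Real.exp (512 * (Ups d k * k / 2))
          * ∑ a : Tup k d, Real.exp (2 * xi (vals a))) := by
        rw [Finset.mul_sum, Finset.mul_sum]
        refine Finset.sum_congr rfl fun a _ => ?_
        rw [Real.exp_add]
        ring
    _ ≤ 513 * ((1 / 2 ^ d : ℝ) ^ k * Real.exp (512 * (Ups d k * k / 2))
          * ((2 ^ d : ℝ) ^ k * Real.exp (Ups d k * k))) := by
        refine mul_le_mul_of_nonneg_left ?_ (by norm_num)
        refine mul_le_mul_of_nonneg_left sum_exp_xi ?_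
        positivity
    _ = 513 * Real.exp (257 * Ups d k * k) := by
        have : (1 / 2 ^ d : ℝ) ^ k * Real.exp (512 * (Ups d k * k / 2))
            * ((2 ^ d : ℝ) ^ k * Real.exp (Ups d k * k))
            = ((1 / 2 ^ d : ℝ) ^ k * (2 ^ d : ℝ) ^ k)
              * (Real.exp (512 * (Ups d k * k / 2)) * Real.exp (Ups d k * k)) := by ring
        rw [this, hcancel, one_mul, ← Real.exp_add]
        congr 2
        ring
    _ ≤ _ := by
        refine mul_le_mul_of_nonneg_left ?_ (by norm_num)
        exact Real.exp_le_exp.mpr hU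

end Vale.Agent.Lib.P162T
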