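import Vale.Agent.Lib.P162T.Schatten

/-!
# P162T: assembly, numerics (section 9 of notes/P162_blueprint.md)
-/

open scoped InnerProductSpace
open Finset

namespace Vale.Agent.Lib.P162T

open ThorpL2

theorem sum_tail_half (M L : ℕ) :
    ∑ l ∈ Finset.Icc 1 L, (if M < l then (1 / 2 : ℝ) ^ l else 0)
      ≤ (1 / 2 : ℝ) ^ M - (1 / 2 : ℝ) ^ (max L M) := by
  induction L with
  | zero =>
    simp
  | succ L ih =>
    rw [Finset.sum_Icc_succ_top (by omega)]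
    by_cases h : M ≤ L
    · have h1 : max L M = L := max_eq_left h
      have h2 : max (L + 1) M = L + 1 := max_eq_left (by omega)
      rw [h1] at ih
      rw [h2, if_pos (by omega)]
      have : (1 / 2 : ℝ) ^ (L + 1) = (1 / 2 : ℝ) ^ L / 2 := by rw [pow_succ]; ring
      rw [this]
      linarith
    · have h1 : max L M = M := max_eq_right (by omega)
      have h2 : max (L + 1) M = M := max_eq_right (by omega)
      rw [h1] at ih
      rw [h2, if_neg (by omega)]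
      linarith

/-- The numerical sum.  For all `C A` there is `n₀` such that the low level sum is small. -/
theorem low_sum_small (C A : ℝ) (hC : 1 ≤ C) (hA : 0 ≤ A) :
    ∃ n₀ : ℕ, ∀ n : ℕ, n₀ ≤ n →
      A * ∑ l ∈ Finset.Icc 1 (⌊(n : ℝ) / (2 * C)⌋₊), (C * (l : ℝ) / n) ^ l ≤ 1 / 8 := by
  obtain ⟨M, hM⟩ : ∃ M : ℕ, (1 / 2 : ℝ) ^ M < 1 / (16 * (A + 1)) :=
    exists_pow_lt_of_lt_one (by positivity) (by norm_num)
  obtain ⟨n₁, hn₁⟩ : ∃ n₁ : ℕ, 16 * (A + 1) * C * (M : ℝ) ^ 2 + C * M + 1 ≤ n₁ := exists_nat_ge _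
  refine ⟨n₁, fun n hn => ?_⟩
  have hnR : (n₁ : ℝ) ≤ n := by exact_mod_cast hn
  have hM0 : (0 : ℝ) ≤ M := Nat.cast_nonneg _
  have hCpos : (0 : ℝ) < C := by linarith
  have hn1 : (1 : ℝ) ≤ n := by nlinarith [mul_nonneg hCpos.le hM0, mul_nonneg (mul_nonneg (by positivity : (0:ℝ) ≤ 16 * (A+1)) hCpos.le) (sq_nonneg (M:ℝ))]
  have hnpos : (0 : ℝ) < n := by linarith
  have hCMn : C * M / n ≤ 1 := by
    rw [div_le_one hnpos]
    nlinarith [mul_nonneg hCpos.le hM0, mul_nonneg (mul_nonneg (by positivity : (0:ℝ) ≤ 16 * (A+1)) hCpos.le) (sq_nonneg (M:ℝ))]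
  have hterm : ∀ l ∈ Finset.Icc 1 (⌊(n : ℝ) / (2 * C)⌋₊), (C * (l : ℝ) / n) ^ l
      ≤ (if l ≤ M then C * M / n else 0) + (if M < l then (1 / 2 : ℝ) ^ l else 0) := by
    intro l hl
    rw [Finset.mem_Icc] at hl
    have hl1 : (1 : ℝ) ≤ l := by exact_mod_cast hl.1
    have hl2 : (l : ℝ) ≤ (n : ℝ) / (2 * C) := by
      have := Nat.floor_le (show (0 : ℝ) ≤ (n : ℝ) / (2 * C) by positivity)
      have h3 : (l : ℝ) ≤ (⌊(n : ℝ) / (2 * C)⌋₊ : ℝ) := by exact_mod_cast hl.2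
      linarith
    have hx0 : 0 ≤ C * (l : ℝ) / n := by positivity
    have hx1 : C * (l : ℝ) / n ≤ 1 / 2 := by
      rw [div_le_iff₀ hnpos]
      rw [le_div_iff₀ (by positivity)] at hl2
      nlinarith
    by_cases h : l ≤ M
    · rw [if_pos h, if_neg (by omega)]
      have hlM : (l : ℝ) ≤ M := by exact_mod_cast h
      have hx2 : C * (l : ℝ) / n ≤ C * M / n := by
        apply div_le_div_of_nonneg_right _ hnpos.le
        exact mul_le_mul_of_nonneg_left hlM hCpos.le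
      have hx3 : C * (l : ℝ) / n ≤ 1 := by linarith
      calc (C * (l : ℝ) / n) ^ l ≤ (C * (l : ℝ) / n) ^ 1 :=
            pow_le_pow_of_le_one hx0 hx3 hl.1
        _ = C * (l : ℝ) / n := pow_one _
        _ ≤ C * M / n + 0 := by linarith
    · rw [if_neg h, if_pos (by omega)]
      have : (C * (l : ℝ) / n) ^ l ≤ (1 / 2 : ℝ) ^ l := pow_le_pow_left₀ hx0 hx1 l
      linarith
  have hsum := Finset.sum_le_sum hterm
  rw [Finset.sum_add_distrib] at hsum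
  have h1 : ∑ l ∈ Finset.Icc 1 (⌊(n : ℝ) / (2 * C)⌋₊), (if l ≤ M then C * M / n else 0)
      ≤ (M : ℝ) * (C * M / n) := by
    have hcnn : 0 ≤ C * M / n := by positivity
    calc ∑ l ∈ Finset.Icc 1 (⌊(n : ℝ) / (2 * C)⌋₊), (if l ≤ M then C * M / n else 0)
        = ∑ l ∈ (Finset.Icc 1 (⌊(n : ℝ) / (2 * C)⌋₊)).filter (fun l => l ≤ M), C * M / n := by
          rw [Finset.sum_filter]
      _ = (((Finset.Icc 1 (⌊(n : ℝ) / (2 * C)⌋₊)).filter (fun l => l ≤ M)).card : ℝ) * (C * M / n) := by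
          rw [Finset.sum_const, nsmul_eq_mul]
      _ ≤ (M : ℝ) * (C * M / n) := by
          apply mul_le_mul_of_nonneg_right _ hcnn
          have : ((Finset.Icc 1 (⌊(n : ℝ) / (2 * C)⌋₊)).filter (fun l => l ≤ M)).card ≤ M := by
            calc _ ≤ (Finset.Icc 1 M).card := by
                  apply Finset.card_le_card
                  intro l hl
                  simp only [Finset.mem_filter, Finset.mem_Icc] at hl ⊢
                  omega
              _ = M := by simp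
          exact_mod_cast this
  have h2 := sum_tail_half M (⌊(n : ℝ) / (2 * C)⌋₊)
  have h3 : (0 : ℝ) ≤ (1 / 2 : ℝ) ^ (max (⌊(n : ℝ) / (2 * C)⌋₊) M) := by positivity
  have hA1 : 0 < A + 1 := by linarith
  have h4 : (M : ℝ) * (C * M / n) ≤ 1 / (16 * (A + 1)) := by
    have : (M : ℝ) * (C * M / n) = C * (M : ℝ) ^ 2 / n := by ring
    rw [this, div_le_div_iff₀ hnpos (by positivity)]
    nlinarith [mul_nonneg hCpos.le hM0, mul_nonneg (mul_nonneg (by positivity : (0:ℝ) ≤ 16 * (A+1)) hCpos.le) (sq_nonneg (M:ℝ))]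
  have htot : ∑ l ∈ Finset.Icc 1 (⌊(n : ℝ) / (2 * C)⌋₊), (C * (l : ℝ) / n) ^ l ≤ 2 * (1 / (16 * (A + 1))) := by
    linarith
  have hfin : A * (2 * (1 / (16 * (A + 1)))) ≤ 1 / 8 := by
    have : A * (2 * (1 / (16 * (A + 1)))) = (1 / 8) * (A / (A + 1)) := by field_simp; ring
    rw [this]
    have : A / (A + 1) ≤ 1 := by rw [div_le_one hA1]; linarith
    linarith
  calc _ ≤ A * (2 * (1 / (16 * (A + 1)))) := mul_le_mul_of_nonneg_left htot hA
    _ ≤ 1 / 8 := hfin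

theorem floor_double_ge {x : ℝ} (hx : 1 ≤ x) : x ≤ 2 * (⌊x⌋₊ : ℝ) := by
  have h1 : x < (⌊x⌋₊ : ℝ) + 1 := Nat.lt_floor_add_one x
  have h2 : (1 : ℝ) ≤ (⌊x⌋₊ : ℝ) := by
    have : 1 ≤ ⌊x⌋₊ := Nat.le_floor (by simpa using hx)
    exact_mod_cast this
  linarith

/-- The choice of the multiplier `m`.  For `1 ≤ l`, `4 l ≤ n = 2^d`, there is `m ≥ 1` with
`m² l ≤ n`, `m (24/25)^d ≤ 1`, `(n/l)² ≤ (2m)^34`. -/
theorem exists_multiplier (d l : ℕ) (hl : 1 ≤ l) (hln : 4 * l ≤ 2 ^ d) :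
    ∃ m : ℕ, 1 ≤ m ∧ m ^ 2 * l ≤ 2 ^ d ∧ (m : ℝ) * (24 / 25 : ℝ) ^ d ≤ 1 ∧
      ((2 ^ d : ℝ) / l) ^ 2 ≤ (2 * (m : ℝ)) ^ 34 := by
  have hlR : (1 : ℝ) ≤ l := by exact_mod_cast hl
  have hlpos : (0 : ℝ) < l := by linarith
  have hlnR : (4 : ℝ) * l ≤ 2 ^ d := by exact_mod_cast hln
  set q : ℝ := (2 ^ d : ℝ) / l with hq
  have hq4 : 4 ≤ q := by rw [hq, le_div_iff₀ hlpos]; exact hlnR
  have hqle : q ≤ 2 ^ d := by
    rw [hq, div_le_iff₀ hlpos]
    have : (0 : ℝ) < 2 ^ d := by positivity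
    nlinarith
  set x : ℝ := Real.sqrt q with hx
  have hx2 : x ^ 2 = q := Real.sq_sqrt (by linarith)
  have hx1 : 1 ≤ x := by
    rw [hx]
    exact Real.one_le_sqrt.mpr (by linarith)
  set y : ℝ := (25 / 24 : ℝ) ^ d with hy
  have hy1 : 1 ≤ y := one_le_pow₀ (by norm_num)
  set m₁ := ⌊x⌋₊
  set m₂ := ⌊y⌋₊
  have hm₁ : 1 ≤ m₁ := Nat.le_floor (by simpa using hx1)
  have hm₂ : 1 ≤ m₂ := Nat.le_floor (by simpa using hy1)
  have hm₁x : (m₁ : ℝ) ≤ x := Nat.floor_le (by linarith)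
  have hm₂y : (m₂ : ℝ) ≤ y := Nat.floor_le (by linarith)
  have hr : (24 / 25 : ℝ) ^ d * y = 1 := by
    rw [hy, ← mul_pow]; norm_num
  refine ⟨min m₁ m₂, le_min hm₁ hm₂, ?_, ?_, ?_⟩
  · -- `m^2 l ≤ 2^d`
    have h1 : ((min m₁ m₂ : ℕ) : ℝ) ≤ x := by
      have : ((min m₁ m₂ : ℕ) : ℝ) ≤ m₁ := by exact_mod_cast min_le_left _ _
      linarith
    have h2 : ((min m₁ m₂ : ℕ) : ℝ) ^ 2 ≤ q := by
      rw [← hx2]
      exact pow_le_pow_left₀ (Nat.cast_nonneg _) h1 2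
    have h3 : ((min m₁ m₂ : ℕ) : ℝ) ^ 2 * l ≤ 2 ^ d := by
      rw [hq, le_div_iff₀ hlpos] at h2
      exact h2
    exact_mod_cast h3
  · have h1 : ((min m₁ m₂ : ℕ) : ℝ) ≤ y := by
      have : ((min m₁ m₂ : ℕ) : ℝ) ≤ m₂ := by exact_mod_cast min_le_right _ _
      linarith
    have h0 : (0 : ℝ) ≤ (24 / 25 : ℝ) ^ d := by positivity
    calc ((min m₁ m₂ : ℕ) : ℝ) * (24 / 25 : ℝ) ^ d ≤ y * (24 / 25 : ℝ) ^ d :=
          mul_le_mul_of_nonneg_right h1 h0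
      _ = 1 := by rw [mul_comm]; exact hr
  · have hq0 : 0 ≤ q := by linarith
    rcases min_choice m₁ m₂ with h | h
    · rw [h]
      have h2 : x ≤ 2 * (m₁ : ℝ) := floor_double_ge hx1
      have h3 : (1 : ℝ) ≤ 2 * (m₁ : ℝ) := by linarith
      calc q ^ 2 = x ^ 4 := by rw [← hx2]; ring
        _ ≤ (2 * (m₁ : ℝ)) ^ 4 := pow_le_pow_left₀ (by linarith) h2 4
        _ ≤ (2 * (m₁ : ℝ)) ^ 34 := pow_le_pow_right₀ h3 (by norm_num)
    · rw [h]
      have h2 : y ≤ 2 * (m₂ : ℝ) := floor_double_ge hy1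
      have h4 : (4 : ℝ) ≤ (25 / 24 : ℝ) ^ 34 := by norm_num
      calc q ^ 2 ≤ ((2 : ℝ) ^ d) ^ 2 := pow_le_pow_left₀ hq0 hqle 2
        _ = (4 : ℝ) ^ d := by rw [← pow_mul, mul_comm, pow_mul]; norm_num
        _ ≤ (((25 / 24 : ℝ) ^ 34)) ^ d := pow_le_pow_left₀ (by norm_num) h4 d
        _ = y ^ 34 := by rw [hy, ← pow_mul, ← pow_mul, mul_comm]
        _ ≤ (2 * (m₂ : ℝ)) ^ 34 := pow_le_pow_left₀ (by linarith) h2 34

/-- `Phi`-hypothesis on an abstract `α`. -/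
def PhiHyp {α : Type*} [DecidableEq α] [Fintype α] (ν : Equiv.Perm α → ℝ) (d : ℕ) : Prop :=
  ∀ k : ℕ, k ≤ 2 ^ d →
    ∑ u : Fin k ↪ α, ((tupK ν : Matrix (Fin k ↪ α) (Fin k ↪ α) ℝ) ^ 513) u u
      ≤ 513 * Real.exp (110 * k * ((k : ℝ) / 2 ^ d + (24 / 25 : ℝ) ^ d))

/-- `C(n,l) ≥ m^l` when `n ≥ m l`. -/
theorem pow_le_choose_of_mul_le (m : ℕ) (hm : 1 ≤ m) (l : ℕ) : ∀ n, m * l ≤ n → m ^ l ≤ n.choose l := by
  induction l with
  | zero => intro n _; simp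
  | succ l ih =>
    intro n hn
    obtain ⟨n', rfl⟩ : ∃ n', n = n' + 1 := by
      refine ⟨n - 1, ?_⟩
      have : 1 ≤ m * (l + 1) := Nat.mul_pos hm (Nat.succ_pos _)
      omega
    have h1 : m * l ≤ n' := by
      have : m * (l + 1) = m * l + m := by ring
      omega
    have h2 := ih n' h1
    have h3 := Nat.add_one_mul_choose_eq n' l
    have h4 : m ^ (l + 1) * (l + 1) ≤ (n' + 1).choose (l + 1) * (l + 1) := by
      rw [← h3]
      calc m ^ (l + 1) * (l + 1) = (m * (l + 1)) * m ^ l := by ring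
        _ ≤ (n' + 1) * n'.choose l := Nat.mul_le_mul hn h2
    exact Nat.le_of_mul_le_mul_right h4 (Nat.succ_pos _)

/-- **Low levels**: the pure trace of a high power of `X`. -/
theorem pure_trace_bound {α : Type*} [DecidableEq α] [Fintype α] (d : ℕ) (hα : Fintype.card α = 2 ^ d)
    (μ : Equiv.Perm α → ℝ) (h0 : ∀ g, 0 ≤ μ g) (h1 : ∑ g, μ g = 1)
    (hPhi : PhiHyp (ThorpL2.conv μ (rev μ)) d)
    (J : Finset α) (hJ1 : 1 ≤ J.card) (hJ2 : 4 * J.card ≤ 2 ^ d) (K : ℕ) (hK : 513 * 34 ≤ K) :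
    TrOn ((convOp μ * convOp (rev μ)) ^ K) (Pure J)
      ≤ 513 ^ 34 * (Real.exp (220 * 34) * 2 ^ 34 * ((J.card : ℝ) / 2 ^ d) ^ 2) ^ J.card := by
  set X := convOp μ * convOp (rev μ) with hXdef
  set ν := ThorpL2.conv μ (rev μ) with hν
  have hXν : X = convOp ν := by rw [hXdef, convOp_comp]
  have hXpos : PosOp X := posOp_XX μ
  have hXle : ∀ v, ⟪v, X v⟫_ℝ ≤ ‖v‖ ^ 2 := XX_le_one μ h0 h1
  have hc : regRep.Commutes X := by rw [hXν]; exact convOp_commutes ν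
  have hinv : Invt X (Pure J) := invt_Pure hXpos.symm hc J
  set l := J.card with hl
  have hstep1 := TrOn_pow_le_pow hXpos hXle hinv 513 34 K (by norm_num) hK
  obtain ⟨m, hm1, hm2, hm3, hm4⟩ := exists_multiplier d l hJ1 hJ2
  have hmlm : m * l ≤ m ^ 2 * l := by
    apply Nat.mul_le_mul_right
    nlinarith
  have hml : m * l ≤ 2 ^ d := hmlm.trans hm2
  obtain ⟨K', -, hK'⟩ := Finset.exists_subset_card_eq (s := (univ : Finset α)) (n := m * l)
    (by rw [Finset.card_univ, hα]; exact hml)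
  have hsum : J.card + K'.card ≤ Fintype.card α := by
    rw [hK', hα, ← hl]
    rcases Nat.lt_or_ge m 2 with h | h
    · have : m = 1 := by omega
      subst this
      omega
    · have : l + m * l ≤ m ^ 2 * l := by
        have : 1 + m ≤ m ^ 2 := by nlinarith
        calc l + m * l = (1 + m) * l := by ring
          _ ≤ m ^ 2 * l := Nat.mul_le_mul_right _ this
      omega
  have hmult := choose_mul_TrOn_le (hXpos.pow 513) (hc.pow 513) K' J hsum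
  rw [hK', ← hl] at hmult
  have hT0 : 0 ≤ TrOn (X ^ 513) (Pure J) := TrOn_nonneg (hXpos.pow 513) _
  set T := TrOn (X ^ 513) (Pure J) with hT
  have hpowchoose : ((m : ℝ)) ^ l ≤ (((m * l).choose l : ℕ) : ℝ) := by
    exact_mod_cast pow_le_choose_of_mul_le m hm1 l (m * l) le_rfl
  have hFun : TrOn (X ^ 513) (Fun K') ≤ 513 * Real.exp (110 * (m * l : ℕ) * (((m * l : ℕ) : ℝ) / 2 ^ d + (24 / 25 : ℝ) ^ d)) := by
    rw [hXν, TrOn_convOp_pow_Fun K' hK' ν 513]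
    exact hPhi (m * l) hml
  have hexp : (110 : ℝ) * (m * l : ℕ) * (((m * l : ℕ) : ℝ) / 2 ^ d + (24 / 25 : ℝ) ^ d) ≤ 220 * l := by
    push_cast
    have hn0 : (0:ℝ) < 2 ^ d := by positivity
    have h1' : ((m:ℝ) ^ 2 * l) / 2 ^ d ≤ 1 := by
      rw [div_le_one hn0]
      exact_mod_cast hm2
    have hl0 : (0:ℝ) ≤ l := Nat.cast_nonneg _
    have e : (110 : ℝ) * (m * l) * ((m * l) / 2 ^ d + (24 / 25 : ℝ) ^ d)
        = 110 * l * (((m:ℝ) ^ 2 * l) / 2 ^ d + (m * (24 / 25 : ℝ) ^ d)) := by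
      field_simp
    rw [e]
    have : ((m:ℝ) ^ 2 * l) / 2 ^ d + (m * (24 / 25 : ℝ) ^ d) ≤ 2 := by linarith
    have h3 : 110 * (l:ℝ) * (((m:ℝ) ^ 2 * l) / 2 ^ d + (m * (24 / 25 : ℝ) ^ d)) ≤ 110 * l * 2 :=
      mul_le_mul_of_nonneg_left this (by positivity)
    linarith
  have hmain : (m:ℝ) ^ l * T ≤ 513 * Real.exp (220 * l) := by
    calc (m:ℝ) ^ l * T ≤ (((m * l).choose l : ℕ) : ℝ) * T := mul_le_mul_of_nonneg_right hpowchoose hT0
      _ ≤ TrOn (X ^ 513) (Fun K') := hmult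
      _ ≤ _ := hFun
      _ ≤ 513 * Real.exp (220 * l) := by
        gcongr
  -- raise to the power 34
  set Q : ℝ := 2 ^ 34 * ((l : ℝ) / 2 ^ d) ^ 2 with hQ
  have hl0 : (0:ℝ) < l := by exact_mod_cast hJ1
  have hn0 : (0:ℝ) < 2 ^ d := by positivity
  have hQ0 : 0 ≤ Q := by positivity
  have hm0 : (0:ℝ) ≤ m := Nat.cast_nonneg _
  have hQ1 : 1 ≤ (m:ℝ) ^ 34 * Q := by
    have h4 : ((2 ^ d : ℝ) / l) ^ 2 * ((l : ℝ) / 2 ^ d) ^ 2 = 1 := by
      field_simp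
    have h5 : ((2 ^ d : ℝ) / l) ^ 2 * ((l : ℝ) / 2 ^ d) ^ 2 ≤ (2 * (m : ℝ)) ^ 34 * ((l : ℝ) / 2 ^ d) ^ 2 :=
      mul_le_mul_of_nonneg_right hm4 (by positivity)
    rw [h4] at h5
    calc (1:ℝ) ≤ (2 * (m : ℝ)) ^ 34 * ((l : ℝ) / 2 ^ d) ^ 2 := h5
      _ = (m:ℝ) ^ 34 * Q := by rw [hQ, mul_pow]; ring
  have hQl : 1 ≤ ((m:ℝ) ^ 34 * Q) ^ l := one_le_pow₀ hQ1
  have hT34 : (0:ℝ) ≤ T ^ 34 := pow_nonneg hT0 34
  calc TrOn (X ^ K) (Pure J) ≤ T ^ 34 := hstep1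
    _ ≤ T ^ 34 * ((m:ℝ) ^ 34 * Q) ^ l := le_mul_of_one_le_right hT34 hQl
    _ = ((m:ℝ) ^ l * T) ^ 34 * Q ^ l := by
        rw [mul_pow, mul_pow, ← pow_mul, ← pow_mul]
        ring
    _ ≤ (513 * Real.exp (220 * l)) ^ 34 * Q ^ l :=
        mul_le_mul_of_nonneg_right
          (pow_le_pow_left₀ (mul_nonneg (pow_nonneg hm0 _) hT0) hmain 34) (pow_nonneg hQ0 _)
    _ = 513 ^ 34 * (Real.exp (220 * 34) * 2 ^ 34 * ((l : ℝ) / 2 ^ d) ^ 2) ^ l := by
        rw [hQ, mul_pow (513:ℝ), mul_assoc (Real.exp (220 * 34)), mul_pow (Real.exp (220 * 34)), mul_assoc]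
        congr 1
        congr 1
        rw [← Real.exp_nat_mul, ← Real.exp_nat_mul]
        congr 1
        push_cast
        ring

/-- `C(n,l) ≤ (e n / l)^l`. -/
theorem choose_le_exp_pow (n l : ℕ) (hl : 1 ≤ l) :
    ((n.choose l : ℕ) : ℝ) ≤ (Real.exp 1 * (n : ℝ) / l) ^ l := by
  have hl0 : (0:ℝ) < l := by exact_mod_cast hl
  have h1 : ((n.choose l : ℕ) : ℝ) ≤ ((n : ℝ) ^ l) / (l.factorial : ℝ) := Nat.choose_le_pow_div l n
  have h2 : ((l : ℝ) ^ l) / (l.factorial : ℝ) ≤ Real.exp l :=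
    Real.pow_div_factorial_le_exp (l : ℝ) hl0.le l
  have hf : (0:ℝ) < (l.factorial : ℝ) := by exact_mod_cast Nat.factorial_pos l
  have h3 : ((n : ℝ) ^ l) / (l.factorial : ℝ) = ((n : ℝ) / l) ^ l * (((l : ℝ) ^ l) / (l.factorial : ℝ)) := by
    rw [div_pow]
    field_simp
  have h4 : Real.exp l = (Real.exp 1) ^ l := by
    rw [← Real.exp_nat_mul, mul_one]
  calc ((n.choose l : ℕ) : ℝ) ≤ ((n : ℝ) / l) ^ l * (((l : ℝ) ^ l) / (l.factorial : ℝ)) := by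
        rw [← h3]; exact h1
    _ ≤ ((n : ℝ) / l) ^ l * (Real.exp 1) ^ l := by
        rw [← h4]
        exact mul_le_mul_of_nonneg_left h2 (by positivity)
    _ = (Real.exp 1 * (n : ℝ) / l) ^ l := by
        rw [← mul_pow]
        congr 1
        ring

/-- The total mass of `conv μ (rev μ)`. -/
theorem sum_conv_rev {α : Type*} [DecidableEq α] [Fintype α] (μ : Equiv.Perm α → ℝ)
    (h1 : ∑ g, μ g = 1) : ∑ g, ThorpL2.conv μ (rev μ) g = 1 := by
  unfold ThorpL2.conv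
  rw [Finset.sum_comm]
  have hrev : ∀ h : Equiv.Perm α, ∑ g, rev μ (h⁻¹ * g) = 1 := by
    intro h
    calc ∑ g, rev μ (h⁻¹ * g) = ∑ g, rev μ g := Equiv.sum_comp (Equiv.mulLeft h⁻¹) (rev μ)
      _ = ∑ g, μ g := Equiv.sum_comp (Equiv.inv (Equiv.Perm α)) μ
      _ = 1 := h1
  simp only [← Finset.mul_sum, hrev, mul_one, h1]

/-- The trace on the constants. -/
theorem TrOn_Pure_empty {α : Type*} [DecidableEq α] [Fintype α] (ν : Equiv.Perm α → ℝ)
    (h1 : ∑ g, ν g = 1) (K : ℕ) :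
    TrOn ((convOp ν) ^ K) (Pure (∅ : Finset α)) = 1 := by
  have hP : Pure (∅ : Finset α) = Fun ∅ := by
    simp [Pure]
  rw [hP, TrOn_convOp_pow_Fun (k := 0) ∅ rfl ν K]
  have ht : (tupK ν : Matrix (Fin 0 ↪ α) (Fin 0 ↪ α) ℝ) = 1 := by
    ext u v
    have huv : u = v := Subsingleton.elim _ _
    subst huv
    simp [tupK, h1]
  rw [ht, one_pow]
  simp

theorem Fun_univ {α : Type*} [DecidableEq α] [Fintype α] : Fun (univ : Finset α) = ⊤ := by
  rw [eq_top_iff]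
  intro w _ a ha
  simp at ha

/-- **The trace bound**: from the tuple traces and the high level contraction. -/
theorem trace_bound :
    ∃ K d₀ : ℕ, ∀ (α : Type) [DecidableEq α] [Fintype α] (d : ℕ), d₀ ≤ d → Fintype.card α = 2 ^ d →
      ∀ (μ : Equiv.Perm α → ℝ), (∀ g, 0 ≤ μ g) → (∑ g, μ g = 1) →
      PhiHyp (ThorpL2.conv μ (rev μ)) d →
      (∀ j : ℕ, j < 2 ^ d → ∀ v ∈ ((regRep (α := α)).Y (2 ^ d - j))ᗮ,
        ⟪v, (convOp μ * convOp (rev μ)) v⟫_ℝ ≤ Real.exp (-((j : ℝ) + 1) / 2048) * ‖v‖ ^ 2) →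
      LinearMap.trace ℝ (Fn α) ((convOp μ * convOp (rev μ)) ^ K) ≤ 5 / 4 := by
  have he1 : (1:ℝ) ≤ Real.exp 1 := Real.one_le_exp (by norm_num)
  have he2 : (1:ℝ) ≤ Real.exp (220 * 34) := Real.one_le_exp (by norm_num)
  obtain ⟨E, hE⟩ : ∃ E : ℝ, E = Real.exp (220 * 34) * 2 ^ 34 := ⟨_, rfl⟩
  have hE2 : 2 ≤ E := by
    rw [hE]
    have : (2:ℝ) ≤ 2 ^ 34 := by norm_num
    nlinarith
  obtain ⟨C, hC⟩ : ∃ C : ℝ, C = Real.exp 1 * E := ⟨_, rfl⟩
  have hC2 : 2 ≤ C := by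
    rw [hC]; nlinarith
  obtain ⟨A, hA⟩ : ∃ A : ℝ, A = 513 ^ 34 := ⟨_, rfl⟩
  have hA0 : 0 ≤ A := by rw [hA]; norm_num
  obtain ⟨n₀, hn₀⟩ := low_sum_small C A (by linarith) hA0
  have hlog0 : 0 ≤ Real.log 4104 := Real.log_nonneg (by norm_num)
  obtain ⟨Λ, hΛ⟩ : ∃ Λ : ℝ, Λ = 220 + Real.log 4104 := ⟨_, rfl⟩
  have hΛ0 : 0 ≤ Λ := by rw [hΛ]; linarith
  obtain ⟨L, hL⟩ : ∃ L : ℕ, L = ⌈2 * C * 2048 * Λ⌉₊ := ⟨_, rfl⟩
  have hLle : 2 * C * 2048 * Λ ≤ L := by rw [hL]; exact Nat.le_ceil _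
  refine ⟨513 * 34 + 513 + L, n₀ + 1, ?_⟩
  intro α _ _ d hd hα μ h0 h1 hPhi hhigh
  classical
  obtain ⟨K, hK⟩ : ∃ K : ℕ, K = 513 * 34 + 513 + L := ⟨_, rfl⟩
  rw [← hK]
  set X := convOp μ * convOp (rev μ) with hXdef
  set ν := ThorpL2.conv μ (rev μ) with hν
  have hXν : X = convOp ν := by rw [hXdef, convOp_comp]
  have hXpos : PosOp X := posOp_XX μ
  have hc : regRep.Commutes X := by rw [hXν]; exact convOp_commutes ν
  have hdlt : d < 2 ^ d := Nat.lt_two_pow_self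
  have hn1 : 1 ≤ 2 ^ d := Nat.one_le_two_pow
  obtain ⟨n, hn⟩ : ∃ n : ℕ, n = 2 ^ d := ⟨_, rfl⟩
  have hnR : (n : ℝ) = 2 ^ d := by rw [hn]; push_cast; rfl
  have hn0R : (0:ℝ) < n := by rw [hnR]; positivity
  have hnn₀ : n₀ ≤ n := by omega
  have hn1R : (1:ℝ) ≤ n := by
    have : 1 ≤ n := by omega
    exact_mod_cast this
  obtain ⟨j, hj⟩ : ∃ j : ℕ, j = ⌊(n : ℝ) / (2 * C)⌋₊ := ⟨_, rfl⟩
  have hC0 : 0 < C := by linarith
  have hjle : (j : ℝ) ≤ n / (2 * C) := by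
    rw [hj]; exact Nat.floor_le (by positivity)
  have hjlt2 : (n : ℝ) / (2 * C) < j + 1 := by
    rw [hj]; exact Nat.lt_floor_add_one _
  have hdiv : (n : ℝ) / (2 * C) ≤ n / 4 := by
    apply div_le_div_of_nonneg_left hn0R.le (by norm_num)
    linarith
  have hj4 : 4 * j ≤ n := by
    have : (4 * j : ℝ) ≤ n := by linarith
    exact_mod_cast this
  have hjlt : j < 2 ^ d := by omega
  set Y := (regRep (α := α)).Y (2 ^ d - j) with hY
  have hadd := TrOn_add_orthogonal (X ^ K) Y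
  -- low levels
  have hlow : TrOn (X ^ K) Y ≤ 1 + 1 / 8 := by
    let τ : ℕ → ℝ := fun l => if h : ∃ J : Finset α, J.card = l then TrOn (X ^ K) (Pure h.choose) else 0
    have hτ : ∀ J : Finset α, TrOn (X ^ K) (Pure J) = τ J.card := by
      intro J
      have h : ∃ J' : Finset α, J'.card = J.card := ⟨J, rfl⟩
      simp only [τ]
      rw [dif_pos h]
      exact TrOn_Pure_card (hXpos.pow K).symm (hc.pow K) h.choose_spec.symm
    have hb := TrOn_Y_le (hXpos.pow K) (hc.pow K) j (by rw [hα]; omega) τ hτ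
    rw [hα] at hb
    refine hb.trans ?_
    have hsplit : ∑ l ∈ Finset.range (j + 1), (((2 ^ d).choose l : ℕ) : ℝ) * τ l
        = ((2 ^ d).choose 0 : ℕ) * τ 0 + ∑ l ∈ Finset.Icc 1 j, (((2 ^ d).choose l : ℕ) : ℝ) * τ l := by
      rw [Finset.range_eq_Ico, Finset.sum_eq_sum_Ico_succ_bot (Nat.succ_pos j)]
      congr 1
    rw [hsplit]
    have hτ0 : τ 0 = 1 := by
      have := hτ ∅
      rw [Finset.card_empty] at this
      rw [← this, hXν]
      exact TrOn_Pure_empty ν (sum_conv_rev μ h1) K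
    rw [hτ0, Nat.choose_zero_right]
    have hterm : ∀ l ∈ Finset.Icc 1 j, (((2 ^ d).choose l : ℕ) : ℝ) * τ l
        ≤ A * (C * (l : ℝ) / n) ^ l := by
      intro l hl
      obtain ⟨hl1, hlj⟩ := Finset.mem_Icc.1 hl
      have hl0 : (0:ℝ) < l := by exact_mod_cast hl1
      obtain ⟨J, -, hJ⟩ := Finset.exists_subset_card_eq (s := (univ : Finset α)) (n := l)
        (by rw [Finset.card_univ, hα]; omega)
      have hK' : 513 * 34 ≤ K := by omega
      have hpt := pure_trace_bound d hα μ h0 h1 hPhi J (by omega) (by omega) K hK'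
      rw [hJ, ← hXdef, hτ J, hJ] at hpt
      have hch := choose_le_exp_pow (2 ^ d) l hl1
      rw [← hn] at hch ⊢
      have hB0 : 0 ≤ (Real.exp (220 * 34) * 2 ^ 34 * ((l : ℝ) / 2 ^ d) ^ 2) := by positivity
      calc ((n.choose l : ℕ) : ℝ) * τ l
          ≤ ((n.choose l : ℕ) : ℝ) *
            (513 ^ 34 * (Real.exp (220 * 34) * 2 ^ 34 * ((l : ℝ) / 2 ^ d) ^ 2) ^ l) :=
            mul_le_mul_of_nonneg_left hpt (Nat.cast_nonneg _)
        _ ≤ (Real.exp 1 * (n : ℝ) / l) ^ l *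
            (513 ^ 34 * (Real.exp (220 * 34) * 2 ^ 34 * ((l : ℝ) / 2 ^ d) ^ 2) ^ l) :=
            mul_le_mul_of_nonneg_right hch (by positivity)
        _ = A * (C * (l : ℝ) / n) ^ l := by
            rw [hA, hC, hE, ← hnR]
            rw [mul_left_comm, ← mul_pow]
            congr 2
            field_simp
    have hsum : ∑ l ∈ Finset.Icc 1 j, (((2 ^ d).choose l : ℕ) : ℝ) * τ l ≤ 1 / 8 := by
      calc _ ≤ ∑ l ∈ Finset.Icc 1 j, A * (C * (l : ℝ) / n) ^ l := Finset.sum_le_sum hterm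
        _ = A * ∑ l ∈ Finset.Icc 1 j, (C * (l : ℝ) / n) ^ l := by rw [Finset.mul_sum]
        _ ≤ 1 / 8 := by
          have := hn₀ n hnn₀
          rw [← hj] at this
          exact this
    push_cast
    linarith
  -- high levels
  have hhi : TrOn (X ^ K) Yᗮ ≤ 1 / 8 := by
    have hUinv : Invt X Yᗮ := by
      intro v hv
      rw [Submodule.mem_orthogonal'] at hv ⊢
      intro u hu
      have hXu : X u ∈ Y := ORep.Commutes.mem_Y regRep hc hu
      rw [hXpos.symm v u]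
      exact hv _ hXu
    obtain ⟨ρ, hρ⟩ : ∃ ρ : ℝ, ρ = Real.exp (-((j : ℝ) + 1) / 2048) := ⟨_, rfl⟩
    have hρ0 : 0 ≤ ρ := by rw [hρ]; exact Real.exp_nonneg _
    have hcontract := TrOn_pow_contract hXpos hUinv ρ hρ0 (by
      intro v hv
      rw [hρ]
      exact hhigh j hjlt v hv) 513 K (by omega)
    have hadd5 := TrOn_add_orthogonal (X ^ 513) Y
    have hnn := TrOn_nonneg (hXpos.pow 513) Y
    have htr : LinearMap.trace ℝ (Fn α) (X ^ 513) ≤ 513 * Real.exp (220 * n) := by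
      rw [← TrOn_top, ← Fun_univ, hXν,
        TrOn_convOp_pow_Fun (k := 2 ^ d) univ (by rw [Finset.card_univ, hα]) ν 513]
      refine (hPhi (2 ^ d) le_rfl).trans ?_
      apply mul_le_mul_of_nonneg_left _ (by norm_num)
      apply Real.exp_le_exp.2
      have hr : (24 / 25 : ℝ) ^ d ≤ 1 := pow_le_one₀ (by norm_num) (by norm_num)
      have h2 : (((2 ^ d : ℕ) : ℝ)) / 2 ^ d = 1 := by
        push_cast
        field_simp
      rw [h2, ← hn]
      have : (0:ℝ) ≤ n := hn0R.le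
      nlinarith
    have hρpow : ρ ^ (K - 513) ≤ Real.exp (-(n * Λ)) := by
      rw [hρ, ← Real.exp_nat_mul]
      apply Real.exp_le_exp.2
      have hKL : (L : ℝ) ≤ ((K - 513 : ℕ) : ℝ) := by
        have : L ≤ K - 513 := by omega
        exact_mod_cast this
      have hnΛ : n * Λ ≤ ((K - 513 : ℕ) : ℝ) * ((j + 1) / 2048) := by
        have h1' : (n : ℝ) / (2 * C) * (L : ℝ) / 2048 ≤ ((K - 513 : ℕ) : ℝ) * ((j + 1) / 2048) := by
          have h5 : (n : ℝ) / (2 * C) * (L : ℝ) ≤ (j + 1) * ((K - 513 : ℕ) : ℝ) :=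
            mul_le_mul hjlt2.le hKL (Nat.cast_nonneg _) (add_nonneg (Nat.cast_nonneg j) zero_le_one)
          have : ((K - 513 : ℕ) : ℝ) * (((j : ℝ) + 1) / 2048) = ((j + 1) * ((K - 513 : ℕ) : ℝ)) / 2048 := by ring
          rw [this]
          exact div_le_div_of_nonneg_right h5 (by norm_num)
        refine le_trans ?_ h1'
        have h6 : (n : ℝ) / (2 * C) * (2 * C * 2048 * Λ) / 2048 = n * Λ := by
          field_simp
        rw [← h6]
        apply div_le_div_of_nonneg_right _ (by norm_num)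
        exact mul_le_mul_of_nonneg_left hLle (by positivity)
      have e : ((K - 513 : ℕ) : ℝ) * (-((j : ℝ) + 1) / 2048) = - (((K - 513 : ℕ) : ℝ) * ((j + 1) / 2048)) := by ring
      rw [e]
      linarith
    have hfin : Real.exp (-(n * Λ)) * (513 * Real.exp (220 * n)) ≤ 1 / 8 := by
      have e1 : Real.exp (-(n * Λ)) * (513 * Real.exp (220 * n))
          = 513 * Real.exp (-(n * Real.log 4104)) := by
        rw [mul_left_comm, ← Real.exp_add, hΛ]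
        congr 2
        ring
      rw [e1]
      have h7 : Real.exp (-(n * Real.log 4104)) ≤ Real.exp (-Real.log 4104) := by
        apply Real.exp_le_exp.2
        nlinarith
      have h8 : Real.exp (-Real.log 4104) = 1 / 4104 := by
        rw [Real.exp_neg, Real.exp_log (by norm_num)]
        norm_num
      rw [h8] at h7
      linarith
    have hUnn : TrOn (X ^ 513) Yᗮ ≤ 513 * Real.exp (220 * n) := by linarith
    have hUnn0 := TrOn_nonneg (hXpos.pow 513) Yᗮ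
    calc TrOn (X ^ K) Yᗮ ≤ ρ ^ (K - 513) * TrOn (X ^ 513) Yᗮ := hcontract
      _ ≤ Real.exp (-(n * Λ)) * (513 * Real.exp (220 * n)) :=
          mul_le_mul hρpow hUnn hUnn0 (Real.exp_nonneg _)
      _ ≤ 1 / 8 := hfin
  linarith

end Vale.Agent.Lib.P162T
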