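import Vale.Agent.Lib.P162T.Basic

/-!
# P162T: elementary facts on flips, lists, low, net, Theta
-/

namespace Vale.Agent.Lib.P162T

open Equiv Finset
open Vale.Agent.Lib.P162 (flipAt)

variable {d : ℕ}

theorem flipAt_mul_self (i : Fin d) (c : Coin d) : flipAt i c * flipAt i c = 1 := by
  ext1 y
  exact Vale.Agent.Lib.P162.flipAtFun_flipAtFun i c y

theorem flipAt_inv (i : Fin d) (c : Coin d) : (flipAt i c)⁻¹ = flipAt i c := by
  rfl

/-- Flip at bit `i` only changes bit `i`. -/
theorem flipAt_apply_ne (i j : Fin d) (h : j ≠ i) (c : Coin d) (y : Cube d) :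
    flipAt i c y j = y j := by
  simp [Vale.Agent.Lib.P162.flipAt_apply, Function.update_of_ne h]

theorem N_append (l l' : List (Fin d)) (c : Coins d) : N (l ++ l') c = N l' c * N l c := by
  induction l with
  | nil => simp [N]
  | cons j l ih => simp [N, ih, mul_assoc]

theorem N_inv (l : List (Fin d)) (c : Coins d) : (N l c)⁻¹ = N l.reverse c := by
  induction l with
  | nil => simp [N]
  | cons j l ih =>
    simp only [N, List.reverse_cons, N_append, mul_inv_rev, ih, one_mul, flipAt_inv]

/-- Bits outside the list are not changed. -/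
theorem N_apply_of_notMem (l : List (Fin d)) (c : Coins d) (y : Cube d) (b : Fin d) (h : b ∉ l) :
    N l c y b = y b := by
  induction l generalizing y with
  | nil => simp [N]
  | cons j l ih =>
    simp only [List.mem_cons, not_or] at h
    simp only [N, Perm.mul_apply]
    rw [ih _ h.2, flipAt_apply_ne _ _ h.1]

private theorem filter_aux (l₁ l₂ l₃ : ℕ) (h₁ : l₁ ≤ l₂) (h₂ : l₂ ≤ l₃) (L : List (Fin d))
    (hL : L.Pairwise (· < ·)) :
    L.filter (fun j => l₁ ≤ j.val ∧ j.val < l₃)
      = L.filter (fun j => l₁ ≤ j.val ∧ j.val < l₂) ++ L.filter (fun j => l₂ ≤ j.val ∧ j.val < l₃) := by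
  induction L with
  | nil => simp
  | cons a L ih =>
    rw [List.pairwise_cons] at hL
    have ih' := ih hL.2
    by_cases ha1 : l₁ ≤ a.val
    · by_cases ha2 : a.val < l₂
      · have e1 : decide (l₁ ≤ a.val ∧ a.val < l₃) = true := by
          simp only [decide_eq_true_eq]; exact ⟨ha1, by omega⟩
        have e2 : decide (l₁ ≤ a.val ∧ a.val < l₂) = true := by
          simp only [decide_eq_true_eq]; exact ⟨ha1, ha2⟩
        have e3 : decide (l₂ ≤ a.val ∧ a.val < l₃) = false := by
          simp only [decide_eq_false_iff_not, not_and]; intro h; omega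
        simp only [List.filter_cons, e1, e2, e3, if_true, if_false, ih', List.cons_append, Bool.false_eq_true]
      · by_cases ha3 : a.val < l₃
        · have e1 : decide (l₁ ≤ a.val ∧ a.val < l₃) = true := by
            simp only [decide_eq_true_eq]; exact ⟨ha1, ha3⟩
          have e2 : decide (l₁ ≤ a.val ∧ a.val < l₂) = false := by
            simp only [decide_eq_false_iff_not, not_and]; intro _; omega
          have e3 : decide (l₂ ≤ a.val ∧ a.val < l₃) = true := by
            simp only [decide_eq_true_eq]; exact ⟨by omega, ha3⟩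
          have hnil : L.filter (fun j => l₁ ≤ j.val ∧ j.val < l₂) = [] := by
            rw [List.filter_eq_nil_iff]
            intro b hb
            have := hL.1 b hb
            have hab : a.val < b.val := this
            simp only [decide_eq_true_eq, not_and]
            intro _; omega
          simp only [List.filter_cons, e1, e2, e3, if_true, if_false, ih', hnil, List.nil_append, Bool.false_eq_true]
        · have e1 : decide (l₁ ≤ a.val ∧ a.val < l₃) = false := by
            simp only [decide_eq_false_iff_not, not_and]; intro _; omega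
          have e2 : decide (l₁ ≤ a.val ∧ a.val < l₂) = false := by
            simp only [decide_eq_false_iff_not, not_and]; intro _; omega
          have e3 : decide (l₂ ≤ a.val ∧ a.val < l₃) = false := by
            simp only [decide_eq_false_iff_not, not_and]; intro _; omega
          simp only [List.filter_cons, e1, e2, e3, if_false, ih', Bool.false_eq_true]
    · have e1 : decide (l₁ ≤ a.val ∧ a.val < l₃) = false := by
        simp only [decide_eq_false_iff_not, not_and]; intro h; exact absurd h ha1
      have e2 : decide (l₁ ≤ a.val ∧ a.val < l₂) = false := by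
        simp only [decide_eq_false_iff_not, not_and]; intro h; exact absurd h ha1
      have e3 : decide (l₂ ≤ a.val ∧ a.val < l₃) = false := by
        simp only [decide_eq_false_iff_not, not_and]; intro h; omega
      simp only [List.filter_cons, e1, e2, e3, if_false, ih', Bool.false_eq_true]

/-- Splitting the segments. -/
theorem seg_append (l₁ l₂ l₃ : ℕ) (h₁ : l₁ ≤ l₂) (h₂ : l₂ ≤ l₃) :
    seg d l₁ l₃ = seg d l₁ l₂ ++ seg d l₂ l₃ := by
  exact filter_aux l₁ l₂ l₃ h₁ h₂ (List.finRange d) (List.pairwise_lt_finRange d)

theorem seg_nodup (l₁ l₂ : ℕ) : (seg d l₁ l₂).Nodup := by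
  exact (List.nodup_finRange d).filter _

theorem mem_seg (l₁ l₂ : ℕ) (j : Fin d) : j ∈ seg d l₁ l₂ ↔ l₁ ≤ j.val ∧ j.val < l₂ := by
  simp [seg, List.mem_filter]

/-- Length of a segment below `d`. -/
theorem seg_length (l₁ l₂ : ℕ) (h₁ : l₁ ≤ l₂) (h₂ : l₂ ≤ d) : (seg d l₁ l₂).length = l₂ - l₁ := by
  classical
  rw [← List.toFinset_card_of_nodup (seg_nodup l₁ l₂)]
  have hmap : ((seg d l₁ l₂).toFinset).map Fin.valEmbedding = Finset.Ico l₁ l₂ := by
    ext n
    simp only [Finset.mem_map, List.mem_toFinset, mem_seg, Fin.valEmbedding_apply, Finset.mem_Ico]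
    constructor
    · rintro ⟨j, hj, rfl⟩; exact hj
    · intro hn; exact ⟨⟨n, by omega⟩, hn, rfl⟩
  rw [← Finset.card_map Fin.valEmbedding, hmap, Nat.card_Ico]

private theorem seg_zero_of_le (i : ℕ) (hi : d ≤ i) : seg d 0 i = List.finRange d := by
  unfold seg
  apply List.filter_eq_self.mpr
  intro j _
  simp only [decide_eq_true_eq]
  exact ⟨Nat.zero_le _, lt_of_lt_of_le j.isLt hi⟩

theorem net_eq_low (c : Coins d) : net c = low c d := by
  unfold net low
  rw [seg_zero_of_le d le_rfl]

/-- The layers `≥ i` do not change the bits `< i`. -/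
theorem net_apply_lt (c : Coins d) (i : ℕ) (y : Cube d) (b : Fin d) (hb : b.val < i) :
    net c y b = low c i y b := by
  unfold net low
  rw [← seg_zero_of_le (d := d) (max i d) (le_max_right _ _),
    seg_append 0 i (max i d) (Nat.zero_le _) (le_max_left _ _), N_append, Perm.mul_apply]
  apply N_apply_of_notMem
  rw [mem_seg]
  omega

/-- The layers `< i` do not change the bits `≥ i`. -/
theorem low_apply_ge (c : Coins d) (i : ℕ) (y : Cube d) (b : Fin d) (hb : i ≤ b.val) :
    low c i y b = y b := by
  unfold low
  apply N_apply_of_notMem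
  rw [mem_seg]
  omega

/-- `N l c` only depends on the layers in `l`. -/
theorem N_congr (l : List (Fin d)) (c c' : Coins d) (h : ∀ j ∈ l, c j = c' j) : N l c = N l c' := by
  induction l with
  | nil => rfl
  | cons j l ih =>
    simp only [N]
    rw [ih (fun k hk => h k (List.mem_cons_of_mem _ hk)), h j List.mem_cons_self]

/-- The merged coins on a segment. -/
theorem low_mergeOn (c c' : Coins d) (l₁ l₂ i : ℕ) (h₁ : l₁ ≤ l₂) (h₂ : l₂ ≤ i) :
    low (mergeOn (win d l₁ l₂) c' c) i
      = N (seg d l₂ i) c * N (seg d l₁ l₂) c' * N (seg d 0 l₁) c := by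
  unfold low
  rw [seg_append 0 l₁ i (Nat.zero_le _) (h₁.trans h₂), seg_append l₁ l₂ i h₁ h₂, N_append, N_append]
  have hm : ∀ j, j ∈ win d l₁ l₂ ↔ l₁ ≤ j.val ∧ j.val < l₂ := by
    intro j; simp [win]
  rw [N_congr (seg d l₂ i) (mergeOn (win d l₁ l₂) c' c) c,
    N_congr (seg d l₁ l₂) (mergeOn (win d l₁ l₂) c' c) c',
    N_congr (seg d 0 l₁) (mergeOn (win d l₁ l₂) c' c) c]
  · intro j hj
    rw [mem_seg] at hj
    have : j ∉ win d l₁ l₂ := by rw [hm]; omega
    simp [mergeOn, this]
  · intro j hj
    rw [mem_seg] at hj
    have : j ∈ win d l₁ l₂ := by rw [hm]; omega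
    simp [mergeOn, this]
  · intro j hj
    rw [mem_seg] at hj
    have : j ∉ win d l₁ l₂ := by rw [hm]; omega
    simp [mergeOn, this]

theorem bitR_apply_self (i : Fin d) (y : Cube d) : bitR i y i = y i + 1 := by
  simp [bitR, Vale.Agent.Lib.P162.flipAt_apply]

theorem bitR_apply_ne (i j : Fin d) (h : j ≠ i) (y : Cube d) : bitR i y j = y j := by
  exact flipAt_apply_ne i j h _ y

private theorem bitR_bitR (i : Fin d) (y : Cube d) : bitR i (bitR i y) = y := by
  have := flipAt_mul_self i (fun _ => (1 : Fin 2))
  have h2 := congrArg (fun p => p y) this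
  simpa [bitR, Perm.mul_apply] using h2

theorem Theta_involutive (c : Coins d) (i : Fin d) (y : Cube d) : Theta c i (Theta c i y) = y := by
  simp [Theta, Perm.mul_apply, bitR_bitR]

private theorem low_inv_apply_ge (c : Coins d) (i : ℕ) (z : Cube d) (b : Fin d) (hb : i ≤ b.val) :
    (low c i)⁻¹ z b = z b := by
  have := low_apply_ge c i ((low c i)⁻¹ z) b hb
  have h2 : (low c i) ((low c i)⁻¹ z) = z := by simp
  rw [h2] at this
  exact this.symm

/-- `Theta` flips bit `i`. -/
theorem Theta_apply_self (c : Coins d) (i : Fin d) (y : Cube d) : Theta c i y i = y i + 1 := by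
  simp only [Theta, Perm.mul_apply]
  rw [low_inv_apply_ge c i _ i le_rfl, bitR_apply_self, low_apply_ge c i y i le_rfl]

/-- `Theta` depends only on the layers below `i`. -/
theorem Theta_congr (c c' : Coins d) (i : Fin d) (h : ∀ j : Fin d, j.val < i.val → c j = c' j) :
    Theta c i = Theta c' i := by
  have : low c i = low c' i := by
    unfold low
    apply N_congr
    intro j hj
    rw [mem_seg] at hj
    exact h j hj.2
  simp only [Theta, this]

/-- Net preserves bits below `i` mod `low`: the description of `Theta` on pairs: `y' = Theta c i y`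
iff `y'` and `y` have the same `net`-bits below `i`, the same bits above `i`, and different bit `i`. -/
theorem eq_Theta_iff (c : Coins d) (i : Fin d) (y y' : Cube d) :
    y' = Theta c i y ↔ (∀ j : Fin d, j.val < i.val → net c y j = net c y' j) ∧
      (∀ j : Fin d, i.val < j.val → y j = y' j) ∧ y i ≠ y' i := by
  have hfin : ∀ a b : Fin 2, a ≠ b ↔ b = a + 1 := by decide
  constructor
  · intro h
    have hL : low c i y' = bitR i (low c i y) := by
      rw [h]; simp [Theta, Perm.mul_apply]
    refine ⟨?_, ?_, ?_⟩
    · intro j hj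
      rw [net_apply_lt c i y j hj, net_apply_lt c i y' j hj, hL,
        bitR_apply_ne i j (by intro e; subst e; omega)]
    · intro j hj
      have h1 := low_apply_ge c i y' j hj.le
      have h2 := low_apply_ge c i y j hj.le
      rw [hL, bitR_apply_ne i j (by intro e; subst e; omega), h2] at h1
      exact h1
    · rw [h, Theta_apply_self, hfin]
  · rintro ⟨h1, h2, h3⟩
    have hL : low c i y' = bitR i (low c i y) := by
      funext j
      rcases lt_trichotomy j.val i.val with hj | hj | hj
      · rw [bitR_apply_ne i j (by intro e; subst e; omega),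
          ← net_apply_lt c i y' j hj, ← net_apply_lt c i y j hj, h1 j hj]
      · have hji : j = i := Fin.ext hj
        subst hji
        rw [bitR_apply_self, low_apply_ge c _ y' j le_rfl, low_apply_ge c _ y j le_rfl]
        exact (hfin _ _).mp h3
      · rw [bitR_apply_ne i j (by intro e; subst e; omega), low_apply_ge c _ y' j hj.le,
          low_apply_ge c _ y j hj.le, h2 j hj]
    have : y' = (low c i)⁻¹ (low c i y') := by simp
    rw [this, hL]
    rfl

end Vale.Agent.Lib.P162T
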