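import Vale.Agent.Lib.P162T.Window

/-!
# P162T: tuple graphs, the exponent `ee` (section 3 of notes/P162_blueprint.md)
-/

namespace Vale.Agent.Lib.P162T

open Equiv Finset

section abstract

variable {V : Type*}

/-- The graph of two relations. -/
def grOf (r s : V → V → Prop) : SimpleGraph V := SimpleGraph.fromRel (fun a b => r a b ∨ s a b)

/-- Number of connected components. -/
noncomputable def compAbs (r s : V → V → Prop) : ℕ := Nat.card (grOf r s).ConnectedComponent

/-- Number of connected components all of whose vertices have an `r`-neighbour and an `s`-neighbour. -/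
noncomputable def clAbs (r s : V → V → Prop) : ℕ :=
  Nat.card {K : (grOf r s).ConnectedComponent //
    ∀ a, (grOf r s).connectedComponentMk a = K → (∃ b, r a b) ∧ (∃ b, s a b)}

open Classical in
/-- Number of ordered adjacent pairs. -/
noncomputable def dcount [Fintype V] (r : V → V → Prop) : ℕ :=
  (univ.filter (fun p : V × V => r p.1 p.2)).card

open Classical in
/-- `dcount` counts the vertices having a partner, when partners are unique. -/
private lemma dcount_eq [Fintype V] (r : V → V → Prop) (hr2 : ∀ a b b', r a b → r a b' → b = b') :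
    dcount r = (univ.filter (fun a : V => ∃ b, r a b)).card := by
  unfold dcount
  refine Finset.card_bij (fun p _ => p.1) ?_ ?_ ?_
  · intro p hp
    simp only [mem_filter, mem_univ, true_and] at hp ⊢
    exact ⟨p.2, hp⟩
  · intro p hp q hq h
    simp only [mem_filter, mem_univ, true_and] at hp hq
    have h' : r p.1 q.2 := by rw [h]; exact hq
    exact Prod.ext h (hr2 _ _ _ hp h')
  · intro a ha
    simp only [mem_filter, mem_univ, true_and] at ha
    obtain ⟨b, hb⟩ := ha
    exact ⟨(a, b), by simpa using hb, rfl⟩

open Classical in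
/-- Vertices of a given fibre with a partner: an even number. -/
private lemma even_card_partner [Fintype V] {C : Type*} (r : V → V → Prop) (mk : V → C)
    (hr0 : ∀ a, ¬ r a a) (hr1 : ∀ a b, r a b → r b a) (hr2 : ∀ a b b', r a b → r a b' → b = b')
    (hcomp : ∀ a b, r a b → mk a = mk b) (K : C) :
    Even (univ.filter (fun a : V => mk a = K ∧ ∃ b, r a b)).card := by
  set S := univ.filter (fun a : V => mk a = K ∧ ∃ b, r a b) with hS
  have hz : (∑ x ∈ S, (1 : ZMod 2)) = 0 := by
    refine Finset.sum_involution
      (fun a ha => Classical.choose (by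
        simp only [hS, mem_filter, mem_univ, true_and] at ha
        exact ha.2)) ?_ ?_ ?_ ?_
    · intro a ha
      decide
    · intro a ha _ h
      simp only [hS, mem_filter, mem_univ, true_and] at ha
      have hc := Classical.choose_spec (show ∃ b, r a b from ha.2)
      apply hr0 a
      rw [h] at hc
      exact hc
    · intro a ha
      simp only [hS, mem_filter, mem_univ, true_and] at ha ⊢
      have hc := Classical.choose_spec (show ∃ b, r a b from ha.2)
      refine ⟨?_, a, hr1 _ _ hc⟩
      rw [← hcomp _ _ hc]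
      exact ha.1
    · intro a ha
      simp only [hS, mem_filter, mem_univ, true_and] at ha
      have hc := Classical.choose_spec (show ∃ b, r a b from ha.2)
      set b := Classical.choose (show ∃ b, r a b from ha.2) with hb
      have hb' : ∃ b', r b b' := ⟨a, hr1 _ _ hc⟩
      have hc' := Classical.choose_spec hb'
      exact hr2 _ _ _ hc' (hr1 _ _ hc)
  have : ((S.card : ℕ) : ZMod 2) = 0 := by simpa using hz
  exact (ZMod.natCast_eq_zero_iff_even).1 this

/-- **COMB.**  Two symmetric irreflexive relations, each with at most one partner per vertex. -/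
theorem comb [Fintype V] (r s : V → V → Prop)
    (hr0 : ∀ a, ¬ r a a) (hr1 : ∀ a b, r a b → r b a) (hr2 : ∀ a b b', r a b → r a b' → b = b')
    (hs0 : ∀ a, ¬ s a a) (hs1 : ∀ a b, s a b → s b a) (hs2 : ∀ a b b', s a b → s a b' → b = b') :
    dcount r + dcount s + 2 * compAbs r s ≤ 2 * Fintype.card V + 2 * clAbs r s := by
  classical
  set G := grOf r s with hG
  set mk := G.connectedComponentMk with hmk
  letI : Fintype G.ConnectedComponent := Fintype.ofFinite _
  have hadj_r : ∀ a b, r a b → mk a = mk b := by
    intro a b h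
    have hne : a ≠ b := fun e => hr0 a (e ▸ h)
    have : G.Adj a b := by
      rw [hG, grOf, SimpleGraph.fromRel_adj]
      exact ⟨hne, Or.inl (Or.inl h)⟩
    exact SimpleGraph.ConnectedComponent.sound this.reachable
  have hadj_s : ∀ a b, s a b → mk a = mk b := by
    intro a b h
    have hne : a ≠ b := fun e => hs0 a (e ▸ h)
    have : G.Adj a b := by
      rw [hG, grOf, SimpleGraph.fromRel_adj]
      exact ⟨hne, Or.inl (Or.inr h)⟩
    exact SimpleGraph.ConnectedComponent.sound this.reachable
  -- the three kinds of fibres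
  let A : G.ConnectedComponent → Finset V := fun K => univ.filter (fun a => mk a = K)
  let Ar : G.ConnectedComponent → Finset V := fun K => univ.filter (fun a => mk a = K ∧ ∃ b, r a b)
  let As : G.ConnectedComponent → Finset V := fun K => univ.filter (fun a => mk a = K ∧ ∃ b, s a b)
  let full : G.ConnectedComponent → Prop := fun K => ∀ a, mk a = K → (∃ b, r a b) ∧ (∃ b, s a b)
  have hevenr : ∀ K, Even (Ar K).card := fun K =>
    even_card_partner r mk hr0 hr1 hr2 hadj_r K
  have hevens : ∀ K, Even (As K).card := fun K =>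
    even_card_partner s mk hs0 hs1 hs2 hadj_s K
  -- the inequality on one component
  have hK : ∀ K : G.ConnectedComponent,
      (Ar K).card + (As K).card + 2 ≤ 2 * (A K).card + 2 * (if full K then 1 else 0) := by
    intro K
    have hrA : Ar K ⊆ A K := fun a ha => by
      simp only [Ar, A, mem_filter, mem_univ, true_and] at ha ⊢
      exact ha.1
    have hsA : As K ⊆ A K := fun a ha => by
      simp only [As, A, mem_filter, mem_univ, true_and] at ha ⊢
      exact ha.1
    by_cases hf : full K
    · have e1 : Ar K = A K := by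
        refine Finset.Subset.antisymm hrA (fun a ha => ?_)
        simp only [Ar, A, mem_filter, mem_univ, true_and] at ha ⊢
        exact ⟨ha, (hf a ha).1⟩
      have e2 : As K = A K := by
        refine Finset.Subset.antisymm hsA (fun a ha => ?_)
        simp only [As, A, mem_filter, mem_univ, true_and] at ha ⊢
        exact ⟨ha, (hf a ha).2⟩
      rw [e1, e2, if_pos hf]
      omega
    · rw [if_neg hf]
      simp only [full, not_forall] at hf
      obtain ⟨a, ha, hna⟩ := hf
      have hstrict : (Ar K).card + (As K).card < 2 * (A K).card := by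
        have h1 := Finset.card_le_card hrA
        have h2 := Finset.card_le_card hsA
        have haA : a ∈ A K := by simp [A, ha]
        by_cases hra : ∃ b, r a b
        · have hsa : ¬ ∃ b, s a b := fun h => hna ⟨hra, h⟩
          have : As K ⊂ A K := by
            refine Finset.ssubset_iff_subset_ne.2 ⟨hsA, fun e => ?_⟩
            rw [← e] at haA
            simp only [As, mem_filter, mem_univ, true_and] at haA
            exact hsa haA.2
          have := Finset.card_lt_card this
          omega
        · have : Ar K ⊂ A K := by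
            refine Finset.ssubset_iff_subset_ne.2 ⟨hrA, fun e => ?_⟩
            rw [← e] at haA
            simp only [Ar, mem_filter, mem_univ, true_and] at haA
            exact hra haA.2
          have := Finset.card_lt_card this
          omega
      obtain ⟨x, hx⟩ := hevenr K
      obtain ⟨y, hy⟩ := hevens K
      omega
  -- summing up
  have hd1 : dcount r = ∑ K, (Ar K).card := by
    rw [dcount_eq r hr2]
    rw [Finset.card_eq_sum_card_fiberwise (f := mk) (t := univ) (fun _ _ => mem_univ _)]
    refine Finset.sum_congr rfl (fun K _ => ?_)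
    congr 1
    ext a
    simp only [Ar, mem_filter, mem_univ, true_and]
    tauto
  have hd2 : dcount s = ∑ K, (As K).card := by
    rw [dcount_eq s hs2]
    rw [Finset.card_eq_sum_card_fiberwise (f := mk) (t := univ) (fun _ _ => mem_univ _)]
    refine Finset.sum_congr rfl (fun K _ => ?_)
    congr 1
    ext a
    simp only [As, mem_filter, mem_univ, true_and]
    tauto
  have hV : Fintype.card V = ∑ K, (A K).card := by
    rw [← Finset.card_univ]
    rw [Finset.card_eq_sum_card_fiberwise (f := mk) (t := univ) (fun _ _ => mem_univ _)]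
  have hcomp : compAbs r s = ∑ _K : G.ConnectedComponent, 1 := by
    simp [compAbs, ← hG, Nat.card_eq_fintype_card]
  have hcl : clAbs r s = ∑ K : G.ConnectedComponent, (if full K then 1 else 0) := by
    have : clAbs r s = Fintype.card {K : G.ConnectedComponent // full K} := by
      rw [clAbs, Nat.card_eq_fintype_card]
    rw [this, Fintype.card_subtype, Finset.card_filter]
  have := Finset.sum_le_sum (fun K (_ : K ∈ (univ : Finset G.ConnectedComponent)) => hK K)
  simp only [Finset.sum_add_distrib, ← Finset.mul_sum] at this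
  rw [hd1, hd2, hV, hcomp, hcl]
  have e : ∑ x : G.ConnectedComponent, 2 = 2 * ∑ _x : G.ConnectedComponent, 1 := by
    simp [Finset.card_univ]; ring
  omega

open Classical in
/-- **Proper colourings.** -/
theorem proper_card_le [Fintype V] (r s : V → V → Prop) :
    (univ.filter (fun χ : V → Fin 2 => ∀ a b, (grOf r s).Adj a b → χ a ≠ χ b)).card
      ≤ 2 ^ compAbs r s := by
  set G := grOf r s with hG
  letI : Fintype G.ConnectedComponent := Fintype.ofFinite _
  have hc : compAbs r s = Fintype.card G.ConnectedComponent := by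
    rw [compAbs, ← hG, Nat.card_eq_fintype_card]
  have hT : (2 : ℕ) ^ compAbs r s = (univ : Finset (G.ConnectedComponent → Fin 2)).card := by
    rw [hc, Finset.card_univ, Fintype.card_fun, Fintype.card_fin]
  rw [hT]
  refine Finset.card_le_card_of_injOn (fun χ K => χ (Quot.out K)) (fun _ _ => mem_univ _) ?_
  intro χ hχ χ' hχ' h
  simp only [coe_filter, mem_univ, true_and, Set.mem_setOf_eq] at hχ hχ'
  -- agreement propagates along walks
  have hprop : ∀ a b, G.Reachable a b → χ a = χ' a → χ b = χ' b := by
    intro a b hab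
    obtain ⟨w⟩ := hab
    induction w with
    | nil => exact id
    | @cons u v w' hadj _ ih =>
      intro hu
      apply ih
      have h1 := hχ u v hadj
      have h2 := hχ' u v hadj
      have key : ∀ x y z t : Fin 2, x = y → x ≠ z → y ≠ t → z = t := by decide
      exact key _ _ _ _ hu h1 h2
  funext a
  have hk : G.Reachable (Quot.out (G.connectedComponentMk a)) a :=
    SimpleGraph.ConnectedComponent.exact (Quot.out_eq _)
  refine hprop _ _ hk ?_
  exact congrFun h (G.connectedComponentMk a)

end abstract

variable {d k : ℕ}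

/-- Two cards are adjacent at scale `i` for the labelling `u` if they have the same bits of `y` above `i`
and the same bits of `u` below `i`. -/
def xadj (i : Fin d) (y u : Fin k → Cube d) (a b : Fin k) : Prop :=
  a ≠ b ∧ (∀ j, i < j → y a j = y b j) ∧ (∀ j, j < i → u a j = u b j)

/-- The number of full components at scale `i`. -/
noncomputable def cl (i : Fin d) (y u v : Fin k → Cube d) : ℕ := clAbs (xadj i y u) (xadj i y v)

/-- The exponent. -/
noncomputable def ee (y u v : Fin k → Cube d) : ℕ := ∑ i, cl i y u v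

theorem grOf_comm {V : Type*} (r s : V → V → Prop) : grOf r s = grOf s r := by
  unfold grOf
  ext a b
  simp only [SimpleGraph.fromRel_adj]
  tauto

theorem clAbs_comm {V : Type*} (r s : V → V → Prop) : clAbs r s = clAbs s r := by
  unfold clAbs
  rw [grOf_comm r s]
  apply Nat.card_congr
  refine Equiv.subtypeEquivRight ?_
  intro K
  constructor
  · intro h a ha
    exact (h a ha).symm
  · intro h a ha
    exact (h a ha).symm

theorem ee_comm (y u v : Fin k → Cube d) : ee y u v = ee y v u := by
  unfold ee cl
  exact Finset.sum_congr rfl (fun i _ => clAbs_comm _ _)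

theorem xadj_net_iff (y : Fin k ↪ Cube d) (c : Coins d) (i : Fin d) (a b : Fin k) :
    xadj i y (net c ∘ y) a b ↔ y b = Theta c i (y a) := by
  rw [eq_Theta_iff]
  constructor
  · rintro ⟨hab, habove, hbelow⟩
    refine ⟨fun j hj => hbelow j hj, fun j hj => habove j hj, ?_⟩
    intro hbit
    apply hab
    apply y.injective
    apply (low c i).injective
    funext j
    by_cases hj : j.val < i.val
    · rw [← net_apply_lt c i (y a) j hj, ← net_apply_lt c i (y b) j hj]
      exact hbelow j hj
    · rw [low_apply_ge c i (y a) j (not_lt.mp hj), low_apply_ge c i (y b) j (not_lt.mp hj)]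
      rcases Nat.lt_or_ge i.val j.val with h | h
      · exact habove j h
      · have : j = i := Fin.ext (le_antisymm h (not_lt.mp hj))
        rw [this]; exact hbit
  · rintro ⟨hbelow, habove, hbit⟩
    refine ⟨?_, fun j hj => habove j hj, fun j hj => hbelow j hj⟩
    rintro rfl
    exact hbit rfl

/-- Adjacent vertices lie in one component. -/
theorem mk_eq_of_rel_left {V : Type*} (r s : V → V → Prop) {a b : V} (hab : a ≠ b) (h : r a b) :
    (grOf r s).connectedComponentMk a = (grOf r s).connectedComponentMk b := by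
  apply SimpleGraph.ConnectedComponent.sound
  apply SimpleGraph.Adj.reachable
  simp only [grOf, SimpleGraph.fromRel_adj]
  exact ⟨hab, Or.inl (Or.inl h)⟩

theorem mk_eq_of_rel_right {V : Type*} (r s : V → V → Prop) {a b : V} (hab : a ≠ b) (h : s a b) :
    (grOf r s).connectedComponentMk a = (grOf r s).connectedComponentMk b := by
  apply SimpleGraph.ConnectedComponent.sound
  apply SimpleGraph.Adj.reachable
  simp only [grOf, SimpleGraph.fromRel_adj]
  exact ⟨hab, Or.inl (Or.inr h)⟩

/-- The vertices of a full component are closed under the matchings. -/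
private theorem full_closed (y : Fin k ↪ Cube d) (cx cz : Coins d) (i : Fin d) (a : Fin k)
    (hfull : ∀ a', (grOf (xadj i y (net cx ∘ y)) (xadj i y (net cz ∘ y))).connectedComponentMk a'
        = (grOf (xadj i y (net cx ∘ y)) (xadj i y (net cz ∘ y))).connectedComponentMk a →
        (∃ b, xadj i y (net cx ∘ y) a' b) ∧ (∃ b, xadj i y (net cz ∘ y) a' b)) :
    (∃ b, y b = Theta cx i (y a) ∧
      (grOf (xadj i y (net cx ∘ y)) (xadj i y (net cz ∘ y))).connectedComponentMk b
        = (grOf (xadj i y (net cx ∘ y)) (xadj i y (net cz ∘ y))).connectedComponentMk a) ∧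
    (∃ b, y b = Theta cz i (y a) ∧
      (grOf (xadj i y (net cx ∘ y)) (xadj i y (net cz ∘ y))).connectedComponentMk b
        = (grOf (xadj i y (net cx ∘ y)) (xadj i y (net cz ∘ y))).connectedComponentMk a) := by
  obtain ⟨⟨b, hb⟩, ⟨b', hb'⟩⟩ := hfull a rfl
  refine ⟨⟨b, (xadj_net_iff y cx i a b).1 hb, ?_⟩, ⟨b', (xadj_net_iff y cz i a b').1 hb', ?_⟩⟩
  · exact (mk_eq_of_rel_left _ _ hb.1 hb).symm
  · exact (mk_eq_of_rel_right _ _ hb'.1 hb').symm

open Classical in
/-- The colouring attached to a colouring of the full components. -/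
private noncomputable def liftCol (y : Fin k ↪ Cube d) (cx cz : Coins d) (i : Fin d) (τ : ℕ)
    (χ : {K : (grOf (xadj i y (net cx ∘ y)) (xadj i y (net cz ∘ y))).ConnectedComponent //
      ∀ a, (grOf (xadj i y (net cx ∘ y)) (xadj i y (net cz ∘ y))).connectedComponentMk a = K →
        (∃ b, xadj i y (net cx ∘ y) a b) ∧ (∃ b, xadj i y (net cz ∘ y) a b)} → Fin (τ + 1))
    (x : Cube d) : Fin (τ + 1) :=
  if h : ∃ a : Fin k, y a = x ∧
      ∀ a', (grOf (xadj i y (net cx ∘ y)) (xadj i y (net cz ∘ y))).connectedComponentMk a'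
        = (grOf (xadj i y (net cx ∘ y)) (xadj i y (net cz ∘ y))).connectedComponentMk a →
        (∃ b, xadj i y (net cx ∘ y) a' b) ∧ (∃ b, xadj i y (net cz ∘ y) a' b)
  then χ ⟨_, h.choose_spec.2⟩ else 0

private theorem liftCol_of (y : Fin k ↪ Cube d) (cx cz : Coins d) (i : Fin d) (τ : ℕ)
    (χ : {K : (grOf (xadj i y (net cx ∘ y)) (xadj i y (net cz ∘ y))).ConnectedComponent //
      ∀ a, (grOf (xadj i y (net cx ∘ y)) (xadj i y (net cz ∘ y))).connectedComponentMk a = K →
        (∃ b, xadj i y (net cx ∘ y) a b) ∧ (∃ b, xadj i y (net cz ∘ y) a b)} → Fin (τ + 1))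
    (a : Fin k)
    (ha : ∀ a', (grOf (xadj i y (net cx ∘ y)) (xadj i y (net cz ∘ y))).connectedComponentMk a'
        = (grOf (xadj i y (net cx ∘ y)) (xadj i y (net cz ∘ y))).connectedComponentMk a →
        (∃ b, xadj i y (net cx ∘ y) a' b) ∧ (∃ b, xadj i y (net cz ∘ y) a' b)) :
    liftCol y cx cz i τ χ (y a) = χ ⟨_, ha⟩ := by
  unfold liftCol
  have h : ∃ a' : Fin k, y a' = y a ∧
      ∀ a'', (grOf (xadj i y (net cx ∘ y)) (xadj i y (net cz ∘ y))).connectedComponentMk a''
        = (grOf (xadj i y (net cx ∘ y)) (xadj i y (net cz ∘ y))).connectedComponentMk a' →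
        (∃ b, xadj i y (net cx ∘ y) a'' b) ∧ (∃ b, xadj i y (net cz ∘ y) a'' b) := ⟨a, rfl, ha⟩
  rw [dif_pos h]
  have heq : h.choose = a := y.injective h.choose_spec.1
  congr 2
  exact congrArg _ heq

private theorem liftCol_off (y : Fin k ↪ Cube d) (cx cz : Coins d) (i : Fin d) (τ : ℕ)
    (χ : {K : (grOf (xadj i y (net cx ∘ y)) (xadj i y (net cz ∘ y))).ConnectedComponent //
      ∀ a, (grOf (xadj i y (net cx ∘ y)) (xadj i y (net cz ∘ y))).connectedComponentMk a = K →
        (∃ b, xadj i y (net cx ∘ y) a b) ∧ (∃ b, xadj i y (net cz ∘ y) a b)} → Fin (τ + 1))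
    (x : Cube d)
    (h : ¬ ∃ a : Fin k, y a = x ∧
      ∀ a', (grOf (xadj i y (net cx ∘ y)) (xadj i y (net cz ∘ y))).connectedComponentMk a'
        = (grOf (xadj i y (net cx ∘ y)) (xadj i y (net cz ∘ y))).connectedComponentMk a →
        (∃ b, xadj i y (net cx ∘ y) a' b) ∧ (∃ b, xadj i y (net cz ∘ y) a' b)) :
    liftCol y cx cz i τ χ x = 0 := by
  unfold liftCol
  rw [dif_neg h]

/-- Invariance of the lifted colouring under an involution that is closed on full components. -/
private theorem liftCol_inv (y : Fin k ↪ Cube d) (cx cz : Coins d) (i : Fin d) (τ : ℕ)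
    (χ : {K : (grOf (xadj i y (net cx ∘ y)) (xadj i y (net cz ∘ y))).ConnectedComponent //
      ∀ a, (grOf (xadj i y (net cx ∘ y)) (xadj i y (net cz ∘ y))).connectedComponentMk a = K →
        (∃ b, xadj i y (net cx ∘ y) a b) ∧ (∃ b, xadj i y (net cz ∘ y) a b)} → Fin (τ + 1))
    (θ : Perm (Cube d)) (hθ : ∀ x, θ (θ x) = x)
    (hclosed : ∀ a : Fin k,
      (∀ a', (grOf (xadj i y (net cx ∘ y)) (xadj i y (net cz ∘ y))).connectedComponentMk a'
        = (grOf (xadj i y (net cx ∘ y)) (xadj i y (net cz ∘ y))).connectedComponentMk a →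
        (∃ b, xadj i y (net cx ∘ y) a' b) ∧ (∃ b, xadj i y (net cz ∘ y) a' b)) →
      ∃ b, y b = θ (y a) ∧
      (grOf (xadj i y (net cx ∘ y)) (xadj i y (net cz ∘ y))).connectedComponentMk b
        = (grOf (xadj i y (net cx ∘ y)) (xadj i y (net cz ∘ y))).connectedComponentMk a)
    (x : Cube d) : liftCol y cx cz i τ χ (θ x) = liftCol y cx cz i τ χ x := by
  by_cases h : ∃ a : Fin k, y a = x ∧
      ∀ a', (grOf (xadj i y (net cx ∘ y)) (xadj i y (net cz ∘ y))).connectedComponentMk a'
        = (grOf (xadj i y (net cx ∘ y)) (xadj i y (net cz ∘ y))).connectedComponentMk a →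
        (∃ b, xadj i y (net cx ∘ y) a' b) ∧ (∃ b, xadj i y (net cz ∘ y) a' b)
  · obtain ⟨a, rfl, ha⟩ := h
    obtain ⟨b, hb, hmk⟩ := hclosed a ha
    have hb' : ∀ a', (grOf (xadj i y (net cx ∘ y)) (xadj i y (net cz ∘ y))).connectedComponentMk a'
        = (grOf (xadj i y (net cx ∘ y)) (xadj i y (net cz ∘ y))).connectedComponentMk b →
        (∃ b, xadj i y (net cx ∘ y) a' b) ∧ (∃ b, xadj i y (net cz ∘ y) a' b) := by
      intro a' h'
      exact ha a' (h'.trans hmk)
    rw [← hb, liftCol_of y cx cz i τ χ b hb', liftCol_of y cx cz i τ χ a ha]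
    congr 1
    exact Subtype.ext hmk
  · rw [liftCol_off y cx cz i τ χ x h]
    apply liftCol_off
    rintro ⟨a, hax, ha⟩
    apply h
    obtain ⟨b, hb, hmk⟩ := hclosed a ha
    refine ⟨b, ?_, ?_⟩
    · rw [hb, hax, hθ]
    · intro a' h'
      exact ha a' (h'.trans hmk)

theorem link (y : Fin k ↪ Cube d) (cx cz : Coins d) (i : Fin d) (τ : ℕ) :
    (τ + 1) ^ cl i y (net cx ∘ y) (net cz ∘ y)
      ≤ GG τ (univ.map y) (Theta cx i) (Theta cz i) := by
  classical
  unfold cl clAbs GG
  have hinj : Function.Injective (liftCol y cx cz i τ) := by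
    intro χ χ' h
    funext K
    obtain ⟨K, hK⟩ := K
    induction K using SimpleGraph.ConnectedComponent.ind with
    | h a =>
      have ha : ∀ a', (grOf (xadj i y (net cx ∘ y)) (xadj i y (net cz ∘ y))).connectedComponentMk a'
        = (grOf (xadj i y (net cx ∘ y)) (xadj i y (net cz ∘ y))).connectedComponentMk a →
        (∃ b, xadj i y (net cx ∘ y) a' b) ∧ (∃ b, xadj i y (net cz ∘ y) a' b) := hK
      have := congrFun h (y a)
      rwa [liftCol_of y cx cz i τ χ a ha, liftCol_of y cx cz i τ χ' a ha] at this
  have hcard : Nat.card (({K : (grOf (xadj i y (net cx ∘ y)) (xadj i y (net cz ∘ y))).ConnectedComponent //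
      ∀ a, (grOf (xadj i y (net cx ∘ y)) (xadj i y (net cz ∘ y))).connectedComponentMk a = K →
        (∃ b, xadj i y (net cx ∘ y) a b) ∧ (∃ b, xadj i y (net cz ∘ y) a b)}) → Fin (τ + 1))
      = (τ + 1) ^ Nat.card {K : (grOf (xadj i y (net cx ∘ y)) (xadj i y (net cz ∘ y))).ConnectedComponent //
      ∀ a, (grOf (xadj i y (net cx ∘ y)) (xadj i y (net cz ∘ y))).connectedComponentMk a = K →
        (∃ b, xadj i y (net cx ∘ y) a b) ∧ (∃ b, xadj i y (net cz ∘ y) a b)} := by
    rw [Nat.card_fun]
    simp
  rw [← hcard]
  rw [Nat.card_eq_fintype_card, ← Finset.card_univ]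
  refine Finset.card_le_card_of_injOn (liftCol y cx cz i τ) ?_ (hinj.injOn)
  intro χ _
  simp only [coe_filter, mem_univ, true_and, Set.mem_ofPred_eq]
  refine ⟨?_, ?_, ?_⟩
  · intro x hx
    apply liftCol_off
    rintro ⟨a, rfl, _⟩
    apply hx
    simp
  · apply liftCol_inv y cx cz i τ χ (Theta cx i) (Theta_involutive cx i)
    intro a ha
    exact (full_closed y cx cz i a ha).1
  · apply liftCol_inv y cx cz i τ χ (Theta cz i) (Theta_involutive cz i)
    intro a ha
    exact (full_closed y cx cz i a ha).2

/-- At any scale each full component contains a pair. -/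
theorem cl_le_pairs (y : Fin k ↪ Cube d) (cx cz : Coins d) (i : Fin d) :
    cl i y (net cx ∘ y) (net cz ∘ y) ≤ pairs (univ.map y) (Theta cx i) i := by
  classical
  unfold cl clAbs pairs
  -- for each full component choose a vertex with bit `i` zero
  have key : ∀ K : {K : (grOf (xadj i y (net cx ∘ y)) (xadj i y (net cz ∘ y))).ConnectedComponent //
      ∀ a, (grOf (xadj i y (net cx ∘ y)) (xadj i y (net cz ∘ y))).connectedComponentMk a = K →
        (∃ b, xadj i y (net cx ∘ y) a b) ∧ (∃ b, xadj i y (net cz ∘ y) a b)},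
      ∃ w : Fin k, (grOf (xadj i y (net cx ∘ y)) (xadj i y (net cz ∘ y))).connectedComponentMk w = K.1 ∧
        y w i = 0 ∧ Theta cx i (y w) ∈ univ.map y := by
    rintro ⟨K, hK⟩
    induction K using SimpleGraph.ConnectedComponent.ind with
    | h a =>
      obtain ⟨⟨b, hb⟩, _⟩ := hK a rfl
      have hb' := (xadj_net_iff y cx i a b).1 hb
      have hmk := mk_eq_of_rel_left (xadj i y (net cx ∘ y)) (xadj i y (net cz ∘ y)) hb.1 hb
      by_cases h0 : y a i = 0
      · exact ⟨a, rfl, h0, by rw [← hb']; simp⟩
      · refine ⟨b, hmk.symm, ?_, ?_⟩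
        · rw [hb', Theta_apply_self]
          have : y a i = 1 := by
            have := (y a i).isLt
            ext
            have h1 : (y a i).val ≠ 0 := fun h => h0 (Fin.ext h)
            simp only [Fin.val_one]
            omega
          rw [this]
          rfl
        · rw [hb', Theta_involutive]
          simp
  choose w hw1 hw2 hw3 using key
  rw [Nat.card_eq_fintype_card, ← Finset.card_univ]
  refine Finset.card_le_card_of_injOn (fun K => y (w K)) ?_ ?_
  · intro K _
    simp only [coe_filter, Set.mem_ofPred_eq, mem_map, mem_univ, true_and]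
    refine ⟨⟨w K, rfl⟩, hw2 K, ?_⟩
    have := hw3 K
    simpa using this
  · intro K _ K' _ h
    have h' : w K = w K' := y.injective h
    apply Subtype.ext
    rw [← hw1 K, ← hw1 K', h']

theorem cl_zero_le (y : Fin k ↪ Cube d) (cx cz : Coins d) (i : Fin d) (_hi : i.val = 0) :
    cl i y (net cx ∘ y) (net cz ∘ y) ≤ pairs (univ.map y) (Theta cx i) i :=
  cl_le_pairs y cx cz i

theorem cl_congr (y : Fin k ↪ Cube d) (cx cz cz' : Coins d) (i : Fin d)
    (h : ∀ j : Fin d, j.val < i.val → cz j = cz' j) :
    cl i y (net cx ∘ y) (net cz ∘ y) = cl i y (net cx ∘ y) (net cz' ∘ y) := by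
  have hlow : low cz i = low cz' i := by
    unfold low
    apply N_congr
    intro j hj
    exact h j ((mem_seg 0 i.val j).1 hj).2
  have hrel : xadj i y (net cz ∘ y) = xadj i y (net cz' ∘ y) := by
    funext a b
    unfold xadj
    apply propext
    have : ∀ j : Fin d, j < i → ∀ a : Fin k, (net cz ∘ y) a j = (net cz' ∘ y) a j := by
      intro j hj a
      simp only [Function.comp]
      rw [net_apply_lt cz i (y a) j hj, net_apply_lt cz' i (y a) j hj, hlow]
    constructor
    · rintro ⟨h1, h2, h3⟩
      refine ⟨h1, h2, fun j hj => ?_⟩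
      rw [← this j hj a, ← this j hj b]
      exact h3 j hj
    · rintro ⟨h1, h2, h3⟩
      refine ⟨h1, h2, fun j hj => ?_⟩
      rw [this j hj a, this j hj b]
      exact h3 j hj
  unfold cl
  rw [hrel]

end Vale.Agent.Lib.P162T
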