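import Vale.Agent.Lib.P162T.KeyStep
import Vale.Agent.Lib.P162T.Flat

/-!
# P162T: the flat bound for windows (end of section 1 of notes/P162_blueprint.md)
-/

namespace Vale.Agent.Lib.P162T

open Equiv Finset
open Vale.Agent.Lib.P162 (flip iota flipAt)

variable {d : ℕ}

/-! ### Generalities on `Ecyc` and `Ex` -/

theorem Wt_nonneg {Y : Type*} [Fintype Y] {τ : ℕ} {w : Y → ℝ} (h0 : ∀ y, 0 ≤ w y)
    (g : Y → Fin (τ + 1)) : 0 ≤ Wt w g := by
  unfold Wt
  refine Finset.prod_nonneg fun y _ => ?_
  split_ifs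
  · exact zero_le_one
  · exact h0 y

theorem Ecyc_nonneg (τ : ℕ) {Y : Type*} [Fintype Y] [DecidableEq Y] {w : Y → ℝ} (h0 : ∀ y, 0 ≤ w y)
    (p : Perm Y) : 0 ≤ Ecyc τ w p := by
  unfold Ecyc
  refine Finset.sum_nonneg fun g _ => mul_nonneg (Wt_nonneg h0 g) ?_
  split_ifs
  · exact zero_le_one
  · exact le_rfl

/-- Base case. -/
theorem Ecyc_one_le (τ : ℕ) {Y : Type*} [Fintype Y] [DecidableEq Y] (w : Y → ℝ) (h0 : ∀ y, 0 ≤ w y) :
    Ecyc τ w 1 ≤ Real.exp (τ * ∑ y, w y) := by
  have h1 : Ecyc τ w 1 = ∏ y, (1 + τ * w y) := by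
    unfold Ecyc Wt
    simp only [Equiv.Perm.coe_one, id_eq, implies_true, if_true, mul_one]
    have := Finset.prod_univ_sum (fun _ : Y => (Finset.univ : Finset (Fin (τ + 1))))
      (fun y (a : Fin (τ + 1)) => if a = 0 then (1 : ℝ) else w y)
    rw [Fintype.piFinset_univ] at this
    rw [← this]
    refine Finset.prod_congr rfl fun y _ => ?_
    rw [Fin.sum_univ_succ]
    simp [Fin.succ_ne_zero]
  rw [h1, Finset.mul_sum, Real.exp_sum]
  refine Finset.prod_le_prod (fun y _ => ?_) (fun y _ => ?_)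
  · have := h0 y
    positivity
  · have := Real.add_one_le_exp ((τ : ℝ) * w y)
    linarith

/-- `Ecyc` is invariant under transport along a bijection. -/
theorem Ecyc_conj (τ : ℕ) {X X' : Type*} [Fintype X] [DecidableEq X] [Fintype X'] [DecidableEq X']
    (e : X ≃ X') (w : X → ℝ) (p : Perm X) :
    Ecyc τ w p = Ecyc τ (w ∘ e.symm) (e.permCongr p) := by
  unfold Ecyc
  refine Fintype.sum_equiv (e.arrowCongr (Equiv.refl _)) _ _ fun g => ?_
  have h1 : Wt w g = Wt (w ∘ e.symm) (e.arrowCongr (Equiv.refl _) g) := by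
    unfold Wt
    refine Fintype.prod_equiv e _ _ fun y => ?_
    simp [Equiv.arrowCongr]
  have h2 : (∀ y, g (p y) = g y) ↔
      (∀ y, (e.arrowCongr (Equiv.refl _) g) ((e.permCongr p) y) = (e.arrowCongr (Equiv.refl _) g) y) := by
    constructor
    · intro h y
      simp [Equiv.arrowCongr, Equiv.permCongr_apply, h]
    · intro h y
      have := h (e y)
      simpa [Equiv.arrowCongr, Equiv.permCongr_apply] using this
  rw [h1]
  simp only [h2]

section Ex

variable {C C' : Type*} [Fintype C] [Fintype C']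

theorem Ex_comm (F : C → C' → ℝ) :
    Ex (fun c => Ex (fun c' => F c c')) = Ex (fun c' => Ex (fun c => F c c')) := by
  have h1 := Ex_prod (fun q : C × C' => F q.1 q.2)
  have h2 := Ex_prod (fun q : C' × C => F q.2 q.1)
  have h3 := Ex_equiv (Equiv.prodComm C C') (fun q : C' × C => F q.2 q.1)
  simp only [Equiv.prodComm_apply, Prod.fst_swap, Prod.snd_swap] at h3
  rw [← h1, ← h2, ← h3]

end Ex

/-- A family of translations along a map transports uniform averages. -/
theorem Ex_section {C S : Type*} [Fintype C] [Fintype S] [AddCommGroup S] [Nonempty C]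
    (π : C → S) (T : S → C ≃ C) (hT : ∀ s c, π (T s c) = π c + s) (Φ : S → C → ℝ)
    (hΦ : ∀ s s' c, Φ s (T s' c) = Φ s c) :
    Ex (fun c => Φ (π c) c) = Ex (fun s => Ex (fun c => Φ s c)) := by
  have h1 : ∀ s, Ex (fun c => Φ (π c) c) = Ex (fun c => Φ (π c + s) c) := by
    intro s
    have := Ex_equiv (T s) (fun c => Φ (π c) c)
    simp only [hT, hΦ] at this
    exact this.symm
  have hne : Nonempty S := ⟨0⟩
  have h2 : Ex (fun c => Φ (π c) c) = Ex (fun s => Ex (fun c => Φ (π c + s) c)) := by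
    have : (fun s => Ex (fun c => Φ (π c + s) c)) = fun _ => Ex (fun c => Φ (π c) c) := by
      funext s
      exact (h1 s).symm
    rw [this, Ex_const]
  rw [h2, Ex_comm]
  have h3 : ∀ c, Ex (fun s => Φ (π c + s) c) = Ex (fun s => Φ s c) := by
    intro c
    have := Ex_equiv (Equiv.addLeft (π c)) (fun s => Φ s c)
    simpa only [Equiv.coe_addLeft] using this
  simp only [h3]
  rw [Ex_comm]

/-! ### The slice at a bit -/

/-- The slice `y j = 0`. -/
abbrev Sl (j : Fin d) := {y : Cube d // y j = 0}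

/-- The splitting of the cube along the bit `j`. -/
def cubeSplit (j : Fin d) : Cube d ≃ Fin 2 × Sl j where
  toFun y := (y j, ⟨Function.update y j 0, by simp⟩)
  invFun p := Function.update p.2.1 j p.1
  left_inv y := by simp
  right_inv p := by
    obtain ⟨b, y, hy⟩ := p
    refine Prod.ext (by simp) (Subtype.ext ?_)
    simp only [Function.update_idem]
    rw [← hy, Function.update_eq_self]

@[simp] theorem cubeSplit_apply (j : Fin d) (y : Cube d) :
    cubeSplit j y = (y j, ⟨Function.update y j 0, by simp⟩) := rfl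

@[simp] theorem cubeSplit_symm_apply (j : Fin d) (b : Fin 2) (y : Sl j) :
    (cubeSplit j).symm (b, y) = Function.update y.1 j b := rfl

theorem update_of_eq (x : Cube d) (j : Fin d) (a : Fin 2) (h : x j = a) :
    Function.update x j a = x := by
  subst h
  exact Function.update_eq_self _ _

theorem update_slice (j : Fin d) (y : Sl j) : Function.update y.1 j 0 = y.1 :=
  update_of_eq _ _ _ y.2

/-- The conjugate of the flip at `j` is the column flip. -/
theorem flip_conj (j : Fin d) (c : Coin d) :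
    (cubeSplit j).permCongr (flipAt j c) = flip (fun y : Sl j => c y.1) := by
  ext1 p
  obtain ⟨b, y⟩ := p
  have hy := y.2
  refine Prod.ext ?_ (Subtype.ext ?_)
  · simp [Equiv.permCongr_apply, update_slice]
  · simp [Equiv.permCongr_apply, update_slice]

/-- The coins seen from the other slice. -/
def cR (j : Fin d) (c : Coins d) : Coins d := fun i z => c i (bitR j z)

theorem bitR_eq (j : Fin d) (x : Cube d) : bitR j x = Function.update x j (x j + 1) := by
  simp [bitR]

theorem flipAt_bitR (i j : Fin d) (h : i ≠ j) (a : Coin d) (x : Cube d) :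
    flipAt i a (bitR j x) = bitR j (flipAt i (fun z => a (bitR j z)) x) := by
  have hup : Function.update (bitR j x) i 0 = bitR j (Function.update x i 0) := by
    simp only [bitR_eq]
    rw [Function.update_of_ne h.symm]
    exact Function.update_comm h.symm _ _ _
  simp only [Vale.Agent.Lib.P162.flipAt_apply, hup]
  simp only [bitR_eq]
  funext k
  by_cases hk : k = i
  · subst hk
    simp [Function.update_of_ne h]
  · by_cases hk' : k = j
    · subst hk'
      simp [Function.update_of_ne h.symm]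
    · simp [Function.update_of_ne hk, Function.update_of_ne hk']

/-- Conjugation of the flips by the bit `j`. -/
theorem N_bitR (j : Fin d) : ∀ (l : List (Fin d)) (_ : j ∉ l) (c : Coins d) (x : Cube d),
    N l c (bitR j x) = bitR j (N l (cR j c) x)
  | [], _, _, _ => rfl
  | i :: l, hj, c, x => by
    have hi : i ≠ j := fun h => hj (h ▸ List.mem_cons_self)
    have hl : j ∉ l := fun h => hj (List.mem_cons_of_mem _ h)
    simp only [N, Equiv.Perm.coe_mul, Function.comp_apply]
    rw [flipAt_bitR i j hi, N_bitR j l hl]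
    rfl

/-- The restriction to the slice. -/
def mm (j : Fin d) (l : List (Fin d)) (hj : j ∉ l) (c : Coins d) : Perm (Sl j) :=
  (N l c).subtypePerm (fun y => by rw [N_apply_of_notMem l c y j hj])

@[simp] theorem mm_coe (j : Fin d) (l : List (Fin d)) (hj : j ∉ l) (c : Coins d) (y : Sl j) :
    ((mm j l hj c y : Sl j) : Cube d) = N l c y.1 := rfl

theorem N_conj (j : Fin d) (l : List (Fin d)) (hj : j ∉ l) (c : Coins d) :
    (cubeSplit j).permCongr (N l c) = iota 0 (mm j l hj c) * iota 1 (mm j l hj (cR j c)) := by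
  ext1 p
  obtain ⟨b, y⟩ := p
  have hb : ∀ b : Fin 2, b = 0 ∨ b = 1 := by decide
  rcases hb b with rfl | rfl
  · have h10 : (0 : Fin 2) ≠ 1 := by decide
    simp only [Equiv.permCongr_apply, cubeSplit_symm_apply, update_slice, Equiv.Perm.coe_mul,
      Function.comp_apply, Vale.Agent.Lib.P162.iota_apply_ne h10,
      Vale.Agent.Lib.P162.iota_apply_same]
    refine Prod.ext ?_ (Subtype.ext ?_)
    · simp [N_apply_of_notMem l c y.1 j hj, y.2]
    · simp only [cubeSplit_apply, mm_coe]
      exact update_of_eq _ _ _ (by rw [N_apply_of_notMem l c y.1 j hj, y.2])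
  · have h10 : (1 : Fin 2) ≠ 0 := by decide
    have hupd : Function.update y.1 j 1 = bitR j y.1 := by
      rw [bitR_eq, y.2]
      rfl
    simp only [Equiv.permCongr_apply, cubeSplit_symm_apply, Equiv.Perm.coe_mul,
      Function.comp_apply, Vale.Agent.Lib.P162.iota_apply_same,
      Vale.Agent.Lib.P162.iota_apply_ne h10]
    rw [hupd, N_bitR j l hj]
    have hz : N l (cR j c) y.1 j = 0 := by rw [N_apply_of_notMem l _ y.1 j hj, y.2]
    refine Prod.ext ?_ (Subtype.ext ?_)
    · simp [bitR_eq, hz]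
    · simp only [cubeSplit_apply, mm_coe, bitR_eq, Function.update_idem]
      exact update_of_eq _ _ _ hz

/-! ### Independence of the slices -/

/-- The flips on a slice only see the coins at arguments in that slice. -/
theorem N_congr_slice (j : Fin d) : ∀ (l : List (Fin d)) (_ : j ∉ l) (c c' : Coins d)
    (_ : ∀ i z, z j = 0 → c i z = c' i z) (y : Cube d) (_ : y j = 0), N l c y = N l c' y
  | [], _, _, _, _, _, _ => rfl
  | i :: l, hj, c, c', h, y, hy => by
    have hi : i ≠ j := fun h => hj (h ▸ List.mem_cons_self)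
    have hl : j ∉ l := fun h => hj (List.mem_cons_of_mem _ h)
    simp only [N, Equiv.Perm.coe_mul, Function.comp_apply]
    have h1 : flipAt i (c i) y = flipAt i (c' i) y := by
      simp only [Vale.Agent.Lib.P162.flipAt_apply]
      rw [h i _ (by rw [Function.update_of_ne hi.symm]; exact hy)]
    rw [h1]
    refine N_congr_slice j l hl c c' h _ ?_
    simp only [Vale.Agent.Lib.P162.flipAt_apply]
    rw [Function.update_of_ne hi.symm]
    exact hy

theorem mm_congr (j : Fin d) (l : List (Fin d)) (hj : j ∉ l) (c c' : Coins d)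
    (h : ∀ i z, z j = 0 → c i z = c' i z) : mm j l hj c = mm j l hj c' := by
  ext1 y
  exact Subtype.ext (N_congr_slice j l hj c c' h y.1 y.2)

theorem bitR_bitR (j : Fin d) (x : Cube d) : bitR j (bitR j x) = x := by
  have : ∀ a : Fin 2, a + 1 + 1 = a := by decide
  simp [bitR_eq, this]

theorem bitR_self (j : Fin d) (x : Cube d) : bitR j x j = x j + 1 := by
  simp [bitR_eq]

theorem bitR_ne_zero (j : Fin d) (z : Cube d) (hz : z j = 0) : bitR j z j ≠ 0 := by
  rw [bitR_self, hz]
  decide

theorem bitR_zero (j : Fin d) (z : Cube d) (hz : z j ≠ 0) : bitR j z j = 0 := by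
  rw [bitR_self]
  have : ∀ a : Fin 2, a ≠ 0 → a + 1 = 0 := by decide
  exact this _ hz

/-- Exchange of slices between two coin systems. -/
def swapSlFun (j : Fin d) (q : Coins d × Coins d) : Coins d × Coins d :=
  (fun i x => if x j = 0 then q.1 i x else q.2 i (bitR j x),
   fun i x => if x j = 0 then q.1 i (bitR j x) else q.2 i x)

theorem swapSlFun_invol (j : Fin d) : Function.Involutive (swapSlFun j) := by
  rintro ⟨a, b⟩
  refine Prod.ext ?_ ?_
  · funext i x
    by_cases hx : x j = 0
    · simp [swapSlFun, hx]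
    · simp [swapSlFun, hx, bitR_zero j x hx, bitR_bitR]
  · funext i x
    by_cases hx : x j = 0
    · simp [swapSlFun, hx, bitR_ne_zero j x hx, bitR_bitR]
    · simp [swapSlFun, hx]

def swapSl (j : Fin d) : Perm (Coins d × Coins d) :=
  Function.Involutive.toPerm (swapSlFun j) (swapSlFun_invol j)

theorem mm_swapSl_fst (j : Fin d) (l : List (Fin d)) (hj : j ∉ l) (q : Coins d × Coins d) :
    mm j l hj (swapSl j q).1 = mm j l hj q.1 := by
  refine mm_congr j l hj _ _ fun i z hz => ?_
  change (if z j = 0 then q.1 i z else q.2 i (bitR j z)) = q.1 i z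
  simp [hz]

theorem mm_swapSl_snd (j : Fin d) (l : List (Fin d)) (hj : j ∉ l) (q : Coins d × Coins d) :
    mm j l hj (cR j (swapSl j q).1) = mm j l hj q.2 := by
  refine mm_congr j l hj _ _ fun i z hz => ?_
  change (if bitR j z j = 0 then q.1 i (bitR j z) else q.2 i (bitR j (bitR j z))) = q.2 i z
  simp [bitR_ne_zero j z hz, bitR_bitR]

/-- First form of the law: two independent coin systems versus the two slices of one system. -/
theorem law_slices (j : Fin d) (l : List (Fin d)) (hj : j ∉ l) (Φ : Perm (Sl j) → Perm (Sl j) → ℝ) :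
    Ex (fun c : Coins d => Φ (mm j l hj c) (mm j l hj (cR j c)))
      = Ex (fun q : Coins d × Coins d => Φ (mm j l hj q.1) (mm j l hj q.2)) := by
  have h1 := Ex_equiv (swapSl j) (fun q : Coins d × Coins d =>
    Φ (mm j l hj q.1) (mm j l hj (cR j q.1)))
  simp only [mm_swapSl_fst, mm_swapSl_snd] at h1
  rw [h1, Ex_prod]
  simp only [Ex_const]

/-- The translation of the coin at `j` on the slice. -/
def sigmaC (j : Fin d) (s : Sl j → Fin 2) : Coins d :=
  fun i x => if h : i = j ∧ x j = 0 then s ⟨x, h.2⟩ else 0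

/-- The coin at `j` on the slice. -/
def sc (j : Fin d) (c : Coins d) : Sl j → Fin 2 := fun y => c j y.1

theorem sc_add (j : Fin d) (s : Sl j → Fin 2) (c : Coins d) :
    sc j (c + sigmaC j s) = sc j c + s := by
  funext y
  simp [sc, sigmaC, y.2]

theorem mm_add (j : Fin d) (l : List (Fin d)) (hj : j ∉ l) (s : Sl j → Fin 2) (c : Coins d) :
    mm j l hj (c + sigmaC j s) = mm j l hj c := by
  ext1 y
  refine Subtype.ext ?_
  simp only [mm_coe]
  rw [N_congr l _ c]
  intro i hi
  have hij : i ≠ j := fun h => hj (h ▸ hi)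
  funext x
  simp [sigmaC, hij]

theorem mm_cR_add (j : Fin d) (l : List (Fin d)) (hj : j ∉ l) (s : Sl j → Fin 2) (c : Coins d) :
    mm j l hj (cR j (c + sigmaC j s)) = mm j l hj (cR j c) := by
  ext1 y
  refine Subtype.ext ?_
  simp only [mm_coe]
  rw [N_congr l _ (cR j c)]
  intro i hi
  have hij : i ≠ j := fun h => hj (h ▸ hi)
  funext x
  simp [cR, sigmaC, hij]

/-- One copy of the law of the column coin and the two slices. -/
theorem law_one (j : Fin d) (l : List (Fin d)) (hj : j ∉ l)
    (Ψ : (Sl j → Fin 2) → Perm (Sl j) → Perm (Sl j) → ℝ) :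
    Ex (fun c : Coins d => Ψ (sc j c) (mm j l hj c) (mm j l hj (cR j c)))
      = Ex (fun s : Sl j → Fin 2 => Ex (fun q : Coins d × Coins d =>
          Ψ s (mm j l hj q.1) (mm j l hj q.2))) := by
  have h1 := Ex_section (sc j) (fun s => Equiv.addRight (sigmaC j s))
    (fun s c => by simp only [Equiv.coe_addRight]; exact sc_add j s c)
    (fun s c => Ψ s (mm j l hj c) (mm j l hj (cR j c)))
    (fun s s' c => by
      simp only [Equiv.coe_addRight]
      rw [mm_add, mm_cR_add])
  rw [h1]
  simp only [law_slices j l hj (Ψ _)]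

theorem iota_comm {Y : Type*} [DecidableEq Y] (x y : Perm Y) :
    iota 0 x * iota 1 y = iota 1 y * iota 0 x := by
  have h10 : (1 : Fin 2) ≠ 0 := by decide
  have h01 : (0 : Fin 2) ≠ 1 := by decide
  ext1 p
  obtain ⟨b, z⟩ := p
  have hb : ∀ b : Fin 2, b = 0 ∨ b = 1 := by decide
  rcases hb b with rfl | rfl
  · simp [Vale.Agent.Lib.P162.iota_apply_ne h01]
  · simp [Vale.Agent.Lib.P162.iota_apply_ne h10]

theorem iota_pair_inv_mul {Y : Type*} [DecidableEq Y] (x y x' y' : Perm Y) :
    (iota 0 x * iota 1 y)⁻¹ * (iota 0 x' * iota 1 y') = iota 0 (x⁻¹ * x') * iota 1 (y⁻¹ * y') := by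
  simp only [map_mul, map_inv, mul_inv_rev]
  calc (iota 1 y)⁻¹ * (iota 0 x)⁻¹ * (iota 0 x' * iota 1 y')
      = (iota 0 x)⁻¹ * (iota 1 y)⁻¹ * (iota 0 x' * iota 1 y') := by
        have : (iota 1 y)⁻¹ * (iota 0 x)⁻¹ = (iota 0 x)⁻¹ * (iota 1 y)⁻¹ := by
          have := iota_comm x y
          rw [← mul_inv_rev, ← mul_inv_rev, this]
        rw [this]
    _ = (iota 0 x)⁻¹ * ((iota 1 y)⁻¹ * iota 0 x') * iota 1 y' := by group
    _ = (iota 0 x)⁻¹ * (iota 0 x' * (iota 1 y)⁻¹) * iota 1 y' := by
        have : (iota 1 y)⁻¹ * iota 0 x' = iota 0 x' * (iota 1 y)⁻¹ := by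
          have := iota_comm x' y
          rw [eq_mul_inv_iff_mul_eq, mul_assoc, this, ← mul_assoc, inv_mul_cancel, one_mul]
        rw [this]
    _ = (iota 0 x)⁻¹ * iota 0 x' * ((iota 1 y)⁻¹ * iota 1 y') := by group

/-- Patterns on one slice extend by zero. -/
theorem Ecyc_slice (τ : ℕ) {Y : Type*} [Fintype Y] [DecidableEq Y] (v : Y → ℝ) (h0 : ∀ y, 0 ≤ v y)
    (a b : Perm Y) :
    Ecyc τ v a ≤ Ecyc τ (fun p : Fin 2 × Y => if p.1 = 0 then v p.2 else 0) (iota 0 a * iota 1 b) := by
  classical
  set W : Fin 2 × Y → ℝ := fun p => if p.1 = 0 then v p.2 else 0 with hW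
  have hW0 : ∀ p, 0 ≤ W p := by
    intro p
    simp only [hW]
    split_ifs
    · exact h0 _
    · exact le_rfl
  let ext : (Y → Fin (τ + 1)) → (Fin 2 × Y → Fin (τ + 1)) := fun g p => if p.1 = 0 then g p.2 else 0
  have hinj : Function.Injective ext := by
    intro g g' h
    funext y
    have := congrFun h (0, y)
    simpa [ext] using this
  have hwt : ∀ g, Wt W (ext g) = Wt v g := by
    intro g
    unfold Wt
    rw [Fintype.prod_prod_type, Fin.prod_univ_two]
    simp [ext, hW]
  have h01 : (0 : Fin 2) ≠ 1 := by decide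
  have h10 : (1 : Fin 2) ≠ 0 := by decide
  have hinv : ∀ g, (∀ y, g (a y) = g y) →
      ∀ p, ext g ((iota 0 a * iota 1 b) p) = ext g p := by
    intro g hg p
    obtain ⟨c, z⟩ := p
    have hb : ∀ b : Fin 2, b = 0 ∨ b = 1 := by decide
    rcases hb c with rfl | rfl
    · simp [Vale.Agent.Lib.P162.iota_apply_ne h01, ext, hg]
    · simp [Vale.Agent.Lib.P162.iota_apply_ne h10, ext]
  unfold Ecyc
  calc ∑ g, Wt v g * (if ∀ y, g (a y) = g y then 1 else 0)
      ≤ ∑ g, Wt W (ext g) * (if ∀ p, ext g ((iota 0 a * iota 1 b) p) = ext g p then 1 else 0) := by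
        refine Finset.sum_le_sum fun g _ => ?_
        rw [hwt]
        refine mul_le_mul_of_nonneg_left ?_ (Wt_nonneg h0 g)
        by_cases hg : ∀ y, g (a y) = g y
        · rw [if_pos hg, if_pos (hinv g hg)]
        · rw [if_neg hg]
          split_ifs
          · exact zero_le_one
          · exact le_rfl
    _ = ∑ G ∈ Finset.univ.image ext,
          Wt W G * (if ∀ p, G ((iota 0 a * iota 1 b) p) = G p then 1 else 0) := by
        rw [Finset.sum_image (fun _ _ _ _ h => hinj h)]
    _ ≤ ∑ G, Wt W G * (if ∀ p, G ((iota 0 a * iota 1 b) p) = G p then 1 else 0) := by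
        refine Finset.sum_le_univ_sum_of_nonneg fun G => ?_
        refine mul_nonneg (Wt_nonneg hW0 G) ?_
        split_ifs
        · exact zero_le_one
        · exact le_rfl

/-! ### The induction -/

theorem permCongr_mul {X X' : Type*} (e : X ≃ X') (p q : Perm X) :
    e.permCongr (p * q) = e.permCongr p * e.permCongr q := by
  ext1 x
  simp [Equiv.permCongr_apply]

theorem permCongr_inv {X X' : Type*} (e : X ≃ X') (p : Perm X) :
    e.permCongr p⁻¹ = (e.permCongr p)⁻¹ := by
  ext1 x
  simp only [Equiv.permCongr_apply]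
  rw [Equiv.Perm.eq_inv_iff_eq]
  simp [Equiv.permCongr_apply]

/-- The slice bound from the induction hypothesis. -/
theorem EE_mm_le (τ : ℕ) (j : Fin d) (l : List (Fin d)) (hj : j ∉ l) (B : ℝ)
    (IH : ∀ w : Cube d → ℝ, (∀ y, 0 ≤ w y) → (∀ y, w y ≤ 1) →
      Ex (fun p : Coins d × Coins d => Ecyc τ w ((N l p.1)⁻¹ * N l p.2))
        ≤ Real.exp (B * ∑ y, w y))
    (v : Sl j → ℝ) (h0 : ∀ y, 0 ≤ v y) (h1 : ∀ y, v y ≤ 1) :
    EE τ (mm j l hj) v ≤ Real.exp (B * ∑ y, v y) := by
  set W : Fin 2 × Sl j → ℝ := fun p => if p.1 = 0 then v p.2 else 0 with hW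
  have hW0 : ∀ p, 0 ≤ W (cubeSplit j p) := by
    intro p
    simp only [hW]
    split_ifs
    · exact h0 _
    · exact le_rfl
  have hW1 : ∀ p, W (cubeSplit j p) ≤ 1 := by
    intro p
    simp only [hW]
    split_ifs
    · exact h1 _
    · exact zero_le_one
  have hsum : ∑ y, W (cubeSplit j y) = ∑ y, v y := by
    rw [Equiv.sum_comp (cubeSplit j) W, Fintype.sum_prod_type, Fin.sum_univ_two]
    simp [hW]
  rw [← hsum]
  refine le_trans ?_ (IH (fun y => W (cubeSplit j y)) hW0 hW1)
  unfold EE
  refine Ex_mono fun p => ?_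
  have h2 := Ecyc_slice τ v h0 ((mm j l hj p.1)⁻¹ * mm j l hj p.2)
    ((mm j l hj (cR j p.1))⁻¹ * mm j l hj (cR j p.2))
  refine le_trans h2 (le_of_eq ?_)
  rw [Ecyc_conj τ (cubeSplit j) (fun y => W (cubeSplit j y)) ((N l p.1)⁻¹ * N l p.2)]
  rw [permCongr_mul, permCongr_inv, N_conj j l hj, N_conj j l hj, iota_pair_inv_mul]
  congr 1
  funext q
  change W q = W (cubeSplit j ((cubeSplit j).symm q))
  rw [Equiv.apply_symm_apply]

/-- **KW**: the cycle count bound for a window of layers in general position. -/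
theorem KW (τ : ℕ) (l : List (Fin d)) (hl : l.Nodup) (w : Cube d → ℝ) (h0 : ∀ y, 0 ≤ w y)
    (h1 : ∀ y, w y ≤ 1) :
    Ex (fun p : Coins d × Coins d => Ecyc τ w ((N l p.1)⁻¹ * N l p.2))
      ≤ Real.exp (τ * (3 / 4 : ℝ) ^ l.length * ∑ y, w y) := by
  induction l generalizing w with
  | nil =>
    have h2 : (fun p : Coins d × Coins d => Ecyc τ w ((N [] p.1)⁻¹ * N [] p.2))
        = fun _ => Ecyc τ w 1 := by
      funext p
      simp [N]
    rw [h2, Ex_const]
    simpa using Ecyc_one_le τ w h0
  | cons j l ih =>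
    have hj : j ∉ l := (List.nodup_cons.mp hl).1
    have hl' : l.Nodup := (List.nodup_cons.mp hl).2
    have ih' := ih hl'
    set B : ℝ := τ * (3 / 4 : ℝ) ^ l.length with hB
    set w' : Fin 2 × Sl j → ℝ := w ∘ (cubeSplit j).symm with hw'
    have hw'0 : ∀ p, 0 ≤ w' p := fun p => h0 _
    have hw'1 : ∀ p, w' p ≤ 1 := fun p => h1 _
    -- the transport
    have hkey : ∀ c c' : Coins d, Ecyc τ w ((N (j :: l) c)⁻¹ * N (j :: l) c') =
        Ecyc τ w' ((flip (sc j c))⁻¹ *
          (iota 0 (mm j l hj c) * iota 1 (mm j l hj (cR j c)))⁻¹ *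
          (iota 0 (mm j l hj c') * iota 1 (mm j l hj (cR j c'))) * flip (sc j c')) := by
      intro c c'
      rw [Ecyc_conj τ (cubeSplit j) w]
      congr 1
      simp only [N, mul_inv_rev, permCongr_mul, permCongr_inv, N_conj j l hj, flip_conj]
      simp only [mul_assoc]
      rfl
    -- the law
    have hlaw : Ex (fun p : Coins d × Coins d => Ecyc τ w ((N (j :: l) p.1)⁻¹ * N (j :: l) p.2))
        = EEplus τ (mm j l hj) w' := by
      simp only [hkey]
      rw [Ex_prod]
      have h2 : ∀ c : Coins d, Ex (fun c' : Coins d => Ecyc τ w' ((flip (sc j c))⁻¹ *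
          (iota 0 (mm j l hj c) * iota 1 (mm j l hj (cR j c)))⁻¹ *
          (iota 0 (mm j l hj c') * iota 1 (mm j l hj (cR j c'))) * flip (sc j c')))
          = Ex (fun s' : Sl j → Fin 2 => Ex (fun q' : Coins d × Coins d =>
            Ecyc τ w' ((flip (sc j c))⁻¹ *
              (iota 0 (mm j l hj c) * iota 1 (mm j l hj (cR j c)))⁻¹ *
              (iota 0 (mm j l hj q'.1) * iota 1 (mm j l hj q'.2)) * flip s'))) := by
        intro c
        exact law_one j l hj (fun s' x y => Ecyc τ w' ((flip (sc j c))⁻¹ *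
              (iota 0 (mm j l hj c) * iota 1 (mm j l hj (cR j c)))⁻¹ *
              (iota 0 x * iota 1 y) * flip s'))
      simp only [h2]
      rw [law_one j l hj (fun s x y => Ex (fun s' : Sl j → Fin 2 => Ex (fun q' : Coins d × Coins d =>
            Ecyc τ w' ((flip s)⁻¹ * (iota 0 x * iota 1 y)⁻¹ *
              (iota 0 (mm j l hj q'.1) * iota 1 (mm j l hj q'.2)) * flip s'))))]
      unfold EEplus
      rw [Ex_prod]
      simp only [Ex_prod (C := Sl j → Fin 2) (C' := Sl j → Fin 2)]
      refine congrArg Ex (funext fun s => ?_)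
      simp only [Ex_prod (C := Coins d × Coins d) (C' := Coins d × Coins d)]
      exact Ex_comm _
    rw [hlaw]
    refine le_trans (step_lemma τ (mm j l hj) w' hw'0 hw'1) ?_
    -- the two factors
    have hE1 := EE_mm_le τ j l hj B (fun w h0 h1 => ih' w h0 h1)
      (fun y => (w' (0, y) + w' (1, y)) / 2)
      (fun y => by have := hw'0 (0, y); have := hw'0 (1, y); positivity)
      (fun y => by have := hw'1 (0, y); have := hw'1 (1, y); linarith)
    have hE2 := EE_mm_le τ j l hj B (fun w h0 h1 => ih' w h0 h1)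
      (fun y => (w' (0, y) + w' (1, y)) / 4)
      (fun y => by have := hw'0 (0, y); have := hw'0 (1, y); positivity)
      (fun y => by have := hw'1 (0, y); have := hw'1 (1, y); linarith)
    have hsum : ∑ y, w y = ∑ y : Sl j, (w' (0, y) + w' (1, y)) := by
      have h3 : ∑ y, w y = ∑ p, w' p := by
        rw [hw']
        exact (Equiv.sum_comp (cubeSplit j).symm w).symm
      rw [h3, Fintype.sum_prod_type, Fin.sum_univ_two, Finset.sum_add_distrib]
    have hE2nn : 0 ≤ EE τ (mm j l hj) (fun y => (w' (0, y) + w' (1, y)) / 4) := by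
      refine Ex_nonneg fun p => Ecyc_nonneg τ (fun y => ?_) _
      have := hw'0 (0, y); have := hw'0 (1, y); positivity
    refine le_trans (mul_le_mul hE1 hE2 hE2nn (Real.exp_pos _).le) ?_
    rw [← Real.exp_add]
    refine le_of_eq (congrArg Real.exp ?_)
    rw [hsum, ← mul_add, ← Finset.sum_add_distrib, List.length_cons, pow_succ]
    rw [Finset.mul_sum, Finset.mul_sum]
    refine Finset.sum_congr rfl fun y _ => ?_
    rw [hB]
    ring

/-- The form used in the window bound: conjugation by a fixed permutation `L` and indicator weight. -/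
theorem KW_conj (τ : ℕ) (l : List (Fin d)) (hl : l.Nodup) (L : Perm (Cube d)) (B : Finset (Cube d)) :
    Ex (fun p : Coins d × Coins d =>
        Ecyc τ (fun y => if y ∈ B then (1 : ℝ) else 0) (L⁻¹ * ((N l p.1)⁻¹ * N l p.2) * L))
      ≤ Real.exp (τ * (3 / 4 : ℝ) ^ l.length * B.card) := by
  have h1 := KW τ l hl (fun y => if L⁻¹ y ∈ B then (1 : ℝ) else 0)
    (fun y => by split_ifs <;> norm_num) (fun y => by split_ifs <;> norm_num)
  have hsum : ∑ y, (if L⁻¹ y ∈ B then (1 : ℝ) else 0) = B.card := by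
    rw [Equiv.sum_comp (L⁻¹) (fun y => if y ∈ B then (1 : ℝ) else 0)]
    simp
  rw [hsum] at h1
  refine le_trans (le_of_eq ?_) h1
  refine congrArg Ex (funext fun p => ?_)
  have h2 := Ecyc_conj τ (L⁻¹ : Perm (Cube d)) (fun y => if L⁻¹ y ∈ B then (1 : ℝ) else 0)
    ((N l p.1)⁻¹ * N l p.2)
  rw [h2]
  congr 1
  funext y
  have h3 : (Equiv.symm L) ((Equiv.symm L⁻¹) y) = y := by
    change L⁻¹ (L y) = y
    simp
  simp only [Function.comp_apply]
  change _ = if (Equiv.symm L) ((Equiv.symm L⁻¹) y) ∈ B then (1 : ℝ) else 0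
  rw [h3]

end Vale.Agent.Lib.P162T
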