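import Vale.Agent.Lib.P162T.Basic
import Vale.Agent.Lib.P162.Layer

/-!
# P162T: the abstract key step (section 1 of notes/P162_blueprint.md)

Patterns `g : Y → Fin (τ + 1)`; colour `0` is special.  `Ecyc τ w p` is the weighted number of patterns
fixed by the permutation `p`.
-/

namespace Vale.Agent.Lib.P162T

open Equiv Finset
open Vale.Agent.Lib.P162 (flip iota)

section

variable {Y : Type*} [Fintype Y] [DecidableEq Y]

/-- The weight of a pattern. -/
noncomputable def Wt {τ : ℕ} (w : Y → ℝ) (g : Y → Fin (τ + 1)) : ℝ :=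
  ∏ y, if g y = 0 then 1 else w y

/-- The weighted number of patterns fixed by `p`.  For `w = 1_B` it is `(τ+1)^(cycles of p in B)`. -/
noncomputable def Ecyc (τ : ℕ) (w : Y → ℝ) (p : Perm Y) : ℝ :=
  ∑ g : Y → Fin (τ + 1), Wt w g * if (∀ y, g (p y) = g y) then 1 else 0

variable {I : Type*} [Fintype I]

/-- The average of `Ecyc` over `(m i)⁻¹ * m i'`. -/
noncomputable def EE (τ : ℕ) (m : I → Perm Y) (w : Y → ℝ) : ℝ :=
  Ex (fun p : I × I => Ecyc τ w ((m p.1)⁻¹ * m p.2))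

/-- The average over the doubled system `s'(m₀ ⊔ m₁)s`. -/
noncomputable def EEplus (τ : ℕ) (m : I → Perm Y) (w : Fin 2 × Y → ℝ) : ℝ :=
  Ex (fun q : ((Y → Fin 2) × (Y → Fin 2)) × ((I × I) × (I × I)) =>
    Ecyc τ w ((flip q.1.1)⁻¹ * (iota 0 (m q.2.1.1) * iota 1 (m q.2.1.2))⁻¹
      * (iota 0 (m q.2.2.1) * iota 1 (m q.2.2.2)) * flip q.1.2))

/-- Sub-lemma (c): `Lambda ≤ E * R` for a symmetric nonnegative kernel `G` with
`G(u,u')² ≤ G(u,u) G(u',u')` and weights `D` in `[0,1]`. -/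
theorem hs_bound {U : Type*} [Fintype U] (G : U → U → ℝ) (D : U → ℝ)
    (hsymm : ∀ u u', G u u' = G u' u) (h0 : ∀ u u', 0 ≤ G u u')
    (hcs : ∀ u u', G u u' ^ 2 ≤ G u u * G u' u')
    (hD0 : ∀ u, 0 ≤ D u) (hD1 : ∀ u, D u ≤ 1) (R : ℝ) (hR : ∀ u, ∑ u', G u u' ≤ R) :
    ∑ u, ∑ u', D u * D u' * (G u u' * G u' u) ≤ (∑ u, D u * G u u) * R := by
  -- the arithmetic mean bound
  have havg : ∀ u u', G u u' ≤ (G u u + G u' u') / 2 := by
    intro u u'
    by_contra h
    push Not at h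
    have h1 := h0 u u
    have h2 := h0 u' u'
    have h3 := hcs u u'
    nlinarith [sq_nonneg (G u u - G u' u'), mul_pos (sub_pos.mpr h)
      (show 0 < G u u' + (G u u + G u' u') / 2 by linarith [h0 u u'])]
  have hterm : ∀ u u', D u * D u' * (G u u' * G u' u) ≤
      D u * D u' * (G u u' * ((G u u + G u' u') / 2)) := by
    intro u u'
    rw [← hsymm u u']
    exact mul_le_mul_of_nonneg_left
      (mul_le_mul_of_nonneg_left (havg u u') (h0 u u')) (mul_nonneg (hD0 u) (hD0 u'))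
  have hA : (∑ u, ∑ u', D u * D u' * (G u u' * G u' u')) =
      ∑ u, ∑ u', D u * D u' * (G u u' * G u u) := by
    rw [Finset.sum_comm]
    refine Finset.sum_congr rfl fun u _ => Finset.sum_congr rfl fun u' _ => ?_
    rw [hsymm u' u]
    ring
  calc ∑ u, ∑ u', D u * D u' * (G u u' * G u' u)
      ≤ ∑ u, ∑ u', D u * D u' * (G u u' * ((G u u + G u' u') / 2)) :=
        Finset.sum_le_sum fun u _ => Finset.sum_le_sum fun u' _ => hterm u u'
    _ = ∑ u, ∑ u', D u * D u' * (G u u' * G u u) := by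
        have h1 : ∀ u u', D u * D u' * (G u u' * ((G u u + G u' u') / 2)) =
            (D u * D u' * (G u u' * G u u) + D u * D u' * (G u u' * G u' u')) / 2 := by
          intro u u'; ring
        have h2 : (∑ u, ∑ u', (D u * D u' * (G u u' * G u u) + D u * D u' * (G u u' * G u' u')) / 2)
            = ((∑ u, ∑ u', D u * D u' * (G u u' * G u u)) +
                ∑ u, ∑ u', D u * D u' * (G u u' * G u' u')) / 2 := by
          rw [← Finset.sum_add_distrib, Finset.sum_div]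
          refine Finset.sum_congr rfl fun u _ => ?_
          rw [← Finset.sum_add_distrib, Finset.sum_div]
        simp_rw [h1]
        rw [h2, hA]
        ring
    _ = ∑ u, (D u * G u u) * ∑ u', D u' * G u u' := by
        refine Finset.sum_congr rfl fun u _ => ?_
        rw [Finset.mul_sum]
        refine Finset.sum_congr rfl fun u' _ => ?_
        ring
    _ ≤ ∑ u, (D u * G u u) * R := by
        refine Finset.sum_le_sum fun u _ => ?_
        refine mul_le_mul_of_nonneg_left ?_ (mul_nonneg (hD0 u) (h0 u u))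
        refine le_trans ?_ (hR u)
        refine Finset.sum_le_sum fun u' _ => ?_
        have := hD1 u'
        have := h0 u u'
        nlinarith
    _ = (∑ u, D u * G u u) * R := by rw [Finset.sum_mul]

/-- The points whose forward orbit ksAvoids `S`. -/
def ksAvoid (S : Finset Y) (p : Perm Y) (y : Y) : Prop := ∀ n : ℕ, (p ^ n) y ∉ S

omit [DecidableEq Y] in
theorem ksAvoid_iff (S : Finset Y) (p : Perm Y) (y : Y) : ksAvoid S p (p y) ↔ ksAvoid S p y := by
  constructor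
  · intro h n
    -- y is a forward iterate of p y
    have hord : 0 < orderOf p := orderOf_pos p
    obtain ⟨k, hk⟩ : ∃ k, orderOf p = k + 1 := Nat.exists_eq_succ_of_ne_zero hord.ne'
    have h1 : (p ^ (n + k)) (p y) = (p ^ n) y := by
      have h2 : p ^ (n + k) * p = p ^ n := by
        rw [← pow_succ, add_assoc, ← hk, pow_add, pow_orderOf_eq_one, mul_one]
      rw [← Equiv.Perm.mul_apply, h2]
    rw [← h1]
    exact h _
  · intro h n
    have h1 : (p ^ n) (p y) = (p ^ (n + 1)) y := by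
      rw [pow_succ, Equiv.Perm.mul_apply]
    rw [h1]
    exact h _

/-- Sub-lemma (d): the injection. -/
theorem row_sum_bound {τ : ℕ} (w : Y → ℝ) (h0 : ∀ y, 0 ≤ w y) (h1 : ∀ y, w y ≤ 1) (S : Finset Y)
    (p : Perm Y) (u : Y → Fin (τ + 1)) :
    (∑ g : Y → Fin (τ + 1), if (∀ y ∈ S, g y = u y) ∧ (∀ y, y ∉ S → g (p y) = g y) then
        (∏ y ∈ Sᶜ, if g y = 0 then 1 else w y) else 0)
      ≤ Ecyc τ (fun y => if y ∈ S then 0 else w y) p := by
  classical
  set w' : Y → ℝ := fun y => if y ∈ S then 0 else w y with hw'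
  have hw'0 : ∀ y, 0 ≤ w' y := by
    intro y
    simp only [hw']
    split_ifs
    · exact le_rfl
    · exact h0 y
  -- the map
  let Φ : (Y → Fin (τ + 1)) → (Y → Fin (τ + 1)) := fun g y => if ksAvoid S p y then g y else 0
  set A : Finset (Y → Fin (τ + 1)) :=
    Finset.univ.filter (fun g => (∀ y ∈ S, g y = u y) ∧ (∀ y, y ∉ S → g (p y) = g y)) with hA
  set F : (Y → Fin (τ + 1)) → ℝ := fun g => Wt w' g * if (∀ y, g (p y) = g y) then 1 else 0 with hF
  have hF0 : ∀ g, 0 ≤ F g := by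
    intro g
    refine mul_nonneg (Finset.prod_nonneg fun y _ => ?_) (by split_ifs <;> norm_num)
    split_ifs
    · norm_num
    · exact hw'0 y
  -- invariance of the image
  have hinv : ∀ g ∈ A, ∀ y, Φ g (p y) = Φ g y := by
    intro g hg y
    have hg' := (Finset.mem_filter.mp hg).2
    simp only [Φ]
    by_cases hy : ksAvoid S p y
    · rw [if_pos ((ksAvoid_iff S p y).mpr hy), if_pos hy]
      have hyS : y ∉ S := by
        have := hy 0
        simpa using this
      exact hg'.2 y hyS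
    · rw [if_neg (fun h => hy ((ksAvoid_iff S p y).mp h)), if_neg hy]
  -- the weights
  have hwt : ∀ g ∈ A, (∏ y ∈ Sᶜ, if g y = 0 then 1 else w y) ≤ F (Φ g) := by
    intro g hg
    simp only [hF]
    rw [if_pos (hinv g hg), mul_one]
    unfold Wt
    rw [← Finset.prod_mul_prod_compl S]
    have hS : ∏ y ∈ S, (if Φ g y = 0 then (1 : ℝ) else w' y) = 1 := by
      refine Finset.prod_eq_one fun y hy => ?_
      have hna : ¬ ksAvoid S p y := fun h => h 0 (by simpa using hy)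
      have : Φ g y = 0 := by simp only [Φ]; rw [if_neg hna]
      rw [if_pos this]
    rw [hS, one_mul]
    refine Finset.prod_le_prod ?_ ?_
    · intro y _
      split_ifs
      · norm_num
      · exact h0 y
    · intro y hy
      have hyS : y ∉ S := by simpa using hy
      by_cases ha : ksAvoid S p y
      · have : Φ g y = g y := by simp only [Φ]; rw [if_pos ha]
        rw [this]
        simp only [hw']
        rw [if_neg hyS]
      · have : Φ g y = 0 := by simp only [Φ]; rw [if_neg ha]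
        rw [if_pos this]
        split_ifs
        · exact le_rfl
        · exact h1 y
  -- injectivity
  have hinj : Set.InjOn Φ (A : Set (Y → Fin (τ + 1))) := by
    intro g1 hg1 g2 hg2 heq
    have hg1' := (Finset.mem_filter.mp (Finset.mem_coe.mp hg1)).2
    have hg2' := (Finset.mem_filter.mp (Finset.mem_coe.mp hg2)).2
    have hiter : ∀ n : ℕ, ∀ y, (p ^ n) y ∈ S → g1 y = g2 y := by
      intro n
      induction n with
      | zero =>
        intro y hy
        have : y ∈ S := by simpa using hy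
        rw [hg1'.1 y this, hg2'.1 y this]
      | succ n ih =>
        intro y hy
        by_cases hyS : y ∈ S
        · rw [hg1'.1 y hyS, hg2'.1 y hyS]
        · have h2 : (p ^ n) (p y) ∈ S := by
            rw [pow_succ, Equiv.Perm.mul_apply] at hy
            exact hy
          rw [← hg1'.2 y hyS, ← hg2'.2 y hyS]
          exact ih _ h2
    funext y
    by_cases ha : ksAvoid S p y
    · have := congrFun heq y
      simp only [Φ] at this
      rwa [if_pos ha, if_pos ha] at this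
    · simp only [ksAvoid] at ha
      push Not at ha
      obtain ⟨n, hn⟩ := ha
      exact hiter n y hn
  -- assemble
  have hLHS : (∑ g : Y → Fin (τ + 1), if (∀ y ∈ S, g y = u y) ∧ (∀ y, y ∉ S → g (p y) = g y) then
        (∏ y ∈ Sᶜ, if g y = 0 then 1 else w y) else 0) =
      ∑ g ∈ A, ∏ y ∈ Sᶜ, if g y = 0 then 1 else w y := by
    rw [hA, Finset.sum_filter]
  rw [hLHS]
  calc ∑ g ∈ A, ∏ y ∈ Sᶜ, (if g y = 0 then 1 else w y)
      ≤ ∑ g ∈ A, F (Φ g) := Finset.sum_le_sum hwt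
    _ = ∑ g' ∈ A.image Φ, F g' := (Finset.sum_image hinj).symm
    _ ≤ ∑ g', F g' := Finset.sum_le_sum_of_subset_of_nonneg (Finset.subset_univ _)
        (fun g _ _ => hF0 g)
    _ = Ecyc τ w' p := rfl

/-- Sub-lemma (e): averaging over the random set `S = {s = 1}` halves the weight. -/
theorem avg_kill (τ : ℕ) (w : Y → ℝ) (p : Perm Y) :
    Ex (fun s : Y → Fin 2 => Ecyc τ (fun y => if s y = 1 then 0 else w y) p)
      = Ecyc τ (fun y => w y / 2) p := by
  classical
  have hcard : (Fintype.card (Y → Fin 2) : ℝ) = 2 ^ Fintype.card Y := by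
    simp
  have hone : ∀ g : Y → Fin (τ + 1),
      (∑ s : Y → Fin 2, Wt (fun y => if s y = 1 then 0 else w y) g) / (2 : ℝ) ^ Fintype.card Y =
        Wt (fun y => w y / 2) g := by
    intro g
    unfold Wt
    have h1 := Finset.prod_univ_sum (fun _ : Y => (Finset.univ : Finset (Fin 2)))
      (fun (y : Y) (b : Fin 2) => if g y = 0 then (1 : ℝ) else if b = 1 then 0 else w y)
    rw [Fintype.piFinset_univ] at h1
    rw [← h1]
    have h2 : (2 : ℝ) ^ Fintype.card Y = ∏ _y : Y, (2 : ℝ) := by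
      simp
    rw [h2, ← Finset.prod_div_distrib]
    refine Finset.prod_congr rfl fun y _ => ?_
    rw [Fin.sum_univ_two]
    by_cases hg : g y = 0
    · simp [hg]
    · simp [hg]
  unfold Ex Ecyc
  rw [hcard, Finset.sum_comm, Finset.sum_div]
  refine Finset.sum_congr rfl fun g _ => ?_
  rw [← Finset.sum_mul, div_eq_mul_inv, mul_right_comm, ← div_eq_mul_inv, hone]

/-- The weight of a pattern on the doubled space. -/
lemma Wt_two {τ : ℕ} (w : Fin 2 × Y → ℝ) (g : Fin 2 × Y → Fin (τ + 1)) :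
    Wt w g = ∏ y, ((if g (0, y) = 0 then 1 else w (0, y)) * (if g (1, y) = 0 then 1 else w (1, y))) := by
  unfold Wt
  rw [Fintype.prod_prod_type_right]
  simp [Fin.prod_univ_two]

lemma Wt_flip_comp {τ : ℕ} (w : Fin 2 × Y → ℝ) (g : Fin 2 × Y → Fin (τ + 1)) (s : Y → Fin 2) :
    Wt w (g ∘ flip s) = ∏ y, ((if g (0 + s y, y) = 0 then 1 else w (0, y)) * (if g (1 + s y, y) = 0 then 1 else w (1, y))) := by
  rw [Wt_two]
  rfl

/-- The local inequality of the symmetrisation. -/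
lemma local_sym {τ : ℕ} (a b : Fin (τ + 1)) (x y : ℝ) :
    ((if a = 0 then (1:ℝ) else x) * (if b = 0 then 1 else y) + (if b = 0 then (1:ℝ) else x) * (if a = 0 then 1 else y)) / 2
      ≤ (if a = 0 then (1:ℝ) else (x + y) / 2) * (if b = 0 then 1 else (x + y) / 2) := by
  by_cases ha : a = 0 <;> by_cases hb : b = 0 <;> simp only [ha, hb, if_true, if_false] <;>
    nlinarith [sq_nonneg (x - y)]

lemma avg_Wt_flip {τ : ℕ} (w : Fin 2 × Y → ℝ) (h0 : ∀ p, 0 ≤ w p) (g : Fin 2 × Y → Fin (τ + 1)) :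
    Ex (fun s : Y → Fin 2 => Wt w (g ∘ flip s))
      ≤ Wt (fun p : Fin 2 × Y => (w (0, p.2) + w (1, p.2)) / 2) g := by
  have hsum : ∑ s : Y → Fin 2, Wt w (g ∘ flip s)
      = ∏ y, ∑ t : Fin 2, ((if g (0 + t, y) = 0 then 1 else w (0, y)) * (if g (1 + t, y) = 0 then 1 else w (1, y))) := by
    rw [Finset.prod_univ_sum, Fintype.piFinset_univ]
    refine Finset.sum_congr rfl (fun s _ => ?_)
    rw [Wt_flip_comp]
  unfold Ex
  rw [hsum]
  have hcard : ((Fintype.card (Y → Fin 2) : ℕ) : ℝ) = ∏ _y : Y, (2:ℝ) := by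
    simp
  rw [hcard, ← Finset.prod_div_distrib, Wt_two]
  refine Finset.prod_le_prod (fun y _ => ?_) (fun y _ => ?_)
  · refine div_nonneg (Finset.sum_nonneg (fun t _ => mul_nonneg ?_ ?_)) (by norm_num)
    · split_ifs
      · exact zero_le_one
      · exact h0 _
    · split_ifs
      · exact zero_le_one
      · exact h0 _
  · rw [Fin.sum_univ_two]
    have h11 : (1 : Fin 2) + 1 = 0 := by decide
    simp only [add_zero, zero_add, h11]
    exact local_sym (g (0, y)) (g (1, y)) (w (0, y)) (w (1, y))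

/-- Reindexing patterns by a permutation of the points. -/
def patEquiv {X Z : Type*} (σ : Perm X) : (X → Z) ≃ (X → Z) :=
  (Equiv.arrowCongr σ.symm (Equiv.refl Z))

@[simp] lemma patEquiv_apply {X Z : Type*} (σ : Perm X) (g : X → Z) : patEquiv σ g = g ∘ σ := by
  funext x
  simp [patEquiv, Equiv.arrowCongr]


/-- Sub-lemma (a), the local symmetrisation: for a function `ψ ≥ 0` of patterns on `Fin 2 × Y`
invariant under all flips, replacing `w` by its average over the two points of each column does not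
decrease the weighted sum. -/
theorem symmetrise {τ : ℕ} (w : Fin 2 × Y → ℝ) (h0 : ∀ p, 0 ≤ w p) (ψ : (Fin 2 × Y → Fin (τ + 1)) → ℝ)
    (hψ0 : ∀ g, 0 ≤ ψ g) (hψ : ∀ (s : Y → Fin 2) g, ψ (g ∘ flip s) = ψ g) :
    ∑ g, Wt w g * ψ g ≤ ∑ g, Wt (fun p : Fin 2 × Y => (w (0, p.2) + w (1, p.2)) / 2) g * ψ g := by
  have h1 : ∀ s : Y → Fin 2, ∑ g, Wt w g * ψ g = ∑ g, Wt w (g ∘ flip s) * ψ g := by
    intro s
    rw [← Equiv.sum_comp (patEquiv (flip s))]
    refine Finset.sum_congr rfl (fun g _ => ?_)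
    rw [patEquiv_apply, hψ]
  have h2 : ∑ g, Wt w g * ψ g = ∑ g, Ex (fun s : Y → Fin 2 => Wt w (g ∘ flip s)) * ψ g := by
    have h3 : ∑ g, Wt w g * ψ g = Ex (fun s : Y → Fin 2 => ∑ g, Wt w g * ψ g) := (Ex_const _).symm
    rw [h3]
    have h4 : Ex (fun s : Y → Fin 2 => ∑ g, Wt w g * ψ g)
        = Ex (fun s : Y → Fin 2 => ∑ g, Wt w (g ∘ flip s) * ψ g) := by
      congr 1
      funext s
      exact h1 s
    rw [h4, Ex_sum]
    refine Finset.sum_congr rfl (fun g _ => ?_)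
    have h5 : (fun s : Y → Fin 2 => Wt w (g ∘ flip s) * ψ g) = fun s => ψ g * Wt w (g ∘ flip s) := by
      funext s; ring
    rw [h5, Ex_mul_left]
    ring
  rw [h2]
  refine Finset.sum_le_sum (fun g _ => ?_)
  exact mul_le_mul_of_nonneg_right (avg_Wt_flip w h0 g) (hψ0 g)


section step

variable {I : Type*} [Fintype I] {τ : ℕ}

/-- Averaging does not care about the order of the variables. -/
lemma ks_Ex_comm {C C' : Type*} [Fintype C] [Fintype C'] (F : C → C' → ℝ) :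
    Ex (fun c => Ex (fun c' => F c c')) = Ex (fun c' => Ex (fun c => F c c')) := by
  have h1 := Ex_prod (C := C) (C' := C') (fun p => F p.1 p.2)
  have h2 := Ex_prod (C := C') (C' := C) (fun p => F p.2 p.1)
  have h3 := Ex_equiv (Equiv.prodComm C C') (fun p : C' × C => F p.2 p.1)
  simp only [Equiv.prodComm_apply, Prod.fst_swap, Prod.snd_swap] at h3
  rw [← h1, ← h2, ← h3]

lemma ks_Ex_mul_right {C : Type*} [Fintype C] (F : C → ℝ) (a : ℝ) :
    Ex (fun c => F c * a) = Ex F * a := by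
  have := Ex_mul_left a F
  rw [mul_comm, ← this]
  congr 1
  funext c
  ring

/-- The collision formula. -/
lemma ks_sum_Ex_mul_Ex {Q Q' Z : Type*} [Fintype Q] [Fintype Q'] [Fintype Z] [DecidableEq Z]
    (f : Q → Z) (f' : Q' → Z) :
    ∑ H, Ex (fun a => if f a = H then (1:ℝ) else 0) * Ex (fun b => if f' b = H then (1:ℝ) else 0)
      = Ex (fun p : Q × Q' => if f p.1 = f' p.2 then (1:ℝ) else 0) := by
  rw [Ex_prod]
  simp only []
  have h1 : ∀ H, Ex (fun a => if f a = H then (1:ℝ) else 0)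
      * Ex (fun b => if f' b = H then (1:ℝ) else 0)
      = Ex (fun a => (if f a = H then (1:ℝ) else 0) * Ex (fun b => if f' b = H then (1:ℝ) else 0)) :=
    fun H => (ks_Ex_mul_right _ _).symm
  simp_rw [h1]
  rw [← Ex_sum]
  congr 1
  funext a
  rw [Finset.sum_eq_single (f a)]
  · simp only [if_true, one_mul]
    congr 1
    funext b
    exact if_congr eq_comm rfl rfl
  · intro H _ hH
    rw [if_neg (Ne.symm hH), zero_mul]
  · intro h
    exact absurd (Finset.mem_univ _) h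

/-- `ksA m g h` is the probability that `g ∘ (m i)⁻¹ = h`. -/
noncomputable def ksA (m : I → Perm Y) (g h : Y → Fin (τ + 1)) : ℝ :=
  Ex (fun i : I => if (fun y => g ((m i)⁻¹ y)) = h then (1:ℝ) else 0)

/-- The Gram kernel. -/
noncomputable def ksB (m : I → Perm Y) (g g' : Y → Fin (τ + 1)) : ℝ :=
  ∑ h, ksA m g h * ksA m g' h

lemma ksA_nonneg (m : I → Perm Y) (g h : Y → Fin (τ + 1)) : 0 ≤ ksA m g h := by
  refine Ex_nonneg (fun i => ?_)
  split_ifs <;> norm_num

lemma ksB_nonneg (m : I → Perm Y) (g g' : Y → Fin (τ + 1)) : 0 ≤ ksB m g g' :=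
  Finset.sum_nonneg (fun h _ => mul_nonneg (ksA_nonneg m g h) (ksA_nonneg m g' h))

lemma ksB_symm (m : I → Perm Y) (g g' : Y → Fin (τ + 1)) : ksB m g g' = ksB m g' g := by
  unfold ksB
  exact Finset.sum_congr rfl (fun h _ => mul_comm _ _)

lemma ksB_eq (m : I → Perm Y) (g g' : Y → Fin (τ + 1)) :
    ksB m g g' = Ex (fun p : I × I => if ∀ y, g (((m p.1)⁻¹ * m p.2) y) = g' y then (1:ℝ) else 0) := by
  unfold ksB ksA
  rw [ks_sum_Ex_mul_Ex (fun i => fun y => g ((m i)⁻¹ y)) (fun i => fun y => g' ((m i)⁻¹ y))]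
  congr 1
  funext p
  refine if_congr ?_ rfl rfl
  constructor
  · intro h y
    have := congrFun h (m p.2 y)
    simpa using this
  · intro h
    funext y
    have := h ((m p.2)⁻¹ y)
    simpa using this

lemma ks_Wt_nonneg (w : Y → ℝ) (h0 : ∀ y, 0 ≤ w y) (g : Y → Fin (τ + 1)) : 0 ≤ Wt w g := by
  refine Finset.prod_nonneg (fun y _ => ?_)
  split_ifs
  · exact zero_le_one
  · exact h0 y

/-- The slice `b` of a pattern on the doubled space. -/
def ksSl {F : Type*} (b : Fin 2) (g : Fin 2 × Y → F) : Y → F := fun y => g (b, y)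

/-- The two slices of a pattern on the doubled space. -/
def ksSlEquiv (F : Type*) : (Fin 2 × Y → F) ≃ (Y → F) × (Y → F) where
  toFun g := (ksSl 0 g, ksSl 1 g)
  invFun p := fun x => if x.1 = 0 then p.1 x.2 else p.2 x.2
  left_inv g := by
    funext ⟨b, y⟩
    fin_cases b <;> simp [ksSl]
  right_inv p := by
    ext y <;> simp [ksSl]

/-- The doubled permutation. -/
def ksM (m : I → Perm Y) (i : I × I) : Perm (Fin 2 × Y) := iota 0 (m i.1) * iota 1 (m i.2)

lemma ksM_inv_zero (m : I → Perm Y) (i : I × I) (y : Y) :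
    (ksM m i)⁻¹ (0, y) = (0, (m i.1)⁻¹ y) := by
  unfold ksM
  rw [mul_inv_rev, ← map_inv, ← map_inv, Perm.mul_apply, Vale.Agent.Lib.P162.iota_apply_same,
    Vale.Agent.Lib.P162.iota_apply_ne (b := 1) (b' := 0) (by decide)]

lemma ksM_inv_one (m : I → Perm Y) (i : I × I) (y : Y) :
    (ksM m i)⁻¹ (1, y) = (1, (m i.2)⁻¹ y) := by
  unfold ksM
  rw [mul_inv_rev, ← map_inv, ← map_inv, Perm.mul_apply,
    Vale.Agent.Lib.P162.iota_apply_ne (b := 0) (b' := 1) (by decide),
    Vale.Agent.Lib.P162.iota_apply_same]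

/-- The tensor square of `ksA`. -/
noncomputable def ksA2 (m : I → Perm Y) (g H : Fin 2 × Y → Fin (τ + 1)) : ℝ :=
  ksA m (ksSl 0 g) (ksSl 0 H) * ksA m (ksSl 1 g) (ksSl 1 H)

lemma ksA2_nonneg (m : I → Perm Y) (g H : Fin 2 × Y → Fin (τ + 1)) : 0 ≤ ksA2 m g H :=
  mul_nonneg (ksA_nonneg _ _ _) (ksA_nonneg _ _ _)

lemma ks_Ex_M (m : I → Perm Y) (g H : Fin 2 × Y → Fin (τ + 1)) :
    Ex (fun i : I × I => if (fun x => g ((ksM m i)⁻¹ x)) = H then (1:ℝ) else 0) = ksA2 m g H := by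
  rw [Ex_prod]
  unfold ksA2 ksA
  have h1 : ∀ a b : I, ((fun x => g ((ksM m (a, b))⁻¹ x)) = H)
      ↔ ((fun y => ksSl 0 g ((m a)⁻¹ y)) = ksSl 0 H) ∧ ((fun y => ksSl 1 g ((m b)⁻¹ y)) = ksSl 1 H) := by
    intro a b
    constructor
    · intro h
      constructor
      · funext y
        have := congrFun h (0, y)
        simpa [ksM_inv_zero, ksSl] using this
      · funext y
        have := congrFun h (1, y)
        simpa [ksM_inv_one, ksSl] using this
    · rintro ⟨h0, h1⟩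
      funext ⟨b', y⟩
      fin_cases b'
      · have := congrFun h0 y
        simpa [ksM_inv_zero, ksSl] using this
      · have := congrFun h1 y
        simpa [ksM_inv_one, ksSl] using this
  have h2 : ∀ a b : I, (if (fun x => g ((ksM m (a, b))⁻¹ x)) = H then (1:ℝ) else 0)
      = (if (fun y => ksSl 0 g ((m a)⁻¹ y)) = ksSl 0 H then (1:ℝ) else 0)
        * (if (fun y => ksSl 1 g ((m b)⁻¹ y)) = ksSl 1 H then (1:ℝ) else 0) := by
    intro a b
    by_cases h : (fun x => g ((ksM m (a, b))⁻¹ x)) = H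
    · obtain ⟨h3, h4⟩ := (h1 a b).1 h
      rw [if_pos h, if_pos h3, if_pos h4, one_mul]
    · rw [if_neg h]
      by_cases h3 : (fun y => ksSl 0 g ((m a)⁻¹ y)) = ksSl 0 H
      · have h4 : ¬ (fun y => ksSl 1 g ((m b)⁻¹ y)) = ksSl 1 H := fun h4 => h ((h1 a b).2 ⟨h3, h4⟩)
        rw [if_neg h4, mul_zero]
      · rw [if_neg h3, zero_mul]
  simp only [h2]
  simp_rw [Ex_mul_left]
  rw [ks_Ex_mul_right]

lemma ks_flip_inv (s : Y → Fin 2) : (flip s)⁻¹ = flip s := rfl

lemma ks_flip_flip (s : Y → Fin 2) (x : Fin 2 × Y) : flip s (flip s x) = x := by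
  have : (flip s)⁻¹ (flip s x) = x := by simp
  rwa [ks_flip_inv] at this

lemma ks_flip_comp (s t : Y → Fin 2) (x : Fin 2 × Y) : flip t (flip s x) = flip (s + t) x := by
  obtain ⟨b, y⟩ := x
  simp [add_assoc]

/-- The transition of a pattern under the random doubled map, with the flip. -/
def ksT (m : I → Perm Y) (a : (Y → Fin 2) × (I × I)) (g : Fin 2 × Y → Fin (τ + 1)) :
    Fin 2 × Y → Fin (τ + 1) :=
  fun x => g (flip a.1 ((ksM m a.2)⁻¹ x))

/-- The flip averaged transition probability. -/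
noncomputable def ksPsi (m : I → Perm Y) (g H : Fin 2 × Y → Fin (τ + 1)) : ℝ :=
  Ex (fun a : (Y → Fin 2) × (I × I) => if ksT m a g = H then (1:ℝ) else 0)

lemma ksPsi_eq (m : I → Perm Y) (g H : Fin 2 × Y → Fin (τ + 1)) :
    ksPsi m g H = Ex (fun s : Y → Fin 2 => ksA2 m (g ∘ flip s) H) := by
  unfold ksPsi
  rw [Ex_prod]
  congr 1
  funext s
  exact ks_Ex_M m (g ∘ flip s) H

lemma ksPsi_nonneg (m : I → Perm Y) (g H : Fin 2 × Y → Fin (τ + 1)) : 0 ≤ ksPsi m g H := by
  rw [ksPsi_eq]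
  exact Ex_nonneg (fun s => ksA2_nonneg _ _ _)

lemma ksPsi_inv (m : I → Perm Y) (t : Y → Fin 2) (g H : Fin 2 × Y → Fin (τ + 1)) :
    ksPsi m (g ∘ flip t) H = ksPsi m g H := by
  rw [ksPsi_eq, ksPsi_eq]
  rw [← Ex_equiv (Equiv.addRight t) (fun s => ksA2 m (g ∘ flip s) H)]
  congr 1
  funext s
  congr 1
  funext x
  simp only [Function.comp, Equiv.coe_addRight]
  rw [ks_flip_comp]

/-- The expansion of `EEplus`. -/
lemma ks_EEplus_eq (m : I → Perm Y) (w : Fin 2 × Y → ℝ) :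
    EEplus τ m w = ∑ g : Fin 2 × Y → Fin (τ + 1), Wt w g * ∑ H, ksPsi m g H ^ 2 := by
  unfold EEplus Ecyc
  rw [Ex_sum]
  refine Finset.sum_congr rfl (fun g _ => ?_)
  rw [Ex_mul_left]
  congr 1
  have h1 : ∀ H, ksPsi m g H ^ 2 = Ex (fun a : (Y → Fin 2) × (I × I) => if ksT m a g = H then (1:ℝ) else 0)
      * Ex (fun a : (Y → Fin 2) × (I × I) => if ksT m a g = H then (1:ℝ) else 0) := by
    intro H
    rw [sq]
    rfl
  simp_rw [h1]
  rw [ks_sum_Ex_mul_Ex (fun a : (Y → Fin 2) × (I × I) => ksT m a g) (fun a => ksT m a g)]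
  rw [← Ex_equiv (Equiv.prodProdProdComm (Y → Fin 2) (Y → Fin 2) (I × I) (I × I))
    (fun p : ((Y → Fin 2) × (I × I)) × ((Y → Fin 2) × (I × I)) =>
      if ksT m p.1 g = ksT m p.2 g then (1:ℝ) else 0)]
  congr 1
  funext q
  refine if_congr ?_ rfl rfl
  simp only [Equiv.prodProdProdComm_apply, Perm.mul_apply]
  change (∀ y, g ((flip q.1.1)⁻¹ ((ksM m q.2.1)⁻¹ (ksM m q.2.2 (flip q.1.2 y)))) = g y) ↔ _
  constructor
  · intro h
    funext x
    have e1 : ksM m q.2.2 (flip q.1.2 (flip q.1.2 ((ksM m q.2.2)⁻¹ x))) = x := by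
      rw [ks_flip_flip]; simp
    have := h (flip q.1.2 ((ksM m q.2.2)⁻¹ x))
    rw [e1, ks_flip_inv] at this
    exact this
  · intro h y
    have := congrFun h (ksM m q.2.2 (flip q.1.2 y))
    change g (flip q.1.1 ((ksM m q.2.1)⁻¹ (ksM m q.2.2 (flip q.1.2 y))))
      = g (flip q.1.2 ((ksM m q.2.2)⁻¹ (ksM m q.2.2 (flip q.1.2 y)))) at this
    have e2 : (ksM m q.2.2)⁻¹ (ksM m q.2.2 (flip q.1.2 y)) = flip q.1.2 y := by simp
    rw [e2, ks_flip_flip] at this
    rw [ks_flip_inv]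
    exact this


lemma ks_Wt_col_flip (v : Y → ℝ) (g : Fin 2 × Y → Fin (τ + 1)) (s : Y → Fin 2) :
    Wt (fun p : Fin 2 × Y => v p.2) (g ∘ flip s) = Wt (fun p : Fin 2 × Y => v p.2) g := by
  unfold Wt
  rw [← Equiv.prod_comp (flip s) (fun p : Fin 2 × Y => if g p = 0 then (1:ℝ) else v p.2)]
  rfl

lemma ks_comp_flip_flip (g : Fin 2 × Y → Fin (τ + 1)) (s : Y → Fin 2) :
    (g ∘ flip s) ∘ flip s = g := by
  funext x
  simp [Function.comp, ks_flip_flip]

/-- The symmetrised expansion of the square. -/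
lemma ks_sym_sum (m : I → Perm Y) (v : Y → ℝ) (H : Fin 2 × Y → Fin (τ + 1)) :
    ∑ g : Fin 2 × Y → Fin (τ + 1), Wt (fun p : Fin 2 × Y => v p.2) g * ksPsi m g H ^ 2
      = Ex (fun s : Y → Fin 2 => ∑ g : Fin 2 × Y → Fin (τ + 1),
          Wt (fun p : Fin 2 × Y => v p.2) g * (ksA2 m g H * ksA2 m (g ∘ flip s) H)) := by
  set W : (Fin 2 × Y → Fin (τ + 1)) → ℝ := fun g => Wt (fun p : Fin 2 × Y => v p.2) g with hW
  have hA : ∀ s : Y → Fin 2, ∑ g, W g * (ksPsi m g H * ksA2 m (g ∘ flip s) H)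
      = ∑ g, W g * (ksPsi m g H * ksA2 m g H) := by
    intro s
    rw [← Equiv.sum_comp (patEquiv (flip s))]
    refine Finset.sum_congr rfl (fun g _ => ?_)
    rw [patEquiv_apply, ks_comp_flip_flip, ksPsi_inv, hW]
    simp only [ks_Wt_col_flip]
  have h1 : ∑ g, W g * ksPsi m g H ^ 2 = ∑ g, W g * (ksPsi m g H * ksA2 m g H) := by
    have h2 : ∑ g, W g * ksPsi m g H ^ 2
        = Ex (fun s : Y → Fin 2 => ∑ g, W g * (ksPsi m g H * ksA2 m (g ∘ flip s) H)) := by
      rw [Ex_sum]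
      refine Finset.sum_congr rfl (fun g _ => ?_)
      rw [Ex_mul_left, Ex_mul_left, sq]
      congr 2
      exact ksPsi_eq m g H
    rw [h2]
    simp_rw [hA]
    exact Ex_const _
  rw [h1, Ex_sum]
  refine Finset.sum_congr rfl (fun g _ => ?_)
  rw [Ex_mul_left]
  congr 1
  rw [ksPsi_eq, mul_comm, ← Ex_mul_left]

lemma ks_Sl_symm0 {F : Type*} (p : (Y → F) × (Y → F)) : ksSl 0 ((ksSlEquiv F).symm p) = p.1 :=
  congrArg Prod.fst ((ksSlEquiv F).apply_symm_apply p)

lemma ks_Sl_symm1 {F : Type*} (p : (Y → F) × (Y → F)) : ksSl 1 ((ksSlEquiv F).symm p) = p.2 :=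
  congrArg Prod.snd ((ksSlEquiv F).apply_symm_apply p)

lemma ks_sum_A2 (m : I → Perm Y) (g g' : Fin 2 × Y → Fin (τ + 1)) :
    ∑ H, ksA2 m g H * ksA2 m g' H
      = ksB m (ksSl 0 g) (ksSl 0 g') * ksB m (ksSl 1 g) (ksSl 1 g') := by
  unfold ksB ksA2
  rw [Finset.sum_mul_sum, ← Equiv.sum_comp (ksSlEquiv (Fin (τ + 1))).symm, Fintype.sum_prod_type]
  refine Finset.sum_congr rfl (fun a _ => Finset.sum_congr rfl (fun b _ => ?_))
  rw [ks_Sl_symm0, ks_Sl_symm1]
  ring

/-- The weight of a doubled pattern with column weights. -/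
lemma ks_Wt_col (v : Y → ℝ) (g : Fin 2 × Y → Fin (τ + 1)) :
    Wt (fun p : Fin 2 × Y => v p.2) g = Wt v (ksSl 0 g) * Wt v (ksSl 1 g) := by
  rw [Wt_two]
  unfold Wt ksSl
  rw [← Finset.prod_mul_distrib]

/-- Take the pattern `b` on `S` and `a` elsewhere. -/
def ksMix (S : Finset Y) {F : Type*} (a b : Y → F) : Y → F := fun y => if y ∈ S then b y else a y

/-- Glue patterns on `S` and off `S`. -/
def ksMg (S : Finset Y) {F : Type*} (u : {y // y ∈ S} → F) (z : {y // ¬ y ∈ S} → F) : Y → F :=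
  fun y => if h : y ∈ S then u ⟨y, h⟩ else z ⟨y, h⟩

lemma ksMg_mem (S : Finset Y) {F : Type*} (u : {y // y ∈ S} → F) (z : {y // ¬ y ∈ S} → F) {y : Y}
    (h : y ∈ S) : ksMg S u z y = u ⟨y, h⟩ := dif_pos h

lemma ksMg_not (S : Finset Y) {F : Type*} (u : {y // y ∈ S} → F) (z : {y // ¬ y ∈ S} → F) {y : Y}
    (h : ¬ y ∈ S) : ksMg S u z y = z ⟨y, h⟩ := dif_neg h

lemma ks_sum_split (S : Finset Y) {F : Type*} [Fintype F] [DecidableEq F] (f : (Y → F) → ℝ) :
    ∑ a, f a = ∑ u : {y // y ∈ S} → F, ∑ z : {y // ¬ y ∈ S} → F, f (ksMg S u z) := by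
  rw [← Equiv.sum_comp (Equiv.piEquivPiSubtypeProd (· ∈ S) (fun _ => F)).symm, Fintype.sum_prod_type]
  refine Finset.sum_congr rfl (fun u _ => Finset.sum_congr rfl (fun z _ => ?_))
  congr 1

lemma ks_mix_mg (S : Finset Y) {F : Type*} (u u' : {y // y ∈ S} → F) (z z' : {y // ¬ y ∈ S} → F) :
    ksMix S (ksMg S u z) (ksMg S u' z') = ksMg S u' z := by
  funext y
  unfold ksMix
  by_cases h : y ∈ S
  · rw [if_pos h, ksMg_mem S _ _ h, ksMg_mem S _ _ h]
  · rw [if_neg h, ksMg_not S _ _ h, ksMg_not S _ _ h]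

/-- Weight of the part on `S`. -/
noncomputable def ksD (S : Finset Y) (v : Y → ℝ) (u : {y // y ∈ S} → Fin (τ + 1)) : ℝ :=
  ∏ y : {y // y ∈ S}, if u y = 0 then 1 else v y

/-- Weight of the part off `S`. -/
noncomputable def ksZw (S : Finset Y) (v : Y → ℝ) (z : {y // ¬ y ∈ S} → Fin (τ + 1)) : ℝ :=
  ∏ y : {y // ¬ y ∈ S}, if z y = 0 then 1 else v y

lemma ks_Wt_mg (S : Finset Y) (v : Y → ℝ) (u : {y // y ∈ S} → Fin (τ + 1))
    (z : {y // ¬ y ∈ S} → Fin (τ + 1)) : Wt v (ksMg S u z) = ksD S v u * ksZw S v z := by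
  unfold Wt ksD ksZw
  rw [← Fintype.prod_subtype_mul_prod_subtype (· ∈ S)]
  congr 1
  · refine Finset.prod_congr (by ext x; simp only [Finset.mem_univ]) (fun y _ => ?_)
    rw [ksMg_mem S _ _ y.2]
  · refine Finset.prod_congr (by ext x; simp only [Finset.mem_univ]) (fun y _ => ?_)
    rw [ksMg_not S _ _ y.2]

lemma ksD_nonneg (S : Finset Y) (v : Y → ℝ) (h0 : ∀ y, 0 ≤ v y) (u : {y // y ∈ S} → Fin (τ + 1)) :
    0 ≤ ksD S v u := by
  refine Finset.prod_nonneg (fun y _ => ?_)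
  split_ifs
  · exact zero_le_one
  · exact h0 _

lemma ksZw_nonneg (S : Finset Y) (v : Y → ℝ) (h0 : ∀ y, 0 ≤ v y) (z : {y // ¬ y ∈ S} → Fin (τ + 1)) :
    0 ≤ ksZw S v z := by
  refine Finset.prod_nonneg (fun y _ => ?_)
  split_ifs
  · exact zero_le_one
  · exact h0 _

lemma ksD_le_one (S : Finset Y) (v : Y → ℝ) (h0 : ∀ y, 0 ≤ v y) (h1 : ∀ y, v y ≤ 1)
    (u : {y // y ∈ S} → Fin (τ + 1)) : ksD S v u ≤ 1 := by
  refine Finset.prod_le_one (fun y _ => ?_) (fun y _ => ?_)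
  · split_ifs
    · exact zero_le_one
    · exact h0 _
  · split_ifs
    · exact le_refl _
    · exact h1 _

/-- The row kernel. -/
noncomputable def ksG (m : I → Perm Y) (S : Finset Y) (v : Y → ℝ) (u u' : {y // y ∈ S} → Fin (τ + 1)) : ℝ :=
  ∑ z : {y // ¬ y ∈ S} → Fin (τ + 1), ksZw S v z * ksB m (ksMg S u z) (ksMg S u' z)

lemma ksG_nonneg (m : I → Perm Y) (S : Finset Y) (v : Y → ℝ) (h0 : ∀ y, 0 ≤ v y)
    (u u' : {y // y ∈ S} → Fin (τ + 1)) : 0 ≤ ksG m S v u u' :=
  Finset.sum_nonneg (fun z _ => mul_nonneg (ksZw_nonneg S v h0 z) (ksB_nonneg _ _ _))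

lemma ksG_symm (m : I → Perm Y) (S : Finset Y) (v : Y → ℝ)
    (u u' : {y // y ∈ S} → Fin (τ + 1)) : ksG m S v u u' = ksG m S v u' u := by
  unfold ksG
  refine Finset.sum_congr rfl (fun z _ => ?_)
  rw [ksB_symm]

lemma ksG_cs (m : I → Perm Y) (S : Finset Y) (v : Y → ℝ) (h0 : ∀ y, 0 ≤ v y)
    (u u' : {y // y ∈ S} → Fin (τ + 1)) :
    ksG m S v u u' ^ 2 ≤ ksG m S v u u * ksG m S v u' u' := by
  have key : ∀ a b : {y // y ∈ S} → Fin (τ + 1), ksG m S v a b
      = ∑ x : ({y // ¬ y ∈ S} → Fin (τ + 1)) × (Y → Fin (τ + 1)),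
        ksZw S v x.1 * (ksA m (ksMg S a x.1) x.2 * ksA m (ksMg S b x.1) x.2) := by
    intro a b
    rw [Fintype.sum_prod_type]
    refine Finset.sum_congr rfl (fun z _ => ?_)
    unfold ksB
    rw [Finset.mul_sum]
  rw [key u u', key u u, key u' u']
  refine Finset.sum_sq_le_sum_mul_sum_of_sq_le_mul _ (fun x _ => ?_) (fun x _ => ?_) (fun x _ => ?_)
  · exact mul_nonneg (ksZw_nonneg S v h0 _) (mul_nonneg (ksA_nonneg _ _ _) (ksA_nonneg _ _ _))
  · exact mul_nonneg (ksZw_nonneg S v h0 _) (mul_nonneg (ksA_nonneg _ _ _) (ksA_nonneg _ _ _))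
  · exact le_of_eq (by ring)

/-- The row sum bound, for a fixed permutation. -/
lemma ks_row (S : Finset Y) (v : Y → ℝ) (h0 : ∀ y, 0 ≤ v y) (h1 : ∀ y, v y ≤ 1) (P : Perm Y)
    (u : {y // y ∈ S} → Fin (τ + 1)) :
    ∑ u' : {y // y ∈ S} → Fin (τ + 1), ∑ z : {y // ¬ y ∈ S} → Fin (τ + 1),
        ksZw S v z * (if ∀ y, ksMg S u z (P y) = ksMg S u' z y then (1:ℝ) else 0)
      ≤ Ecyc τ (fun y => if y ∈ S then 0 else v y) P := by
  set uu : Y → Fin (τ + 1) := ksMg S u (fun _ => 0) with huu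
  refine le_trans ?_ (row_sum_bound v h0 h1 S P uu)
  rw [ks_sum_split S]
  have hnn : ∀ (a : {y // y ∈ S} → Fin (τ + 1)), 0 ≤ ∑ z : {y // ¬ y ∈ S} → Fin (τ + 1),
      (if (∀ y ∈ S, ksMg S a z y = uu y) ∧ (∀ y, y ∉ S → ksMg S a z (P y) = ksMg S a z y) then
        (∏ y ∈ Sᶜ, if ksMg S a z y = 0 then 1 else v y) else 0) := by
    intro a
    refine Finset.sum_nonneg (fun z _ => ?_)
    split_ifs
    · refine Finset.prod_nonneg (fun y _ => ?_)
      split_ifs
      · exact zero_le_one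
      · exact h0 _
    · exact le_refl _
  refine le_trans ?_ (Finset.single_le_sum (fun a _ => hnn a) (Finset.mem_univ u))
  rw [Finset.sum_comm]
  refine Finset.sum_le_sum (fun z _ => ?_)
  have hprod : (∏ y ∈ Sᶜ, if ksMg S u z y = 0 then 1 else v y) = ksZw S v z := by
    unfold ksZw
    rw [Finset.prod_subtype (Sᶜ) (p := fun y => ¬ y ∈ S) (fun x => by simp)]
    refine Finset.prod_congr rfl (fun y _ => ?_)
    rw [ksMg_not S _ _ y.2]
  by_cases hex : ∃ u0 : {y // y ∈ S} → Fin (τ + 1), ∀ y, ksMg S u z (P y) = ksMg S u0 z y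
  · obtain ⟨u0, hu0⟩ := hex
    have hcond : (∀ y ∈ S, ksMg S u z y = uu y) ∧ (∀ y, y ∉ S → ksMg S u z (P y) = ksMg S u z y) := by
      constructor
      · intro y hy
        rw [huu, ksMg_mem S _ _ hy, ksMg_mem S _ _ hy]
      · intro y hy
        rw [hu0 y, ksMg_not S _ _ hy, ksMg_not S _ _ hy]
    rw [if_pos hcond, hprod]
    rw [Finset.sum_eq_single u0]
    · rw [if_pos hu0, mul_one]
    · intro b _ hb
      rw [if_neg, mul_zero]
      intro hbb
      apply hb
      funext y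
      have h2 := hu0 y.1
      have h3 := hbb y.1
      rw [ksMg_mem S _ _ y.2] at h2 h3
      exact h3.symm.trans h2
    · intro h
      exact absurd (Finset.mem_univ _) h
  · have hzero : ∑ u' : {y // y ∈ S} → Fin (τ + 1),
        ksZw S v z * (if ∀ y, ksMg S u z (P y) = ksMg S u' z y then (1:ℝ) else 0) = 0 := by
      refine Finset.sum_eq_zero (fun b _ => ?_)
      rw [if_neg (fun h => hex ⟨b, h⟩), mul_zero]
    rw [hzero]
    split_ifs
    · refine Finset.prod_nonneg (fun y _ => ?_)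
      split_ifs
      · exact zero_le_one
      · exact h0 _
    · exact le_refl _

/-- The Lambda bound for a fixed set `S`. -/
lemma ks_Lambda (m : I → Perm Y) (v : Y → ℝ) (h0 : ∀ y, 0 ≤ v y) (h1 : ∀ y, v y ≤ 1) (S : Finset Y) :
    ∑ a : Y → Fin (τ + 1), ∑ b : Y → Fin (τ + 1), Wt v a * Wt v b
        * (ksB m a (ksMix S a b) * ksB m b (ksMix S b a))
      ≤ EE τ m v * Ex (fun p : I × I =>
          Ecyc τ (fun y => if y ∈ S then 0 else v y) ((m p.1)⁻¹ * m p.2)) := by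
  have hL : ∑ a : Y → Fin (τ + 1), ∑ b : Y → Fin (τ + 1), Wt v a * Wt v b
        * (ksB m a (ksMix S a b) * ksB m b (ksMix S b a))
      = ∑ u : {y // y ∈ S} → Fin (τ + 1), ∑ u', ksD S v u * ksD S v u' * (ksG m S v u u' * ksG m S v u' u) := by
    rw [ks_sum_split S]
    refine Finset.sum_congr rfl (fun u _ => ?_)
    have : ∀ z : {y // ¬ y ∈ S} → Fin (τ + 1), ∑ b : Y → Fin (τ + 1), Wt v (ksMg S u z) * Wt v b
        * (ksB m (ksMg S u z) (ksMix S (ksMg S u z) b) * ksB m b (ksMix S b (ksMg S u z)))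
        = ∑ u' : {y // y ∈ S} → Fin (τ + 1), ∑ z' : {y // ¬ y ∈ S} → Fin (τ + 1),
          (ksD S v u * ksZw S v z) * (ksD S v u' * ksZw S v z')
            * (ksB m (ksMg S u z) (ksMg S u' z) * ksB m (ksMg S u' z') (ksMg S u z')) := by
      intro z
      rw [ks_sum_split S]
      refine Finset.sum_congr rfl (fun u' _ => Finset.sum_congr rfl (fun z' _ => ?_))
      rw [ks_Wt_mg, ks_Wt_mg, ks_mix_mg, ks_mix_mg]
    simp_rw [this]
    rw [Finset.sum_comm]
    refine Finset.sum_congr rfl (fun u' _ => ?_)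
    unfold ksG
    rw [Finset.sum_mul_sum, Finset.mul_sum]
    refine Finset.sum_congr rfl (fun z _ => ?_)
    rw [Finset.mul_sum]
    refine Finset.sum_congr rfl (fun z' _ => ?_)
    ring
  have hE : ∑ u : {y // y ∈ S} → Fin (τ + 1), ksD S v u * ksG m S v u u = EE τ m v := by
    unfold EE Ecyc
    rw [Ex_sum, ks_sum_split S]
    refine Finset.sum_congr rfl (fun u _ => ?_)
    unfold ksG
    rw [Finset.mul_sum]
    refine Finset.sum_congr rfl (fun z _ => ?_)
    rw [Ex_mul_left, ks_Wt_mg, ksB_eq]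
    ring
  have hR : ∀ u : {y // y ∈ S} → Fin (τ + 1), ∑ u', ksG m S v u u' ≤ Ex (fun p : I × I =>
      Ecyc τ (fun y => if y ∈ S then 0 else v y) ((m p.1)⁻¹ * m p.2)) := by
    intro u
    have h2 : ∑ u', ksG m S v u u' = Ex (fun p : I × I =>
        ∑ u' : {y // y ∈ S} → Fin (τ + 1), ∑ z : {y // ¬ y ∈ S} → Fin (τ + 1),
        ksZw S v z * (if ∀ y, ksMg S u z (((m p.1)⁻¹ * m p.2) y) = ksMg S u' z y then (1:ℝ) else 0)) := by
      rw [Ex_sum]
      refine Finset.sum_congr rfl (fun u' _ => ?_)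
      rw [Ex_sum]
      refine Finset.sum_congr rfl (fun z _ => ?_)
      rw [Ex_mul_left, ksB_eq]
    rw [h2]
    exact Ex_mono (fun p => ks_row S v h0 h1 _ u)
  rw [hL]
  have := hs_bound (ksG (τ := τ) m S v) (ksD S v) (ksG_symm m S v) (ksG_nonneg m S v h0)
    (ksG_cs m S v h0) (ksD_nonneg S v h0) (ksD_le_one S v h0 h1) _ hR
  rwa [hE] at this

/-- The mixed slices of a flipped pattern. -/
lemma ks_sl0_flip (s : Y → Fin 2) (g : Fin 2 × Y → Fin (τ + 1)) :
    ksSl 0 (g ∘ flip s) = ksMix (univ.filter (fun y => s y = 1)) (ksSl 0 g) (ksSl 1 g) := by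
  funext y
  simp only [ksSl, ksMix, Function.comp, mem_filter, mem_univ, true_and, Vale.Agent.Lib.P162.flip_apply]
  have h : ∀ a : Fin 2, a = 1 ∨ a = 0 := by decide
  rcases h (s y) with h1 | h1
  · simp [h1]
  · simp [h1]

lemma ks_sl1_flip (s : Y → Fin 2) (g : Fin 2 × Y → Fin (τ + 1)) :
    ksSl 1 (g ∘ flip s) = ksMix (univ.filter (fun y => s y = 1)) (ksSl 1 g) (ksSl 0 g) := by
  funext y
  simp only [ksSl, ksMix, Function.comp, mem_filter, mem_univ, true_and, Vale.Agent.Lib.P162.flip_apply]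
  have h : ∀ a : Fin 2, a = 1 ∨ a = 0 := by decide
  have h11 : (1 : Fin 2) + 1 = 0 := by decide
  rcases h (s y) with h1 | h1
  · simp [h1, h11]
  · simp [h1]

end step

/-- **The step lemma.** -/
theorem step_lemma (τ : ℕ) (m : I → Perm Y) [Nonempty I] (w : Fin 2 × Y → ℝ)
    (h0 : ∀ p, 0 ≤ w p) (h1 : ∀ p, w p ≤ 1) :
    EEplus τ m w ≤ EE τ m (fun y => (w (0, y) + w (1, y)) / 2)
      * EE τ m (fun y => (w (0, y) + w (1, y)) / 4) := by
  set v : Y → ℝ := fun y => (w (0, y) + w (1, y)) / 2 with hv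
  have hv0 : ∀ y, 0 ≤ v y := fun y => by
    simp only [hv]; linarith [h0 (0, y), h0 (1, y)]
  have hv1 : ∀ y, v y ≤ 1 := fun y => by
    simp only [hv]; linarith [h1 (0, y), h1 (1, y)]
  rw [ks_EEplus_eq]
  have hsym := symmetrise (τ := τ) w h0 (fun g => ∑ H, ksPsi m g H ^ 2)
    (fun g => Finset.sum_nonneg (fun H _ => sq_nonneg _))
    (fun s g => Finset.sum_congr rfl (fun H _ => by rw [ksPsi_inv]))
  refine le_trans hsym ?_
  have hmain : ∑ g : Fin 2 × Y → Fin (τ + 1), Wt (fun p : Fin 2 × Y => v p.2) g * ∑ H, ksPsi m g H ^ 2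
      = Ex (fun s : Y → Fin 2 => ∑ a : Y → Fin (τ + 1), ∑ b : Y → Fin (τ + 1), Wt v a * Wt v b
        * (ksB m a (ksMix (univ.filter (fun y => s y = 1)) a b)
            * ksB m b (ksMix (univ.filter (fun y => s y = 1)) b a))) := by
    simp_rw [Finset.mul_sum]
    rw [Finset.sum_comm]
    simp_rw [ks_sym_sum]
    rw [← Ex_sum]
    congr 1
    funext s
    rw [Finset.sum_comm]
    simp_rw [← Finset.mul_sum, ks_sum_A2, ks_Wt_col, ks_sl0_flip, ks_sl1_flip]
    rw [← Equiv.sum_comp (ksSlEquiv (Fin (τ + 1))).symm, Fintype.sum_prod_type]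
    refine Finset.sum_congr rfl (fun a _ => Finset.sum_congr rfl (fun b _ => ?_))
    rw [ks_Sl_symm0, ks_Sl_symm1]
  have hfun : (fun p : Fin 2 × Y => (w (0, p.2) + w (1, p.2)) / 2) = fun p : Fin 2 × Y => v p.2 := rfl
  rw [hfun, hmain]
  have hle := Ex_mono (C := Y → Fin 2) (fun s => ks_Lambda (τ := τ) m v hv0 hv1 (univ.filter (fun y => s y = 1)))
  refine le_trans hle ?_
  rw [Ex_mul_left]
  refine le_of_eq ?_
  congr 1
  have hkill : ∀ (s : Y → Fin 2) (p : I × I),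
      Ecyc τ (fun y => if y ∈ univ.filter (fun y => s y = 1) then 0 else v y) ((m p.1)⁻¹ * m p.2)
        = Ecyc τ (fun y => if s y = 1 then 0 else v y) ((m p.1)⁻¹ * m p.2) := by
    intro s p
    congr 1
    funext y
    simp
  simp_rw [hkill]
  rw [ks_Ex_comm (fun (s : Y → Fin 2) (p : I × I) =>
    Ecyc τ (fun y => if s y = 1 then 0 else v y) ((m p.1)⁻¹ * m p.2))]
  simp_rw [avg_kill]
  unfold EE
  congr 1
  funext p
  congr 1
  funext y
  simp only [hv]
  ring

end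

end Vale.Agent.Lib.P162T
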