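import Vale.Agent.Lib.P162T.Graph
import Vale.Agent.Lib.P162T.Flat

/-!
# P162T: the exact law of a net on a tuple and the Kraft bound (section 3 of notes/P162_blueprint.md)
-/

namespace Vale.Agent.Lib.P162T

open Equiv Finset

variable {d k : ℕ}

/-- Injective tuples. -/
abbrev Tup (k d : ℕ) := Fin k ↪ Cube d

/-- Image of a tuple under a net. -/
def ztup (c : Coins d) (y : Tup k d) : Tup k d := y.trans (net c).toEmbedding

/-- Preimage of a tuple under a net. -/
def ytup (c : Coins d) (a : Tup k d) : Tup k d := a.trans (net c)⁻¹.toEmbedding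

open Classical in
/-- The probability that a net maps `y` to `u`. -/
noncomputable def Q0 (y u : Tup k d) : ℝ := Ex (fun c : Coins d => if ztup c y = u then 1 else 0)

/-- The node of card `a` at layer `i`: bits of `u` below `i`, bit `i` cleared, bits of `y` above `i`. -/
def node (i : Fin d) (y u : Fin k → Cube d) (a : Fin k) : Cube d :=
  fun j => if j < i then u a j else if j = i then 0 else y a j

open Classical in
/-- The number of nodes at layer `i`. -/
noncomputable def nodes (i : Fin d) (y u : Fin k → Cube d) : ℕ :=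
  (univ.image (node i y u)).card

/-- Layers are independent. -/
theorem Ex_pi_prod {ι α : Type*} [Fintype ι] [DecidableEq ι] [Fintype α] (F : ι → α → ℝ) :
    Ex (fun c : ι → α => ∏ i, F i (c i)) = ∏ i, Ex (F i) := by
  unfold Ex
  rw [Finset.prod_div_distrib, ← Fintype.piFinset_univ, ← Finset.prod_univ_sum]
  congr 1
  simp [Fintype.card_pi]

/-- Prescribing a function on a finite set of points. -/
theorem Ex_prescribe {α : Type*} [Fintype α] [DecidableEq α] (A : Finset α) (f₀ : α → Fin 2) :
    Ex (fun f : α → Fin 2 => if ∀ x ∈ A, f x = f₀ x then (1 : ℝ) else 0) = (1 / 2 : ℝ) ^ A.card := by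
  have h1 : (fun f : α → Fin 2 => if ∀ x ∈ A, f x = f₀ x then (1 : ℝ) else 0)
      = fun f => ∏ x, (if x ∈ A then (if f x = f₀ x then (1 : ℝ) else 0) else 1) := by
    funext f
    by_cases h : ∀ x ∈ A, f x = f₀ x
    · rw [if_pos h, Finset.prod_eq_one]
      intro x _
      by_cases hx : x ∈ A
      · simp [hx, h x hx]
      · simp [hx]
    · rw [if_neg h]
      push Not at h
      obtain ⟨x, hx, hne⟩ := h
      symm
      apply Finset.prod_eq_zero (Finset.mem_univ x)
      simp [hx, hne]
  rw [h1, Ex_pi_prod (fun x (b : Fin 2) => if x ∈ A then (if b = f₀ x then (1 : ℝ) else 0) else 1)]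
  have h2 : ∀ x, Ex (fun b : Fin 2 => if x ∈ A then (if b = f₀ x then (1 : ℝ) else 0) else 1)
      = if x ∈ A then (1 / 2 : ℝ) else 1 := by
    intro x
    unfold Ex
    by_cases hx : x ∈ A
    · simp only [hx, if_true, Finset.sum_ite_eq', Finset.mem_univ, Fintype.card_fin]
      norm_num
    · simp [hx]
  simp only [h2]
  rw [Finset.prod_ite]
  simp

theorem seg_single_K (i : Fin d) : seg d i.val (i.val + 1) = [i] := by
  have h1 : (seg d i.val (i.val + 1)).Perm [i] := by
    rw [List.perm_ext_iff_of_nodup (seg_nodup _ _) (List.nodup_singleton _)]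
    intro j
    rw [mem_seg, List.mem_singleton, Fin.ext_iff]
    omega
  exact List.perm_singleton.1 h1

theorem low_succ (c : Coins d) (i : Fin d) :
    low c (i.val + 1) = Vale.Agent.Lib.P162.flipAt i (c i) * low c i.val := by
  unfold low
  rw [seg_append 0 i.val (i.val + 1) (Nat.zero_le _) (Nat.le_succ _), N_append, seg_single_K]
  simp [N]

theorem update_eq_node (i : Fin d) (y u : Fin k → Cube d) (a : Fin k) (x : Cube d)
    (h1 : ∀ j, j < i → x j = u a j) (h2 : ∀ j, i < j → x j = y a j) :
    Function.update x i 0 = node i y u a := by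
  funext j
  unfold node
  rcases lt_trichotomy j i with h | h | h
  · rw [Function.update_of_ne h.ne, if_pos h, h1 j h]
  · subst h
    simp
  · rw [Function.update_of_ne h.ne', if_neg (not_lt.2 h.le), if_neg h.ne', h2 j h]

theorem ztup_eq_iff (c : Coins d) (y u : Tup k d) :
    ztup c y = u ↔ ∀ i a, c i (node i y u a) = u a i + y a i := by
  constructor
  · intro hu i a
    have ha : net c (y a) = u a := by
      rw [← hu]
      rfl
    set x := low c i.val (y a) with hx
    have h1 : ∀ j, j < i → x j = u a j := by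
      intro j hj
      rw [hx, ← net_apply_lt c i.val (y a) j hj, ha]
    have h2 : ∀ j, i < j → x j = y a j := by
      intro j hj
      rw [hx]
      exact low_apply_ge c i.val (y a) j (le_of_lt hj)
    have h3 : x i = y a i := by
      rw [hx]
      exact low_apply_ge c i.val (y a) i le_rfl
    have h4 : u a i = y a i + c i (node i y u a) := by
      rw [← ha, net_apply_lt c (i.val + 1) (y a) i (Nat.lt_succ_self _), low_succ,
        Perm.mul_apply, ← hx]
      simp only [Vale.Agent.Lib.P162.flipAt_apply, Function.update_self]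
      rw [update_eq_node i y u a x h1 h2, h3]
    rw [h4]
    have : ∀ p q : Fin 2, q = p + q + p := by decide
    exact this _ _
  · intro h
    have key : ∀ a, ∀ l : ℕ, l ≤ d → ∀ j : Fin d,
        low c l (y a) j = if j.val < l then u a j else y a j := by
      intro a l
      induction l with
      | zero =>
        intro _ j
        simpa using low_apply_ge c 0 (y a) j (Nat.zero_le _)
      | succ l ih =>
        intro hl j
        have hl' : l < d := hl
        have hIH := ih (le_of_lt hl')
        set i : Fin d := ⟨l, hl'⟩ with hi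
        have hls : low c (l + 1) = Vale.Agent.Lib.P162.flipAt i (c i) * low c l := low_succ c i
        set x := low c l (y a) with hx
        have h1 : ∀ j, j < i → x j = u a j := by
          intro j hj
          rw [hIH j, if_pos (show j.val < l from hj)]
        have h2 : ∀ j, i < j → x j = y a j := by
          intro j hj
          have hj' : l < j.val := hj
          rw [hIH j, if_neg (by omega)]
        have h3 : x i = y a i := by
          rw [hIH i, if_neg (show ¬ i.val < l from lt_irrefl _)]
        rw [hls, Perm.mul_apply, ← hx]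
        simp only [Vale.Agent.Lib.P162.flipAt_apply]
        rw [update_eq_node i y u a x h1 h2]
        by_cases hji : j = i
        · subst hji
          rw [Function.update_self, h3, h, if_pos (Nat.lt_succ_self _)]
          have : ∀ p q : Fin 2, q + (p + q) = p := by decide
          exact this _ _
        · rw [Function.update_of_ne hji, hIH j]
          have hne : j.val ≠ l := fun h => hji (Fin.ext h)
          by_cases hjl : j.val < l
          · rw [if_pos hjl, if_pos (Nat.lt_succ_of_lt hjl)]
          · rw [if_neg hjl, if_neg (by omega)]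
    apply Function.Embedding.ext
    intro a
    funext j
    show net c (y a) j = u a j
    rw [net_eq_low, key a d le_rfl j, if_pos j.isLt]

open Classical in
/-- `Q0` is the product of the layer probabilities. -/
theorem Q0_eq_prod (y u : Tup k d) :
    Q0 y u = ∏ i, Ex (fun f : Coin d =>
      if ∀ a, f (node i y u a) = u a i + y a i then (1 : ℝ) else 0) := by
  unfold Q0
  rw [← Ex_pi_prod (fun i (f : Coin d) =>
    if ∀ a, f (node i y u a) = u a i + y a i then (1 : ℝ) else 0)]
  congr 1
  funext c
  by_cases h : ztup c y = u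
  · rw [if_pos h, Finset.prod_eq_one]
    intro i _
    rw [if_pos (fun a => (ztup_eq_iff c y u).1 h i a)]
  · rw [if_neg h]
    have h' := (not_congr (ztup_eq_iff c y u)).1 h
    push Not at h'
    obtain ⟨i, a, ha⟩ := h'
    symm
    apply Finset.prod_eq_zero (Finset.mem_univ i)
    rw [if_neg]
    intro hh
    exact ha (hh a)

theorem Q0_nonneg (y u : Tup k d) : 0 ≤ Q0 y u := by
  unfold Q0
  apply Ex_nonneg
  intro c
  split_ifs <;> norm_num

/-- If `Q0` is positive there is a net with `net c ∘ y = u`. -/
theorem exists_net_of_Q0 (y u : Tup k d) (h : Q0 y u ≠ 0) : ∃ c : Coins d, ztup c y = u := by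
  by_contra hne
  push Not at hne
  apply h
  unfold Q0 Ex
  rw [Finset.sum_eq_zero]
  · simp
  · intro c _
    rw [if_neg (hne c)]

/-- `Q0` is a product over layers, when positive. -/
theorem Q0_eq (y u : Tup k d) (h : Q0 y u ≠ 0) : Q0 y u = ∏ i, (1 / 2 : ℝ) ^ nodes i y u := by
  classical
  obtain ⟨c, hc⟩ := exists_net_of_Q0 y u h
  have hc' := (ztup_eq_iff c y u).1 hc
  rw [Q0_eq_prod]
  apply Finset.prod_congr rfl
  intro i _
  have hE := Ex_prescribe (univ.image (node i y u)) (c i)
  unfold nodes
  rw [← hE]
  apply congrArg Ex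
  funext f
  have : (∀ a, f (node i y u a) = u a i + y a i) ↔
      ∀ x ∈ univ.image (node i y u), f x = c i x := by
    constructor
    · intro hf x hx
      obtain ⟨a, -, rfl⟩ := Finset.mem_image.1 hx
      rw [hf a, hc' i a]
    · intro hf a
      rw [hf _ (Finset.mem_image_of_mem _ (Finset.mem_univ a)), hc' i a]
  exact if_congr this rfl rfl

/-- For a net: the partners at a scale are unique and the bit `i` of `y` differs on adjacent cards,
adjacency is symmetric and irreflexive. -/
theorem xadj_props (c : Coins d) (y : Tup k d) (i : Fin d) :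
    (∀ a, ¬ xadj i y (net c ∘ y) a a) ∧ (∀ a b, xadj i y (net c ∘ y) a b → xadj i y (net c ∘ y) b a)
    ∧ (∀ a b b', xadj i y (net c ∘ y) a b → xadj i y (net c ∘ y) a b' → b = b')
    ∧ (∀ a b, xadj i y (net c ∘ y) a b → y a i ≠ y b i) := by
  refine ⟨fun a h => h.1 rfl, ?_, ?_, ?_⟩
  · rintro a b ⟨h1, h2, h3⟩
    exact ⟨h1.symm, fun j hj => (h2 j hj).symm, fun j hj => (h3 j hj).symm⟩
  · intro a b b' h1 h2
    rw [xadj_net_iff] at h1 h2
    exact y.injective (h1.trans h2.symm)
  · intro a b h
    rw [xadj_net_iff] at h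
    rw [h, Theta_apply_self]
    have : ∀ p : Fin 2, p ≠ p + 1 := by decide
    exact this _

theorem node_eq_iff (i : Fin d) (y u : Fin k → Cube d) (a b : Fin k) :
    node i y u a = node i y u b ↔ (∀ j, i < j → y a j = y b j) ∧ (∀ j, j < i → u a j = u b j) := by
  constructor
  · intro h
    constructor
    · intro j hj
      have := congrFun h j
      simpa [node, not_lt.2 hj.le, hj.ne'] using this
    · intro j hj
      have := congrFun h j
      simpa [node, hj] using this
  · rintro ⟨h1, h2⟩
    funext j
    unfold node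
    rcases lt_trichotomy j i with h | h | h
    · rw [if_pos h, if_pos h, h2 j h]
    · subst h
      simp
    · rw [if_neg (not_lt.2 h.le), if_neg (not_lt.2 h.le), if_neg h.ne', if_neg h.ne', h1 j h]

theorem xadj_iff_node (i : Fin d) (y u : Fin k → Cube d) (a b : Fin k) :
    xadj i y u a b ↔ a ≠ b ∧ node i y u a = node i y u b := by
  rw [node_eq_iff]
  rfl

/-- For a net, number of nodes and number of ordered adjacent pairs are related. -/
theorem nodes_add_dcount (c : Coins d) (y : Tup k d) (i : Fin d) :
    2 * nodes i y (net c ∘ y) + dcount (xadj i y (net c ∘ y)) = 2 * k := by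
  classical
  set u : Fin k → Cube d := net c ∘ y with hu
  obtain ⟨-, -, hpart, -⟩ := xadj_props c y i
  rw [← hu] at hpart
  set I := univ.image (node i y u) with hI
  set F : Cube d → Finset (Fin k) := fun x => univ.filter (fun a => node i y u a = x) with hF
  have hk : k = ∑ x ∈ I, (F x).card := by
    have := Finset.card_eq_sum_card_image (node i y u) (univ : Finset (Fin k))
    simpa using this
  have hd : dcount (xadj i y u) = ∑ x ∈ I, ((F x).card * (F x).card - (F x).card) := by
    unfold dcount
    rw [Finset.card_eq_sum_card_fiberwise (f := fun p : Fin k × Fin k => node i y u p.1) (t := I)]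
    · apply Finset.sum_congr rfl
      intro x _
      rw [← Finset.offDiag_card]
      congr 1
      ext ⟨a, b⟩
      simp only [Finset.mem_filter, Finset.mem_univ, true_and, Finset.mem_offDiag, hF, xadj_iff_node]
      constructor
      · rintro ⟨⟨h1, h2⟩, h3⟩
        exact ⟨h3, h2 ▸ h3, h1⟩
      · rintro ⟨h1, h2, h3⟩
        exact ⟨⟨h3, h1.trans h2.symm⟩, h1⟩
    · intro p _
      exact Finset.mem_coe.2 (Finset.mem_image_of_mem _ (Finset.mem_univ _))
  have hfib : ∀ x ∈ I, 2 + ((F x).card * (F x).card - (F x).card) = 2 * (F x).card := by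
    intro x hx
    obtain ⟨a, -, rfl⟩ := Finset.mem_image.1 hx
    have h1 : 0 < (F (node i y u a)).card :=
      Finset.card_pos.2 ⟨a, by simp [hF]⟩
    have h2 : (F (node i y u a)).card ≤ 2 := by
      by_contra hlt
      push Not at hlt
      obtain ⟨p, hp, q, hq, r, hr, hpq, hpr, hqr⟩ := Finset.two_lt_card.1 hlt
      simp only [hF, Finset.mem_filter, Finset.mem_univ, true_and] at hp hq hr
      apply hqr
      apply hpart p q r
      · exact (xadj_iff_node i y u p q).2 ⟨hpq, hp.trans hq.symm⟩
      · exact (xadj_iff_node i y u p r).2 ⟨hpr, hp.trans hr.symm⟩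
    interval_cases (F (node i y u a)).card <;> rfl
  unfold nodes
  rw [← hI, hd]
  have h2k : 2 * k = ∑ x ∈ I, 2 * (F x).card := by
    rw [← Finset.mul_sum, ← hk]
  rw [h2k, ← Finset.sum_congr rfl hfib, Finset.sum_add_distrib]
  simp [Finset.sum_const, mul_comm]

/-- Telescoping: sum over columns, lowest column first. -/
theorem telescope {α : Type*} [Fintype α] [DecidableEq α] (n : ℕ) (F : Fin n → (Fin n → α) → ℝ)
    (h0 : ∀ i x, 0 ≤ F i x)
    (hdep : ∀ i (x x' : Fin n → α), (∀ j, i ≤ j → x j = x' j) → F i x = F i x')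
    (hsum : ∀ i (x : Fin n → α), ∑ a, F i (Function.update x i a) ≤ 1) :
    ∑ x : Fin n → α, ∏ i, F i x ≤ 1 := by
  induction n with
  | zero => simp
  | succ n ih =>
    rcases isEmpty_or_nonempty α with hα | ⟨⟨a0⟩⟩
    · have : IsEmpty (Fin (n + 1) → α) := ⟨fun x => hα.elim (x 0)⟩
      simp
    · let F' : Fin n → (Fin n → α) → ℝ := fun i t => F i.succ (Fin.cons a0 t)
      have key : ∀ (a : α) (t : Fin n → α),
          ∏ i, F i (Fin.cons a t : Fin (n + 1) → α) = F 0 (Fin.cons a t) * ∏ i, F' i t := by
        intro a t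
        rw [Fin.prod_univ_succ]
        congr 1
        apply Finset.prod_congr rfl
        intro i _
        apply hdep
        intro j hj
        have hj0 : j ≠ 0 := by
          rintro rfl
          exact absurd hj (by simp)
        obtain ⟨j', rfl⟩ := Fin.exists_succ_eq.mpr hj0
        simp
      have hF'0 : ∀ i t, 0 ≤ F' i t := fun i t => h0 _ _
      have hdep' : ∀ i (x x' : Fin n → α), (∀ j, i ≤ j → x j = x' j) → F' i x = F' i x' := by
        intro i x x' h
        apply hdep
        intro j hj
        have hj0 : j ≠ 0 := by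
          rintro rfl
          exact absurd hj (by simp)
        obtain ⟨j', rfl⟩ := Fin.exists_succ_eq.mpr hj0
        simpa using h j' (by simpa using hj)
      have hsum' : ∀ i (x : Fin n → α), ∑ a, F' i (Function.update x i a) ≤ 1 := by
        intro i x
        have := hsum i.succ (Fin.cons a0 x)
        refine le_trans (le_of_eq ?_) this
        apply Finset.sum_congr rfl
        intro a _
        simp only [F']
        rw [Fin.cons_update]
      have IH := ih F' hF'0 hdep' hsum'
      have hrw : ∑ x : Fin (n + 1) → α, ∏ i, F i x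
          = ∑ t : Fin n → α, (∑ a : α, F 0 (Fin.cons a t)) * ∏ i, F' i t := by
        rw [← (Fin.consEquiv (fun _ : Fin (n + 1) => α)).sum_comp, Fintype.sum_prod_type_right]
        apply Finset.sum_congr rfl
        intro t _
        rw [Finset.sum_mul]
        apply Finset.sum_congr rfl
        intro a _
        exact key a t
      rw [hrw]
      refine le_trans (Finset.sum_le_sum (g := fun t => ∏ i, F' i t) ?_) IH
      intro t _
      have hprod : 0 ≤ ∏ i, F' i t := Finset.prod_nonneg fun i _ => hF'0 i t
      have hle : ∑ a : α, F 0 (Fin.cons a t) ≤ 1 := by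
        have := hsum 0 (Fin.cons a0 t)
        refine le_trans (le_of_eq ?_) this
        apply Finset.sum_congr rfl
        intro a _
        rw [Fin.update_cons_zero]
      nlinarith

/-- Columns of a tuple. -/
private def toCol (y : Fin k → Cube d) : Fin d → (Fin k → Fin 2) := fun j a => y a j

/-- The tuple with given columns. -/
private def ofCol (x : Fin d → (Fin k → Fin 2)) : Fin k → Cube d := fun a j => x j a

private theorem xadj_ofCol_congr (i : Fin d) (u : Fin k → Cube d) (x x' : Fin d → (Fin k → Fin 2))
    (h : ∀ j, i < j → x j = x' j) : xadj i (ofCol x) u = xadj i (ofCol x') u := by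
  funext a b
  apply propext
  unfold xadj ofCol
  constructor
  · rintro ⟨h1, h2, h3⟩
    refine ⟨h1, fun j hj => ?_, h3⟩
    have := h2 j hj
    rwa [h j hj] at this
  · rintro ⟨h1, h2, h3⟩
    refine ⟨h1, fun j hj => ?_, h3⟩
    have := h2 j hj
    rwa [← h j hj] at this

open Classical in
/-- The column factor: `2^-comp` on proper colourings of the graph at scale `i`, which depends only
on the columns above `i`. -/
private noncomputable def colF (u v : Fin k → Cube d) (i : Fin d) (x : Fin d → (Fin k → Fin 2)) : ℝ :=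
  if ∀ a b, (grOf (xadj i (ofCol x) u) (xadj i (ofCol x) v)).Adj a b → x i a ≠ x i b
  then (1 / 2 : ℝ) ^ compAbs (xadj i (ofCol x) u) (xadj i (ofCol x) v) else 0

private theorem colF_nonneg (u v : Fin k → Cube d) (i : Fin d) (x : Fin d → (Fin k → Fin 2)) :
    0 ≤ colF u v i x := by
  unfold colF
  split_ifs <;> positivity

private theorem colF_dep (u v : Fin k → Cube d) (i : Fin d) (x x' : Fin d → (Fin k → Fin 2))
    (h : ∀ j, i ≤ j → x j = x' j) : colF u v i x = colF u v i x' := by
  unfold colF
  have h1 := xadj_ofCol_congr i u x x' (fun j hj => h j hj.le)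
  have h2 := xadj_ofCol_congr i v x x' (fun j hj => h j hj.le)
  rw [h1, h2, h i le_rfl]

private theorem colF_sum (u v : Fin k → Cube d) (i : Fin d) (x : Fin d → (Fin k → Fin 2)) :
    ∑ χ, colF u v i (Function.update x i χ) ≤ 1 := by
  classical
  have hu : ∀ χ, xadj i (ofCol (Function.update x i χ)) u = xadj i (ofCol x) u := fun χ =>
    xadj_ofCol_congr i u _ _ (fun j hj => by simp [Function.update_of_ne (ne_of_gt hj)])
  have hv : ∀ χ, xadj i (ofCol (Function.update x i χ)) v = xadj i (ofCol x) v := fun χ =>
    xadj_ofCol_congr i v _ _ (fun j hj => by simp [Function.update_of_ne (ne_of_gt hj)])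
  set r := xadj i (ofCol x) u with hr
  set s := xadj i (ofCol x) v with hs
  have hterm : ∀ χ, colF u v i (Function.update x i χ)
      = if (∀ a b, (grOf r s).Adj a b → χ a ≠ χ b) then (1 / 2 : ℝ) ^ compAbs r s else 0 := by
    intro χ
    unfold colF
    rw [hu χ, hv χ, Function.update_self]
  simp_rw [hterm]
  rw [Finset.sum_ite, Finset.sum_const, Finset.sum_const_zero, add_zero, nsmul_eq_mul]
  have hcard := proper_card_le r s
  have h2 : (0 : ℝ) < 2 ^ compAbs r s := by positivity
  have hc : ((univ.filter (fun χ : Fin k → Fin 2 => ∀ a b, (grOf r s).Adj a b → χ a ≠ χ b)).card : ℝ)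
      ≤ 2 ^ compAbs r s := by
    have : (univ.filter (fun χ : Fin k → Fin 2 => ∀ a b, (grOf r s).Adj a b → χ a ≠ χ b)).card
        ≤ 2 ^ compAbs r s := by
      refine le_trans (Finset.card_le_card ?_) hcard
      intro χ hχ
      simp only [Finset.mem_filter, Finset.mem_univ, true_and] at hχ ⊢
      exact hχ
    exact_mod_cast this
  calc _ ≤ (2 : ℝ) ^ compAbs r s * (1 / 2) ^ compAbs r s :=
        mul_le_mul_of_nonneg_right hc (by positivity)
    _ = 1 := by rw [← mul_pow]; norm_num

private theorem ofCol_toCol (y : Fin k → Cube d) : ofCol (toCol y) = y := rfl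

/-- The pointwise bound for one tuple. -/
private theorem kraft_pointwise (a b y : Tup k d) (α : ℝ) (hα : 2 ≤ Real.exp α) :
    Q0 y a * Q0 y b * Real.exp (-(α * ee y a b))
      ≤ (1 / 2 ^ d : ℝ) ^ k * ∏ i, colF a b i (toCol y) := by
  have hprodnn : 0 ≤ ∏ i, colF a b i (toCol y) :=
    Finset.prod_nonneg fun i _ => colF_nonneg _ _ _ _
  by_cases hA : Q0 y a = 0
  · rw [hA]; simp; positivity
  by_cases hB : Q0 y b = 0
  · rw [hB]; simp; positivity
  obtain ⟨cA, hcA⟩ := exists_net_of_Q0 y a hA
  obtain ⟨cB, hcB⟩ := exists_net_of_Q0 y b hB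
  have ha : (a : Fin k → Cube d) = net cA ∘ y := by
    subst hcA; rfl
  have hb : (b : Fin k → Cube d) = net cB ∘ y := by
    subst hcB; rfl
  have hfac : ∀ i : Fin d,
      (1 / 2 : ℝ) ^ nodes i y a * (1 / 2 : ℝ) ^ nodes i y b * Real.exp (-(α * cl i y a b))
        ≤ (1 / 2 : ℝ) ^ k * colF a b i (toCol y) := by
    intro i
    have pA := xadj_props cA y i
    have pB := xadj_props cB y i
    have nA := nodes_add_dcount cA y i
    have nB := nodes_add_dcount cB y i
    rw [← ha] at pA nA
    rw [← hb] at pB nB
    obtain ⟨a0, a1, a2, a3⟩ := pA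
    obtain ⟨b0, b1, b2, b3⟩ := pB
    have hcomb := comb (xadj i y a) (xadj i y b) a0 a1 a2 b0 b1 b2
    rw [Fintype.card_fin] at hcomb
    have hproper : ∀ p q, (grOf (xadj i (ofCol (toCol y)) a) (xadj i (ofCol (toCol y)) b)).Adj p q →
        toCol y i p ≠ toCol y i q := by
      intro p q hpq
      rw [ofCol_toCol] at hpq
      unfold grOf at hpq
      rw [SimpleGraph.fromRel_adj] at hpq
      obtain ⟨_, h | h⟩ := hpq
      · rcases h with h | h
        · exact a3 _ _ h
        · exact b3 _ _ h
      · rcases h with h | h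
        · exact (a3 _ _ h).symm
        · exact (b3 _ _ h).symm
    have hcolF : colF a b i (toCol y)
        = (1 / 2 : ℝ) ^ compAbs (xadj i y a) (xadj i y b) := by
      unfold colF
      rw [if_pos hproper, ofCol_toCol]
    rw [hcolF]
    have hexp : Real.exp (-(α * cl i y a b)) ≤ (1 / 2 : ℝ) ^ cl i y a b := by
      have : Real.exp (-(α * (cl i y a b : ℝ))) = (Real.exp α)⁻¹ ^ cl i y a b := by
        rw [inv_pow, ← Real.exp_nat_mul, ← Real.exp_neg]
        congr 1; ring
      rw [this]
      apply pow_le_pow_left₀ (by positivity)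
      rw [one_div]
      exact inv_anti₀ (by norm_num) hα
    have hnat : k + compAbs (xadj i y a) (xadj i y b) ≤ nodes i y a + nodes i y b + cl i y a b := by
      unfold cl
      omega
    calc (1 / 2 : ℝ) ^ nodes i y a * (1 / 2 : ℝ) ^ nodes i y b * Real.exp (-(α * cl i y a b))
        ≤ (1 / 2 : ℝ) ^ nodes i y a * (1 / 2 : ℝ) ^ nodes i y b * (1 / 2 : ℝ) ^ cl i y a b :=
          mul_le_mul_of_nonneg_left hexp (by positivity)
      _ = (1 / 2 : ℝ) ^ (nodes i y a + nodes i y b + cl i y a b) := by
          rw [pow_add, pow_add]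
      _ ≤ (1 / 2 : ℝ) ^ (k + compAbs (xadj i y a) (xadj i y b)) :=
          pow_le_pow_of_le_one (by norm_num) (by norm_num) hnat
      _ = _ := by rw [pow_add]
  have hLHS : Q0 y a * Q0 y b * Real.exp (-(α * ee y a b))
      = ∏ i, ((1 / 2 : ℝ) ^ nodes i y a * (1 / 2 : ℝ) ^ nodes i y b
          * Real.exp (-(α * cl i y a b))) := by
    rw [Finset.prod_mul_distrib, Finset.prod_mul_distrib, ← Q0_eq y a hA, ← Q0_eq y b hB,
      ← Real.exp_sum]
    congr 2
    unfold ee
    push_cast
    rw [Finset.mul_sum, Finset.sum_neg_distrib]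
  rw [hLHS]
  calc _ ≤ ∏ i : Fin d, ((1 / 2 : ℝ) ^ k * colF a b i (toCol y)) :=
        Finset.prod_le_prod (fun i _ => by positivity) (fun i _ => hfac i)
    _ = _ := by
        rw [Finset.prod_mul_distrib, Finset.prod_const, Finset.card_univ, Fintype.card_fin]
        congr 1
        rw [← pow_mul, mul_comm, pow_mul, one_div, one_div, inv_pow]

/-- **KRAFT.** -/
theorem kraft (a b : Tup k d) (α : ℝ) (hα : 2 ≤ Real.exp α) :
    ∑ y : Tup k d, Q0 y a * Q0 y b * Real.exp (-(α * ee y a b)) ≤ (1 / 2 ^ d : ℝ) ^ k := by
  classical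
  have hpos : (0 : ℝ) ≤ (1 / 2 ^ d : ℝ) ^ k := by positivity
  have hinj : Function.Injective (fun y : Tup k d => toCol (y : Fin k → Cube d)) := by
    intro y y' h
    ext p q
    have := congrFun (congrFun h q) p
    simpa [toCol] using congrArg (fun z : Fin 2 => (z : ℕ)) this
  calc ∑ y : Tup k d, Q0 y a * Q0 y b * Real.exp (-(α * ee y a b))
      ≤ ∑ y : Tup k d, (1 / 2 ^ d : ℝ) ^ k * ∏ i, colF a b i (toCol y) :=
        Finset.sum_le_sum fun y _ => kraft_pointwise a b y α hα
    _ = (1 / 2 ^ d : ℝ) ^ k * ∑ y : Tup k d, ∏ i, colF a b i (toCol y) := by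
        rw [Finset.mul_sum]
    _ ≤ (1 / 2 ^ d : ℝ) ^ k * ∑ x : Fin d → (Fin k → Fin 2), ∏ i, colF a b i x := by
        apply mul_le_mul_of_nonneg_left _ hpos
        have hnn : ∀ x : Fin d → (Fin k → Fin 2), 0 ≤ ∏ i, colF a b i x := fun x =>
          Finset.prod_nonneg fun i _ => colF_nonneg _ _ _ _
        calc ∑ y : Tup k d, ∏ i, colF a b i (toCol y)
            = ∑ x ∈ univ.image (fun y : Tup k d => toCol (y : Fin k → Cube d)), ∏ i, colF a b i x := by
              rw [Finset.sum_image (fun y _ y' _ h => hinj h)]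
          _ ≤ _ := Finset.sum_le_sum_of_subset_of_nonneg (Finset.subset_univ _)
              (fun x _ _ => hnn x)
    _ ≤ (1 / 2 ^ d : ℝ) ^ k * 1 := by
        apply mul_le_mul_of_nonneg_left _ hpos
        exact telescope d (colF (a : Fin k → Cube d) b) (colF_nonneg _ _) (colF_dep _ _) (colF_sum _ _)
    _ = _ := mul_one _

end Vale.Agent.Lib.P162T
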