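import Vale.Agent.Lib.P162T.Final
import Vale.Agent.Lib.P162T.Chain
import Vale.Agent.Lib.P162.Compare
import Vale.Agent.Lib.P162.Assemble

/-!
# P162T: link with the Thorp shuffle; the final theorem
-/

open scoped InnerProductSpace
open Finset

namespace Vale.Agent.Lib.P162T

open ThorpL2
open Vale.Agent.Lib.P162

variable {H : Type*} [NormedAddCommGroup H] [InnerProductSpace ℝ H]

/-- Summing over the value of one layer. -/
theorem sum_update_coin {D : ℕ} {M : Type*} [AddCommMonoid M] (j : Fin D) (F : Coins D → M) :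
    ∑ c : Coins D, ∑ a : Coin D, F (Function.update c j a)
      = Fintype.card (Coin D) • ∑ c : Coins D, F c := by
  classical
  let e : Coins D × Coin D ≃ Coins D × Coin D :=
    { toFun := fun p => (Function.update p.1 j p.2, p.1 j)
      invFun := fun p => (Function.update p.1 j p.2, p.1 j)
      left_inv := by
        intro p
        simp
      right_inv := by
        intro p
        simp }
  calc ∑ c : Coins D, ∑ a : Coin D, F (Function.update c j a)
      = ∑ p : Coins D × Coin D, F (e p).1 := by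
        rw [Fintype.sum_prod_type]
        rfl
    _ = ∑ p : Coins D × Coin D, F p.1 := Equiv.sum_comp e (fun p => F p.1)
    _ = ∑ c : Coins D, ∑ _a : Coin D, F c := Fintype.sum_prod_type _
    _ = Fintype.card (Coin D) • ∑ c : Coins D, F c := by
        simp [Finset.smul_sum]

theorem seg_single_L {D : ℕ} (i : ℕ) (hi : i < D) : seg D i (i + 1) = [(⟨i, hi⟩ : Fin D)] := by
  have h1 : (seg D i (i + 1)).length = 1 := by
    rw [seg_length i (i + 1) (by omega) (by omega)]
    omega
  obtain ⟨x, hx⟩ := List.length_eq_one_iff.1 h1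
  have h2 : x ∈ seg D i (i + 1) := by rw [hx]; simp
  rw [mem_seg] at h2
  have h3 : x = ⟨i, hi⟩ := by
    ext
    simp only
    omega
  rw [hx, h3]

theorem low_succ_L {D : ℕ} (c : Coins D) (i : ℕ) (hi : i < D) :
    low c (i + 1) = flipAt (⟨i, hi⟩ : Fin D) (c ⟨i, hi⟩) * low c i := by
  unfold low
  rw [seg_append 0 i (i + 1) (by omega) (by omega), N_append, seg_single_L i hi]
  simp [N]

theorem low_update {D : ℕ} (c : Coins D) (i : ℕ) (hi : i < D) (a : Coin D) :
    low (Function.update c (⟨i, hi⟩ : Fin D) a) i = low c i := by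
  unfold low
  apply N_congr
  intro j hj
  rw [mem_seg] at hj
  have : j ≠ ⟨i, hi⟩ := by
    intro h
    rw [h] at hj
    simp at hj
  rw [Function.update_of_ne this]

theorem avg_low {D : ℕ} (π : Equiv.Perm (Fin D → Fin 2) →* (H →L[ℝ] H)) (i : ℕ) (hi : i ≤ D) :
    ((1 : ℝ) / (Fintype.card (Coins D) : ℝ)) • ∑ c : Coins D, π (low c i)
      = prodDown (layerSeq π) i := by
  have hC : (0 : ℝ) < (Fintype.card (Coins D) : ℝ) := by
    exact_mod_cast Fintype.card_pos
  induction i with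
  | zero =>
    have h : ∀ c : Coins D, low c 0 = 1 := by
      intro c
      unfold low
      have h1 : seg D 0 0 = [] := by
        apply List.eq_nil_iff_forall_not_mem.2
        intro j hj
        rw [mem_seg] at hj
        omega
      rw [h1]
      rfl
    simp only [h, map_one, Finset.sum_const, Finset.card_univ, prodDown]
    rw [← Nat.cast_smul_eq_nsmul ℝ, smul_smul]
    rw [one_div, inv_mul_cancel₀ hC.ne', one_smul]
  | succ i ih =>
    have hi' : i < D := by omega
    have ih' := ih (by omega)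
    set j : Fin D := ⟨i, hi'⟩ with hj
    have hlayer : layerSeq π i = FlipOp j π := by
      unfold layerSeq
      rw [dif_pos hi']
    have hcard : Fintype.card (Coin D) = 2 ^ (2 ^ D) := by
      simp [Coin, Cube]
    have hsum : ((2 : ℝ) ^ (2 ^ D)) • ∑ c : Coins D, π (low c (i + 1))
        = (∑ a : Coin D, π (flipAt j a)) * ∑ c : Coins D, π (low c i) := by
      have h1 := sum_update_coin j (fun c : Coins D => π (low c (i + 1)))
      rw [hcard] at h1
      have h2 : ∀ c : Coins D, ∑ a : Coin D, π (low (Function.update c j a) (i + 1))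
          = (∑ a : Coin D, π (flipAt j a)) * π (low c i) := by
        intro c
        rw [Finset.sum_mul]
        refine Finset.sum_congr rfl ?_
        intro a _
        rw [low_succ_L _ i hi', low_update c i hi', map_mul]
        simp [hj]
      simp only [h2] at h1
      rw [← Finset.mul_sum] at h1
      rw [h1, ← Nat.cast_smul_eq_nsmul ℝ]
      push_cast
      rfl
    change _ = layerSeq π i * prodDown (layerSeq π) i
    rw [hlayer, ← ih']
    unfold FlipOp
    rw [smul_mul_smul_comm, ← hsum, smul_smul]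
    congr 1
    have h3 : (0 : ℝ) < (2 : ℝ) ^ (2 ^ D) := by positivity
    field_simp

/-- The layered operator is the average over nets. -/
theorem W_eq_avg (D : ℕ) (π : Equiv.Perm (Fin D → Fin 2) →* (H →L[ℝ] H)) :
    W D π = ((1 : ℝ) / (Fintype.card (Coins D) : ℝ)) • ∑ c : Coins D, π (net c) := by
  rw [W_eq_prodDown, ← avg_low π D le_rfl]
  simp only [net_eq_low]

/-- The law of a net on the deck. -/
noncomputable def muNet (d : ℕ) (g : Equiv.Perm (Fin (2 * 2 ^ d))) : ℝ :=
  Ex (fun c : Coins (d + 1) => if (enc d).symm.permCongr (net c) = g then 1 else 0)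

theorem muNet_nonneg (d : ℕ) (g : Equiv.Perm (Fin (2 * 2 ^ d))) : 0 ≤ muNet d g := by
  apply Ex_nonneg
  intro c
  split_ifs <;> norm_num

theorem muNet_sum (d : ℕ) : ∑ g, muNet d g = 1 := by
  unfold muNet
  rw [← Ex_sum]
  have h : ∀ c : Coins (d + 1), ∑ g : Equiv.Perm (Fin (2 * 2 ^ d)),
      (if (enc d).symm.permCongr (net c) = g then (1 : ℝ) else 0) = 1 := by
    intro c
    simp
  simp only [h]
  exact Ex_const 1

/-- Integrating a vector valued function against the law of a net. -/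
theorem muNet_smul_sum {E : Type*} [AddCommGroup E] [Module ℝ E] (d : ℕ)
    (F : Equiv.Perm (Fin (2 * 2 ^ d)) → E) :
    ∑ g, muNet d g • F g = ((1 : ℝ) / (Fintype.card (Coins (d + 1)) : ℝ)) •
      ∑ c : Coins (d + 1), F ((enc d).symm.permCongr (net c)) := by
  unfold muNet Ex
  have h : ∀ g : Equiv.Perm (Fin (2 * 2 ^ d)),
      ((∑ c : Coins (d + 1), if (enc d).symm.permCongr (net c) = g then (1 : ℝ) else 0)
        / (Fintype.card (Coins (d + 1)) : ℝ)) • F g
      = ((1 : ℝ) / (Fintype.card (Coins (d + 1)) : ℝ)) • ∑ c : Coins (d + 1),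
        (if (enc d).symm.permCongr (net c) = g then F g else 0) := by
    intro g
    rw [div_eq_inv_mul, one_div, mul_smul, Finset.sum_smul]
    congr 1
    refine Finset.sum_congr rfl ?_
    intro c _
    split_ifs <;> simp
  simp only [h]
  refine (Finset.smul_sum (r := (1 : ℝ) / (Fintype.card (Coins (d + 1)) : ℝ))).symm.trans ?_
  rw [Finset.sum_comm]
  congr 1
  refine Finset.sum_congr rfl ?_
  intro c _
  simp

/-- Integrating a real function against the law of a net. -/
theorem muNet_mul_sum (d : ℕ) (F : Equiv.Perm (Fin (2 * 2 ^ d)) → ℝ) :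
    ∑ g, muNet d g * F g = Ex (fun c : Coins (d + 1) => F ((enc d).symm.permCongr (net c))) := by
  have h := muNet_smul_sum d F
  simp only [smul_eq_mul] at h
  rw [h]
  unfold Ex
  rw [one_div, div_eq_inv_mul]

/-- `d + 1` Thorp shuffles are one net. -/
theorem thorp_pow_eq (d : ℕ) :
    (convOp (thorpLaw (2 ^ d))) ^ (d + 1) = convOp (muNet d) := by
  refine LinearMap.ext fun f => ?_
  rw [convOp_pow_eq, theta_pow, convOp_eq_sum, W_eq_avg, muNet_smul_sum]
  rw [ContinuousLinearMap.smul_apply, ContinuousLinearMap.sum_apply]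
  rfl

/-- The net operator is the layered operator. -/
theorem convOp_muNet_apply (d : ℕ) (f : Fn (Fin (2 * 2 ^ d))) :
    convOp (muNet d) f = W (d + 1) (piE d) f := by
  rw [← thorp_pow_eq, convOp_pow_eq, theta_pow]

/-- Contraction of the net operator on the level spaces. -/
theorem muNet_contraction (d r : ℕ) {f : Fn (Fin (2 * 2 ^ d))} (hf : f ∈ regRep.U univ r) :
    ‖convOp (muNet d) f‖ ^ 2 ≤ Real.exp (-((2 * Vale.Agent.Lib.P162.sig (d + 1)) *
      ((Fintype.card (Fin (2 * 2 ^ d)) : ℝ) * ((Fintype.card (Fin (2 * 2 ^ d)) : ℝ) - r) / 2)))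
        * ‖f‖ ^ 2 := by
  refine regRep.contraction_level (convOp_commutes _) (2 * Vale.Agent.Lib.P162.sig (d + 1))
    (by have := sig_nonneg (d + 1); positivity) ?_ r hf
  intro l g hg
  have h1 := compare (d + 1) (piE d) (piE_isOrth d) g
  have h2 : lap univ (piE d) g = l • g := by rw [lap_piE]; exact hg
  rw [heat_eigen _ g l _ h2, norm_smul, Real.norm_eq_abs, abs_of_pos (Real.exp_pos _)] at h1
  rw [convOp_muNet_apply]
  have h3 : Real.exp (-((2 * Vale.Agent.Lib.P162.sig (d + 1)) * l)) = Real.exp (-(Vale.Agent.Lib.P162.sig (d + 1)) * l) ^ 2 := by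
    rw [← Real.exp_nat_mul]
    congr 1
    push_cast
    ring
  rw [h3, ← mul_pow]
  exact pow_le_pow_left₀ (norm_nonneg _) h1 2

/-- An elementary absorption. -/
theorem absorb (x y w E : ℝ) (hw : 0 ≤ w) (hy : 0 ≤ y) (hE : 0 ≤ E) (h1 : x ^ 2 ≤ w * y)
    (h2 : y ^ 2 ≤ E * x ^ 2) : x ^ 2 ≤ E * w ^ 2 := by
  by_cases hx : x ^ 2 = 0
  · rw [hx]; positivity
  · have hx2 : 0 < x ^ 2 := lt_of_le_of_ne (by positivity) (Ne.symm hx)
    have h3 : (x ^ 2) ^ 2 ≤ (w * y) ^ 2 := pow_le_pow_left₀ hx2.le h1 2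
    have h4 : (w * y) ^ 2 ≤ (E * w ^ 2) * x ^ 2 := by
      have : (w * y) ^ 2 = w ^ 2 * y ^ 2 := by ring
      rw [this]
      have h5 := mul_le_mul_of_nonneg_left h2 (sq_nonneg w)
      nlinarith
    have h6 : x ^ 2 * x ^ 2 ≤ (E * w ^ 2) * x ^ 2 := by nlinarith
    exact le_of_mul_le_mul_right h6 hx2

/-- The high level contraction. -/
theorem high_muNet (d : ℕ) (j : ℕ) (hj : j < 2 ^ (d + 1))
    (v : Fn (Fin (2 * 2 ^ d))) (hv : v ∈ ((regRep (α := Fin (2 * 2 ^ d))).Y (2 ^ (d + 1) - j))ᗮ) :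
    ⟪v, (convOp (muNet d) * convOp (rev (muNet d))) v⟫_ℝ ≤ Real.exp (-((j : ℝ) + 1) / 2048) * ‖v‖ ^ 2 := by
  set T := convOp (muNet d) with hT
  set T' := convOp (rev (muNet d)) with hT'
  have hadj : LinearMap.adjoint T = T' := adjoint_convOp (muNet d)
  have hr1 : (2 ^ (d + 1) - j - 1) + 1 = 2 ^ (d + 1) - j := by omega
  have hU : v ∈ regRep.U univ (2 ^ (d + 1) - j - 1) :=
    regRep.mem_U_iff_orthogonal_Y.2 (by rw [hr1]; exact hv)
  have hU' : T' v ∈ regRep.U univ (2 ^ (d + 1) - j - 1) := (convOp_commutes _).mem_U hU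
  have hc := muNet_contraction d (2 ^ (d + 1) - j - 1) hU'
  have hcast : ((2 ^ (d + 1) - j - 1 : ℕ) : ℝ) = (2 : ℝ) ^ (d + 1) - j - 1 := by
    rw [Nat.cast_sub (by omega), Nat.cast_sub (by omega)]
    push_cast
    ring
  have hcard : (Fintype.card (Fin (2 * 2 ^ d)) : ℝ) = (2 : ℝ) ^ (d + 1) := by
    rw [Fintype.card_fin]
    push_cast
    ring
  rw [hcast, hcard] at hc
  have hsig := sig_lower (d + 1)
  have hexp : Real.exp (-((2 * Vale.Agent.Lib.P162.sig (d + 1)) * ((2 : ℝ) ^ (d + 1) *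
      ((2 : ℝ) ^ (d + 1) - ((2 : ℝ) ^ (d + 1) - j - 1)) / 2)))
      ≤ Real.exp (-((j : ℝ) + 1) / 2048) := by
    apply Real.exp_le_exp.2
    have hj0 : (0 : ℝ) ≤ (j : ℝ) + 1 := by positivity
    have h5 : (2 * Vale.Agent.Lib.P162.sig (d + 1)) * ((2 : ℝ) ^ (d + 1) *
        ((2 : ℝ) ^ (d + 1) - ((2 : ℝ) ^ (d + 1) - j - 1)) / 2)
        = (Vale.Agent.Lib.P162.sig (d + 1) * (2 : ℝ) ^ (d + 1)) * ((j : ℝ) + 1) := by ring
    rw [h5]
    have h6 := mul_le_mul_of_nonneg_right hsig hj0
    rw [neg_div]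
    apply neg_le_neg
    calc ((j : ℝ) + 1) / 2048 = 1 / 2048 * ((j : ℝ) + 1) := by ring
      _ ≤ _ := h6
  have hc2 : ‖T (T' v)‖ ^ 2 ≤ Real.exp (-((j : ℝ) + 1) / 2048) * ‖T' v‖ ^ 2 :=
    hc.trans (mul_le_mul_of_nonneg_right hexp (by positivity))
  have hkey : ‖T' v‖ ^ 2 = ⟪v, T (T' v)⟫_ℝ := by
    rw [← real_inner_self_eq_norm_sq, ← hadj, LinearMap.adjoint_inner_left]
  have hle : ‖T' v‖ ^ 2 ≤ ‖v‖ * ‖T (T' v)‖ := by
    rw [hkey]
    exact real_inner_le_norm _ _
  have hfin := absorb ‖T' v‖ ‖T (T' v)‖ ‖v‖ (Real.exp (-((j : ℝ) + 1) / 2048)) (norm_nonneg _)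
    (norm_nonneg _) (Real.exp_pos _).le hle hc2
  rw [Module.End.mul_apply, ← hkey]
  exact hfin

theorem Ex_comm_L {C C' : Type*} [Fintype C] [Fintype C'] (G : C → C' → ℝ) :
    Ex (fun c => Ex (fun c' => G c c')) = Ex (fun c' => Ex (fun c => G c c')) := by
  unfold Ex
  simp only [Finset.sum_div]
  rw [Finset.sum_comm]
  refine Finset.sum_congr rfl ?_
  intro c' _
  refine Finset.sum_congr rfl ?_
  intro c _
  ring

/-- The change of coordinates on tuples. -/
noncomputable def tupEnc (k d : ℕ) : (Fin k ↪ Fin (2 * 2 ^ d)) ≃ Tup k (d + 1) where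
  toFun u := u.trans (enc d).toEmbedding
  invFun a := a.trans (enc d).symm.toEmbedding
  left_inv u := by ext; simp
  right_inv a := by ext; simp

/-- The kernel of the net chain in the coordinates of the cube. -/
theorem tupK_muNet {k : ℕ} (d : ℕ) (u v : Fin k ↪ Fin (2 * 2 ^ d)) :
    (tupK (ThorpL2.conv (muNet d) (rev (muNet d))) : Matrix _ _ ℝ) u v
      = Kf 0 (tupEnc k d u) (tupEnc k d v) := by
  classical
  set X : Coins (d + 1) → Equiv.Perm (Fin (2 * 2 ^ d)) :=
    fun c => (enc d).symm.permCongr (net c) with hX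
  set ind : Equiv.Perm (Fin (2 * 2 ^ d)) → ℝ :=
    fun h => if (∀ a, h (u a) = v a) then 1 else 0 with hind
  have h1 : (tupK (ThorpL2.conv (muNet d) (rev (muNet d))) : Matrix _ _ ℝ) u v
      = ∑ h, ThorpL2.conv (muNet d) (rev (muNet d)) h * ind h := by
    unfold tupK
    refine Finset.sum_congr rfl ?_
    intro h _
    simp only [hind]
  have h2 : ∀ g : Equiv.Perm (Fin (2 * 2 ^ d)),
      ∑ h, rev (muNet d) (g⁻¹ * h) * ind h = Ex (fun c' => ind (g * (X c')⁻¹)) := by
    intro g
    rw [← muNet_mul_sum d (fun m => ind (g * m⁻¹))]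
    let e : Equiv.Perm (Fin (2 * 2 ^ d)) ≃ Equiv.Perm (Fin (2 * 2 ^ d)) :=
      { toFun := fun h => (g⁻¹ * h)⁻¹
        invFun := fun m => g * m⁻¹
        left_inv := by intro h; simp
        right_inv := by intro m; simp }
    refine Fintype.sum_equiv e _ _ ?_
    intro h
    simp only [rev, e, Equiv.coe_fn_mk]
    congr 2
    simp
  have h3 : ∑ h, ThorpL2.conv (muNet d) (rev (muNet d)) h * ind h
      = Ex (fun c => Ex (fun c' => ind (X c * (X c')⁻¹))) := by
    unfold ThorpL2.conv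
    simp only [Finset.sum_mul]
    rw [Finset.sum_comm]
    have h4 : ∀ g, ∑ h, muNet d g * rev (muNet d) (g⁻¹ * h) * ind h
        = muNet d g * Ex (fun c' => ind (g * (X c')⁻¹)) := by
      intro g
      rw [← h2 g, Finset.mul_sum]
      refine Finset.sum_congr rfl ?_
      intro h _
      ring
    simp only [h4]
    exact muNet_mul_sum d (fun g => Ex (fun c' => ind (g * (X c')⁻¹)))
  rw [h1, h3, Ex_comm_L]
  unfold Kf
  rw [Ex_prod]
  refine congrArg Ex (funext fun c' => congrArg Ex (funext fun c => ?_))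
  simp only [zero_mul, Real.exp_zero, hind]
  have h5 : (∀ a, (X c * (X c')⁻¹) (u a) = v a)
      ↔ ztup c (ytup c' (tupEnc k d u)) = tupEnc k d v := by
    constructor
    · intro h
      ext1 a
      have h6 := h a
      simp only [hX, Equiv.Perm.mul_apply] at h6
      have h7 : (((enc d).symm.permCongr (net c')))⁻¹ (u a)
          = (enc d).symm ((net c')⁻¹ (enc d (u a))) := by
        rw [Equiv.Perm.inv_eq_iff_eq]
        simp [Equiv.permCongr_apply]
      rw [h7] at h6
      simp only [Equiv.permCongr_apply, Equiv.symm_symm, Equiv.apply_symm_apply] at h6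
      have h8 := congrArg (enc d) h6
      rw [Equiv.apply_symm_apply] at h8
      simpa [ztup, ytup, tupEnc] using h8
    · intro h a
      have h6 : net c ((net c')⁻¹ (enc d (u a))) = enc d (v a) :=
        congrArg (fun t : Tup k (d + 1) => t a) h
      have h7 : (((enc d).symm.permCongr (net c')))⁻¹ (u a)
          = (enc d).symm ((net c')⁻¹ (enc d (u a))) := by
        rw [Equiv.Perm.inv_eq_iff_eq]
        simp [Equiv.permCongr_apply]
      simp only [hX, Equiv.Perm.mul_apply]
      rw [h7]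
      simp only [Equiv.permCongr_apply, Equiv.symm_symm, Equiv.apply_symm_apply]
      rw [h6]
      simp
  by_cases hc : ∀ a, (X c * (X c')⁻¹) (u a) = v a
  · rw [if_pos hc, if_pos (h5.1 hc)]
  · rw [if_neg hc, if_neg (fun h => hc (h5.2 h))]

/-- The `Phi` hypothesis holds. -/
theorem phiHyp_muNet (d : ℕ) : PhiHyp (ThorpL2.conv (muNet d) (rev (muNet d))) (d + 1) := by
  intro k hk
  have h1 := T1 (k := k) (d := d + 1) hk
  unfold PhiT at h1
  have hsub : (tupK (ThorpL2.conv (muNet d) (rev (muNet d))) :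
      Matrix (Fin k ↪ Fin (2 * 2 ^ d)) (Fin k ↪ Fin (2 * 2 ^ d)) ℝ)
      = (Kf 0 : Matrix (Tup k (d + 1)) (Tup k (d + 1)) ℝ).submatrix (tupEnc k d) (tupEnc k d) := by
    ext u v
    rw [tupK_muNet]
    rfl
  have hpow : ∀ M : ℕ, ((tupK (ThorpL2.conv (muNet d) (rev (muNet d))) :
      Matrix (Fin k ↪ Fin (2 * 2 ^ d)) (Fin k ↪ Fin (2 * 2 ^ d)) ℝ)) ^ M
      = ((Kf 0 : Matrix (Tup k (d + 1)) (Tup k (d + 1)) ℝ) ^ M).submatrix (tupEnc k d) (tupEnc k d) := by
    intro M
    induction M with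
    | zero =>
      simp only [pow_zero]
      rw [Matrix.submatrix_one_equiv]
    | succ M ih =>
      rw [pow_succ, pow_succ, ih, hsub, Matrix.submatrix_mul_equiv]
  rw [hpow]
  refine le_trans (le_of_eq ?_) h1
  exact Equiv.sum_comp (tupEnc k d) (fun a => ((Kf 0 : Matrix (Tup k (d + 1)) (Tup k (d + 1)) ℝ) ^ 513) a a)

/-- **The linear mixing bound.** -/
theorem linear_mixing :
    ∃ C : ℕ, ∀ d t : ℕ, C * (d + 1) ≤ t →
      tvDist (Vale.Agent.Lib.P162.convPow (thorpLaw (2 ^ d)) t) (Vale.Agent.Lib.P162.unif _) ≤ 1 / 4 := by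
  obtain ⟨K, d₀, hK⟩ := trace_bound
  refine ⟨K + 4096 * (d₀ + 2), ?_⟩
  intro d t ht
  have hne : Nonempty (Fin (2 * 2 ^ d)) := ⟨⟨0, by positivity⟩⟩
  by_cases hd : d₀ ≤ d + 1
  · have hcard : Fintype.card (Fin (2 * 2 ^ d)) = 2 ^ (d + 1) := by
      rw [Fintype.card_fin, pow_succ]; ring
    have h1 := hK (Fin (2 * 2 ^ d)) (d + 1) hd hcard (muNet d) (muNet_nonneg d) (muNet_sum d)
      (phiHyp_muNet d) (high_muNet d)
    have h2 := tv_of_trace (thorpLaw (2 ^ d)) (thorpLaw_nonneg _) (thorpLaw_sum _) (d + 1) K (by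
      rw [thorp_pow_eq, adjoint_convOp]
      exact h1)
    have h3 : tvDist (Vale.Agent.Lib.P162.convPow (thorpLaw (2 ^ d)) ((d + 1) * K))
        (Vale.Agent.Lib.P162.unif _) ≤ 1 / 4 := by
      unfold tvDist Vale.Agent.Lib.P162.unif
      rw [convPow_eq_thorpL2, Fintype.card_perm]
      exact h2
    refine (tv_antitone (thorpLaw (2 ^ d)) (thorpLaw_nonneg _) (thorpLaw_sum _) ?_).trans h3
    nlinarith
  · refine tv_thorp_all d t (Vale.Agent.Lib.P162.sig (d + 1)) (sig_lower (d + 1))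
      (fun f => compare (d + 1) (piE d) (piE_isOrth d) f) ?_
    have h5 : d + 2 ≤ d₀ + 2 := by omega
    nlinarith

end Vale.Agent.Lib.P162T
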