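import Vale.Agent.Lib.P162.Assemble

/-!
# P162T: the counting lower bound
-/

namespace Vale.Agent.Lib.P162T

open Equiv Finset
open Vale.Agent.Lib.P162

variable {G : Type*} [Group G] [Fintype G] [DecidableEq G]

/-- Support of a function as a finset. -/
noncomputable def supp' (μ : G → ℝ) : Finset G := by
  classical exact univ.filter (fun g => μ g ≠ 0)

lemma mem_supp' (μ : G → ℝ) (g : G) : g ∈ supp' μ ↔ μ g ≠ 0 := by
  classical
  simp [supp']

lemma supp_conv_card_le (a b : G → ℝ) :
    (supp' (conv a b)).card ≤ (supp' a).card * (supp' b).card := by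
  classical
  have hsub : supp' (conv a b) ⊆ ((supp' a) ×ˢ (supp' b)).image (fun p => p.1 * p.2) := by
    intro g hg
    rw [mem_supp'] at hg
    unfold conv at hg
    obtain ⟨h, _, hh⟩ := Finset.exists_ne_zero_of_sum_ne_zero hg
    have h1 : a h ≠ 0 := left_ne_zero_of_mul hh
    have h2 : b (h⁻¹ * g) ≠ 0 := right_ne_zero_of_mul hh
    refine Finset.mem_image.2 ⟨(h, h⁻¹ * g), ?_, by simp⟩
    exact Finset.mem_product.2 ⟨(mem_supp' _ _).2 h1, (mem_supp' _ _).2 h2⟩
  calc (supp' (conv a b)).card ≤ _ := Finset.card_le_card hsub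
    _ ≤ ((supp' a) ×ˢ (supp' b)).card := Finset.card_image_le
    _ = _ := Finset.card_product _ _

lemma supp_convPow_card_le (μ : G → ℝ) (t : ℕ) :
    (supp' (convPow μ t)).card ≤ (supp' μ).card ^ t := by
  induction t with
  | zero =>
    classical
    have : supp' (convPow μ 0) ⊆ {1} := by
      intro g hg
      rw [mem_supp'] at hg
      simp only [convPow] at hg
      by_contra h
      simp only [Finset.mem_singleton] at h
      exact hg (if_neg h)
    simpa using Finset.card_le_card this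
  | succ t ih =>
    rw [pow_succ]
    exact (supp_conv_card_le _ _).trans (Nat.mul_le_mul_right _ ih)

lemma conv_sum (a b : G → ℝ) (hb : ∑ g, b g = 1) : ∑ g, conv a b g = ∑ g, a g := by
  unfold conv
  rw [Finset.sum_comm]
  refine Finset.sum_congr rfl fun h _ => ?_
  rw [← Finset.mul_sum]
  have : ∑ g, b (h⁻¹ * g) = 1 := by
    rw [← hb]
    exact Fintype.sum_equiv (Equiv.mulLeft h⁻¹) _ _ (fun _ => rfl)
  rw [this, mul_one]

lemma convPow_sum (μ : G → ℝ) (h1 : ∑ g, μ g = 1) (t : ℕ) : ∑ g, convPow μ t g = 1 := by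
  induction t with
  | zero => simp [convPow]
  | succ t ih =>
    show ∑ g, conv (convPow μ t) μ g = 1
    rw [conv_sum _ _ h1, ih]

lemma convPow_nonneg (μ : G → ℝ) (h0 : ∀ g, 0 ≤ μ g) (t : ℕ) (g : G) : 0 ≤ convPow μ t g := by
  induction t generalizing g with
  | zero =>
    simp only [convPow]
    split_ifs <;> norm_num
  | succ t ih =>
    show 0 ≤ conv (convPow μ t) μ g
    exact Finset.sum_nonneg fun h _ => mul_nonneg (ih h) (h0 _)

/-- The distance from uniform of a probability vector with small support. -/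
lemma tv_ge_of_supp (p : G → ℝ) (h0 : ∀ g, 0 ≤ p g) (h1 : ∑ g, p g = 1) :
    1 - ((supp' p).card : ℝ) / (Fintype.card G : ℝ) ≤ tvDist p (unif G) := by
  classical
  unfold tvDist unif
  set N := (Fintype.card G : ℝ) with hN
  have hNpos : 0 < N := by
    rw [hN]
    exact_mod_cast Fintype.card_pos
  have hpt : ∀ g, p g - 1 / N - (if p g ≠ 0 then 0 else 0) + (if p g = 0 then 2 / N else 0)
      ≤ |p g - 1 / N| := by
    intro g
    by_cases hg : p g = 0
    · simp only [hg, ne_eq, not_true_eq_false, if_false, if_true, zero_sub, sub_zero, abs_neg]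
      rw [abs_of_pos (by positivity)]
      ring_nf
      exact le_rfl
    · simp only [hg, ne_eq, not_false_eq_true, if_true, if_false, sub_zero, add_zero]
      exact le_abs_self _
  have hsum := Finset.sum_le_sum (fun g (_ : g ∈ (univ : Finset G)) => hpt g)
  have hfil : ((univ.filter (fun g => p g = 0)).card : ℝ) = N - ((supp' p).card : ℝ) := by
    have h2 := Finset.card_filter_add_card_filter_not (s := (univ : Finset G)) (fun g => p g = 0)
    have h3 : (supp' p) = univ.filter (fun g => ¬ p g = 0) := by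
      ext g
      simp [mem_supp']
    rw [h3, hN]
    have h4 : (univ.card : ℕ) = Fintype.card G := Finset.card_univ
    rw [h4] at h2
    rw [← h2]
    push_cast
    ring
  have hL : ∑ g, (p g - 1 / N - (if p g ≠ 0 then (0 : ℝ) else 0) + (if p g = 0 then 2 / N else 0))
      = 1 - 1 + (N - ((supp' p).card : ℝ)) * (2 / N) := by
    simp only [ite_self, sub_zero]
    rw [Finset.sum_add_distrib, Finset.sum_sub_distrib, h1, Finset.sum_const, Finset.card_univ,
      ← Finset.sum_filter, Finset.sum_const, nsmul_eq_mul, nsmul_eq_mul, hfil, ← hN]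
    field_simp
  rw [hL] at hsum
  have : (1 - ((supp' p).card : ℝ) / N) = (1 / 2) * (1 - 1 + (N - ((supp' p).card : ℝ)) * (2 / N)) := by
    field_simp
    ring
  rw [this]
  exact mul_le_mul_of_nonneg_left hsum (by norm_num)

lemma two_pow_mul_le_factorial (m : ℕ) (hm : 5 ≤ m) : 2 * 2 ^ m ≤ m.factorial := by
  induction m, hm using Nat.le_induction with
  | base => decide
  | succ m hm ih =>
    rw [Nat.factorial_succ, pow_succ]
    nlinarith

lemma supp_thorp_card_le (m : ℕ) : (supp' (thorpLaw m)).card ≤ 2 ^ m := by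
  classical
  have hsub : supp' (thorpLaw m) ⊆ (univ : Finset (Fin m → Fin 2)).image (thorpPerm m) := by
    intro g hg
    rw [mem_supp', thorpLaw_eq] at hg
    have h1 : (univ.filter (fun c : Fin m → Fin 2 => thorpPerm m c = g)).card ≠ 0 := by
      intro h
      apply hg
      rw [h]
      simp
    obtain ⟨c, hc⟩ := Finset.card_pos.1 (Nat.pos_of_ne_zero h1)
    exact Finset.mem_image.2 ⟨c, Finset.mem_univ _, (Finset.mem_filter.1 hc).2⟩
  have h2 := Finset.card_le_card hsub
  refine h2.trans (Finset.card_image_le.trans ?_)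
  simp

/-- **Lower bound.** For `n = 2 ^ (d + 1) ≥ 16` and `t ≤ d + 1` shuffles, the distance to uniform
exceeds `1 / 4`. -/
theorem lower_bound (d t : ℕ) (hd : 3 ≤ d) (ht : t ≤ d + 1) :
    1 / 4 < tvDist (convPow (thorpLaw (2 ^ d)) t) (unif _) := by
  set m := 2 ^ d with hm
  have hm8 : 8 ≤ m := by
    rw [hm]
    calc 8 = 2 ^ 3 := by norm_num
      _ ≤ 2 ^ d := Nat.pow_le_pow_right (by norm_num) hd
  have h0 := convPow_nonneg (thorpLaw m) (thorpLaw_nonneg m) t
  have h1 := convPow_sum (thorpLaw m) (thorpLaw_sum m) t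
  have h2 := tv_ge_of_supp _ h0 h1
  refine lt_of_lt_of_le ?_ h2
  have hs : (supp' (convPow (thorpLaw m) t)).card ≤ (2 ^ m) ^ (d + 1) := by
    refine (supp_convPow_card_le _ _).trans ?_
    calc (supp' (thorpLaw m)).card ^ t ≤ (2 ^ m) ^ t := Nat.pow_le_pow_left (supp_thorp_card_le m) t
      _ ≤ (2 ^ m) ^ (d + 1) := Nat.pow_le_pow_right (by positivity) ht
  have hcard : Fintype.card (Equiv.Perm (Fin (2 * m))) = (2 * m).factorial := by
    rw [Fintype.card_perm, Fintype.card_fin]
  rw [hcard]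
  -- `(2^m)^(d+1) = (2 m)^m`
  have e1 : (2 ^ m) ^ (d + 1) = (2 * m) ^ m := by
    have : 2 * m = 2 ^ (d + 1) := by rw [hm, pow_succ]; ring
    rw [this, ← pow_mul, ← pow_mul, mul_comm]
  rw [e1] at hs
  -- the factorial estimate
  have hf1 : m.factorial * (m + 1) ^ m ≤ (2 * m).factorial := by
    have := @Nat.factorial_mul_pow_le_factorial m m
    rwa [← two_mul] at this
  have hf2 : 2 * 2 ^ m ≤ m.factorial := two_pow_mul_le_factorial m (by omega)
  have hf3 : (2 * m) ^ m ≤ 2 ^ m * (m + 1) ^ m := by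
    rw [← mul_pow]
    exact Nat.pow_le_pow_left (by omega) m
  have hf4 : 2 * (2 * m) ^ m ≤ (2 * m).factorial := by
    calc 2 * (2 * m) ^ m ≤ 2 * (2 ^ m * (m + 1) ^ m) := Nat.mul_le_mul_left _ hf3
      _ = (2 * 2 ^ m) * (m + 1) ^ m := by ring
      _ ≤ m.factorial * (m + 1) ^ m := Nat.mul_le_mul_right _ hf2
      _ ≤ _ := hf1
  have hpos : (0 : ℝ) < ((2 * m).factorial : ℝ) := by positivity
  have hle : ((supp' (convPow (thorpLaw m) t)).card : ℝ) ≤ ((2 * m).factorial : ℝ) / 2 := by
    have h3 : 2 * (supp' (convPow (thorpLaw m) t)).card ≤ (2 * m).factorial := by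
      calc _ ≤ 2 * (2 * m) ^ m := Nat.mul_le_mul_left _ hs
        _ ≤ _ := hf4
    have h4 : (2 : ℝ) * ((supp' (convPow (thorpLaw m) t)).card : ℝ) ≤ ((2 * m).factorial : ℝ) := by
      exact_mod_cast h3
    linarith
  have h5 : ((supp' (convPow (thorpLaw m) t)).card : ℝ) / ((2 * m).factorial : ℝ) ≤ 1 / 2 := by
    rw [div_le_iff₀ hpos]
    linarith
  linarith

end Vale.Agent.Lib.P162T
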