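import Vale.Agent.Lib.P162T.Basic

/-!
# P162T: the exponential moment, from windows (section 4 of notes/P162_blueprint.md)
-/

namespace Vale.Agent.Lib.P162T

open Equiv Finset

variable {d : ℕ}

/-- The rate at scale `i`. -/
noncomputable def kap (i : ℕ) : ℝ := (1 / 128) * (24 / 25 : ℝ) ^ (i + 1)

/-- Numerics for the groups: for `i` in group `j`, with `a = 2^(j+1)/128 + 1`,
`(1/(128 a)) (2^a - 1) (3/4)^(2^j) ≤ 2 kap i`. -/
theorem group_numeric (j i : ℕ) (h1 : 2 ^ (j + 1) ≤ i + 1) (h2 : i + 1 < 2 ^ (j + 2)) :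
    (1 / (128 * ((2 ^ (j + 1) / 128 + 1 : ℕ) : ℝ))) * ((2 : ℝ) ^ (2 ^ (j + 1) / 128 + 1) - 1)
      * (3 / 4 : ℝ) ^ (2 ^ j) ≤ 2 * kap i := by
  have hm2 : 2 ^ (j + 1) = 2 * 2 ^ j := by ring
  have hm4 : 2 ^ (j + 2) = 4 * 2 ^ j := by ring
  generalize hqq : 2 ^ (j + 1) / 128 = q
  generalize hmm : 2 ^ j = m at *
  have hq128 : 128 * q ≤ 2 * m := by
    rw [← hqq, hm2]; exact Nat.mul_div_le _ _
  have hq64 : 64 * q ≤ m := by omega
  have h4 : i + 1 ≤ 4 * m := by omega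
  have s1 : (2:ℝ) ^ (q + 1) - 1 ≤ ((q + 1 : ℕ) : ℝ) * 2 ^ q := by
    rcases q.eq_zero_or_pos with h | h
    · simp [h]; norm_num
    · have h1q : (1:ℝ) ≤ q := by exact_mod_cast h
      have h2q : (0:ℝ) < 2 ^ q := by positivity
      push_cast
      rw [pow_succ]
      nlinarith
  have s2 : (2:ℝ) ^ q * (3/4) ^ m ≤ (21/25) ^ m := by
    have h112 : (2:ℝ) ≤ (28/25) ^ 64 := by norm_num
    have h3 : (2:ℝ) ^ q ≤ (28/25) ^ m := by
      calc (2:ℝ) ^ q ≤ ((28/25) ^ 64) ^ q := pow_le_pow_left₀ (by norm_num) h112 q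
        _ = (28/25) ^ (64 * q) := by rw [pow_mul]
        _ ≤ (28/25) ^ m := pow_le_pow_right₀ (by norm_num) hq64
    calc (2:ℝ) ^ q * (3/4) ^ m ≤ (28/25) ^ m * (3/4) ^ m := by gcongr
      _ = (21/25) ^ m := by rw [← mul_pow]; norm_num
  have s3 : (21/25 : ℝ) ^ m ≤ (24/25) ^ (i + 1) := by
    calc (21/25 : ℝ) ^ m ≤ ((24/25) ^ 4) ^ m := pow_le_pow_left₀ (by norm_num) (by norm_num) m
      _ = (24/25) ^ (4 * m) := by rw [pow_mul]
      _ ≤ (24/25) ^ (i + 1) := pow_le_pow_of_le_one (by norm_num) (by norm_num) h4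
  have hpos34 : (0:ℝ) ≤ (3/4 : ℝ) ^ m := by positivity
  have hq1 : (0:ℝ) < ((q + 1 : ℕ) : ℝ) := by positivity
  unfold kap
  have key : (1 / (128 * ((q + 1 : ℕ) : ℝ))) * ((2 : ℝ) ^ (q + 1) - 1) ≤ (1 / 128) * 2 ^ q := by
    rw [div_mul_eq_mul_div, div_le_iff₀ (by positivity)]
    nlinarith [s1]
  calc (1 / (128 * ((q + 1 : ℕ) : ℝ))) * ((2 : ℝ) ^ (q + 1) - 1) * (3 / 4 : ℝ) ^ m
      ≤ ((1 / 128) * 2 ^ q) * (3 / 4 : ℝ) ^ m := by gcongr
    _ = (1 / 128) * (2 ^ q * (3 / 4 : ℝ) ^ m) := by ring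
    _ ≤ (1 / 128) * (24 / 25 : ℝ) ^ (i + 1) := by
        gcongr
        exact s2.trans s3
    _ ≤ 2 * ((1 / 128) * (24 / 25 : ℝ) ^ (i + 1)) := by
        have : (0:ℝ) ≤ (24 / 25 : ℝ) ^ (i + 1) := by positivity
        linarith

/-- The scales of group `j`. -/
def grp (d j : ℕ) : Finset (Fin d) :=
  univ.filter (fun i => 2 ^ (j + 1) ≤ i.val + 1 ∧ i.val + 1 < 2 ^ (j + 2))

theorem grp_card_le (d j : ℕ) : (grp d j).card ≤ 2 ^ (j + 1) := by
  have h : ((grp d j).image (fun i => i.val + 1)) ⊆ Finset.Ico (2 ^ (j + 1)) (2 ^ (j + 2)) := by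
    intro x hx
    simp only [grp, mem_image, mem_filter, mem_univ, true_and] at hx
    obtain ⟨i, hi, rfl⟩ := hx
    exact Finset.mem_Ico.2 hi
  have h2 := Finset.card_le_card h
  rw [Finset.card_image_of_injective _ (fun a b hab => by
    simp only [add_left_inj] at hab
    exact Fin.ext hab), Nat.card_Ico] at h2
  have : 2 ^ (j + 2) - 2 ^ (j + 1) = 2 ^ (j + 1) := by
    have : 2 ^ (j + 2) = 2 * 2 ^ (j + 1) := by ring
    omega
  omega

/-- Conditional bound for one group. -/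
theorem group_bound (P : Fin d → ℝ) (hP : ∀ i, 0 ≤ P i) (cc : Fin d → Coins d → ℕ)
    (hwin : ∀ (i : Fin d) (a l₁ l₂ : ℕ) (c : Coins d), 1 ≤ a → l₁ ≤ l₂ → l₂ ≤ i.val →
      Ex (fun c' : Coins d => ((2 : ℝ) ^ a) ^ (cc i (mergeOn (win d l₁ l₂) c' c)))
        ≤ Real.exp (((2 : ℝ) ^ a - 1) * (3 / 4 : ℝ) ^ (l₂ - l₁) * P i))
    (j : ℕ) (c : Coins d) :
    Ex (fun c' : Coins d => Real.exp ((Real.log 2 / 128) *
        ∑ i ∈ grp d j, (cc i (mergeOn (win d (2 ^ j - 1) (2 ^ (j + 1) - 1)) c' c) : ℝ)))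
      ≤ Real.exp (∑ i ∈ grp d j, 2 * kap i.val * P i) := by
  set a : ℕ := 2 ^ (j + 1) / 128 + 1 with ha
  have ha1 : 1 ≤ a := Nat.le_add_left 1 _
  have ha0 : (0:ℝ) < (a:ℝ) := by exact_mod_cast ha1
  set γ : ℝ := 1 / (128 * (a:ℝ)) with hγ
  have hγ0 : 0 ≤ γ := by positivity
  have hcard : ((grp d j).card : ℝ) ≤ 128 * a := by
    have h1 := grp_card_le d j
    have h2 : 2 ^ (j + 1) ≤ 128 * a := by
      rw [ha]
      have := Nat.div_add_mod (2 ^ (j + 1)) 128
      have h3 := Nat.mod_lt (2 ^ (j + 1)) (show 128 > 0 by norm_num)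
      omega
    exact_mod_cast h1.trans h2
  have hsum : ∑ _i ∈ grp d j, γ ≤ 1 := by
    rw [Finset.sum_const, nsmul_eq_mul, hγ, mul_one_div, div_le_one (by positivity)]
    exact hcard
  have hj1 : 2 ^ j - 1 ≤ 2 ^ (j + 1) - 1 := by
    have : 2 ^ (j + 1) = 2 * 2 ^ j := by ring
    omega
  have hdiff : 2 ^ (j + 1) - 1 - (2 ^ j - 1) = 2 ^ j := by
    have h2 : 2 ^ (j + 1) = 2 * 2 ^ j := by ring
    have h3 : 0 < 2 ^ j := by positivity
    omega
  have hH := holder_exp (C := Coins d) (grp d j)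
    (fun i c' => (a:ℝ) * Real.log 2 *
      (cc i (mergeOn (win d (2 ^ j - 1) (2 ^ (j + 1) - 1)) c' c) : ℝ))
    (fun i => ((2 : ℝ) ^ a - 1) * (3 / 4 : ℝ) ^ (2 ^ j) * P i) (fun _ => γ)
    (fun _ _ => hγ0) hsum ?_
  · have e1 : ∀ c' : Coins d, (∑ i ∈ grp d j, γ * ((a:ℝ) * Real.log 2 *
        (cc i (mergeOn (win d (2 ^ j - 1) (2 ^ (j + 1) - 1)) c' c) : ℝ)))
        = (Real.log 2 / 128) *
        ∑ i ∈ grp d j, (cc i (mergeOn (win d (2 ^ j - 1) (2 ^ (j + 1) - 1)) c' c) : ℝ) := by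
      intro c'
      rw [Finset.mul_sum]
      refine Finset.sum_congr rfl (fun i _ => ?_)
      rw [hγ]; field_simp
    simp only [e1] at hH
    refine hH.trans (Real.exp_le_exp.2 (Finset.sum_le_sum (fun i hi => ?_)))
    have hi' := (Finset.mem_filter.1 hi).2
    have hn := group_numeric j i.val hi'.1 hi'.2
    have hn' : γ * ((2 : ℝ) ^ a - 1) * (3 / 4 : ℝ) ^ (2 ^ j) ≤ 2 * kap i.val := hn
    calc γ * (((2 : ℝ) ^ a - 1) * (3 / 4 : ℝ) ^ (2 ^ j) * P i)
        = (γ * ((2 : ℝ) ^ a - 1) * (3 / 4 : ℝ) ^ (2 ^ j)) * P i := by ring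
      _ ≤ 2 * kap i.val * P i := mul_le_mul_of_nonneg_right hn' (hP i)
  · intro i hi
    have hi' := (Finset.mem_filter.1 hi).2
    have hl : 2 ^ (j + 1) - 1 ≤ i.val := by omega
    have hw := hwin i a (2 ^ j - 1) (2 ^ (j + 1) - 1) c ha1 hj1 hl
    rw [hdiff] at hw
    refine le_trans (le_of_eq ?_) hw
    congr 1
    funext c'
    rw [mul_comm ((a:ℝ)) (Real.log 2)]
    rw [show Real.log 2 * (a:ℝ) * ((cc i (mergeOn (win d (2 ^ j - 1) (2 ^ (j + 1) - 1)) c' c) : ℕ) : ℝ)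
      = ((cc i (mergeOn (win d (2 ^ j - 1) (2 ^ (j + 1) - 1)) c' c) : ℕ) : ℝ) * (Real.log 2 * (a:ℝ)) by ring]
    rw [Real.exp_nat_mul, mul_comm (Real.log 2), Real.exp_nat_mul, Real.exp_log (by norm_num)]

/-- Top-down integration over groups of one parity. -/
theorem parity_bound (P : Fin d → ℝ) (hP : ∀ i, 0 ≤ P i) (cc : Fin d → Coins d → ℕ)
    (hdep : ∀ i (c c' : Coins d), (∀ j : Fin d, j.val < i.val → c j = c' j) → cc i c = cc i c')
    (hwin : ∀ (i : Fin d) (a l₁ l₂ : ℕ) (c : Coins d), 1 ≤ a → l₁ ≤ l₂ → l₂ ≤ i.val →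
      Ex (fun c' : Coins d => ((2 : ℝ) ^ a) ^ (cc i (mergeOn (win d l₁ l₂) c' c)))
        ≤ Real.exp (((2 : ℝ) ^ a - 1) * (3 / 4 : ℝ) ^ (l₂ - l₁) * P i))
    (p n : ℕ) :
    Ex (fun c : Coins d => Real.exp ((Real.log 2 / 128) *
        ∑ k ∈ range n, ∑ i ∈ grp d (2 * k + p), (cc i c : ℝ)))
      ≤ Real.exp (∑ k ∈ range n, ∑ i ∈ grp d (2 * k + p), 2 * kap i.val * P i) := by
  induction n with
  | zero =>
    simp only [range_zero, sum_empty, mul_zero, Real.exp_zero]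
    rw [Ex_const]
  | succ n ih =>
    set j := 2 * n + p with hj
    set W := win d (2 ^ j - 1) (2 ^ (j + 1) - 1) with hW
    -- lower groups are unaffected by the window
    have hfix : ∀ (c' c : Coins d),
        ∑ k ∈ range n, ∑ i ∈ grp d (2 * k + p), (cc i (mergeOn W c' c) : ℝ)
          = ∑ k ∈ range n, ∑ i ∈ grp d (2 * k + p), (cc i c : ℝ) := by
      intro c' c
      refine Finset.sum_congr rfl (fun k hk => Finset.sum_congr rfl (fun i hi => ?_))
      have hk' : k + 1 ≤ n := Finset.mem_range.1 hk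
      have hi' := (Finset.mem_filter.1 hi).2
      have hpow : 2 ^ (2 * k + p + 2) ≤ 2 ^ j :=
        Nat.pow_le_pow_right (by norm_num) (by omega)
      congr 1
      apply hdep
      intro l hl
      unfold mergeOn
      rw [if_neg]
      intro hmem
      have := (Finset.mem_filter.1 hmem).2.1
      omega
    rw [Ex_merge W]
    have hstep : ∀ c : Coins d,
        Ex (fun c' : Coins d => Real.exp ((Real.log 2 / 128) *
          ∑ k ∈ range (n + 1), ∑ i ∈ grp d (2 * k + p), (cc i (mergeOn W c' c) : ℝ)))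
        ≤ Real.exp ((Real.log 2 / 128) *
            ∑ k ∈ range n, ∑ i ∈ grp d (2 * k + p), (cc i c : ℝ)) *
          Real.exp (∑ i ∈ grp d j, 2 * kap i.val * P i) := by
      intro c
      have e1 : ∀ c' : Coins d, Real.exp ((Real.log 2 / 128) *
          ∑ k ∈ range (n + 1), ∑ i ∈ grp d (2 * k + p), (cc i (mergeOn W c' c) : ℝ))
          = Real.exp ((Real.log 2 / 128) *
            ∑ k ∈ range n, ∑ i ∈ grp d (2 * k + p), (cc i c : ℝ)) *
            Real.exp ((Real.log 2 / 128) *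
              ∑ i ∈ grp d j, (cc i (mergeOn W c' c) : ℝ)) := by
        intro c'
        rw [Finset.sum_range_succ, hfix, mul_add, Real.exp_add]
      simp only [e1]
      rw [Ex_mul_left]
      exact mul_le_mul_of_nonneg_left (group_bound P hP cc hwin j c) (Real.exp_nonneg _)
    calc _ ≤ Ex (fun c : Coins d => Real.exp ((Real.log 2 / 128) *
            ∑ k ∈ range n, ∑ i ∈ grp d (2 * k + p), (cc i c : ℝ)) *
          Real.exp (∑ i ∈ grp d j, 2 * kap i.val * P i)) := Ex_mono hstep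
      _ = Ex (fun c : Coins d => Real.exp ((Real.log 2 / 128) *
            ∑ k ∈ range n, ∑ i ∈ grp d (2 * k + p), (cc i c : ℝ))) *
          Real.exp (∑ i ∈ grp d j, 2 * kap i.val * P i) := by
          simp only [mul_comm _ (Real.exp (∑ i ∈ grp d j, 2 * kap i.val * P i))]
          rw [Ex_mul_left]
      _ ≤ Real.exp (∑ k ∈ range n, ∑ i ∈ grp d (2 * k + p), 2 * kap i.val * P i) *
          Real.exp (∑ i ∈ grp d j, 2 * kap i.val * P i) :=
          mul_le_mul_of_nonneg_right ih (Real.exp_nonneg _)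
      _ = _ := by
          rw [← Real.exp_add, Finset.sum_range_succ]

/-- Splitting a sum over all scales into scale zero, even groups and odd groups. -/
theorem sum_split (f : Fin d → ℝ) :
    ∑ i, f i = ∑ i ∈ univ.filter (fun i : Fin d => i.val = 0), f i
      + ∑ k ∈ range (d + 1), ∑ i ∈ grp d (2 * k + 0), f i
      + ∑ k ∈ range (d + 1), ∑ i ∈ grp d (2 * k + 1), f i := by
  have hA : ∀ (g : ℕ → ℝ) (m : ℕ), ∑ j ∈ range (2 * m), g j
      = ∑ k ∈ range m, g (2 * k + 0) + ∑ k ∈ range m, g (2 * k + 1) := by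
    intro g m
    induction m with
    | zero => simp
    | succ m ih =>
      rw [show 2 * (m + 1) = 2 * m + 1 + 1 by ring, Finset.sum_range_succ, Finset.sum_range_succ, ih,
        Finset.sum_range_succ, Finset.sum_range_succ]
      simp only [add_zero]
      ring
  have hB : ∑ j ∈ range (2 * (d + 1)), ∑ i ∈ grp d j, f i
      = ∑ i ∈ univ.filter (fun i : Fin d => i.val ≠ 0), f i := by
    simp only [grp, Finset.sum_filter]
    rw [Finset.sum_comm]
    refine Finset.sum_congr rfl (fun i _ => ?_)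
    by_cases hi : i.val = 0
    · rw [if_neg (by simpa using hi)]
      refine Finset.sum_eq_zero (fun j _ => ?_)
      rw [if_neg]
      rintro ⟨h1, _⟩
      have : 2 ≤ 2 ^ (j + 1) := by
        calc 2 = 2 ^ 1 := by norm_num
          _ ≤ 2 ^ (j + 1) := Nat.pow_le_pow_right (by norm_num) (by omega)
      omega
    · rw [if_pos (by simpa using hi)]
      have hl : 2 ≤ i.val + 1 := by omega
      set l := Nat.log 2 (i.val + 1) with hl0
      have hl1 : 1 ≤ l := by
        rw [hl0]; exact Nat.le_log_of_pow_le (by norm_num) (by simpa using hl)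
      have hl2 : 2 ^ l ≤ i.val + 1 := Nat.pow_log_le_self 2 (by omega)
      have hl3 : i.val + 1 < 2 ^ (l + 1) := Nat.lt_pow_succ_log_self (by norm_num) _
      obtain ⟨j0, hj0⟩ : ∃ j0, l = j0 + 1 := ⟨l - 1, by omega⟩
      rw [hj0] at hl2 hl3
      have hj0lt : j0 < 2 * (d + 1) := by
        have h1 : j0 + 1 < 2 ^ (j0 + 1) := Nat.lt_two_pow_self
        have h2 := i.isLt
        omega
      rw [Finset.sum_eq_single j0]
      · rw [if_pos ⟨hl2, hl3⟩]
      · intro b _ hb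
        rw [if_neg]
        rintro ⟨h1, h2⟩
        rcases lt_or_gt_of_ne hb with hlt | hgt
        · have : 2 ^ (b + 2) ≤ 2 ^ (j0 + 1) := Nat.pow_le_pow_right (by norm_num) (by omega)
          exact absurd (lt_of_le_of_lt (this.trans hl2) h2) (lt_irrefl _)
        · have : 2 ^ (j0 + 1 + 1) ≤ 2 ^ (b + 1) := Nat.pow_le_pow_right (by norm_num) (by omega)
          exact absurd (lt_of_lt_of_le hl3 (this.trans h1)) (lt_irrefl _)
      · intro h
        exact absurd (Finset.mem_range.2 hj0lt) h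
  rw [add_assoc, ← hA (fun j => ∑ i ∈ grp d j, f i) (d + 1), hB]
  exact (Finset.sum_filter_add_sum_filter_not univ _ f).symm

/-- **Moment bound**, abstract form.  `cc i c` is a natural number depending only on the layers `< i`
of `c`, satisfying the window bound for all `T = 2^a`, and bounded by `P i` at scale `0`. -/
theorem moment (P : Fin d → ℝ) (hP : ∀ i, 0 ≤ P i) (cc : Fin d → Coins d → ℕ)
    (hdep : ∀ i (c c' : Coins d), (∀ j : Fin d, j.val < i.val → c j = c' j) → cc i c = cc i c')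
    (hwin : ∀ (i : Fin d) (a l₁ l₂ : ℕ) (c : Coins d), 1 ≤ a → l₁ ≤ l₂ → l₂ ≤ i.val →
      Ex (fun c' : Coins d => ((2 : ℝ) ^ a) ^ (cc i (mergeOn (win d l₁ l₂) c' c)))
        ≤ Real.exp (((2 : ℝ) ^ a - 1) * (3 / 4 : ℝ) ^ (l₂ - l₁) * P i))
    (h0 : ∀ (i : Fin d) (c : Coins d), i.val = 0 → (cc i c : ℝ) ≤ P i) :
    Ex (fun c : Coins d => Real.exp ((Real.log 2 / 256) * ∑ i, (cc i c : ℝ)))
      ≤ Real.exp (∑ i : Fin d, kap i.val * P i) := by
  set z := univ.filter (fun i : Fin d => i.val = 0) with hz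
  -- even and odd parts
  have hE := parity_bound P hP cc hdep hwin 0 (d + 1)
  have hO := parity_bound P hP cc hdep hwin 1 (d + 1)
  set Ee : Coins d → ℝ := fun c => ∑ k ∈ range (d + 1), ∑ i ∈ grp d (2 * k + 0), (cc i c : ℝ)
  set Eo : Coins d → ℝ := fun c => ∑ k ∈ range (d + 1), ∑ i ∈ grp d (2 * k + 1), (cc i c : ℝ)
  set Be : ℝ := ∑ k ∈ range (d + 1), ∑ i ∈ grp d (2 * k + 0), 2 * kap i.val * P i with hBe
  set Bo : ℝ := ∑ k ∈ range (d + 1), ∑ i ∈ grp d (2 * k + 1), 2 * kap i.val * P i with hBo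
  have hH := holder_exp (C := Coins d) (univ : Finset Bool)
    (fun b c => (Real.log 2 / 128) * (if b then Ee c else Eo c))
    (fun b => if b then Be else Bo) (fun _ => (1 / 2 : ℝ))
    (fun _ _ => by norm_num) (by simp) (by
      intro b _
      cases b
      · simp only [Bool.false_eq_true, if_false]; exact hO
      · simp only [if_true]; exact hE)
  simp only [Fintype.sum_bool, if_true, if_false, Bool.false_eq_true] at hH
  -- scale zero
  have hs0 : (Real.log 2 / 256) ≤ kap 0 := by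
    unfold kap
    have := Real.log_two_lt_d9
    norm_num
    linarith
  have hlog : 0 ≤ Real.log 2 / 256 := by
    have := Real.log_nonneg (show (1:ℝ) ≤ 2 by norm_num)
    positivity
  have hz0 : ∀ c : Coins d, (Real.log 2 / 256) * ∑ i ∈ z, (cc i c : ℝ) ≤ ∑ i ∈ z, kap i.val * P i := by
    intro c
    rw [Finset.mul_sum]
    refine Finset.sum_le_sum (fun i hi => ?_)
    have hi0 : i.val = 0 := (Finset.mem_filter.1 hi).2
    rw [hi0]
    exact (mul_le_mul_of_nonneg_left (h0 i c hi0) hlog).trans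
      (mul_le_mul_of_nonneg_right hs0 (hP i))
  have hsplit : ∀ c : Coins d, Real.exp ((Real.log 2 / 256) * ∑ i, (cc i c : ℝ))
      ≤ Real.exp (∑ i ∈ z, kap i.val * P i) *
        Real.exp ((1 / 2) * ((Real.log 2 / 128) * Ee c) + (1 / 2) * ((Real.log 2 / 128) * Eo c)) := by
    intro c
    rw [← Real.exp_add]
    apply Real.exp_le_exp.2
    rw [sum_split (fun i => (cc i c : ℝ))]
    have := hz0 c
    simp only [Ee, Eo]
    nlinarith [this]
  calc _ ≤ Ex (fun c : Coins d => Real.exp (∑ i ∈ z, kap i.val * P i) *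
        Real.exp ((1 / 2) * ((Real.log 2 / 128) * Ee c) + (1 / 2) * ((Real.log 2 / 128) * Eo c))) :=
        Ex_mono hsplit
    _ = Real.exp (∑ i ∈ z, kap i.val * P i) *
        Ex (fun c : Coins d =>
        Real.exp ((1 / 2) * ((Real.log 2 / 128) * Ee c) + (1 / 2) * ((Real.log 2 / 128) * Eo c))) :=
        Ex_mul_left _ _
    _ ≤ Real.exp (∑ i ∈ z, kap i.val * P i) * Real.exp ((1 / 2) * Be + (1 / 2) * Bo) :=
        mul_le_mul_of_nonneg_left hH (Real.exp_nonneg _)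
    _ = Real.exp (∑ i : Fin d, kap i.val * P i) := by
        rw [← Real.exp_add, sum_split (fun i => kap i.val * P i)]
        congr 1
        have e1 : ∀ p, ∑ k ∈ range (d + 1), ∑ i ∈ grp d (2 * k + p), 2 * kap i.val * P i
            = 2 * ∑ k ∈ range (d + 1), ∑ i ∈ grp d (2 * k + p), kap i.val * P i := by
          intro p
          rw [Finset.mul_sum]
          refine Finset.sum_congr rfl (fun k _ => ?_)
          rw [Finset.mul_sum]
          refine Finset.sum_congr rfl (fun i _ => ?_)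
          ring
        rw [hBe, hBo, e1 0, e1 1]
        ring

end Vale.Agent.Lib.P162T
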