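import Vale.Agent.Lib.P162T.Basic

/-!
# P162T: sign averages
-/

namespace Vale.Agent.Lib.P162T

open Equiv Finset

/-- The sign of a bit: `sgn 0 = 1`, `sgn 1 = -1`. -/
noncomputable def sgn (b : Fin 2) : ℝ := if b = 0 then 1 else -1

section

variable {P : Type*} [Fintype P] [DecidableEq P]

/-- Linear form in the signs of a coin function. -/
noncomputable def lin (σ : P → ℝ) (s : P → Fin 2) : ℝ := ∑ p, σ p * sgn (s p)

/-- Sum of squares of coefficients. -/
noncomputable def nrm (σ : P → ℝ) : ℝ := ∑ p, σ p ^ 2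

/-- Toggle the coordinate `p`. -/
def flipS (p : P) (s : P → Fin 2) : P → Fin 2 := Function.update s p (s p + 1)

theorem flipS_flipS (p : P) (s : P → Fin 2) : flipS p (flipS p s) = s := by
  unfold flipS
  simp only [Function.update_self, Function.update_idem]
  have : ∀ a : Fin 2, a + 1 + 1 = a := by decide
  rw [this]
  simp

/-- Toggling a coordinate, as a bijection. -/
def flipE (p : P) : (P → Fin 2) ≃ (P → Fin 2) where
  toFun := flipS p
  invFun := flipS p
  left_inv := flipS_flipS p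
  right_inv := flipS_flipS p

theorem sgn_add_one (a : Fin 2) : sgn (a + 1) = - sgn a := by
  fin_cases a <;> simp [sgn]

theorem sgn_eq (a : Fin 2) : sgn a = 1 ∨ sgn a = -1 := by
  unfold sgn
  split_ifs <;> simp

/-- Averaging out the sign at `p`. -/
theorem Ex_flip_avg (p : P) (F : (P → Fin 2) → ℝ) :
    Ex F = (1 / 2) * Ex (fun s => F s + F (flipS p s)) := by
  rw [Ex_add]
  have : Ex (fun s => F (flipS p s)) = Ex F := Ex_equiv (flipE p) F
  rw [this]
  ring

/-- The linear form over a part of the coordinates. -/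
noncomputable def linA (σ : P → ℝ) (A : Finset P) (s : P → Fin 2) : ℝ := ∑ q ∈ A, σ q * sgn (s q)

/-- The sum of squares over a part of the coordinates. -/
noncomputable def nrmA (σ : P → ℝ) (A : Finset P) : ℝ := ∑ q ∈ A, σ q ^ 2

theorem nrmA_nonneg (σ : P → ℝ) (A : Finset P) : 0 ≤ nrmA σ A :=
  Finset.sum_nonneg fun _ _ => sq_nonneg _

theorem linA_flip (σ : P → ℝ) {A : Finset P} {p : P} (hp : p ∉ A) (s : P → Fin 2) :
    linA σ A (flipS p s) = linA σ A s := by
  unfold linA flipS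
  refine Finset.sum_congr rfl fun q hq => ?_
  have : q ≠ p := fun h => hp (h ▸ hq)
  simp [Function.update_of_ne this]

theorem linA_insert (σ : P → ℝ) {A : Finset P} {p : P} (hp : p ∉ A) (s : P → Fin 2) :
    linA σ (insert p A) s = σ p * sgn (s p) + linA σ A s := by
  unfold linA
  rw [Finset.sum_insert hp]

theorem nrmA_insert (σ : P → ℝ) {A : Finset P} {p : P} (hp : p ∉ A) :
    nrmA σ (insert p A) = σ p ^ 2 + nrmA σ A := by
  unfold nrmA
  rw [Finset.sum_insert hp]

/-- The pair of values of `F` at `s` and at the toggled point, in terms of the shifted parameter. -/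
theorem pair_eq (σ : P → ℝ) {A : Finset P} {p : P} (hp : p ∉ A) (H : ℝ → ℝ) (s : P → Fin 2) :
    H (σ p * sgn (s p) + linA σ A s) + H (σ p * sgn (flipS p s p) + linA σ A (flipS p s))
      = H (σ p + linA σ A s) + H (-σ p + linA σ A s) := by
  rw [linA_flip σ hp]
  have h1 : flipS p s p = s p + 1 := by simp [flipS]
  rw [h1, sgn_add_one]
  rcases sgn_eq (s p) with h | h <;> rw [h]
  · simp
  · simp [add_comm]

theorem rad1_aux (a : P → ℝ) (A : Finset P) : ∀ t : ℝ,
    Ex (fun s : P → Fin 2 => Real.exp (t + linA a A s)) ≤ Real.exp (t + nrmA a A / 2) := by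
  induction A using Finset.induction_on with
  | empty =>
    intro t
    simp [linA, nrmA, Ex_const]
  | insert p A hp ih =>
    intro t
    have e1 : ∀ s : P → Fin 2, Real.exp (t + linA a (insert p A) s)
        = (fun x => Real.exp (t + x)) (a p * sgn (s p) + linA a A s) := by
      intro s
      simp only [linA_insert a hp]
    simp_rw [e1]
    rw [Ex_flip_avg p]
    have e2 : ∀ s : P → Fin 2,
        (fun x => Real.exp (t + x)) (a p * sgn (s p) + linA a A s)
          + (fun x => Real.exp (t + x)) (a p * sgn (flipS p s p) + linA a A (flipS p s))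
        = Real.exp ((t + a p) + linA a A s) + Real.exp ((t - a p) + linA a A s) := by
      intro s
      rw [pair_eq a hp (fun x => Real.exp (t + x)) s]
      ring_nf
    simp_rw [e2]
    rw [Ex_add]
    have h1 := ih (t + a p)
    have h2 := ih (t - a p)
    have hc : Real.exp (t + a p + nrmA a A / 2) + Real.exp (t - a p + nrmA a A / 2)
        = 2 * (Real.exp (t + nrmA a A / 2) * Real.cosh (a p)) := by
      rw [Real.cosh_eq]
      have e3 : t + a p + nrmA a A / 2 = (t + nrmA a A / 2) + a p := by ring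
      have e4 : t - a p + nrmA a A / 2 = (t + nrmA a A / 2) + -a p := by ring
      rw [e3, e4, Real.exp_add, Real.exp_add (t + nrmA a A / 2) (-a p)]
      ring
    have hch : Real.cosh (a p) ≤ Real.exp (a p ^ 2 / 2) := Real.cosh_le_exp_half_sq _
    have hfin : Real.exp (t + nrmA a A / 2) * Real.cosh (a p)
        ≤ Real.exp (t + nrmA a (insert p A) / 2) := by
      rw [nrmA_insert a hp]
      calc Real.exp (t + nrmA a A / 2) * Real.cosh (a p)
          ≤ Real.exp (t + nrmA a A / 2) * Real.exp (a p ^ 2 / 2) :=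
            mul_le_mul_of_nonneg_left hch (Real.exp_pos _).le
        _ = _ := by rw [← Real.exp_add]; congr 1; ring
    linarith

theorem lin_eq_linA (σ : P → ℝ) (s : P → Fin 2) : lin σ s = linA σ Finset.univ s := rfl

theorem nrm_eq_nrmA (σ : P → ℝ) : nrm σ = nrmA σ Finset.univ := rfl

theorem rad1 (a : P → ℝ) : Ex (fun s : P → Fin 2 => Real.exp (lin a s)) ≤ Real.exp (nrm a / 2) := by
  have := rad1_aux a Finset.univ 0
  simpa [lin_eq_linA, nrm_eq_nrmA] using this

/-- The elementary inequality in the induction for `rad2`. -/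
theorem rad2_numeric {b D x : ℝ} (hb : 0 ≤ b) (hD : 0 < D) (hDx : 0 < D - x) (hx : 0 ≤ x) :
    b / D + 2 * (b / D) ^ 2 * (x / (2 * b)) ≤ b / (D - x) := by
  rcases hb.eq_or_lt with rfl | hb
  · simp
  have e : 2 * (b / D) ^ 2 * (x / (2 * b)) = b * x / D ^ 2 := by
    field_simp
  rw [e]
  have h1 : b / D + b * x / D ^ 2 = b * (D + x) / D ^ 2 := by
    field_simp
  rw [h1, div_le_div_iff₀ (by positivity) hDx]
  nlinarith [mul_nonneg hb.le (sq_nonneg x)]

theorem rad2_aux (σ : P → ℝ) (b : ℝ) (hb : 0 ≤ b) (A : Finset P) (h : 4 * b * nrmA σ A ≤ 1) :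
    ∀ t : ℝ, Ex (fun s : P → Fin 2 => Real.exp (b * (t + linA σ A s) ^ 2))
      ≤ Real.exp (b / (1 - 2 * b * nrmA σ A) * t ^ 2 + 2 * b * nrmA σ A) := by
  induction A using Finset.induction_on with
  | empty =>
    intro t
    simp [linA, nrmA, Ex_const]
  | insert p A hp ih =>
    intro t
    rw [nrmA_insert σ hp] at h
    have hS := nrmA_nonneg σ A
    have hσ := sq_nonneg (σ p)
    have hbS : 0 ≤ b * nrmA σ A := mul_nonneg hb hS
    have hbσ : 0 ≤ b * σ p ^ 2 := mul_nonneg hb hσ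
    have h' : 4 * b * nrmA σ A ≤ 1 := by nlinarith
    have IH := ih h'
    set S := nrmA σ A with hSdef
    set D := 1 - 2 * b * S with hD
    have hD2 : 1 / 2 ≤ D := by rw [hD]; nlinarith
    have hDpos : 0 < D := by linarith
    set b' := b / D with hb'
    have hb'0 : 0 ≤ b' := div_nonneg hb hDpos.le
    have hb'2 : b' ≤ 2 * b := by
      rw [hb', div_le_iff₀ hDpos]
      nlinarith
    have e1 : ∀ s : P → Fin 2, Real.exp (b * (t + linA σ (insert p A) s) ^ 2)
        = (fun y => Real.exp (b * (t + y) ^ 2)) (σ p * sgn (s p) + linA σ A s) := by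
      intro s
      simp only [linA_insert σ hp]
    simp_rw [e1]
    rw [Ex_flip_avg p]
    have e2 : ∀ s : P → Fin 2,
        (fun y => Real.exp (b * (t + y) ^ 2)) (σ p * sgn (s p) + linA σ A s)
          + (fun y => Real.exp (b * (t + y) ^ 2)) (σ p * sgn (flipS p s p) + linA σ A (flipS p s))
        = Real.exp (b * ((t + σ p) + linA σ A s) ^ 2)
          + Real.exp (b * ((t - σ p) + linA σ A s) ^ 2) := by
      intro s
      rw [pair_eq σ hp (fun y => Real.exp (b * (t + y) ^ 2)) s]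
      ring_nf
    simp_rw [e2]
    rw [Ex_add]
    have h1 := IH (t + σ p)
    have h2 := IH (t - σ p)
    -- the two exponentials combine into a hyperbolic cosine
    set c := b' * (t ^ 2 + σ p ^ 2) + 2 * b * S with hc
    have hsum : Real.exp (b' * (t + σ p) ^ 2 + 2 * b * S) + Real.exp (b' * (t - σ p) ^ 2 + 2 * b * S)
        = 2 * (Real.exp c * Real.cosh (2 * b' * t * σ p)) := by
      rw [Real.cosh_eq]
      have e3 : b' * (t + σ p) ^ 2 + 2 * b * S = c + 2 * b' * t * σ p := by rw [hc]; ring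
      have e4 : b' * (t - σ p) ^ 2 + 2 * b * S = c + -(2 * b' * t * σ p) := by rw [hc]; ring
      rw [e3, e4, Real.exp_add, Real.exp_add c (-(2 * b' * t * σ p))]
      ring
    have hch : Real.cosh (2 * b' * t * σ p) ≤ Real.exp ((2 * b' * t * σ p) ^ 2 / 2) :=
      Real.cosh_le_exp_half_sq _
    -- target exponent
    have hD' : 1 - 2 * b * (σ p ^ 2 + S) = D - 2 * b * σ p ^ 2 := by rw [hD]; ring
    have hDx : 0 < D - 2 * b * σ p ^ 2 := by
      have : 1 / 2 ≤ D - 2 * b * σ p ^ 2 := by rw [hD]; nlinarith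
      linarith
    have hkey : b' + 2 * b' ^ 2 * σ p ^ 2 ≤ b / (D - 2 * b * σ p ^ 2) := by
      rcases hb.eq_or_lt with hb0 | hbpos
      · rw [hb', ← hb0]; simp
      have := rad2_numeric hb hDpos hDx (by positivity : 0 ≤ 2 * b * σ p ^ 2)
      have e5 : 2 * b * σ p ^ 2 / (2 * b) = σ p ^ 2 := by
        field_simp
      rw [e5] at this
      simpa [hb'] using this
    have hexp : c + (2 * b' * t * σ p) ^ 2 / 2
        ≤ b / (1 - 2 * b * (σ p ^ 2 + S)) * t ^ 2 + 2 * b * (σ p ^ 2 + S) := by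
      rw [hD', hc]
      have ht := sq_nonneg t
      have h3 := mul_le_mul_of_nonneg_right hkey ht
      have h4 : b' * σ p ^ 2 ≤ 2 * b * σ p ^ 2 := mul_le_mul_of_nonneg_right hb'2 hσ
      nlinarith
    have hfin : Real.exp c * Real.cosh (2 * b' * t * σ p)
        ≤ Real.exp (b / (1 - 2 * b * (σ p ^ 2 + S)) * t ^ 2 + 2 * b * (σ p ^ 2 + S)) := by
      calc Real.exp c * Real.cosh (2 * b' * t * σ p)
          ≤ Real.exp c * Real.exp ((2 * b' * t * σ p) ^ 2 / 2) :=
            mul_le_mul_of_nonneg_left hch (Real.exp_pos _).le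
        _ = Real.exp (c + (2 * b' * t * σ p) ^ 2 / 2) := (Real.exp_add _ _).symm
        _ ≤ _ := Real.exp_le_exp.2 hexp
    rw [nrmA_insert σ hp]
    linarith

theorem rad2 (σ : P → ℝ) (b : ℝ) (hb : 0 ≤ b) (h : 4 * b * nrm σ ≤ 1) :
    Ex (fun s : P → Fin 2 => Real.exp (b * lin σ s ^ 2)) ≤ Real.exp (2 * b * nrm σ) := by
  have := rad2_aux σ b hb Finset.univ (by simpa [nrm_eq_nrmA] using h) 0
  simpa [lin_eq_linA, nrm_eq_nrmA] using this

/-- The linear form sees only the support of its coefficients. -/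
theorem lin_congr (σ : P → ℝ) {s s' : P → Fin 2} (h : ∀ p ∈ {p | σ p ≠ 0}, s p = s' p) :
    lin σ s = lin σ s' := by
  unfold lin
  refine Finset.sum_congr rfl fun p _ => ?_
  by_cases hp : σ p = 0
  · simp [hp]
  · rw [h p hp]

/-- Independence: the average of a product over pairwise disjoint supports. -/
theorem Ex_prod_indep {G : Type*} (T : Finset G) (f : G → (P → Fin 2) → ℝ) (I : G → Set P)
    (hf : ∀ g, ∀ s s' : P → Fin 2, (∀ p ∈ I g, s p = s' p) → f g s = f g s')
    (hd : ∀ g g', g ≠ g' → Disjoint (I g) (I g')) :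
    Ex (fun s => ∏ g ∈ T, f g s) = ∏ g ∈ T, Ex (f g) := by
  classical
  induction T using Finset.induction_on with
  | empty => simp [Ex_const]
  | insert g0 T hg ih =>
    simp_rw [Finset.prod_insert hg]
    rw [Ex_mul_of_disjoint_pi (I := I g0) (J := ⋃ g ∈ T, I g) (hf g0), ih]
    · intro s s' hs
      refine Finset.prod_congr rfl fun g hgT => hf g s s' fun p hp => hs p ?_
      exact Set.mem_biUnion hgT hp
    · rw [Set.disjoint_iUnion₂_right]
      intro g hgT
      exact hd g0 g (fun h => hg (h ▸ hgT))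

/-- Blocks with disjoint supports. -/
theorem rad2_blocks {G : Type*} [Fintype G] (σ : G → P → ℝ) (b : G → ℝ) (hb : ∀ g, 0 ≤ b g)
    (hdisj : ∀ g g' p, g ≠ g' → σ g p ≠ 0 → σ g' p = 0)
    (h : ∀ g, 4 * b g * nrm (σ g) ≤ 1) :
    Ex (fun s : P → Fin 2 => Real.exp (∑ g, b g * lin (σ g) s ^ 2))
      ≤ Real.exp (∑ g, 2 * b g * nrm (σ g)) := by
  classical
  simp_rw [Real.exp_sum]
  rw [Ex_prod_indep Finset.univ (fun g s => Real.exp (b g * lin (σ g) s ^ 2))
    (fun g => {p | σ g p ≠ 0})]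
  · refine Finset.prod_le_prod (fun g _ => Ex_nonneg fun s => (Real.exp_pos _).le) fun g _ => ?_
    exact rad2 (σ g) (b g) (hb g) (h g)
  · intro g s s' hs
    simp only [lin_congr (σ g) hs]
  · intro g g' hgg
    rw [Set.disjoint_left]
    intro p hp hp'
    exact hp' (hdisj g g' p hgg hp)

/-- One block of the product form. -/
theorem rad_product_one (σ₀ σ₁ : P → ℝ) (a : ℝ) (hd : ∀ p, σ₀ p ≠ 0 → σ₁ p = 0)
    (h : 2 * a ^ 2 * (nrm σ₀ * nrm σ₁) ≤ 1) :
    Ex (fun s : P → Fin 2 => Real.exp (a * (lin σ₀ s * lin σ₁ s)))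
      ≤ Real.exp (a ^ 2 * (nrm σ₀ * nrm σ₁)) := by
  classical
  rw [← Ex_mergeSet {p | σ₀ p ≠ 0}]
  have e0 : ∀ s s' : P → Fin 2, lin σ₀ (mergeSet {p | σ₀ p ≠ 0} s' s) = lin σ₀ s' := by
    intro s s'
    exact lin_congr σ₀ fun p hp => by simp only [mergeSet, if_pos hp]
  have e1 : ∀ s s' : P → Fin 2, lin σ₁ (mergeSet {p | σ₀ p ≠ 0} s' s) = lin σ₁ s := by
    intro s s'
    refine lin_congr σ₁ fun p hp => ?_
    have : p ∉ {p | σ₀ p ≠ 0} := fun h0 => hp (hd p h0)
    simp only [mergeSet, if_neg this]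
  simp_rw [e0, e1]
  have hN0 : 0 ≤ nrm σ₀ := Finset.sum_nonneg fun _ _ => sq_nonneg _
  have hN1 : 0 ≤ nrm σ₁ := Finset.sum_nonneg fun _ _ => sq_nonneg _
  have inner : ∀ s : P → Fin 2,
      Ex (fun s' : P → Fin 2 => Real.exp (a * (lin σ₀ s' * lin σ₁ s)))
        ≤ Real.exp ((a ^ 2 * nrm σ₀ / 2) * lin σ₁ s ^ 2) := by
    intro s
    have := rad1 (fun p => a * lin σ₁ s * σ₀ p)
    have e3 : ∀ s' : P → Fin 2, lin (fun p => a * lin σ₁ s * σ₀ p) s'
        = a * (lin σ₀ s' * lin σ₁ s) := by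
      intro s'
      generalize lin σ₁ s = L
      unfold lin
      have : a * ((∑ p, σ₀ p * sgn (s' p)) * L) = a * L * ∑ p, σ₀ p * sgn (s' p) := by ring
      rw [this, Finset.mul_sum]
      exact Finset.sum_congr rfl fun p _ => by ring
    have e4 : nrm (fun p => a * lin σ₁ s * σ₀ p) / 2 = (a ^ 2 * nrm σ₀ / 2) * lin σ₁ s ^ 2 := by
      generalize lin σ₁ s = L
      unfold nrm
      have : ∑ p, (a * L * σ₀ p) ^ 2 = a ^ 2 * L ^ 2 * ∑ p, σ₀ p ^ 2 := by
        rw [Finset.mul_sum]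
        exact Finset.sum_congr rfl fun p _ => by ring
      rw [this]
      ring
    simp_rw [e3] at this
    rw [e4] at this
    exact this
  refine (Ex_mono inner).trans ?_
  have := rad2 σ₁ (a ^ 2 * nrm σ₀ / 2) (by positivity) (by nlinarith)
  refine this.trans (le_of_eq ?_)
  congr 1
  ring

/-- Product form: blocks of two linear forms; all the supports are pairwise disjoint. -/
theorem rad_product {G : Type*} [Fintype G] (σ₀ σ₁ : G → P → ℝ) (a : ℝ) (ha : 0 ≤ a)
    (hdisj0 : ∀ g g' p, g ≠ g' → σ₀ g p ≠ 0 → σ₀ g' p = 0)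
    (hdisj1 : ∀ g g' p, g ≠ g' → σ₁ g p ≠ 0 → σ₁ g' p = 0)
    (hdisj01 : ∀ g g' p, σ₀ g p ≠ 0 → σ₁ g' p = 0)
    (h : ∀ g, 2 * a ^ 2 * (nrm (σ₀ g) * nrm (σ₁ g)) ≤ 1) :
    Ex (fun s : P → Fin 2 => Real.exp (a * ∑ g, lin (σ₀ g) s * lin (σ₁ g) s))
      ≤ Real.exp (a ^ 2 * ∑ g, nrm (σ₀ g) * nrm (σ₁ g)) := by
  classical
  simp_rw [Finset.mul_sum, Real.exp_sum]
  rw [Ex_prod_indep Finset.univ (fun g s => Real.exp (a * (lin (σ₀ g) s * lin (σ₁ g) s)))
    (fun g => {p | σ₀ g p ≠ 0} ∪ {p | σ₁ g p ≠ 0})]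
  · refine Finset.prod_le_prod (fun g _ => Ex_nonneg fun s => (Real.exp_pos _).le) fun g _ => ?_
    exact rad_product_one (σ₀ g) (σ₁ g) a (hdisj01 g g) (h g)
  · intro g s s' hs
    have h0 : lin (σ₀ g) s = lin (σ₀ g) s' :=
      lin_congr (σ₀ g) fun p hp => hs p (Or.inl hp)
    have h1 : lin (σ₁ g) s = lin (σ₁ g) s' :=
      lin_congr (σ₁ g) fun p hp => hs p (Or.inr hp)
    simp only [h0, h1]
  · intro g g' hgg
    rw [Set.disjoint_left]
    rintro p (hp | hp) (hp' | hp')
    · exact hp' (hdisj0 g g' p hgg hp)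
    · exact hp' (hdisj01 g g' p hp)
    · exact hp (hdisj01 g' g p hp')
    · exact hp' (hdisj1 g g' p hgg hp)

end

end Vale.Agent.Lib.P162T
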