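import Vale.Agent.Lib.P162T.KW

/-!
# P162T: the window bound (section 2 of notes/P162_blueprint.md)
-/

namespace Vale.Agent.Lib.P162T

open Equiv Finset
open Vale.Agent.Lib.P162 (flipAt flipAt_apply)

variable {d : ℕ}

open Classical in
/-- Number of colourings invariant under both matchings, vanishing off `S`. -/
noncomputable def GG (τ : ℕ) (S : Finset (Cube d)) (θ ζ : Perm (Cube d)) : ℕ :=
  (univ.filter (fun f : Cube d → Fin (τ + 1) =>
    (∀ y, y ∉ S → f y = 0) ∧ (∀ y, f (θ y) = f y) ∧ (∀ y, f (ζ y) = f y))).card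

open Classical in
/-- Number of matched pairs of `θ` inside `S`. -/
noncomputable def pairs (S : Finset (Cube d)) (θ : Perm (Cube d)) (i : Fin d) : ℕ :=
  (S.filter (fun y => y i = 0 ∧ θ y ∈ S)).card

/-- The flips along a list avoiding bit `i` only look at coins on the slice of the argument. -/
theorem N_slice_congr {i : Fin d} {b : Fin 2} (l : List (Fin d)) (hi : i ∉ l) (c₁ c₂ : Coins d)
    (h : ∀ j ∈ l, ∀ z : Cube d, z i = b → c₁ j z = c₂ j z) (y : Cube d) (hy : y i = b) :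
    N l c₁ y = N l c₂ y := by
  induction l generalizing y with
  | nil => rfl
  | cons j l ih =>
    have hji : i ≠ j := fun e => hi (by simp [e])
    have hi' : i ∉ l := fun e => hi (by simp [e])
    have hz : (Function.update y j 0) i = b := by
      rw [Function.update_of_ne hji]; exact hy
    have hc : c₁ j (Function.update y j 0) = c₂ j (Function.update y j 0) :=
      h j (by simp) _ hz
    have hf : flipAt j (c₁ j) y = flipAt j (c₂ j) y := by
      simp only [flipAt_apply, hc]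
    simp only [N, Perm.coe_mul, Function.comp_apply]
    rw [hf]
    apply ih hi' (fun k hk z hzk => h k (by simp [hk]) z hzk)
    simp only [flipAt_apply]
    rw [Function.update_of_ne hji]
    exact hy

section window

variable (τ : ℕ) (S : Finset (Cube d)) (θ : Perm (Cube d)) (i : Fin d)
  (l₁ l₂ : ℕ) (c : Coins d)

/-- The lower net with the window resampled. -/
def Mw (c' : Coins d) : Perm (Cube d) := low (mergeOn (win d l₁ l₂) c' c) i

theorem Mw_inv_slice {b : Fin 2} (c₁ c₂ : Coins d)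
    (h : ∀ (j : Fin d) (z : Cube d), z i = b → c₁ j z = c₂ j z) (x : Cube d) (hx : x i = b) :
    (Mw i l₁ l₂ c c₁)⁻¹ x = (Mw i l₁ l₂ c c₂)⁻¹ x := by
  unfold Mw low
  rw [N_inv, N_inv]
  apply N_slice_congr _ _ _ _ _ _ hx
  · simp [mem_seg]
  · intro j _ z hz
    simp only [mergeOn]
    split_ifs
    · exact h j z hz
    · rfl

theorem Mw_apply_self (c' : Coins d) (y : Cube d) : Mw i l₁ l₂ c c' y i = y i :=
  low_apply_ge _ _ _ _ le_rfl

theorem Mw_inv_apply_self (c' : Coins d) (y : Cube d) : (Mw i l₁ l₂ c c')⁻¹ y i = y i := by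
  have := Mw_apply_self i l₁ l₂ c c' ((Mw i l₁ l₂ c c')⁻¹ y)
  simpa using this.symm

/-- The colouring seen through the net, on slice `b`. -/
def Uw (b : Fin 2) (f : Cube d → Fin (τ + 1)) (c' : Coins d) : Cube d → Fin (τ + 1) :=
  fun x => if x i = b then f ((Mw i l₁ l₂ c c')⁻¹ x) else 0

theorem Uw_depOn (b : Fin 2) (f : Cube d → Fin (τ + 1)) (c₁ c₂ : Coins d)
    (h : ∀ (j : Fin d) (z : Cube d), z i = b → c₁ j z = c₂ j z) :
    Uw τ i l₁ l₂ c b f c₁ = Uw τ i l₁ l₂ c b f c₂ := by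
  funext x
  unfold Uw
  split_ifs with hx
  · rw [Mw_inv_slice i l₁ l₂ c c₁ c₂ h x hx]
  · rfl

/-- Composition with the flip of bit `i`. -/
def Rw (h : Cube d → Fin (τ + 1)) : Cube d → Fin (τ + 1) := fun x => h (bitR i x)

theorem bitR_bitR_w (x : Cube d) : bitR i (bitR i x) = x := by
  have := congrArg (fun g : Perm (Cube d) => g x) (flipAt_mul_self i (fun _ => (1 : Fin 2)))
  simpa [bitR] using this

theorem Rw_injective : Function.Injective (Rw τ i) := by
  intro h h' e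
  funext x
  have := congrFun e (bitR i x)
  simpa [Rw, bitR_bitR_w] using this

open Classical in
/-- The starting family of colourings. -/
noncomputable def Fw : Finset (Cube d → Fin (τ + 1)) :=
  univ.filter (fun f => (∀ y, y ∉ S → f y = 0) ∧ (∀ y, f (θ y) = f y))

open Classical in
theorem GG_eq_sum (ζ : Perm (Cube d)) :
    (GG τ S θ ζ : ℝ) = ∑ f ∈ Fw τ S θ, (if ∀ y, f (ζ y) = f y then (1 : ℝ) else 0) := by
  rw [Finset.sum_ite, Finset.sum_const_zero, add_zero, Finset.sum_const, nsmul_eq_mul, mul_one]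
  have : GG τ S θ ζ = ((Fw τ S θ).filter (fun f => ∀ y, f (ζ y) = f y)).card := by
    unfold GG Fw
    rw [Finset.filter_filter]
    congr 1
    ext f
    simp [and_assoc]
  rw [this]

open Classical in
/-- The event for the matching is contained in the sum over the common value. -/
theorem ind_le_sum (f : Cube d → Fin (τ + 1)) (c' : Coins d) :
    (if ∀ y, f (Theta (mergeOn (win d l₁ l₂) c' c) i y) = f y then (1 : ℝ) else 0) ≤
      ∑ h : Cube d → Fin (τ + 1),
        (if Uw τ i l₁ l₂ c 0 f c' = h then (1 : ℝ) else 0) *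
          (if Uw τ i l₁ l₂ c 1 f c' = Rw τ i h then (1 : ℝ) else 0) := by
  split_ifs with hev
  · have hone : Uw τ i l₁ l₂ c 1 f c' = Rw τ i (Uw τ i l₁ l₂ c 0 f c') := by
      funext x
      simp only [Uw, Rw]
      by_cases hx : x i = 1
      · have hx0 : bitR i x i = 0 := by
          rw [bitR_apply_self, hx]; rfl
        rw [if_pos hx, if_pos hx0]
        have h1 := hev ((Mw i l₁ l₂ c c')⁻¹ (bitR i x))
        have h2 : Theta (mergeOn (win d l₁ l₂) c' c) i ((Mw i l₁ l₂ c c')⁻¹ (bitR i x))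
            = (Mw i l₁ l₂ c c')⁻¹ x := by
          simp only [Theta, Perm.coe_mul, Function.comp_apply]
          change (Mw i l₁ l₂ c c')⁻¹ (bitR i (Mw i l₁ l₂ c c' ((Mw i l₁ l₂ c c')⁻¹ (bitR i x)))) = _
          simp [bitR_bitR_w]
        rw [h2] at h1
        exact h1
      · have hx0 : x i = 0 := by omega
        have hx1 : bitR i x i ≠ 0 := by
          rw [bitR_apply_self, hx0]; decide
        rw [if_neg hx, if_neg hx1]
    have hnn : ∀ h ∈ (univ : Finset (Cube d → Fin (τ + 1))), h ∉ ({Uw τ i l₁ l₂ c 0 f c'} : Finset _) →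
        (0 : ℝ) ≤ (if Uw τ i l₁ l₂ c 0 f c' = h then (1 : ℝ) else 0) *
          (if Uw τ i l₁ l₂ c 1 f c' = Rw τ i h then (1 : ℝ) else 0) := by
      intro h _ _
      split_ifs <;> norm_num
    refine le_trans ?_ (Finset.sum_le_sum_of_subset_of_nonneg (Finset.subset_univ _) hnn)
    rw [Finset.sum_singleton, if_pos rfl, if_pos hone]
    norm_num
  · apply Finset.sum_nonneg
    intro h _
    split_ifs <;> norm_num

/-- Indicators of values of a random variable: second moment. -/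
theorem sum_sq_prob {C H : Type*} [Fintype C] [Fintype H] [DecidableEq H] (Q : C → H) (φ : H → H)
    (hφ : Function.Injective φ) :
    ∑ h : H, (Ex (fun c => if Q c = φ h then (1 : ℝ) else 0)) ^ 2 ≤
      Ex (fun p : C × C => if Q p.1 = Q p.2 then (1 : ℝ) else 0) := by
  have hsq : ∀ h : H, (Ex (fun c => if Q c = φ h then (1 : ℝ) else 0)) ^ 2 =
      Ex (fun p : C × C => (if Q p.1 = φ h then (1 : ℝ) else 0) * (if Q p.2 = φ h then (1 : ℝ) else 0)) := by
    intro h
    rw [Ex_prod (fun p : C × C => (if Q p.1 = φ h then (1 : ℝ) else 0) * (if Q p.2 = φ h then (1 : ℝ) else 0))]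
    set A : C → ℝ := fun c => if Q c = φ h then (1 : ℝ) else 0 with hA
    have h1 : ∀ c, Ex (fun c' => A c * A c') = A c * Ex A := fun c => Ex_mul_left (A c) A
    have h2 : (fun c => Ex (fun c' => A c * A c')) = fun c => Ex A * A c := by
      funext c
      rw [h1, mul_comm]
    change (Ex A) ^ 2 = Ex (fun c => Ex (fun c' => A c * A c'))
    rw [h2, Ex_mul_left, pow_two]
  simp_rw [hsq]
  rw [← Ex_sum]
  apply Ex_mono
  intro p
  by_cases he : Q p.1 = Q p.2
  · rw [if_pos he]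
    by_cases hex : ∃ h, Q p.1 = φ h
    · obtain ⟨h₀, hh₀⟩ := hex
      have huniq : ∀ h, h ≠ h₀ → (if Q p.1 = φ h then (1 : ℝ) else 0) * (if Q p.2 = φ h then (1 : ℝ) else 0) = 0 := by
        intro h hne
        have : Q p.1 ≠ φ h := by
          rw [hh₀]
          exact fun e => hne (hφ e).symm
        rw [if_neg this, zero_mul]
      rw [Finset.sum_eq_single h₀ (fun h _ hne => huniq h hne) (by simp)]
      rw [if_pos hh₀, if_pos (he ▸ hh₀)]
      norm_num
    · push Not at hex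
      rw [Finset.sum_eq_zero]
      · norm_num
      · intro h _
        rw [if_neg (hex h), zero_mul]
  · rw [if_neg he]
    apply le_of_eq
    apply Finset.sum_eq_zero
    intro h _
    by_cases h1 : Q p.1 = φ h
    · have h2 : Q p.2 ≠ φ h := fun e => he (h1.trans e.symm)
      rw [if_neg h2, mul_zero]
    · rw [if_neg h1, zero_mul]

open Classical in
/-- A set of invariant colourings vanishing off `B` is bounded by the cycle count. -/
theorem card_le_Ecyc (B : Finset (Cube d)) (P : Perm (Cube d))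
    (T : Finset (Cube d → Fin (τ + 1)))
    (hT : ∀ g ∈ T, (∀ y, y ∉ B → g y = 0) ∧ ∀ y, g (P y) = g y) :
    (T.card : ℝ) ≤ Ecyc τ (fun y => if y ∈ B then (1 : ℝ) else 0) P := by
  unfold Ecyc
  have hw : ∀ g : Cube d → Fin (τ + 1),
      0 ≤ Wt (fun y => if y ∈ B then (1 : ℝ) else 0) g * (if (∀ y, g (P y) = g y) then (1 : ℝ) else 0) := by
    intro g
    apply mul_nonneg
    · unfold Wt
      apply Finset.prod_nonneg
      intro y _
      by_cases h3 : g y = 0 <;> by_cases h4 : y ∈ B <;> simp [h3, h4]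
    · split_ifs <;> norm_num
  refine le_trans ?_ (Finset.sum_le_sum_of_subset_of_nonneg (Finset.subset_univ T) (fun g _ _ => hw g))
  rw [Finset.card_eq_sum_ones]
  push_cast
  apply Finset.sum_le_sum
  intro g hg
  obtain ⟨h1, h2⟩ := hT g hg
  rw [if_pos h2, mul_one]
  unfold Wt
  apply le_of_eq
  symm
  apply Finset.prod_eq_one
  intro y _
  by_cases h3 : g y = 0
  · simp [h3]
  · have h4 : y ∈ B := by
      by_contra h5
      exact h3 (h1 y h5)
    simp [h3, h4]

open Classical in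
/-- The main pointwise comparison: pairs of nets with the same view on slice `b`. -/
theorem sum_ind_le_Ecyc (hθ : ∀ y, θ (θ y) = y) (hf : ∀ y, θ y i = y i + 1) (b : Fin 2)
    (c₁ c₂ : Coins d) :
    ∑ f ∈ Fw τ S θ, (if Uw τ i l₁ l₂ c b f c₁ = Uw τ i l₁ l₂ c b f c₂ then (1 : ℝ) else 0) ≤
      Ecyc τ (fun y => if y ∈ S.filter (fun y => y i = b ∧ θ y ∈ S) then (1 : ℝ) else 0)
        ((Mw i l₁ l₂ c c₁)⁻¹ * Mw i l₁ l₂ c c₂) := by
  set P := (Mw i l₁ l₂ c c₁)⁻¹ * Mw i l₁ l₂ c c₂ with hP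
  have hPb : ∀ y, P y i = y i := by
    intro y
    simp only [hP, Perm.coe_mul, Function.comp_apply]
    rw [Mw_inv_apply_self, Mw_apply_self]
  let ι : (Cube d → Fin (τ + 1)) → (Cube d → Fin (τ + 1)) := fun f y => if y i = b then f y else 0
  rw [Finset.sum_ite, Finset.sum_const_zero, add_zero, Finset.sum_const, nsmul_eq_mul, mul_one]
  let A := (Fw τ S θ).filter (fun f => Uw τ i l₁ l₂ c b f c₁ = Uw τ i l₁ l₂ c b f c₂)
  have hinj : Set.InjOn ι (A : Set (Cube d → Fin (τ + 1))) := by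
    intro f hf₁ f' hf₂ e
    have hf₁' := (Finset.mem_filter.mp (Finset.mem_coe.mp hf₁)).1
    have hf₂' := (Finset.mem_filter.mp (Finset.mem_coe.mp hf₂)).1
    have h1 := (Finset.mem_filter.mp hf₁').2.2
    have h2 := (Finset.mem_filter.mp hf₂').2.2
    funext y
    by_cases hy : y i = b
    · have := congrFun e y
      simpa [ι, hy] using this
    · have hy' : θ y i = b := by
        rw [hf]
        have hb : ∀ a b' : Fin 2, a ≠ b' → a + 1 = b' := by decide
        exact hb _ _ hy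
      have := congrFun e (θ y)
      simp only [ι, hy', if_true] at this
      rw [← h1 y, ← h2 y, this]
  have hcard : (A.card : ℝ) = ((A.image ι).card : ℝ) := by
    rw [Finset.card_image_of_injOn hinj]
  change (A.card : ℝ) ≤ _
  rw [hcard]
  apply card_le_Ecyc
  intro g hg
  obtain ⟨f, hfA, rfl⟩ := Finset.mem_image.mp hg
  obtain ⟨hfF, hfeq⟩ := Finset.mem_filter.mp hfA
  obtain ⟨h1, h2⟩ := (Finset.mem_filter.mp hfF).2
  refine ⟨?_, ?_⟩
  · intro y hy
    simp only [ι]
    split_ifs with hyb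
    · by_contra hne
      apply hy
      refine Finset.mem_filter.mpr ⟨?_, hyb, ?_⟩
      · by_contra hyS
        exact hne (h1 y hyS)
      · by_contra hyS
        apply hne
        rw [← h2 y]
        exact h1 _ hyS
    · rfl
  · intro y
    simp only [ι, hPb]
    split_ifs with hyb
    · have hx : Mw i l₁ l₂ c c₂ y i = b := by rw [Mw_apply_self]; exact hyb
      have := congrFun hfeq (Mw i l₁ l₂ c c₂ y)
      simp only [Uw, hx, if_true] at this
      simp only [hP, Perm.coe_mul, Function.comp_apply]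
      rw [this]
      simp
    · rfl

/-- Conjugation form of `P`. -/
theorem Mw_mul (hl₂ : l₂ ≤ i.val) (h₁ : l₁ ≤ l₂) (c₁ c₂ : Coins d) :
    (Mw i l₁ l₂ c c₁)⁻¹ * Mw i l₁ l₂ c c₂ =
      (N (seg d 0 l₁) c)⁻¹ * ((N (seg d l₁ l₂) c₁)⁻¹ * N (seg d l₁ l₂) c₂) * N (seg d 0 l₁) c := by
  unfold Mw
  rw [low_mergeOn c c₁ l₁ l₂ i h₁ hl₂, low_mergeOn c c₂ l₁ l₂ i h₁ hl₂]
  group

open Classical in
/-- Second moments for one slice. -/
theorem sum_sq_le (hθ : ∀ y, θ (θ y) = y) (hf : ∀ y, θ y i = y i + 1) (h₁ : l₁ ≤ l₂)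
    (h₂ : l₂ ≤ i.val) (b : Fin 2) (φ : (Cube d → Fin (τ + 1)) → (Cube d → Fin (τ + 1)))
    (hφ : Function.Injective φ) (hcard : (S.filter (fun y => y i = b ∧ θ y ∈ S)).card = pairs S θ i) :
    ∑ f ∈ Fw τ S θ, ∑ h : Cube d → Fin (τ + 1),
        (Ex (fun c' : Coins d => if Uw τ i l₁ l₂ c b f c' = φ h then (1 : ℝ) else 0)) ^ 2
      ≤ Real.exp (τ * (3 / 4 : ℝ) ^ (l₂ - l₁) * pairs S θ i) := by
  have h1 : ∀ f ∈ Fw τ S θ, ∑ h : Cube d → Fin (τ + 1),
        (Ex (fun c' : Coins d => if Uw τ i l₁ l₂ c b f c' = φ h then (1 : ℝ) else 0)) ^ 2 ≤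
        Ex (fun p : Coins d × Coins d =>
          if Uw τ i l₁ l₂ c b f p.1 = Uw τ i l₁ l₂ c b f p.2 then (1 : ℝ) else 0) :=
    fun f _ => sum_sq_prob _ φ hφ
  refine (Finset.sum_le_sum h1).trans ?_
  rw [← Ex_sum]
  have hKW := KW_conj τ (seg d l₁ l₂) (seg_nodup l₁ l₂) (N (seg d 0 l₁) c)
    (S.filter (fun y => y i = b ∧ θ y ∈ S))
  rw [seg_length l₁ l₂ h₁ (h₂.trans i.isLt.le), hcard] at hKW
  refine le_trans ?_ hKW
  apply Ex_mono
  intro p
  refine (sum_ind_le_Ecyc τ S θ i l₁ l₂ c hθ hf b p.1 p.2).trans ?_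
  rw [Mw_mul i l₁ l₂ c h₂ h₁]

/-- **The window bound.** -/
theorem window_bound (τ : ℕ) (S : Finset (Cube d)) (θ : Perm (Cube d)) (i : Fin d)
    (hθ : ∀ y, θ (θ y) = y) (hf : ∀ y, θ y i = y i + 1)
    (l₁ l₂ : ℕ) (h₁ : l₁ ≤ l₂) (h₂ : l₂ ≤ i.val) (c : Coins d) :
    Ex (fun c' : Coins d => (GG τ S θ (Theta (mergeOn (win d l₁ l₂) c' c) i) : ℝ))
      ≤ Real.exp (τ * (3 / 4 : ℝ) ^ (l₂ - l₁) * pairs S θ i) := by
  classical
  set E := Real.exp (τ * (3 / 4 : ℝ) ^ (l₂ - l₁) * pairs S θ i) with hE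
  have hEpos : 0 < E := Real.exp_pos _
  -- the two cardinalities agree
  have hcard1 : (S.filter (fun y => y i = 1 ∧ θ y ∈ S)).card = pairs S θ i := by
    unfold pairs
    apply Finset.card_bij (fun y _ => θ y)
    · intro y hy
      obtain ⟨h3, h4, h5⟩ := Finset.mem_filter.mp hy
      refine Finset.mem_filter.mpr ⟨h5, ?_, ?_⟩
      · rw [hf, h4]; rfl
      · rw [hθ]; exact h3
    · intro a _ b _ e
      exact θ.injective e
    · intro y hy
      obtain ⟨h3, h4, h5⟩ := Finset.mem_filter.mp hy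
      refine ⟨θ y, Finset.mem_filter.mpr ⟨h5, ?_, ?_⟩, hθ y⟩
      · rw [hf, h4]; rfl
      · rw [hθ]; exact h3
  -- start
  have h1 : ∀ (f : Cube d → Fin (τ + 1)) (h : Cube d → Fin (τ + 1)),
      Ex (fun c' : Coins d => (if Uw τ i l₁ l₂ c 0 f c' = h then (1 : ℝ) else 0) *
        (if Uw τ i l₁ l₂ c 1 f c' = Rw τ i h then (1 : ℝ) else 0)) =
      (Ex (fun c' : Coins d => if Uw τ i l₁ l₂ c 0 f c' = h then (1 : ℝ) else 0)) *
      (Ex (fun c' : Coins d => if Uw τ i l₁ l₂ c 1 f c' = Rw τ i h then (1 : ℝ) else 0)) := by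
    intro f h
    apply Ex_mul_of_disjoint (I := {p | p.2 i = 0}) (J := {p | p.2 i = 1})
    · intro c₁ c₂ hc
      beta_reduce
      rw [Uw_depOn τ i l₁ l₂ c 0 f c₁ c₂ (fun j z hz => hc (j, z) hz)]
    · intro c₁ c₂ hc
      beta_reduce
      rw [Uw_depOn τ i l₁ l₂ c 1 f c₁ c₂ (fun j z hz => hc (j, z) hz)]
    · rw [Set.disjoint_left]
      intro p hp hq
      have hp' : p.2 i = 0 := hp
      have hq' : p.2 i = 1 := hq
      rw [hp'] at hq'
      exact absurd hq' (by decide)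
  have hstart : Ex (fun c' : Coins d => (GG τ S θ (Theta (mergeOn (win d l₁ l₂) c' c) i) : ℝ)) ≤
      ∑ f ∈ Fw τ S θ, ∑ h : Cube d → Fin (τ + 1),
        (Ex (fun c' : Coins d => if Uw τ i l₁ l₂ c 0 f c' = h then (1 : ℝ) else 0)) *
        (Ex (fun c' : Coins d => if Uw τ i l₁ l₂ c 1 f c' = Rw τ i h then (1 : ℝ) else 0)) := by
    calc Ex (fun c' : Coins d => (GG τ S θ (Theta (mergeOn (win d l₁ l₂) c' c) i) : ℝ))
        ≤ Ex (fun c' : Coins d => ∑ f ∈ Fw τ S θ, ∑ h : Cube d → Fin (τ + 1),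
            (if Uw τ i l₁ l₂ c 0 f c' = h then (1 : ℝ) else 0) *
            (if Uw τ i l₁ l₂ c 1 f c' = Rw τ i h then (1 : ℝ) else 0)) := by
          apply Ex_mono
          intro c'
          rw [GG_eq_sum]
          apply Finset.sum_le_sum
          intro f _
          exact ind_le_sum τ i l₁ l₂ c f c'
      _ = ∑ f ∈ Fw τ S θ, Ex (fun c' : Coins d => ∑ h : Cube d → Fin (τ + 1),
            (if Uw τ i l₁ l₂ c 0 f c' = h then (1 : ℝ) else 0) *
            (if Uw τ i l₁ l₂ c 1 f c' = Rw τ i h then (1 : ℝ) else 0)) := Ex_sum _ _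
      _ = ∑ f ∈ Fw τ S θ, ∑ h : Cube d → Fin (τ + 1), Ex (fun c' : Coins d =>
            (if Uw τ i l₁ l₂ c 0 f c' = h then (1 : ℝ) else 0) *
            (if Uw τ i l₁ l₂ c 1 f c' = Rw τ i h then (1 : ℝ) else 0)) :=
          Finset.sum_congr rfl (fun f _ => Ex_sum _ _)
      _ = _ := Finset.sum_congr rfl (fun f _ => Finset.sum_congr rfl (fun h _ => h1 f h))
  refine hstart.trans ?_
  -- Cauchy-Schwarz
  rw [← Finset.sum_product']
  refine (Real.sum_mul_le_sqrt_mul_sqrt _ _ _).trans ?_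
  have hA := sum_sq_le τ S θ i l₁ l₂ c hθ hf h₁ h₂ 0 id Function.injective_id rfl
  have hB := sum_sq_le τ S θ i l₁ l₂ c hθ hf h₁ h₂ 1 (Rw τ i) (Rw_injective τ i) hcard1
  rw [← hE] at hA hB
  simp only [id] at hA
  rw [Finset.sum_product, Finset.sum_product]
  calc _ ≤ Real.sqrt E * Real.sqrt E := by
        apply mul_le_mul (Real.sqrt_le_sqrt hA) (Real.sqrt_le_sqrt hB) (Real.sqrt_nonneg _) (Real.sqrt_nonneg _)
    _ = E := Real.mul_self_sqrt hEpos.le

end window

end Vale.Agent.Lib.P162T
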