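import Vale.Agent.Lib.P162T.Flat
import Vale.Agent.Lib.P162T.Rademacher
import Vale.Agent.Lib.P162T.Window
import Vale.Agent.Lib.P162T.Moment

/-!
# P162T: overlap of two reversed nets; Lemma A (section 5 of notes/P162_blueprint.md)
-/

namespace Vale.Agent.Lib.P162T

open Equiv Finset
open Vale.Agent.Lib.P162 (flipAt)

variable {d : ℕ}

open Classical in
/-- Number of pairs `(u,u')` of `U`, `u` in slice `0`, `u'` in slice `1` at bit `i`, matched by `N l c`. -/
noncomputable def Oc (l : List (Fin d)) (i : Fin d) (U : Finset (Cube d)) (c : Coins d) : ℕ :=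
  ((U ×ˢ U).filter (fun p => p.1 i = 0 ∧ p.2 i = 1 ∧ N l c p.2 = bitR i (N l c p.1))).card

open Classical in
/-- The expected overlap: pairs agreeing off `l` and off `i`, divided by `2^|l|`. -/
noncomputable def Xo (l : List (Fin d)) (i : Fin d) (U : Finset (Cube d)) : ℝ :=
  (((U ×ˢ U).filter (fun p => p.1 i = 0 ∧ p.2 i = 1 ∧ ∀ b, b ∉ l → b ≠ i → p.1 b = p.2 b)).card : ℝ)
    / 2 ^ l.length

/-- The overlap step constants: `C 0 = μ`, `C (r+1) = C r + (C r)^2 / 2^(r+1)` stay `≤ 2 μ` if `μ ≤ 1/4`. -/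
noncomputable def Cov (μ : ℝ) : ℕ → ℝ
  | 0 => μ
  | r + 1 => Cov μ r + (Cov μ r) ^ 2 / 2 ^ (r + 1)

theorem Cov_le (μ : ℝ) (h0 : 0 ≤ μ) (h1 : μ ≤ 1 / 4) (r : ℕ) : 0 ≤ Cov μ r ∧ Cov μ r ≤ 2 * μ := by
  have key : ∀ r, 0 ≤ Cov μ r ∧ Cov μ r ≤ 2 * μ - μ / 2 ^ r := by
    intro r
    induction r with
    | zero =>
      simp only [Cov, pow_zero, div_one]
      constructor <;> linarith
    | succ r ih =>
      obtain ⟨a, b⟩ := ih
      have hm : 0 ≤ μ / 2 ^ r := by positivity
      have hC : Cov μ r ≤ 2 * μ := by linarith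
      have hsq : Cov μ r ^ 2 ≤ μ := by nlinarith
      simp only [Cov]
      constructor
      · positivity
      · have h3 : Cov μ r ^ 2 / 2 ^ (r + 1) ≤ μ / 2 ^ (r + 1) := by gcongr
        have e : μ / 2 ^ r = 2 * (μ / 2 ^ (r + 1)) := by
          rw [pow_succ]; field_simp
        linarith
  obtain ⟨a, b⟩ := key r
  have hm : 0 ≤ μ / 2 ^ r := by positivity
  exact ⟨a, by linarith⟩

/-! ### Small facts -/

section facts

/-- `flipAt` preserves the bits different from `j`. -/
lemma fl_ne {j b : Fin d} (h : b ≠ j) (s : Coin d) (y : Cube d) : flipAt j s y b = y b :=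
  flipAt_apply_ne j b h s y

lemma sgn_add (a b : Fin 2) : sgn (a + b) = sgn a * sgn b := by
  fin_cases a <;> fin_cases b <;> simp [sgn]

lemma ite_eq_sgn (a b : Fin 2) : (if a = b then (1 : ℝ) else 0) = (1 + sgn a * sgn b) / 2 := by
  fin_cases a <;> fin_cases b <;> simp [sgn]

lemma fin2_cases (a : Fin 2) : a = 0 ∨ a = 1 := by
  fin_cases a <;> simp

/-- The marginal law of one layer. -/
theorem Ex_layer (j : Fin d) (G : Coin d → ℝ) : Ex (fun c : Coins d => G (c j)) = Ex G := by
  have h1 := Ex_equiv (Equiv.funSplitAt j (Coin d)) (fun p => G p.1)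
  have h2 : (fun c : Coins d => G (c j)) = fun c => (fun p : Coin d × ({ k // k ≠ j } → Coin d) => G p.1)
      (Equiv.funSplitAt j (Coin d) c) := rfl
  rw [h2, h1, Ex_prod]
  congr 1
  funext s
  exact Ex_const (C := { k // k ≠ j } → Coin d) (G s)

end facts

/-! ### The recursion on `Oc` -/

theorem Oc_cons (j : Fin d) (l : List (Fin d)) (i : Fin d) (hji : j ≠ i) (U : Finset (Cube d))
    (c : Coins d) :
    Oc (j :: l) i U c = Oc l i (U.map (flipAt j (c j)).toEmbedding) c := by
  classical
  unfold Oc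
  refine Finset.card_bij (fun p _ => (flipAt j (c j) p.1, flipAt j (c j) p.2)) ?_ ?_ ?_
  · rintro ⟨u, u'⟩ hp
    simp only [mem_filter, mem_product] at hp ⊢
    obtain ⟨⟨hu, hu'⟩, h0, h1, h2⟩ := hp
    refine ⟨⟨?_, ?_⟩, ?_, ?_, h2⟩
    · exact mem_map_of_mem _ hu
    · exact mem_map_of_mem _ hu'
    · rw [fl_ne (Ne.symm hji)]; exact h0
    · rw [fl_ne (Ne.symm hji)]; exact h1
  · rintro ⟨u, u'⟩ _ ⟨v, v'⟩ _ h
    simp only [Prod.mk.injEq] at h
    have h1 := (flipAt j (c j)).injective h.1
    have h2 := (flipAt j (c j)).injective h.2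
    simp [h1, h2]
  · rintro ⟨w, w'⟩ hp
    simp only [mem_filter, mem_product, mem_map] at hp
    obtain ⟨⟨⟨u, hu, rfl⟩, ⟨u', hu', rfl⟩⟩, h0, h1, h2⟩ := hp
    simp only [Equiv.coe_toEmbedding] at h0 h1 h2
    refine ⟨(u, u'), ?_, rfl⟩
    simp only [mem_filter, mem_product]
    refine ⟨⟨hu, hu'⟩, ?_, ?_, h2⟩
    · rw [fl_ne (Ne.symm hji)] at h0; exact h0
    · rw [fl_ne (Ne.symm hji)] at h1; exact h1

theorem Oc_congr (l : List (Fin d)) (i : Fin d) (U : Finset (Cube d)) (c c' : Coins d)
    (h : N l c = N l c') : Oc l i U c = Oc l i U c' := by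
  unfold Oc
  rw [h]

/-! ### The pair set -/

open Classical in
/-- The pairs counted by `Xo`. -/
noncomputable def PX (l : List (Fin d)) (i : Fin d) (U : Finset (Cube d)) : Finset (Cube d × Cube d) :=
  (U ×ˢ U).filter (fun p => p.1 i = 0 ∧ p.2 i = 1 ∧ ∀ b, b ∉ l → b ≠ i → p.1 b = p.2 b)

lemma Xo_eq (l : List (Fin d)) (i : Fin d) (U : Finset (Cube d)) :
    Xo l i U = ((PX l i U).card : ℝ) / 2 ^ l.length := rfl

theorem Xo_nonneg (l : List (Fin d)) (i : Fin d) (U : Finset (Cube d)) : 0 ≤ Xo l i U := by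
  rw [Xo_eq]; positivity

lemma mem_PX {l : List (Fin d)} {i : Fin d} {U : Finset (Cube d)} {p : Cube d × Cube d} :
    p ∈ PX l i U ↔ p.1 ∈ U ∧ p.2 ∈ U ∧ p.1 i = 0 ∧ p.2 i = 1 ∧ ∀ b, b ∉ l → b ≠ i → p.1 b = p.2 b := by
  classical
  simp only [PX, mem_filter, mem_product]
  tauto

open Classical in
theorem PX_card_map (j : Fin d) (l : List (Fin d)) (i : Fin d) (hj : j ∉ l) (hji : j ≠ i)
    (U : Finset (Cube d)) (s : Coin d) :
    ((PX (j :: l) i U).filter (fun p => flipAt j s p.1 j = flipAt j s p.2 j)).card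
      = (PX l i (U.map (flipAt j s).toEmbedding)).card := by
  refine Finset.card_bij (fun p _ => (flipAt j s p.1, flipAt j s p.2)) ?_ ?_ ?_
  · rintro ⟨u, u'⟩ hp
    simp only [mem_filter, mem_PX] at hp ⊢
    obtain ⟨⟨hu, hu', h0, h1, h2⟩, h3⟩ := hp
    refine ⟨mem_map_of_mem _ hu, mem_map_of_mem _ hu', ?_, ?_, ?_⟩
    · rw [fl_ne (Ne.symm hji)]; exact h0
    · rw [fl_ne (Ne.symm hji)]; exact h1
    · intro b hb hbi
      by_cases hbj : b = j
      · subst hbj; exact h3
      · rw [fl_ne hbj, fl_ne hbj]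
        exact h2 b (by simp [hbj, hb]) hbi
  · rintro ⟨u, u'⟩ _ ⟨v, v'⟩ _ h
    simp only [Prod.mk.injEq] at h
    have h1 := (flipAt j s).injective h.1
    have h2 := (flipAt j s).injective h.2
    simp [h1, h2]
  · rintro ⟨w, w'⟩ hp
    simp only [mem_PX, mem_map] at hp
    obtain ⟨⟨u, hu, rfl⟩, ⟨u', hu', rfl⟩, h0, h1, h2⟩ := hp
    simp only [Equiv.coe_toEmbedding] at h0 h1 h2
    refine ⟨(u, u'), ?_, rfl⟩
    simp only [mem_filter, mem_PX]
    refine ⟨⟨hu, hu', ?_, ?_, ?_⟩, h2 j hj hji⟩
    · rw [fl_ne (Ne.symm hji)] at h0; exact h0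
    · rw [fl_ne (Ne.symm hji)] at h1; exact h1
    · intro b hb hbi
      have hbj : b ≠ j := fun h => hb (by simp [h])
      have hbl : b ∉ l := fun h => hb (by simp [h])
      have := h2 b hbl hbi
      rwa [fl_ne hbj, fl_ne hbj] at this

/-- The sign of a card after the flip at bit `j`. -/
noncomputable def eps (j : Fin d) (s : Coin d) (u : Cube d) : ℝ := sgn (flipAt j s u j)

theorem Xo_cons (j : Fin d) (l : List (Fin d)) (i : Fin d) (hj : j ∉ l) (hji : j ≠ i)
    (U : Finset (Cube d)) (s : Coin d) :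
    Xo l i (U.map (flipAt j s).toEmbedding)
      = Xo (j :: l) i U + (1 / 2 ^ (l.length + 1)) * ∑ p ∈ PX (j :: l) i U, eps j s p.1 * eps j s p.2 := by
  classical
  rw [Xo_eq, Xo_eq, ← PX_card_map j l i hj hji U s]
  have h1 : (((PX (j :: l) i U).filter (fun p => flipAt j s p.1 j = flipAt j s p.2 j)).card : ℝ)
      = ∑ p ∈ PX (j :: l) i U, (1 + eps j s p.1 * eps j s p.2) / 2 := by
    rw [Finset.card_filter]
    push_cast
    apply Finset.sum_congr rfl
    intro p _
    exact ite_eq_sgn _ _
  have h2 : ∑ p ∈ PX (j :: l) i U, (1 + eps j s p.1 * eps j s p.2) / 2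
      = ((PX (j :: l) i U).card : ℝ) / 2 + (∑ p ∈ PX (j :: l) i U, eps j s p.1 * eps j s p.2) / 2 := by
    rw [← Finset.sum_div, Finset.sum_add_distrib, Finset.sum_const, nsmul_eq_mul, mul_one, add_div]
  rw [Finset.filter_congr_decidable, h1, h2, List.length_cons, pow_succ]
  field_simp

/-! ### Blocks -/

/-- The block of a card: the bits off `l` and off `i`. -/
def keyB (l : List (Fin d)) (i : Fin d) (u : Cube d) : Cube d := by
  classical
  exact fun b => if b ∈ l ∨ b = i then 0 else u b

lemma keyB_eq_iff (l : List (Fin d)) (i : Fin d) (u u' : Cube d) :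
    keyB l i u = keyB l i u' ↔ ∀ b, b ∉ l → b ≠ i → u b = u' b := by
  classical
  constructor
  · intro h b hb hbi
    have := congrFun h b
    simpa [keyB, hb, hbi] using this
  · intro h
    funext b
    by_cases hb : b ∈ l ∨ b = i
    · simp [keyB, hb]
    · push Not at hb
      simp [keyB, hb.1, hb.2, h b hb.1 hb.2]

open Classical in
/-- The cards of `U` in block `g`, with bit `i` equal to `e`. -/
noncomputable def Bk (l : List (Fin d)) (i : Fin d) (U : Finset (Cube d)) (e : Fin 2) (g : Cube d) :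
    Finset (Cube d) :=
  U.filter (fun u => u i = e ∧ keyB l i u = g)

lemma mem_Bk {l : List (Fin d)} {i : Fin d} {U : Finset (Cube d)} {e : Fin 2} {g u : Cube d} :
    u ∈ Bk l i U e g ↔ u ∈ U ∧ u i = e ∧ keyB l i u = g := by
  classical
  simp [Bk]

open Classical in
lemma PX_filter_key (l : List (Fin d)) (i : Fin d) (U : Finset (Cube d)) (g : Cube d) :
    (PX l i U).filter (fun p => keyB l i p.1 = g) = Bk l i U 0 g ×ˢ Bk l i U 1 g := by
  ext ⟨u, u'⟩
  simp only [mem_filter, mem_PX, mem_product, mem_Bk]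
  constructor
  · rintro ⟨⟨h1, h2, h3, h4, h5⟩, h6⟩
    refine ⟨⟨h1, h3, h6⟩, h2, h4, ?_⟩
    rw [← h6]
    exact ((keyB_eq_iff l i u u').mpr h5).symm
  · rintro ⟨⟨h1, h3, h6⟩, h2, h4, h7⟩
    refine ⟨⟨h1, h2, h3, h4, ?_⟩, h6⟩
    exact (keyB_eq_iff l i u u').mp (h6.trans h7.symm)

/-- Sum over the pair set as a sum over blocks. -/
lemma sum_PX (l : List (Fin d)) (i : Fin d) (U : Finset (Cube d)) (F : Cube d → Cube d → ℝ) :
    ∑ p ∈ PX l i U, F p.1 p.2
      = ∑ g : Cube d, ∑ u ∈ Bk l i U 0 g, ∑ u' ∈ Bk l i U 1 g, F u u' := by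
  classical
  rw [← Finset.sum_fiberwise (PX l i U) (fun p => keyB l i p.1)]
  apply Finset.sum_congr rfl
  intro g _
  rw [PX_filter_key, Finset.sum_product]

/-- The coefficient of the coin at node `p` in the sign sum of `B`. -/
noncomputable def sig (j : Fin d) (B : Finset (Cube d)) (p : Cube d) : ℝ := by
  classical
  exact ∑ u ∈ B.filter (fun u => Function.update u j 0 = p), sgn (u j)

lemma flipAt_self_bit (j : Fin d) (s : Coin d) (u : Cube d) :
    flipAt j s u j = u j + s (Function.update u j 0) := by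
  simp [Vale.Agent.Lib.P162.flipAt_apply]

theorem lin_sig (j : Fin d) (B : Finset (Cube d)) (s : Coin d) :
    lin (sig j B) s = ∑ u ∈ B, eps j s u := by
  classical
  unfold lin sig
  simp only [Finset.sum_mul]
  rw [← Finset.sum_fiberwise B (fun u => Function.update u j 0) (eps j s)]
  apply Finset.sum_congr rfl
  intro p _
  apply Finset.sum_congr
  · congr
  intro u hu
  have hu' := (mem_filter.mp hu).2
  rw [eps, flipAt_self_bit, sgn_add, hu']

/-- One node carries at most one net sign. -/
lemma sq_sum_sgn_le (j : Fin d) (F : Finset (Cube d)) (p : Cube d)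
    (hF : ∀ u ∈ F, Function.update u j 0 = p) :
    (∑ u ∈ F, sgn (u j)) ^ 2 ≤ (F.card : ℝ) := by
  classical
  set p0 := Function.update p j 0 with hp0
  set p1 := Function.update p j 1 with hp1
  have hne : p0 ≠ p1 := by
    intro h
    have := congrFun h j
    simp [hp0, hp1] at this
  have hsub : F = ({p0, p1} : Finset (Cube d)).filter (· ∈ F) := by
    ext u
    simp only [mem_filter, mem_insert, mem_singleton]
    constructor
    · intro hu
      refine ⟨?_, hu⟩
      have h1 := hF u hu
      rcases fin2_cases (u j) with h | h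
      · left
        rw [hp0, ← h1, Function.update_idem, ← h, Function.update_eq_self]
      · right
        rw [hp1, ← h1, Function.update_idem, ← h, Function.update_eq_self]
    · exact fun h => h.2
  have hs0 : sgn (p0 j) = 1 := by simp [hp0, sgn]
  have hs1 : sgn (p1 j) = -1 := by simp [hp1, sgn]
  have hsum : ∑ u ∈ F, sgn (u j) = (if p0 ∈ F then 1 else 0) + (if p1 ∈ F then -1 else 0) := by
    conv_lhs => rw [hsub]
    rw [Finset.sum_filter, Finset.sum_pair hne, hs0, hs1]
  have hcard : (F.card : ℝ) = (if p0 ∈ F then 1 else 0) + (if p1 ∈ F then 1 else 0) := by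
    conv_lhs => rw [hsub]
    rw [Finset.card_filter, Finset.sum_pair hne]
    push_cast
    rfl
  rw [hsum, hcard]
  by_cases h0 : p0 ∈ F <;> by_cases h1 : p1 ∈ F <;> simp [h0, h1]

theorem nrm_sig_le (j : Fin d) (B : Finset (Cube d)) : nrm (sig j B) ≤ (B.card : ℝ) := by
  classical
  unfold nrm
  have h : (B.card : ℝ) = ∑ p : Cube d, ((B.filter (fun u => Function.update u j 0 = p)).card : ℝ) := by
    rw [Finset.card_eq_sum_card_fiberwise (f := fun u => Function.update u j 0) (t := univ)
      (fun _ _ => mem_univ _)]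
    push_cast
    rfl
  rw [h]
  apply Finset.sum_le_sum
  intro p _
  unfold sig
  convert sq_sum_sgn_le j (B.filter (fun u => Function.update u j 0 = p)) p
    (fun u hu => (mem_filter.mp hu).2)

lemma sig_ne_zero {j : Fin d} {B : Finset (Cube d)} {p : Cube d} (h : sig j B p ≠ 0) :
    ∃ u ∈ B, Function.update u j 0 = p := by
  classical
  by_contra hcon
  push Not at hcon
  apply h
  unfold sig
  apply Finset.sum_eq_zero
  intro u hu
  exact absurd (mem_filter.mp hu).2 (hcon u (mem_filter.mp hu).1)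

lemma keyB_update (j : Fin d) (l : List (Fin d)) (i : Fin d) (u : Cube d) :
    keyB (j :: l) i (Function.update u j 0) = keyB (j :: l) i u := by
  rw [keyB_eq_iff]
  intro b hb _
  have hbj : b ≠ j := fun h => hb (by simp [h])
  simp [Function.update_of_ne hbj]

/-- The block has at most `2^|l|` cards. -/
theorem card_Bk_le (l : List (Fin d)) (hl : l.Nodup) (i : Fin d) (U : Finset (Cube d)) (e : Fin 2)
    (g : Cube d) : (Bk l i U e g).card ≤ 2 ^ l.length := by
  classical
  have hc : Fintype.card ({ x // x ∈ l.toFinset } → Fin 2) = 2 ^ l.length := by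
    rw [Fintype.card_fun, Fintype.card_coe, List.toFinset_card_of_nodup hl]
    simp
  rw [← hc, ← Finset.card_univ]
  apply Finset.card_le_card_of_injOn (fun u => fun x : { x // x ∈ l.toFinset } => u x.1)
  · intro _ _; simp
  · intro u hu u' hu' h
    have hu1 := mem_Bk.mp hu
    have hu2 := mem_Bk.mp hu'
    funext b
    by_cases hb : b ∈ l
    · exact congrFun h ⟨b, List.mem_toFinset.mpr hb⟩
    · by_cases hbi : b = i
      · subst hbi; rw [hu1.2.1, hu2.2.1]
      · exact (keyB_eq_iff l i u u').mp (hu1.2.2.trans hu2.2.2.symm) b hb hbi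

/-- The block identity for the pair sums. -/
theorem sum_eps_eq (j : Fin d) (l : List (Fin d)) (i : Fin d) (U : Finset (Cube d)) (s : Coin d) :
    ∑ p ∈ PX l i U, eps j s p.1 * eps j s p.2
      = ∑ g : Cube d, lin (sig j (Bk l i U 0 g)) s * lin (sig j (Bk l i U 1 g)) s := by
  rw [sum_PX l i U (fun u u' => eps j s u * eps j s u')]
  apply Finset.sum_congr rfl
  intro g _
  rw [lin_sig, lin_sig, Finset.sum_mul_sum]

theorem card_PX (l : List (Fin d)) (i : Fin d) (U : Finset (Cube d)) :
    ((PX l i U).card : ℝ) = ∑ g : Cube d, ((Bk l i U 0 g).card : ℝ) * ((Bk l i U 1 g).card : ℝ) := by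
  have h := sum_PX l i U (fun _ _ => (1 : ℝ))
  simp only [Finset.sum_const, nsmul_eq_mul, mul_one] at h
  rw [h]

/-- One step of the overlap recursion: average over the coins of layer `j`. -/
theorem overlap_step (j : Fin d) (l : List (Fin d)) (hl : (j :: l).Nodup) (i : Fin d) (hji : j ≠ i)
    (U : Finset (Cube d)) (C : ℝ) (hC0 : 0 ≤ C) (hC1 : C ≤ 1 / 2) :
    Ex (fun s : Coin d => Real.exp (C * Xo l i (U.map (flipAt j s).toEmbedding)))
      ≤ Real.exp ((C + C ^ 2 / 2 ^ (l.length + 1)) * Xo (j :: l) i U) := by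
  classical
  have hj : j ∉ l := (List.nodup_cons.mp hl).1
  set r := l.length with hr
  set a : ℝ := C / 2 ^ (r + 1) with ha
  have ha0 : 0 ≤ a := by positivity
  set X := Xo (j :: l) i U with hX
  -- rewrite the exponent
  have h1 : ∀ s : Coin d, Real.exp (C * Xo l i (U.map (flipAt j s).toEmbedding))
      = Real.exp (C * X) * Real.exp (a * ∑ g : Cube d,
          lin (sig j (Bk (j :: l) i U 0 g)) s * lin (sig j (Bk (j :: l) i U 1 g)) s) := by
    intro s
    rw [← Real.exp_add, Xo_cons j l i hj hji U s, sum_eps_eq, ← hr, ← hX]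
    congr 1
    rw [ha]
    field_simp
  simp only [h1]
  rw [Ex_mul_left]
  -- the blocks
  have hcard : ∀ (e : Fin 2) (g : Cube d), nrm (sig j (Bk (j :: l) i U e g)) ≤ (2 : ℝ) ^ (r + 1) := by
    intro e g
    refine (nrm_sig_le j _).trans ?_
    have := card_Bk_le (j :: l) hl i U e g
    rw [List.length_cons] at this
    exact_mod_cast this
  have hnrm0 : ∀ (f : Cube d → ℝ), 0 ≤ nrm f := fun f => Finset.sum_nonneg (fun _ _ => sq_nonneg _)
  have hrad := rad_product (P := Cube d) (G := Cube d)
    (fun g => sig j (Bk (j :: l) i U 0 g)) (fun g => sig j (Bk (j :: l) i U 1 g)) a ha0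
    ?_ ?_ ?_ ?_
  · refine (mul_le_mul_of_nonneg_left hrad (Real.exp_pos _).le).trans ?_
    rw [← Real.exp_add]
    apply Real.exp_le_exp.mpr
    have hbound : ∑ g : Cube d, nrm (sig j (Bk (j :: l) i U 0 g)) * nrm (sig j (Bk (j :: l) i U 1 g))
        ≤ ((PX (j :: l) i U).card : ℝ) := by
      rw [card_PX]
      apply Finset.sum_le_sum
      intro g _
      exact mul_le_mul (nrm_sig_le j _) (nrm_sig_le j _) (hnrm0 _) (by positivity)
    have hX' : ((PX (j :: l) i U).card : ℝ) = 2 ^ (r + 1) * X := by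
      rw [hX, Xo_eq, List.length_cons, ← hr]
      field_simp
    rw [hX'] at hbound
    have hap : a ^ 2 * (2 ^ (r + 1) * X) = C ^ 2 / 2 ^ (r + 1) * X := by
      rw [ha]
      field_simp
    have := mul_le_mul_of_nonneg_left hbound (sq_nonneg a)
    rw [hap] at this
    nlinarith
  · intro g g' p hgg h0
    by_contra h1
    obtain ⟨u, hu, hup⟩ := sig_ne_zero h0
    obtain ⟨u', hu', hup'⟩ := sig_ne_zero h1
    apply hgg
    have e1 := (mem_Bk.mp hu).2.2
    have e2 := (mem_Bk.mp hu').2.2
    rw [← e1, ← e2, ← keyB_update j l i u, ← keyB_update j l i u', hup, hup']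
  · intro g g' p hgg h0
    by_contra h1
    obtain ⟨u, hu, hup⟩ := sig_ne_zero h0
    obtain ⟨u', hu', hup'⟩ := sig_ne_zero h1
    apply hgg
    have e1 := (mem_Bk.mp hu).2.2
    have e2 := (mem_Bk.mp hu').2.2
    rw [← e1, ← e2, ← keyB_update j l i u, ← keyB_update j l i u', hup, hup']
  · intro g g' p h0
    by_contra h1
    obtain ⟨u, hu, hup⟩ := sig_ne_zero h0
    obtain ⟨u', hu', hup'⟩ := sig_ne_zero h1
    have e1 := (mem_Bk.mp hu).2.1
    have e2 := (mem_Bk.mp hu').2.1
    have e3 : u i = u' i := by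
      have h3 : Function.update u j 0 i = Function.update u' j 0 i := by rw [hup, hup']
      rwa [Function.update_of_ne (Ne.symm hji), Function.update_of_ne (Ne.symm hji)] at h3
    rw [e1, e2] at e3
    exact absurd e3 (by decide)
  · intro g
    have h0 := mul_le_mul (hcard 0 g) (hcard 1 g) (hnrm0 _) (by positivity)
    have h2 : 2 * a ^ 2 * ((2 : ℝ) ^ (r + 1) * (2 : ℝ) ^ (r + 1)) = 2 * C ^ 2 := by
      rw [ha]; field_simp
    have h3 : 2 * C ^ 2 ≤ 1 := by nlinarith
    have h4 := mul_le_mul_of_nonneg_left h0 (by positivity : (0 : ℝ) ≤ 2 * a ^ 2)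
    linarith

/-- **Overlap, induction form.** -/
theorem overlap_aux (l : List (Fin d)) (hl : l.Nodup) (i : Fin d) (hi : i ∉ l) (U : Finset (Cube d))
    (lam : ℝ) (hlam : 0 ≤ lam) (hμ : Real.exp lam - 1 ≤ 1 / 4) :
    Ex (fun c : Coins d => Real.exp (lam * Oc l i U c))
      ≤ Real.exp (Cov (Real.exp lam - 1) l.length * Xo l i U) := by
  classical
  have hμ0 : 0 ≤ Real.exp lam - 1 := by have := Real.add_one_le_exp lam; linarith
  induction l generalizing U with
  | nil =>
    have h : ∀ c : Coins d, (Oc [] i U c : ℝ) = Xo [] i U := by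
      intro c
      rw [Xo_eq]
      simp only [List.length_nil, pow_zero, div_one]
      have : Oc [] i U c = (PX [] i U).card := by
        have hN : N ([] : List (Fin d)) c = 1 := rfl
        unfold Oc
        simp only [hN, Equiv.Perm.one_apply]
        refine congrArg Finset.card ?_
        ext ⟨u, u'⟩
        rw [mem_PX, mem_filter, mem_product]
        constructor
        · rintro ⟨⟨h1, h2⟩, h3, h4, h5⟩
          refine ⟨h1, h2, h3, h4, ?_⟩
          intro b _ hb
          rw [h5, bitR_apply_ne i b hb]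
        · rintro ⟨h1, h2, h3, h4, h5⟩
          refine ⟨⟨h1, h2⟩, h3, h4, ?_⟩
          funext b
          by_cases hb : b = i
          · subst hb
            rw [bitR_apply_self, h3, h4]
            rfl
          · rw [bitR_apply_ne i b hb, h5 b (by simp) hb]
      rw [this]
    simp only [h]
    rw [Ex_const]
    apply Real.exp_le_exp.mpr
    simp only [List.length_nil, Cov]
    apply mul_le_mul_of_nonneg_right _ (Xo_nonneg _ _ _)
    have := Real.add_one_le_exp lam
    linarith
  | cons j l ih =>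
    have hj : j ∉ l := (List.nodup_cons.mp hl).1
    have hl' : l.Nodup := (List.nodup_cons.mp hl).2
    have hji : j ≠ i := fun h => hi (by simp [h])
    have hi' : i ∉ l := fun h => hi (by simp [h])
    have hC := Cov_le _ hμ0 hμ l.length
    set C := Cov (Real.exp lam - 1) l.length with hCdef
    rw [Ex_merge l.toFinset]
    have hinner : ∀ c : Coins d,
        Ex (fun c' : Coins d => Real.exp (lam * (Oc (j :: l) i U (mergeOn l.toFinset c' c) : ℝ)))
          ≤ Real.exp (C * Xo l i (U.map (flipAt j (c j)).toEmbedding)) := by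
      intro c
      have e1 : ∀ c' : Coins d, Oc (j :: l) i U (mergeOn l.toFinset c' c)
          = Oc l i (U.map (flipAt j (c j)).toEmbedding) c' := by
        intro c'
        rw [Oc_cons j l i hji]
        have hm : mergeOn l.toFinset c' c j = c j := by
          simp [mergeOn, hj]
        rw [hm]
        apply Oc_congr
        apply N_congr
        intro k hk
        simp [mergeOn, hk]
      simp only [e1]
      exact ih hl' hi' _
    refine (Ex_mono hinner).trans ?_
    rw [Ex_layer j (fun s => Real.exp (C * Xo l i (U.map (flipAt j s).toEmbedding)))]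
    have hstep := overlap_step j l hl i hji U C hC.1 (by linarith)
    exact hstep

/-- The list of bits above `i`, top bit first: `N (above i) c` is the inverse of the layers above `i`. -/
def above (i : Fin d) : List (Fin d) := (seg d (i.val + 1) d).reverse

theorem above_nodup (i : Fin d) : (above i).Nodup := by
  rw [above, List.nodup_reverse]
  exact seg_nodup _ _

theorem notMem_above (i : Fin d) : i ∉ above i := by
  rw [above, List.mem_reverse, mem_seg]
  omega

/-! ### The pairs of `Theta` in terms of the overlap -/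

lemma seg_single (i : Fin d) : seg d i.val (i.val + 1) = [i] := by
  have hlen := seg_length (d := d) i.val (i.val + 1) (by omega) (by omega)
  have h : seg d i.val (i.val + 1) = List.replicate 1 i := by
    rw [List.eq_replicate_iff]
    refine ⟨by rw [hlen]; omega, fun b hb => ?_⟩
    rw [mem_seg] at hb
    ext
    omega
  simpa using h

/-- The layers above `i`. -/
def upp (c : Coins d) (i : Fin d) : Perm (Cube d) := N (seg d (i.val + 1) d) c

lemma net_split (c : Coins d) (i : Fin d) : net c = upp c i * flipAt i (c i) * low c i.val := by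
  rw [net_eq_low]
  unfold low upp
  rw [seg_append 0 i.val d (by omega) (by omega),
    seg_append i.val (i.val + 1) d (by omega) (by omega), seg_single, N_append, N_append]
  simp [N]

lemma N_above (c : Coins d) (i : Fin d) : N (above i) c = (upp c i)⁻¹ := by
  rw [above, upp, N_inv]

lemma upp_bit (c : Coins d) (i : Fin d) (y : Cube d) : upp c i y i = y i := by
  apply N_apply_of_notMem
  rw [mem_seg]
  omega

lemma upp_inv_bit (c : Coins d) (i : Fin d) (y : Cube d) : (upp c i)⁻¹ y i = y i := by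
  have h := upp_bit c i ((upp c i)⁻¹ y)
  have h2 : upp c i ((upp c i)⁻¹ y) = y := by simp
  rw [h2] at h
  exact h.symm

lemma flip_comm_bitR (i : Fin d) (s : Coin d) : flipAt i s * bitR i = bitR i * flipAt i s := by
  ext y b
  simp only [Equiv.Perm.mul_apply, bitR, Vale.Agent.Lib.P162.flipAt_apply]
  by_cases hb : b = i
  · subst hb
    simp only [Function.update_self, Function.update_idem]
    abel_nf
  · simp [Function.update_of_ne hb]

/-- Conjugation of `Theta` by the net. -/
lemma net_Theta (c : Coins d) (i : Fin d) (y : Cube d) :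
    net c (Theta c i y) = upp c i (bitR i ((upp c i)⁻¹ (net c y))) := by
  have h : net c * Theta c i = upp c i * bitR i * (upp c i)⁻¹ * net c := by
    rw [net_split, Theta]
    have h2 := flip_comm_bitR i (c i)
    calc upp c i * flipAt i (c i) * low c i.val * ((low c i.val)⁻¹ * bitR i * low c i.val)
        = upp c i * (flipAt i (c i) * bitR i) * low c i.val := by group
      _ = upp c i * (bitR i * flipAt i (c i)) * low c i.val := by rw [h2]
      _ = upp c i * bitR i * (upp c i)⁻¹ * (upp c i * flipAt i (c i) * low c i.val) := by group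
  have := congrArg (fun g : Perm (Cube d) => g y) h
  simpa [Equiv.Perm.mul_apply] using this

lemma net_Theta_bit (c : Coins d) (i : Fin d) (y : Cube d) :
    net c (Theta c i y) i = net c y i + 1 := by
  rw [net_Theta, upp_bit, bitR_apply_self, upp_inv_bit]

/-- A fixed point free involution splits a set in two halves. -/
lemma half_card {α : Type*} (T : Finset α) (θ : α → α) (f : α → Fin 2)
    (hθ : ∀ y, θ (θ y) = y) (hT : ∀ y ∈ T, θ y ∈ T) (hf : ∀ y, f (θ y) = f y + 1) :
    2 * (T.filter (fun y => f y = 0)).card = T.card := by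
  classical
  have h1 : (T.filter (fun y => f y = 0)).card = (T.filter (fun y => ¬ f y = 0)).card := by
    refine Finset.card_bij (fun y _ => θ y) ?_ ?_ ?_
    · intro y hy
      simp only [mem_filter] at hy ⊢
      refine ⟨hT y hy.1, ?_⟩
      rw [hf, hy.2]
      decide
    · intro a _ b _ h
      have := congrArg θ h
      rwa [hθ, hθ] at this
    · intro y hy
      simp only [mem_filter] at hy
      refine ⟨θ y, ?_, hθ y⟩
      simp only [mem_filter]
      refine ⟨hT y hy.1, ?_⟩
      rw [hf]
      rcases fin2_cases (f y) with h | h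
      · exact absurd h hy.2
      · rw [h]; decide
  have h2 := Finset.card_filter_add_card_filter_not (s := T) (fun y => f y = 0)
  omega

theorem pairs_eq_Oc (U : Finset (Cube d)) (c : Coins d) (i : Fin d) :
    pairs (U.map (net c)⁻¹.toEmbedding) (Theta c i) i = Oc (above i) i U c := by
  classical
  set S := U.map (net c)⁻¹.toEmbedding with hSdef
  have hS : ∀ y, y ∈ S ↔ net c y ∈ U := by
    intro y
    rw [hSdef, mem_map]
    constructor
    · rintro ⟨u, hu, rfl⟩
      simpa using hu
    · intro h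
      exact ⟨net c y, h, by simp⟩
  set T := S.filter (fun y => Theta c i y ∈ S) with hTdef
  have hinv : ∀ y, Theta c i (Theta c i y) = y := Theta_involutive c i
  have hT : ∀ y ∈ T, Theta c i y ∈ T := by
    intro y hy
    simp only [hTdef, mem_filter] at hy ⊢
    exact ⟨hy.2, by rw [hinv]; exact hy.1⟩
  have h1 := half_card T (Theta c i) (fun y => y i) hinv hT (Theta_apply_self c i)
  have h2 := half_card T (Theta c i) (fun y => net c y i) hinv hT (net_Theta_bit c i)
  have h3 : pairs S (Theta c i) i = (T.filter (fun y => y i = 0)).card := by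
    unfold pairs
    refine congrArg Finset.card ?_
    ext y
    simp only [hTdef, mem_filter]
    tauto
  have h4 : (T.filter (fun y => net c y i = 0)).card = Oc (above i) i U c := by
    unfold Oc
    rw [N_above]
    refine Finset.card_bij (fun y _ => (net c y, net c (Theta c i y))) ?_ ?_ ?_
    · intro y hy
      simp only [hTdef, mem_filter, hS] at hy
      simp only [mem_filter, mem_product]
      obtain ⟨⟨h5, h6⟩, h7⟩ := hy
      refine ⟨⟨h5, h6⟩, h7, ?_, ?_⟩
      · rw [net_Theta_bit, h7]; decide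
      · rw [net_Theta]; simp
    · intro a _ b _ h
      simp only [Prod.mk.injEq] at h
      exact (net c).injective h.1
    · rintro ⟨u, u'⟩ hp
      simp only [mem_filter, mem_product] at hp
      obtain ⟨⟨hu, hu'⟩, h5, h6, h7⟩ := hp
      have hy : net c ((net c)⁻¹ u) = u := by simp
      have h8 : net c (Theta c i ((net c)⁻¹ u)) = u' := by
        rw [net_Theta, hy, ← h7]; simp
      refine ⟨(net c)⁻¹ u, ?_, ?_⟩
      · simp only [hTdef, mem_filter, hS, h8, hy]
        exact ⟨⟨hu, hu'⟩, h5⟩
      · exact Prod.ext hy h8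
  rw [h3, ← h4]
  omega

/-- The functional `ξ` of a set of positions. -/
noncomputable def xi (U : Finset (Cube d)) : ℝ :=
  ∑ i : Fin d, (1 / 64) * (24 / 25 : ℝ) ^ i.val * Xo (above i) i U

theorem xi_nonneg (U : Finset (Cube d)) : 0 ≤ xi U := by
  unfold xi
  apply Finset.sum_nonneg
  intro i _
  have := Xo_nonneg (above i) i U
  positivity

lemma sum_gam (n : ℕ) : ∑ i ∈ range n, (1 / 25 : ℝ) * (24 / 25 : ℝ) ^ i = 1 - (24 / 25 : ℝ) ^ n := by
  induction n with
  | zero => simp
  | succ n ih =>
    rw [Finset.sum_range_succ, ih, pow_succ]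
    ring

/-- **Lemma A.** -/
theorem lemmaA (U : Finset (Cube d)) :
    Ex (fun c : Coins d => Real.exp ((1 / 2) *
        ∑ i : Fin d, kap i.val * (pairs (U.map (net c)⁻¹.toEmbedding) (Theta c i) i : ℝ)))
      ≤ Real.exp (xi U) := by
  classical
  set lam : ℝ := 3 / 32 with hlam
  set μ : ℝ := Real.exp lam - 1 with hμ
  have hμ0 : 0 ≤ μ := by
    have := Real.add_one_le_exp lam
    rw [hμ]; rw [hlam] at this ⊢; linarith
  have hμ1 : μ ≤ 25 / 128 := by
    have h := Real.exp_bound_div_one_sub_of_interval' (x := lam) (by rw [hlam]; norm_num) (by rw [hlam]; norm_num)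
    rw [hμ, hlam] at *
    have : 1 / (1 - (3 / 32 : ℝ)) = 32 / 29 := by norm_num
    rw [this] at h
    norm_num at h ⊢
    linarith
  set γ : Fin d → ℝ := fun i => (1 / 25 : ℝ) * (24 / 25 : ℝ) ^ i.val with hγ
  have hγ0 : ∀ i ∈ (univ : Finset (Fin d)), 0 ≤ γ i := fun i _ => by positivity
  have hγ1 : ∑ i ∈ (univ : Finset (Fin d)), γ i ≤ 1 := by
    have h := sum_gam d
    rw [Finset.sum_range] at h
    rw [h]
    have : (0 : ℝ) ≤ (24 / 25 : ℝ) ^ d := by positivity
    linarith
  have hH := holder_exp (C := Coins d) (univ : Finset (Fin d))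
    (fun i c => lam * (Oc (above i) i U c : ℝ))
    (fun i => Cov μ (above i).length * Xo (above i) i U) γ hγ0 hγ1
    (fun i _ => overlap_aux (above i) (above_nodup i) i (notMem_above i) U lam
      (by rw [hlam]; norm_num) (by rw [← hμ]; linarith))
  have e1 : ∀ c : Coins d, (1 / 2) *
        ∑ i : Fin d, kap i.val * (pairs (U.map (net c)⁻¹.toEmbedding) (Theta c i) i : ℝ)
      = ∑ i, γ i * (lam * (Oc (above i) i U c : ℝ)) := by
    intro c
    rw [Finset.mul_sum]
    apply Finset.sum_congr rfl
    intro i _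
    rw [pairs_eq_Oc, kap, hγ, hlam, pow_succ]
    ring
  simp only [e1]
  refine hH.trans (Real.exp_le_exp.mpr ?_)
  unfold xi
  apply Finset.sum_le_sum
  intro i _
  have hC := Cov_le μ hμ0 (by linarith) (above i).length
  have hX := Xo_nonneg (above i) i U
  have hp : (0 : ℝ) ≤ (24 / 25 : ℝ) ^ i.val := by positivity
  have hcomb : γ i * Cov μ (above i).length ≤ (1 / 64) * (24 / 25 : ℝ) ^ i.val := by
    simp only [hγ]
    nlinarith
  calc γ i * (Cov μ (above i).length * Xo (above i) i U)
      = (γ i * Cov μ (above i).length) * Xo (above i) i U := by ring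
    _ ≤ _ := mul_le_mul_of_nonneg_right hcomb hX

end Vale.Agent.Lib.P162T
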