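import Vale.Agent.Lib.P162T.TrOn
import Vale.Agent.Lib.P162.Regular
import Vale.Agent.Lib.P162T.Aux_helper73

/-!
# P162T: pure subspaces and multiplicity (section 8 of notes/P162_blueprint.md)

`Fn α`: functions on the permutations of `α`; right translation `regRep.ρ g f x = f (x * g)`.
`Fun J`: functions of `x` restricted to `J`.
-/

open scoped InnerProductSpace
open Finset

namespace Vale.Agent.Lib.P162T

open ThorpL2

variable {α : Type*} [DecidableEq α] [Fintype α]

/-- Functions of the restriction to `J`: invariant under the transpositions of the complement. -/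
noncomputable def Fun (J : Finset α) : Submodule ℝ (Fn α) := regRep.Inv Jᶜ

/-- The pure part. -/
noncomputable def Pure (J : Finset α) : Submodule ℝ (Fn α) :=
  Fun J ⊓ (⨆ j ∈ J, Fun (J.erase j))ᗮ

theorem Fun_mono {J J' : Finset α} (h : J ⊆ J') : Fun J ≤ Fun J' := by
  intro f hf a ha b hb
  have hs : J'ᶜ ⊆ Jᶜ := Finset.compl_subset_compl.2 h
  exact hf a (hs ha) b (hs hb)

theorem Pure_le_Fun (J : Finset α) : Pure J ≤ Fun J := inf_le_left

/-- A function of `J` is the sum of pure functions of the subsets of `J`. -/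
theorem Fun_le_iSup_Pure (J : Finset α) : Fun J ≤ ⨆ J' ∈ J.powerset, Pure J' := by
  induction J using Finset.strongInduction with
  | H J ih =>
    intro f hf
    set M : Submodule ℝ (Fn α) := ⨆ j ∈ J, Fun (J.erase j) with hM
    have hMle : M ≤ ⨆ J' ∈ J.powerset, Pure J' := by
      refine iSup₂_le fun j hj => ?_
      refine (ih _ (Finset.erase_ssubset hj)).trans ?_
      refine iSup₂_le fun J' hJ' => ?_
      exact le_iSup₂_of_le J'
        (Finset.mem_powerset.2 ((Finset.mem_powerset.1 hJ').trans (Finset.erase_subset _ _))) le_rfl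
    have hMF : M ≤ Fun J := iSup₂_le fun j _ => Fun_mono (Finset.erase_subset _ _)
    have hp := Submodule.starProjection_apply_mem M f
    have hq : f - M.starProjection f ∈ Pure J := by
      refine Submodule.mem_inf.2 ⟨?_, M.sub_starProjection_mem_orthogonal f⟩
      exact Submodule.sub_mem _ hf (hMF hp)
    have hsplit : f = M.starProjection f + (f - M.starProjection f) := by abel
    rw [hsplit]
    refine Submodule.add_mem _ (hMle hp) ?_
    exact (le_iSup₂_of_le J (Finset.mem_powerset_self J) le_rfl :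
      Pure J ≤ ⨆ J' ∈ J.powerset, Pure J') hq

/-- The level spaces are generated by the pure spaces. -/
theorem Y_le_iSup_Pure (j : ℕ) (hj : j ≤ Fintype.card α) :
    (regRep (α := α)).Y (Fintype.card α - j)
      ≤ ⨆ J ∈ (univ : Finset (Finset α)).filter (fun J => J.card ≤ j), Pure J := by
  unfold ORep.Y
  refine iSup₂_le fun B hB => ?_
  rw [Finset.mem_powersetCard] at hB
  have hBc : Bᶜ.card = j := by
    rw [Finset.card_compl, hB.2]
    omega
  have h1 : regRep.Inv B = Fun Bᶜ := by simp [Fun]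
  rw [h1]
  refine (Fun_le_iSup_Pure _).trans ?_
  refine iSup₂_le fun J' hJ' => ?_
  refine le_iSup₂_of_le J' ?_ le_rfl
  simp only [Finset.mem_filter, Finset.mem_univ, true_and]
  exact (Finset.card_le_card (Finset.mem_powerset.1 hJ')).trans hBc.le

/-- Invariance under operators commuting with the right translations. -/
theorem invt_Fun {X : Fn α →ₗ[ℝ] Fn α} (hc : regRep.Commutes X) (J : Finset α) :
    Invt X (Fun J) := by
  intro v hv
  exact hc.mem_Inv hv

theorem invt_Pure {X : Fn α →ₗ[ℝ] Fn α} (hX : X.IsSymmetric) (hc : regRep.Commutes X) (J : Finset α) :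
    Invt X (Pure J) := by
  intro v hv
  obtain ⟨hv1, hv2⟩ := Submodule.mem_inf.1 hv
  refine Submodule.mem_inf.2 ⟨invt_Fun hc J v hv1, ?_⟩
  have hM : (⨆ j ∈ J, Fun (J.erase j)) ≤ (⨆ j ∈ J, Fun (J.erase j)).comap X := by
    refine iSup₂_le fun j hj w hw => ?_
    exact (le_iSup₂_of_le j hj le_rfl : Fun (J.erase j) ≤ ⨆ j ∈ J, Fun (J.erase j))
      (invt_Fun hc _ w hw)
  rw [Submodule.mem_orthogonal] at hv2 ⊢
  intro u hu
  rw [← hX u v]
  exact hv2 _ (hM hu)

/-- Purity: the sum over the slots outside `J` of the transposition with `j ∈ J` acts as `-1`. -/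
theorem pure_sum_swap {J : Finset α} {f : Fn α} (hf : f ∈ Pure J) {j : α} (hj : j ∈ J) (x : Equiv.Perm α) :
    ∑ s ∈ Jᶜ, f (x * Equiv.swap j s) = - f x := by
  obtain ⟨hf1, hf2⟩ := Submodule.mem_inf.1 hf
  have hi : j ∉ Jᶜ := by simpa using hj
  have hins : insert j Jᶜ = (J.erase j)ᶜ := by
    ext a
    simp only [Finset.mem_insert, Finset.mem_compl, Finset.mem_erase, not_and]
    constructor
    · rintro (rfl | h) ha
      · exact absurd rfl ha
      · exact h
    · intro h
      by_cases ha : a = j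
      · exact Or.inl ha
      · exact Or.inr (h ha)
  have horth : ∀ w ∈ regRep.Inv (insert j Jᶜ), ⟪f, w⟫_ℝ = 0 := by
    intro w hw
    rw [hins] at hw
    rw [real_inner_comm]
    exact (Submodule.mem_orthogonal _ _).1 hf2 w
      ((le_iSup₂_of_le j hj le_rfl : Fun (J.erase j) ≤ ⨆ j ∈ J, Fun (J.erase j)) hw)
  have h := regRep.psi_eq_zero hf1 hi horth
  have h2 := congrArg (fun v : Fn α => (v : Equiv.Perm α → ℝ) x) h
  simp only [ORep.psi] at h2
  have h3 : (f + ∑ a ∈ Jᶜ, regRep.sw j a f) x = f x + ∑ a ∈ Jᶜ, f (x * Equiv.swap j a) := by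
    rw [PiLp.add_apply]
    congr 1
    have : ∀ (s : Finset α), (∑ a ∈ s, regRep.sw j a f) x = ∑ a ∈ s, f (x * Equiv.swap j a) := by
      intro s
      induction s using Finset.induction_on with
      | empty => simp
      | insert a s ha ih =>
        rw [Finset.sum_insert ha, Finset.sum_insert ha, PiLp.add_apply, ih]
        rfl
    exact this _
  have h4 : (0 : Fn α) x = 0 := rfl
  simp only [h4] at h2
  rw [h3] at h2
  linarith

/-- The identity for the sum over injections (blueprint section 8).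
Sum over injections of `E` into the complement of `J` of `f (x * ∏ (j ρ j))`.  Here we sum over functions
`ρ : E → α`, restricted to injective functions into `Jᶜ`. -/
theorem pure_sum_inj {J : Finset α} {f : Fn α} (hf : f ∈ Pure J) (E : List α) (hE : E.Nodup)
    (hEJ : ∀ j ∈ E, j ∈ J) (x : Equiv.Perm α) :
    ∑ ρ : α → α,
      (if (∀ j, j ∉ E → ρ j = j) ∧ (∀ j ∈ E, ρ j ∈ Jᶜ) ∧ (∀ j ∈ E, ∀ j' ∈ E, ρ j = ρ j' → j = j')
        then f (x * (E.map (fun j => Equiv.swap j (ρ j))).prod) else 0)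
      = (-1 : ℝ) ^ E.length * ∑ g : Equiv.Perm α, (if (∀ a, a ∉ E → g a = a) then f (x * g) else 0) :=
  PureAux.sum_inj' (fun y => f y) J (fun _ hj x => pure_sum_swap hf hj x) E hE hEJ x

/-- A pure function killed by all the alternating differences vanishes. -/
theorem pure_eq_zero_of_diff {J : Finset α} {f : Fn α} (hf : f ∈ Pure J)
    (hcard : 2 * J.card ≤ Fintype.card α)
    (hD : ∀ (E : List α), (∀ j, j ∈ E ↔ j ∈ J) → E.Nodup → ∀ ρ : α → α,
      (∀ j ∈ E, ρ j ∈ Jᶜ) → (∀ j ∈ E, ∀ j' ∈ E, ρ j = ρ j' → j = j') →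
      ∀ x : Equiv.Perm α,
        (E.map (fun j => (1 : Fn α →ₗ[ℝ] Fn α) - regRep.ρ (Equiv.swap j (ρ j)))).prod f x = 0) :
    f = 0 :=
  PureAux.eq_zero f J (fun _ hj x => pure_sum_swap hf hj x) hcard hD

/-- In a pairwise commuting list of operators, a factor killing `v` makes the product kill `v`. -/
private theorem list_prod_apply_eq_zero {V : Type*} [AddCommGroup V] [Module ℝ V]
    (L : List (V →ₗ[ℝ] V)) (hL : L.Pairwise Commute) (a : V →ₗ[ℝ] V) (ha : a ∈ L) (v : V)
    (hv : a v = 0) : L.prod v = 0 := by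
  induction L with
  | nil => simp at ha
  | cons b L ih =>
    rw [List.prod_cons]
    rcases List.mem_cons.mp ha with rfl | ha'
    · have hc : Commute a L.prod :=
        Commute.list_prod_right _ _ (fun c hc => (List.pairwise_cons.mp hL).1 c hc)
      rw [hc.eq, Module.End.mul_apply, hv, map_zero]
    · rw [Module.End.mul_apply, ih (List.pairwise_cons.mp hL).2 ha', map_zero]

/-- An injection of `J` into the complement of `K`. -/
private theorem exists_inj_compl (K J : Finset α) (h : J.card + K.card ≤ Fintype.card α) :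
    ∃ ρ : α → α, (∀ j ∈ J, ρ j ∈ Kᶜ) ∧ (∀ j ∈ J, ∀ j' ∈ J, ρ j = ρ j' → j = j') := by
  have hc : Fintype.card J ≤ Fintype.card (Kᶜ : Finset α) := by
    rw [Fintype.card_coe, Fintype.card_coe, Finset.card_compl]
    omega
  obtain ⟨e⟩ := Function.Embedding.nonempty_of_card_le hc
  refine ⟨fun j => if hj : j ∈ J then (e ⟨j, hj⟩ : α) else j, ?_, ?_⟩
  · intro j hj
    simp only [hj, dif_pos]
    exact (e ⟨j, hj⟩).2
  · intro j hj j' hj' hjj
    simp only [hj, hj', dif_pos] at hjj
    have := e.injective (Subtype.ext hjj)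
    exact congrArg Subtype.val this

/-- Two injections of `J` into its complement differ by a permutation fixing `J`. -/
private theorem exists_perm_extend (J : Finset α) (ρ0 ρ : α → α)
    (h0 : ∀ j ∈ J, ρ0 j ∈ Jᶜ) (h1 : ∀ j ∈ J, ρ j ∈ Jᶜ)
    (i0 : ∀ j ∈ J, ∀ j' ∈ J, ρ0 j = ρ0 j' → j = j') (i1 : ∀ j ∈ J, ∀ j' ∈ J, ρ j = ρ j' → j = j') :
    ∃ g : Equiv.Perm α, (∀ j ∈ J, g j = j) ∧ (∀ j ∈ J, g (ρ0 j) = ρ j) := by
  -- the partial map
  let s : Finset α := J ∪ J.image ρ0
  let F : α → α := fun x =>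
    if x ∈ J then x else
      if hx : ∃ j ∈ J, ρ0 j = x then ρ hx.choose else x
  have hF1 : ∀ j ∈ J, F j = j := fun j hj => by simp [F, hj]
  have hF2 : ∀ j ∈ J, F (ρ0 j) = ρ j := by
    intro j hj
    have hnot : ρ0 j ∉ J := Finset.mem_compl.mp (h0 j hj)
    have hex : ∃ j' ∈ J, ρ0 j' = ρ0 j := ⟨j, hj, rfl⟩
    have hch := hex.choose_spec
    have heq : hex.choose = j := i0 _ hch.1 _ hj hch.2
    simp only [F, hnot, if_false, dif_pos hex]
    rw [heq]
  have hinj : Set.InjOn F (s : Set α) := by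
    intro x hx y hy hxy
    simp only [s, Finset.coe_union, Finset.coe_image, Set.mem_union, Finset.mem_coe, Set.mem_image] at hx hy
    rcases hx with hx | ⟨a, ha, rfl⟩ <;> rcases hy with hy | ⟨b, hb, rfl⟩
    · rwa [hF1 x hx, hF1 y hy] at hxy
    · rw [hF1 x hx, hF2 b hb] at hxy
      exact absurd hx (by rw [hxy]; exact Finset.mem_compl.mp (h1 b hb))
    · rw [hF1 y hy, hF2 a ha] at hxy
      exact absurd hy (by rw [← hxy]; exact Finset.mem_compl.mp (h1 a ha))
    · rw [hF2 a ha, hF2 b hb] at hxy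
      rw [i1 a ha b hb hxy]
  obtain ⟨g, hg⟩ := Finset.exists_equiv_extend_of_card_eq (t := (univ : Finset α))
    (s := s) (f := F) (by simp) (by simp) hinj
  let g' : Equiv.Perm α := g.trans (Equiv.subtypeUnivEquiv (fun x => Finset.mem_univ x))
  have hg' : ∀ x ∈ s, g' x = F x := fun x hx => hg x hx
  refine ⟨g', fun j hj => ?_, fun j hj => ?_⟩
  · rw [hg' j (Finset.mem_union_left _ hj), hF1 j hj]
  · rw [hg' _ (Finset.mem_union_right _ (Finset.mem_image_of_mem _ hj)), hF2 j hj]

/-- **Independence** of the pure subspaces of the `l`-subsets of `K`. -/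
theorem pure_indep (K : Finset α) (l : ℕ) (h : l + K.card ≤ Fintype.card α) :
    iSupIndep (fun J : {J : Finset α // J ⊆ K ∧ J.card = l} => Pure J.1) := by
  rw [iSupIndep_def]
  intro J0
  rw [Submodule.disjoint_def]
  intro f hf0 hf1
  obtain ⟨hJ0K, hJ0c⟩ := J0.2
  -- an injection of `J0` into the complement of `K`
  obtain ⟨ρ0, hρ0, hρ0inj⟩ := exists_inj_compl K J0.1 (by rw [hJ0c]; exact h)
  -- the alternating difference with values outside `K` kills `f`
  have hD0 : ∀ E : List α, (∀ j, j ∈ E ↔ j ∈ J0.1) → E.Nodup →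
      (E.map (fun j => (1 : Fn α →ₗ[ℝ] Fn α) - regRep.ρ (Equiv.swap j (ρ0 j)))).prod f = 0 := by
    intro E hE hnd
    set D : Fn α →ₗ[ℝ] Fn α :=
      (E.map (fun j => (1 : Fn α →ₗ[ℝ] Fn α) - regRep.ρ (Equiv.swap j (ρ0 j)))).prod with hDdef
    have hle : (⨆ (J : {J : Finset α // J ⊆ K ∧ J.card = l}) (_ : J ≠ J0), Pure J.1)
        ≤ LinearMap.ker D := by
      refine iSup₂_le ?_
      rintro J hJ v hv
      rw [LinearMap.mem_ker]
      obtain ⟨hJK, hJc⟩ := J.2
      -- a point of `J0` outside `J`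
      obtain ⟨j, hjJ0, hjJ⟩ : ∃ j ∈ J0.1, j ∉ J.1 := by
        by_contra hcon
        push Not at hcon
        have hsub : J0.1 ⊆ J.1 := hcon
        have : J0.1 = J.1 := Finset.eq_of_subset_of_card_le hsub (by rw [hJc, hJ0c])
        exact hJ (Subtype.ext this.symm)
      have hρJ : ρ0 j ∉ J.1 := by
        intro hmem
        have := hρ0 j hjJ0
        rw [Finset.mem_compl] at this
        exact this (hJK hmem)
      have hkill : ((1 : Fn α →ₗ[ℝ] Fn α) - regRep.ρ (Equiv.swap j (ρ0 j))) v = 0 := by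
        have hvF : v ∈ regRep.Inv (J.1)ᶜ := Pure_le_Fun J.1 hv
        have := hvF j (Finset.mem_compl.mpr hjJ) (ρ0 j) (Finset.mem_compl.mpr hρJ)
        simp only [LinearMap.sub_apply, Module.End.one_apply]
        rw [sub_eq_zero]
        exact this.symm
      refine list_prod_apply_eq_zero _ ?_ _ ?_ v hkill
      · -- pairwise commuting
        rw [List.pairwise_map]
        refine List.Pairwise.imp_of_mem ?_ hnd
        intro a b ha hb hab
        have ha' := (hE a).1 ha
        have hb' := (hE b).1 hb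
        have hd : Equiv.Perm.Disjoint (Equiv.swap a (ρ0 a)) (Equiv.swap b (ρ0 b)) := by
          apply Equiv.Perm.disjoint_swap_swap
          have h1 : ρ0 a ∉ K := Finset.mem_compl.mp (hρ0 a ha')
          have h2 : ρ0 b ∉ K := Finset.mem_compl.mp (hρ0 b hb')
          have ha'' := hJ0K ha'
          have hb'' := hJ0K hb'
          have h3 : a ≠ ρ0 a := fun e => h1 (e ▸ ha'')
          have h4 : b ≠ ρ0 b := fun e => h2 (e ▸ hb'')
          have h5 : a ≠ ρ0 b := fun e => h2 (e ▸ ha'')
          have h6 : ρ0 a ≠ b := fun e => h1 (e ▸ hb'')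
          have h7 : ρ0 a ≠ ρ0 b := fun e => hab (hρ0inj a ha' b hb' e)
          simp [h3, h5, h6, h7, h4, hab]
        have hcomm : Equiv.swap a (ρ0 a) * Equiv.swap b (ρ0 b)
            = Equiv.swap b (ρ0 b) * Equiv.swap a (ρ0 a) := hd.commute
        show _ * _ = _ * _
        have hcomm2 : regRep.ρ (Equiv.swap a (ρ0 a)) * regRep.ρ (Equiv.swap b (ρ0 b))
            = regRep.ρ (Equiv.swap b (ρ0 b)) * regRep.ρ (Equiv.swap a (ρ0 a)) := by
          rw [← map_mul, ← map_mul, hcomm]
        simp only [sub_mul, mul_sub, one_mul, mul_one]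
        rw [hcomm2]
        abel
      · exact List.mem_map.mpr ⟨j, (hE j).2 hjJ0, rfl⟩
    exact hle hf1
  refine pure_eq_zero_of_diff hf0 (by have := Finset.card_le_card hJ0K; omega) ?_
  intro E hE hnd ρ hρ hρinj x
  -- transport `ρ0` to `ρ`
  obtain ⟨g, hg1, hg2⟩ := exists_perm_extend J0.1 ρ0 ρ
    (fun j hj => by
      have := hρ0 j hj
      rw [Finset.mem_compl] at this
      exact Finset.mem_compl.mpr (fun hmem => this (hJ0K hmem)))
    (fun j hj => hρ j ((hE j).2 hj)) hρ0inj (fun j hj j' hj' e => hρinj j ((hE j).2 hj) j' ((hE j').2 hj') e)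
  have hconj : ∀ E' : List α, (∀ j ∈ E', j ∈ J0.1) →
      (E'.map (fun j => (1 : Fn α →ₗ[ℝ] Fn α) - regRep.ρ (Equiv.swap j (ρ j)))).prod
        = regRep.ρ g * (E'.map (fun j => (1 : Fn α →ₗ[ℝ] Fn α) - regRep.ρ (Equiv.swap j (ρ0 j)))).prod
          * regRep.ρ g⁻¹ := by
    intro E' hE'
    induction E' with
    | nil =>
      simp only [List.map_nil, List.prod_nil, mul_one]
      rw [← map_mul]
      simp
    | cons a E' ih =>
      have ha : a ∈ J0.1 := hE' a (by simp)
      rw [List.map_cons, List.prod_cons, List.map_cons, List.prod_cons,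
        ih (fun j hj => hE' j (List.mem_cons_of_mem _ hj))]
      have hs : Equiv.swap a (ρ a) = g * Equiv.swap a (ρ0 a) * g⁻¹ := by
        rw [← Equiv.swap_apply_apply, hg1 a ha, hg2 a ha]
      have h1 : regRep.ρ g⁻¹ * regRep.ρ g = (1 : Fn α →ₗ[ℝ] Fn α) := by
        rw [← map_mul]; simp
      have h2 : regRep.ρ g * regRep.ρ g⁻¹ = (1 : Fn α →ₗ[ℝ] Fn α) := by
        rw [← map_mul]; simp
      rw [hs, map_mul, map_mul]
      generalize (List.map (fun j => (1 : Fn α →ₗ[ℝ] Fn α) - regRep.ρ (Equiv.swap j (ρ0 j))) E').prod = Q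
      generalize regRep.ρ g⁻¹ = A at h1 h2 ⊢
      generalize regRep.ρ g = B at h1 h2 ⊢
      generalize regRep.ρ (Equiv.swap a (ρ0 a)) = S
      have : ((1 : Fn α →ₗ[ℝ] Fn α) - B * S * A) * (B * Q * A) = B * (1 - S) * Q * A := by
        calc ((1 : Fn α →ₗ[ℝ] Fn α) - B * S * A) * (B * Q * A)
            = B * Q * A - B * S * (A * B) * Q * A := by noncomm_ring
          _ = B * Q * A - B * S * Q * A := by rw [h1, mul_one]
          _ = B * (1 - S) * Q * A := by noncomm_ring
      rw [this]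
      noncomm_ring
  rw [hconj E (fun j hj => (hE j).1 hj)]
  have hfix : regRep.ρ g⁻¹ f = f := by
    have hfF : f ∈ regRep.Inv (J0.1)ᶜ := Pure_le_Fun J0.1 hf0
    ext y
    have hfixg : ∀ a, a ∉ (J0.1)ᶜ → g⁻¹ a = a := by
      intro a ha
      rw [Finset.mem_compl, not_not] at ha
      rw [Equiv.Perm.inv_eq_iff_eq]
      exact (hg1 a ha).symm
    exact inv_of_fix hfF y g⁻¹ hfixg
  simp only [Module.End.mul_apply]
  rw [hfix, hD0 E hE hnd]
  simp

/-! ### Relabelling -/

/-- A permutation carrying `J` onto `J'`. -/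
private theorem exists_perm_map {J J' : Finset α} (h : J.card = J'.card) :
    ∃ g : Equiv.Perm α, J.map g.toEmbedding = J' := by
  classical
  let e : {x // x ∈ J} ≃ {x // x ∈ J'} := Finset.equivOfCardEq h
  refine ⟨e.extendSubtype, ?_⟩
  apply Finset.eq_of_subset_of_card_le
  · intro a ha
    rw [Finset.mem_map_equiv] at ha
    have := Equiv.extendSubtype_mem e _ ha
    simpa using this
  · rw [Finset.card_map, h]

private theorem map_compl (g : Equiv.Perm α) (J : Finset α) :
    Jᶜ.map g.toEmbedding = (J.map g.toEmbedding)ᶜ := by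
  ext a
  simp [Finset.mem_map_equiv]

private theorem rho_mem_Fun (g : Equiv.Perm α) {J : Finset α} {f : Fn α} (hf : f ∈ Fun J) :
    regRep.ρ g f ∈ Fun (J.map g.toEmbedding) := by
  have := regRep.rho_mem_Inv g hf
  rwa [map_compl] at this

private theorem map_map_inv (g : Equiv.Perm α) (J : Finset α) :
    (J.map g.toEmbedding).map (g⁻¹).toEmbedding = J := by
  ext a
  constructor
  · intro h
    obtain ⟨b, hb, rfl⟩ := Finset.mem_map.1 h
    obtain ⟨c, hc, rfl⟩ := Finset.mem_map.1 hb
    simpa using hc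
  · intro h
    exact Finset.mem_map.2 ⟨g a, Finset.mem_map.2 ⟨a, h, rfl⟩, by simp⟩

private theorem map_erase_map (g : Equiv.Perm α) (J : Finset α) (j : α) :
    ((J.map g.toEmbedding).erase (g j)).map (g⁻¹).toEmbedding = J.erase j := by
  ext a
  constructor
  · intro h
    obtain ⟨b, hb, rfl⟩ := Finset.mem_map.1 h
    rw [Finset.mem_erase] at hb
    obtain ⟨hb1, hb2⟩ := hb
    obtain ⟨c, hc, rfl⟩ := Finset.mem_map.1 hb2
    have hcj : c ≠ j := fun h => hb1 (by simp [h])
    simpa [Finset.mem_erase, hcj] using hc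
  · intro h
    rw [Finset.mem_erase] at h
    refine Finset.mem_map.2 ⟨g a, Finset.mem_erase.2 ⟨by simpa using h.1, Finset.mem_map.2 ⟨a, h.2, rfl⟩⟩, by simp⟩

private theorem rho_mem_Pure (g : Equiv.Perm α) {J : Finset α} {f : Fn α} (hf : f ∈ Pure J) :
    regRep.ρ g f ∈ Pure (J.map g.toEmbedding) := by
  obtain ⟨h1, h2⟩ := Submodule.mem_inf.1 hf
  refine Submodule.mem_inf.2 ⟨rho_mem_Fun g h1, ?_⟩
  have hle : (⨆ j' ∈ J.map g.toEmbedding, Fun ((J.map g.toEmbedding).erase j'))
      ≤ ((⨆ j ∈ J, Fun (J.erase j))).comap (regRep.ρ g⁻¹) := by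
    refine iSup₂_le fun j' hj' w hw => ?_
    rw [Finset.mem_map_equiv] at hj'
    have hj := hj'
    have e : j' = g (g.symm j') := by simp
    have hw' : w ∈ Fun ((J.map g.toEmbedding).erase (g (g.symm j'))) := by rwa [← e]
    have hw2 := rho_mem_Fun g⁻¹ hw'
    rw [map_erase_map] at hw2
    exact (le_iSup₂_of_le (g.symm j') hj le_rfl :
      Fun (J.erase (g.symm j')) ≤ ⨆ j ∈ J, Fun (J.erase j)) hw2
  rw [Submodule.mem_orthogonal] at h2 ⊢
  intro u hu
  have h3 := h2 _ (hle hu)
  have h4 := regRep.inner_map g (regRep.ρ g⁻¹ u) f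
  rw [← h3, ← h4, ← Module.End.mul_apply, ← map_mul]
  simp

private theorem Pure_map_eq (J : Finset α) (g : Equiv.Perm α) :
    Pure (J.map g.toEmbedding) = (Pure J).map (regRep.ρ g : Fn α →ₗ[ℝ] Fn α) := by
  apply le_antisymm
  · intro f hf
    have h1 := rho_mem_Pure g⁻¹ hf
    rw [map_map_inv] at h1
    refine ⟨_, h1, ?_⟩
    rw [← Module.End.mul_apply, ← map_mul]
    simp
  · rintro _ ⟨f, hf, rfl⟩
    exact rho_mem_Pure g hf

/-- Relabelling: the trace on a pure space depends only on the size. -/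
theorem TrOn_Pure_card {X : Fn α →ₗ[ℝ] Fn α} (hX : X.IsSymmetric) (hc : regRep.Commutes X) {J J' : Finset α}
    (h : J.card = J'.card) : TrOn X (Pure J) = TrOn X (Pure J') := by
  obtain ⟨g, hg⟩ := exists_perm_map h
  subst hg
  have hmap := Pure_map_eq (α := α) J g
  have hR : ∀ v : Fn α, ‖regRep.ρ g v‖ = ‖v‖ := by
    intro v
    have := regRep.inner_map g v v
    rw [real_inner_self_eq_norm_sq, real_inner_self_eq_norm_sq] at this
    exact (sq_eq_sq₀ (norm_nonneg _) (norm_nonneg _)).1 this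
  have hRs : Function.Surjective (regRep.ρ g : Fn α →ₗ[ℝ] Fn α) := by
    intro v
    refine ⟨regRep.ρ g⁻¹ v, ?_⟩
    rw [← Module.End.mul_apply, ← map_mul]
    simp
  exact (TrOn_map_eq hR hRs (fun v => hc g v) (Pure J) (Pure (J.map g.toEmbedding)) hmap).symm

/-- **Multiplicity.** -/
theorem choose_mul_TrOn_le {X : Fn α →ₗ[ℝ] Fn α} (hX : PosOp X) (hc : regRep.Commutes X)
    (K J : Finset α) (h : J.card + K.card ≤ Fintype.card α) :
    ((K.card.choose J.card : ℕ) : ℝ) * TrOn X (Pure J) ≤ TrOn X (Fun K) := by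
  classical
  let ι := {J' : Finset α // J' ⊆ K ∧ J'.card = J.card}
  have hcard : Fintype.card ι = K.card.choose J.card := by
    have : Fintype.card ι = (Finset.powersetCard J.card K).card := by
      rw [Fintype.card_subtype]
      congr 1
      ext J'
      simp [Finset.mem_powersetCard]
    rw [this, Finset.card_powersetCard]
  have hind := pure_indep K J.card h
  have hinv : ∀ i : ι, Invt X (Pure i.1) := fun i => invt_Pure hX.symm hc i.1
  have hsum := TrOn_iSup_of_indep hX.symm (fun i : ι => Pure i.1) hinv hind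
  have hsumeq : ∑ i : ι, TrOn X (Pure i.1) = ((K.card.choose J.card : ℕ) : ℝ) * TrOn X (Pure J) := by
    rw [Finset.sum_congr rfl (fun i _ => TrOn_Pure_card hX.symm hc i.2.2),
      Finset.sum_const, Finset.card_univ, hcard, nsmul_eq_mul]
  rw [← hsumeq, ← hsum]
  have hle : (⨆ i : ι, Pure i.1) ≤ Fun K :=
    iSup_le fun i => (Pure_le_Fun i.1).trans (Fun_mono i.2.1)
  refine TrOn_mono hX hle ?_ (invt_Fun hc K)
  intro v hv
  have key := LinearMap.mapsTo_biSup_of_mapsTo (N := fun i : ι => Pure i.1) Set.univ (f := X)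
    (fun i => hinv i)
  exact (by simpa using key : Set.MapsTo X _ _) hv

/-- **Low levels are controlled by the pure traces.** -/
theorem TrOn_Y_le {X : Fn α →ₗ[ℝ] Fn α} (hX : PosOp X) (hc : regRep.Commutes X) (j : ℕ)
    (hj : j ≤ Fintype.card α) (τ : ℕ → ℝ) (hτ : ∀ J : Finset α, TrOn X (Pure J) = τ J.card) :
    TrOn X ((regRep (α := α)).Y (Fintype.card α - j))
      ≤ ∑ l ∈ Finset.range (j + 1), ((Fintype.card α).choose l : ℝ) * τ l := by
  classical
  set S : Finset (Finset α) := (univ : Finset (Finset α)).filter (fun J => J.card ≤ j) with hS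
  have hinvP : ∀ J ∈ S, Invt X (Pure J) := fun J _ => invt_Pure hX.symm hc J
  have hinvS : Invt X (⨆ J ∈ S, Pure J) := by
    intro v hv
    have key := LinearMap.mapsTo_biSup_of_mapsTo (N := fun J : Finset α => ⨆ _ : J ∈ S, Pure J)
      (Set.univ : Set (Finset α)) (f := X) (by
        intro J v hv
        by_cases hJ : J ∈ S
        · simpa [hJ] using hinvP J hJ v (by simpa [hJ] using hv)
        · have : v = 0 := by simpa [hJ] using hv
          simp [this])
    have h2 : (⨆ J ∈ (Set.univ : Set (Finset α)), ⨆ _ : J ∈ S, Pure J) = ⨆ J ∈ S, Pure J := by simp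
    rw [h2] at key
    exact key hv
  have hinvY : Invt X ((regRep (α := α)).Y (Fintype.card α - j)) := fun v hv => ORep.Commutes.mem_Y regRep hc hv
  have h1 := TrOn_mono hX (Y_le_iSup_Pure j hj) hinvY hinvS
  have h2 := TrOn_biSup_le hX S (fun J => Pure J) hinvP
  refine h1.trans (h2.trans (le_of_eq ?_))
  rw [Finset.sum_congr rfl (fun J _ => hτ J)]
  have hmaps : ∀ J ∈ S, J.card ∈ Finset.range (j + 1) := by
    intro J hJ
    rw [hS, Finset.mem_filter] at hJ
    exact Finset.mem_range.mpr (by omega)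
  rw [← Finset.sum_fiberwise_of_maps_to hmaps]
  refine Finset.sum_congr rfl fun l hl => ?_
  have hl' : l ≤ j := by have := Finset.mem_range.mp hl; omega
  have hfib : S.filter (fun J => J.card = l) = Finset.powersetCard l (univ : Finset α) := by
    ext J
    simp only [hS, Finset.mem_filter, Finset.mem_univ, true_and, Finset.mem_powersetCard,
      Finset.subset_univ]
    constructor
    · exact fun h => h.2
    · exact fun h => ⟨by omega, h⟩
  rw [Finset.sum_congr rfl (g := fun _ => τ l) (by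
    intro J hJ
    rw [(Finset.mem_filter.mp hJ).2])]
  rw [Finset.sum_const, hfib, Finset.card_powersetCard, nsmul_eq_mul]
  simp

end Vale.Agent.Lib.P162T
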