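import Vale.Agent.Lib.P162T.TupleTrace
import Vale.Agent.Lib.P162T.Aux_helper16

/-!
# P162T: Hilbert-Schmidt norm of a power; total variation from the trace
-/

open scoped InnerProductSpace
open Finset

namespace Vale.Agent.Lib.P162T

open ThorpL2

section schatten

variable {E : Type*} [NormedAddCommGroup E] [InnerProductSpace ℝ E] [FiniteDimensional ℝ E]

/-- The product of a word in `A` and its adjoint. -/
noncomputable def wordOp (A : E →ₗ[ℝ] E) : List Bool → (E →ₗ[ℝ] E)
  | [] => 1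
  | b :: w => (if b then A else LinearMap.adjoint A) * wordOp A w

private lemma wordOp_eq_aux (A : E →ₗ[ℝ] E) (w : List Bool) : wordOp A w = WordAux.wOp A w := by
  induction w with
  | nil => rfl
  | cons b w ih => simp only [wordOp, WordAux.wOp, ih]

/-- Among the words of length `2 K` the alternating word has maximal trace. -/
theorem trace_word_le (A : E →ₗ[ℝ] E) (K : ℕ) (w : List Bool) (hw : w.length = 2 * K) :
    LinearMap.trace ℝ E (wordOp A w) ≤ LinearMap.trace ℝ E ((A * LinearMap.adjoint A) ^ K) := by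
  rw [wordOp_eq_aux]
  exact WordAux.trace_word_le_aux A K w hw

private lemma wordOp_replicate_true (A : E →ₗ[ℝ] E) (K : ℕ) :
    wordOp A (List.replicate K true) = A ^ K := by
  induction K with
  | zero => simp [wordOp]
  | succ K ih =>
    simp only [List.replicate_succ, wordOp, if_true]
    rw [ih, pow_succ']

private lemma adjoint_pow_aux (A : E →ₗ[ℝ] E) (K : ℕ) :
    LinearMap.adjoint (A ^ K) = (LinearMap.adjoint A) ^ K := by
  induction K with
  | zero => simp
  | succ K ih =>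
    rw [pow_succ, WordAux.adjoint_mul', ih, pow_succ']

private lemma wordOp_replicate_false (A : E →ₗ[ℝ] E) (K : ℕ) :
    wordOp A (List.replicate K false) = LinearMap.adjoint (A ^ K) := by
  induction K with
  | zero => simp [wordOp]
  | succ K ih =>
    simp only [List.replicate_succ, wordOp, Bool.false_eq_true, if_false]
    rw [ih, adjoint_pow_aux, adjoint_pow_aux, pow_succ']

/-- **Schatten-Hölder for a power.** -/
theorem trace_pow_le (A : E →ₗ[ℝ] E) (K : ℕ) :
    LinearMap.trace ℝ E (LinearMap.adjoint (A ^ K) * A ^ K)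
      ≤ LinearMap.trace ℝ E ((A * LinearMap.adjoint A) ^ K) := by
  have h := trace_word_le A K (List.replicate K false ++ List.replicate K true)
    (by simp; omega)
  rw [wordOp_eq_aux, WordAux.wOp_append, ← wordOp_eq_aux, ← wordOp_eq_aux,
    wordOp_replicate_false, wordOp_replicate_true] at h
  exact h

end schatten

variable {α : Type*} [DecidableEq α] [Fintype α]

/-- The delta functions are translates of the delta at the identity. -/
private lemma dlt_eq_rtr (g : Equiv.Perm α) : dlt g = regRep.ρ g⁻¹ (dlt (1 : Equiv.Perm α)) := by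
  ext x
  simp only [regRep_rho_apply, dlt, PiLp.single_apply]
  by_cases h : x = g
  · subst h; simp
  · have h2 : x * g⁻¹ ≠ 1 := by
      intro h3
      exact h (mul_inv_eq_one.mp h3)
    simp [h, h2]

private lemma norm_rho (g : Equiv.Perm α) (f : Fn α) : ‖regRep.ρ g f‖ = ‖f‖ := by
  have h : ⟪regRep.ρ g f, regRep.ρ g f⟫_ℝ = ⟪f, f⟫_ℝ := regRep.inner_map g f f
  rw [real_inner_self_eq_norm_sq, real_inner_self_eq_norm_sq] at h
  exact (sq_eq_sq₀ (norm_nonneg _) (norm_nonneg _)).1 h

private lemma norm_sq_dlt {A : Fn α →ₗ[ℝ] Fn α} (hA : regRep.Commutes A) (g : Equiv.Perm α) :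
    ‖A (dlt g)‖ ^ 2 = ‖A (dlt (1 : Equiv.Perm α))‖ ^ 2 := by
  rw [dlt_eq_rtr g, hA, norm_rho]

private lemma trace_adjoint_mul (A : Fn α →ₗ[ℝ] Fn α) :
    LinearMap.trace ℝ (Fn α) (LinearMap.adjoint A * A) = ∑ g, ‖A (dlt g)‖ ^ 2 := by
  rw [LinearMap.trace_eq_sum_inner _ (EuclideanSpace.basisFun (Equiv.Perm α) ℝ)]
  refine Finset.sum_congr rfl fun g _ => ?_
  rw [EuclideanSpace.basisFun_apply, Module.End.mul_apply, LinearMap.adjoint_inner_right,
    real_inner_self_eq_norm_sq]
  rfl

private lemma sum_convPow (μ : Equiv.Perm α → ℝ) (h1 : ∑ g, μ g = 1) (t : ℕ) :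
    ∑ g, convPow μ t g = 1 := by
  induction t with
  | zero => simp [convPow]
  | succ t ih =>
    simp only [convPow, conv]
    rw [Finset.sum_comm]
    have : ∀ h : Equiv.Perm α, ∑ g, μ h * convPow μ t (h⁻¹ * g) = μ h := by
      intro h
      have h2 : ∑ g, convPow μ t (h⁻¹ * g) = ∑ g, convPow μ t g :=
        Equiv.sum_comp (Equiv.mulLeft h⁻¹) (convPow μ t)
      rw [← Finset.mul_sum, h2, ih, mul_one]
    simp only [this, h1]

/-- **Total variation from the trace.**  `T = (convOp μ)^D`, a probability law `μ`. -/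
theorem tv_of_trace [Nonempty α] (μ : Equiv.Perm α → ℝ) (h0 : ∀ g, 0 ≤ μ g) (h1 : ∑ g, μ g = 1) (D K : ℕ)
    (h : LinearMap.trace ℝ (Fn α)
        (((convOp μ) ^ D * LinearMap.adjoint ((convOp μ) ^ D)) ^ K) ≤ 5 / 4) :
    (1 / 2 : ℝ) * ∑ g, |ThorpL2.convPow μ (D * K) g - 1 / ((Fintype.card α).factorial : ℝ)| ≤ 1 / 4 := by
  set A : Fn α →ₗ[ℝ] Fn α := (convOp μ) ^ (D * K) with hAdef
  have hA : A = ((convOp μ) ^ D) ^ K := by rw [hAdef, pow_mul]
  have hc : regRep.Commutes A := (convOp_commutes μ).pow (D * K)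
  have hS : LinearMap.trace ℝ (Fn α) (LinearMap.adjoint A * A) ≤ 5 / 4 := by
    rw [hA]; exact (trace_pow_le _ K).trans h
  set N : ℝ := ((Fintype.card α).factorial : ℝ) with hN
  have hN0 : 0 < N := by rw [hN]; positivity
  set p : Equiv.Perm α → ℝ := ThorpL2.convPow μ (D * K) with hp
  have hnorm : ‖A (dlt (1 : Equiv.Perm α))‖ ^ 2 = ∑ g, p g ^ 2 := by
    rw [← real_inner_self_eq_norm_sq, inner_Fn]
    refine Finset.sum_congr rfl fun g _ => ?_
    rw [hAdef, convOp_pow_dlt, sq]
  have htr : LinearMap.trace ℝ (Fn α) (LinearMap.adjoint A * A) = N * ∑ g, p g ^ 2 := by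
    rw [trace_adjoint_mul]
    simp only [norm_sq_dlt hc, hnorm]
    rw [Finset.sum_const, Finset.card_univ, Fintype.card_perm, nsmul_eq_mul]
  have hsum : ∑ g, p g = 1 := sum_convPow μ h1 _
  have hcard : ∑ _g : Equiv.Perm α, (1 : ℝ) = N := by
    rw [Finset.sum_const, Finset.card_univ, Fintype.card_perm]; simp [hN]
  have hvar : N * ∑ g, (p g - 1 / N) ^ 2 = N * ∑ g, p g ^ 2 - 1 := by
    have : ∑ g, (p g - 1 / N) ^ 2 = ∑ g, p g ^ 2 - 2 / N * ∑ g, p g + 1 / N ^ 2 * ∑ _g : Equiv.Perm α, (1 : ℝ) := by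
      rw [Finset.mul_sum, Finset.mul_sum, ← Finset.sum_sub_distrib, ← Finset.sum_add_distrib]
      refine Finset.sum_congr rfl fun g _ => ?_
      field_simp
      ring
    rw [this, hsum, hcard]
    field_simp
    ring
  have hl := l1_sq_le (fun g => p g - 1 / N)
  have h4 : (∑ g, |p g - 1 / N|) ^ 2 ≤ 1 / 4 := by
    refine hl.trans ?_
    rw [← hN, hvar]
    linarith
  have h5 : ∑ g, |p g - 1 / N| ≤ 1 / 2 := by
    have hnn : 0 ≤ ∑ g, |p g - 1 / N| := Finset.sum_nonneg fun g _ => abs_nonneg _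
    nlinarith
  linarith

end Vale.Agent.Lib.P162T
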