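import Mathlib

/-!
# P162T: traces on invariant subspaces
-/

open scoped InnerProductSpace

namespace Vale.Agent.Lib.P162T

variable {E : Type*} [NormedAddCommGroup E] [InnerProductSpace ℝ E] [FiniteDimensional ℝ E]

/-- The trace of `X` on the subspace `U`: the trace of `X` composed with the orthogonal projection. -/
noncomputable def TrOn (X : E →ₗ[ℝ] E) (U : Submodule ℝ E) : ℝ :=
  LinearMap.trace ℝ E (X ∘ₗ (U.starProjection : E →L[ℝ] E).toLinearMap)

/-- Positive operators. -/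
structure PosOp (X : E →ₗ[ℝ] E) : Prop where
  symm : X.IsSymmetric
  nonneg : ∀ v, 0 ≤ ⟪v, X v⟫_ℝ

/-- Invariance of a subspace. -/
def Invt (X : E →ₗ[ℝ] E) (U : Submodule ℝ E) : Prop := ∀ v ∈ U, X v ∈ U

omit [FiniteDimensional ℝ E] in
theorem PosOp.pow {X : E →ₗ[ℝ] E} (h : PosOp X) (K : ℕ) : PosOp (X ^ K) := by
  refine ⟨h.symm.pow K, fun v => ?_⟩
  have hs : ∀ m : ℕ, ∀ a b : E, ⟪a, (X ^ m) b⟫_ℝ = ⟪(X ^ m) a, b⟫_ℝ :=
    fun m a b => ((h.symm.pow m) a b).symm
  obtain ⟨m, hm | hm⟩ := Nat.even_or_odd' K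
  · subst hm
    rw [two_mul, pow_add, Module.End.mul_apply, hs]
    exact real_inner_self_nonneg
  · subst hm
    rw [two_mul, pow_succ, pow_add, Module.End.mul_apply, Module.End.mul_apply, hs]
    have := h.nonneg ((X ^ m) v)
    have hcomm : X ((X ^ m) v) = (X ^ m) (X v) := by
      rw [← Module.End.mul_apply, ← Module.End.mul_apply, ← pow_succ', pow_succ]
    rwa [hcomm] at this

omit [FiniteDimensional ℝ E] in
theorem Invt.pow {X : E →ₗ[ℝ] E} {U : Submodule ℝ E} (h : Invt X U) (K : ℕ) : Invt (X ^ K) U := by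
  induction K with
  | zero => intro v hv; simpa using hv
  | succ K ih =>
    intro v hv
    rw [pow_succ', Module.End.mul_apply]
    exact h _ (ih v hv)

/-- The compression of `X` to `U`. -/
private noncomputable def compress (X : E →ₗ[ℝ] E) (U : Submodule ℝ E) : U →ₗ[ℝ] U :=
  (U.orthogonalProjectionOnto : E →L[ℝ] U).toLinearMap ∘ₗ X ∘ₗ U.subtype

private theorem TrOn_eq_compress (X : E →ₗ[ℝ] E) (U : Submodule ℝ E) :
    TrOn X U = LinearMap.trace ℝ U (compress X U) := by
  unfold TrOn compress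
  have h : (U.starProjection : E →L[ℝ] E).toLinearMap
      = U.subtype ∘ₗ (U.orthogonalProjectionOnto : E →L[ℝ] U).toLinearMap := by
    ext v; rfl
  rw [h, ← LinearMap.comp_assoc, LinearMap.trace_comp_comm']

private theorem compress_eq_restrict {X : E →ₗ[ℝ] E} {U : Submodule ℝ E} (hU : Invt X U) :
    compress X U = X.restrict hU := by
  ext v
  have := Submodule.orthogonalProjectionOnto_mem_subspace_eq_self (K := U) (⟨X v, hU v v.2⟩ : U)
  exact congrArg Subtype.val this

/-- The trace on an invariant subspace is the trace of the restriction. -/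
theorem TrOn_eq_restrict {X : E →ₗ[ℝ] E} {U : Submodule ℝ E} (hU : Invt X U) :
    TrOn X U = LinearMap.trace ℝ U (X.restrict hU) := by
  rw [TrOn_eq_compress, compress_eq_restrict]

/-- The trace on a subspace in an orthonormal basis. -/
theorem TrOn_eq_sum {ι : Type*} [Fintype ι] (X : E →ₗ[ℝ] E) (U : Submodule ℝ E)
    (b : OrthonormalBasis ι ℝ U) :
    TrOn X U = ∑ i, ⟪(b i : E), X (b i : E)⟫_ℝ := by
  rw [TrOn_eq_compress, LinearMap.trace_eq_sum_inner _ b]
  refine Finset.sum_congr rfl fun i _ => ?_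
  rw [Submodule.coe_inner]
  have h1 : ((compress X U (b i) : U) : E) = U.starProjection (X (b i : E)) := rfl
  rw [h1, ← Submodule.inner_starProjection_left_eq_right,
    Submodule.starProjection_eq_self_iff.mpr (b i).2]

theorem TrOn_top (X : E →ₗ[ℝ] E) : TrOn X ⊤ = LinearMap.trace ℝ E X := by
  unfold TrOn
  rw [Submodule.starProjection_top]
  rfl

theorem TrOn_nonneg {X : E →ₗ[ℝ] E} (h : PosOp X) (U : Submodule ℝ E) : 0 ≤ TrOn X U := by
  rw [TrOn_eq_sum X U (stdOrthonormalBasis ℝ U)]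
  exact Finset.sum_nonneg fun i _ => h.nonneg _

/-- Projection on an orthogonal sum. -/
private theorem starProjection_sup {U V : Submodule ℝ E} (h : U ⟂ V) (v : E) :
    (U ⊔ V).starProjection v = U.starProjection v + V.starProjection v := by
  refine Submodule.eq_starProjection_of_mem_orthogonal
    (Submodule.add_mem_sup (U.starProjection_apply_mem v) (V.starProjection_apply_mem v)) ?_
  rw [← Submodule.inf_orthogonal]
  refine ⟨?_, ?_⟩
  · have h1 := U.sub_starProjection_mem_orthogonal v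
    have h2 : V.starProjection v ∈ Uᗮ := h.symm (V.starProjection_apply_mem v)
    have : v - (U.starProjection v + V.starProjection v)
        = (v - U.starProjection v) - V.starProjection v := by abel
    rw [this]
    exact Submodule.sub_mem _ h1 h2
  · have h1 := V.sub_starProjection_mem_orthogonal v
    have h2 : U.starProjection v ∈ Vᗮ := h (U.starProjection_apply_mem v)
    have : v - (U.starProjection v + V.starProjection v)
        = (v - V.starProjection v) - U.starProjection v := by abel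
    rw [this]
    exact Submodule.sub_mem _ h1 h2

private theorem TrOn_sup_ortho (X : E →ₗ[ℝ] E) {U V : Submodule ℝ E} (h : U ⟂ V) :
    TrOn X (U ⊔ V) = TrOn X U + TrOn X V := by
  unfold TrOn
  rw [← map_add]
  congr 1
  ext v
  simp only [LinearMap.coe_comp, Function.comp_apply, ContinuousLinearMap.coe_coe,
    LinearMap.add_apply]
  rw [starProjection_sup h, map_add]

/-- Monotone in the subspace. -/
theorem TrOn_mono {X : E →ₗ[ℝ] E} (h : PosOp X) {U W : Submodule ℝ E} (hUW : U ≤ W)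
    (hU : Invt X U) (hW : Invt X W) : TrOn X U ≤ TrOn X W := by
  have hsup : U ⊔ Uᗮ ⊓ W = W := Submodule.sup_orthogonal_inf_of_hasOrthogonalProjection hUW
  have hort : U ⟂ (Uᗮ ⊓ W) := (Submodule.isOrtho_iff_le.mpr inf_le_left : (Uᗮ ⊓ W) ⟂ U).symm
  have := TrOn_sup_ortho X hort
  rw [hsup] at this
  rw [this]
  have := TrOn_nonneg h (Uᗮ ⊓ W)
  linarith

/-- Orthogonal complement. -/
theorem TrOn_add_orthogonal (X : E →ₗ[ℝ] E) (U : Submodule ℝ E) :
    TrOn X U + TrOn X Uᗮ = LinearMap.trace ℝ E X := by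
  rw [← TrOn_sup_ortho X (Submodule.isOrtho_orthogonal_right U),
    Submodule.sup_orthogonal_of_hasOrthogonalProjection, TrOn_top]

/-- Additivity on independent invariant subspaces (not necessarily orthogonal). -/
theorem TrOn_iSup_of_indep {ι : Type*} [Fintype ι] [DecidableEq ι] {X : E →ₗ[ℝ] E}
    (h : X.IsSymmetric) (U : ι → Submodule ℝ E) (hU : ∀ i, Invt X (U i)) (hind : iSupIndep U) :
    TrOn X (⨆ i, U i) = ∑ i, TrOn X (U i) := by
  have hsup : Invt X (⨆ i, U i) := by
    have := LinearMap.mapsTo_biSup_of_mapsTo (N := U) Set.univ (f := X) (fun i => hU i)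
    intro v hv
    exact (by simpa using this : Set.MapsTo X _ _) hv
  rw [TrOn_eq_restrict hsup]
  have key := LinearMap.trace_eq_sum_trace_restrict_of_eq_biSup (R := ℝ) (N := U)
    (Finset.univ : Finset ι) (hind.comp Subtype.val_injective) (f := X) (fun i => hU i)
    (⨆ i, U i) (by simp) hsup
  rw [key]
  refine Finset.sum_congr rfl fun i _ => ?_
  rw [TrOn_eq_restrict (hU i)]

/-- Additivity on a pair. -/
private theorem TrOn_sup_of_disjoint {X : E →ₗ[ℝ] E} (h : X.IsSymmetric) {U W : Submodule ℝ E}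
    (hU : Invt X U) (hW : Invt X W) (hd : Disjoint U W) :
    TrOn X (U ⊔ W) = TrOn X U + TrOn X W := by
  let F : Bool → Submodule ℝ E := fun b => if b then U else W
  have hF : ∀ b, Invt X (F b) := by
    intro b; cases b
    · exact hW
    · exact hU
  have hi : iSupIndep F := by
    rw [iSupIndep_pair (i := true) (j := false) (by simp) (by intro k; cases k <;> simp)]
    exact hd
  have := TrOn_iSup_of_indep h F hF hi
  have hs : (⨆ b, F b) = U ⊔ W := by
    rw [iSup_bool_eq]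
    rfl
  rw [hs] at this
  rw [this]
  simp [F]

omit [FiniteDimensional ℝ E] in
private theorem Invt.orthogonal {X : E →ₗ[ℝ] E} (h : X.IsSymmetric) {U : Submodule ℝ E}
    (hU : Invt X U) : Invt X Uᗮ := by
  intro v hv
  rw [Submodule.mem_orthogonal] at hv ⊢
  intro u hu
  rw [← h u v]
  exact hv _ (hU u hu)

omit [FiniteDimensional ℝ E] in
private theorem Invt.sup {X : E →ₗ[ℝ] E} {U W : Submodule ℝ E} (hU : Invt X U) (hW : Invt X W) :
    Invt X (U ⊔ W) := by
  intro v hv
  obtain ⟨a, ha, b, hb, rfl⟩ := Submodule.mem_sup.mp hv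
  rw [map_add]
  exact Submodule.add_mem_sup (hU a ha) (hW b hb)

omit [FiniteDimensional ℝ E] in
private theorem Invt.inf {X : E →ₗ[ℝ] E} {U W : Submodule ℝ E} (hU : Invt X U) (hW : Invt X W) :
    Invt X (U ⊓ W) := fun v hv => ⟨hU v hv.1, hW v hv.2⟩

/-- Subadditivity on a sum of two invariant subspaces. -/
theorem TrOn_sup_le {X : E →ₗ[ℝ] E} (h : PosOp X) {U W : Submodule ℝ E} (hU : Invt X U)
    (hW : Invt X W) : TrOn X (U ⊔ W) ≤ TrOn X U + TrOn X W := by
  set W' : Submodule ℝ E := (U ⊓ W)ᗮ ⊓ W with hW'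
  have hW'i : Invt X W' := Invt.inf (Invt.orthogonal h.symm (Invt.inf hU hW)) hW
  have hd : Disjoint U W' := by
    rw [Submodule.disjoint_def]
    intro x hxU hxW'
    have hx1 : x ∈ U ⊓ W := ⟨hxU, hxW'.2⟩
    have hx2 : x ∈ (U ⊓ W)ᗮ := hxW'.1
    exact Submodule.disjoint_def.mp (Submodule.isOrtho_orthogonal_right (U ⊓ W)).disjoint x hx1 hx2
  have hs : U ⊔ W' = U ⊔ W := by
    apply le_antisymm
    · exact sup_le le_sup_left (inf_le_right.trans le_sup_right)
    · refine sup_le le_sup_left ?_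
      have h1 : (U ⊓ W) ⊔ (U ⊓ W)ᗮ ⊓ W = W :=
        Submodule.sup_orthogonal_inf_of_hasOrthogonalProjection inf_le_right
      calc W = (U ⊓ W) ⊔ W' := h1.symm
        _ ≤ U ⊔ W' := sup_le_sup_right inf_le_left _
  rw [← hs, TrOn_sup_of_disjoint h.symm hU hW'i hd]
  have := TrOn_mono h (inf_le_right : W' ≤ W) hW'i hW
  linarith

/-- Subadditivity on a finite sup. -/
theorem TrOn_biSup_le {ι : Type*} [DecidableEq ι] {X : E →ₗ[ℝ] E} (h : PosOp X) (s : Finset ι)
    (U : ι → Submodule ℝ E) (hU : ∀ i ∈ s, Invt X (U i)) :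
    TrOn X (⨆ i ∈ s, U i) ≤ ∑ i ∈ s, TrOn X (U i) := by
  induction s using Finset.induction_on with
  | empty =>
    simp only [Finset.notMem_empty, iSup_false, iSup_bot, Finset.sum_empty]
    simp [TrOn]
  | insert a s ha ih =>
    have hUs : ∀ i ∈ s, Invt X (U i) := fun i hi => hU i (Finset.mem_insert_of_mem hi)
    have hI : Invt X (⨆ i ∈ s, U i) := by
      intro v hv
      have key := LinearMap.mapsTo_biSup_of_mapsTo (N := fun i => ⨆ _ : i ∈ s, U i)
        (Set.univ : Set ι) (f := X) (by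
          intro i v hv
          by_cases hi : i ∈ s
          · simpa [hi] using hUs i hi v (by simpa [hi] using hv)
          · have : v = 0 := by simpa [hi] using hv
            simp [this])
      have h2 : (⨆ i ∈ (Set.univ : Set ι), ⨆ _ : i ∈ s, U i) = ⨆ i ∈ s, U i := by simp
      rw [h2] at key
      exact key hv
    rw [Finset.iSup_insert, Finset.sum_insert ha]
    have h1 := TrOn_sup_le h (hU a (Finset.mem_insert_self a s)) hI
    have h2 := ih hUs
    linarith

/-- Relabelling by an isometry commuting with `X`. -/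
theorem TrOn_map_eq {X R : E →ₗ[ℝ] E} (hR : ∀ v, ‖R v‖ = ‖v‖) (hRs : Function.Surjective R)
    (hc : ∀ v, X (R v) = R (X v)) (U W : Submodule ℝ E) (hUW : W = U.map R) :
    TrOn X W = TrOn X U := by
  subst hUW
  let e : E ≃ₗᵢ[ℝ] E := LinearIsometryEquiv.ofSurjective (⟨R, hR⟩ : E →ₗᵢ[ℝ] E) hRs
  have he : ∀ v, e v = R v := fun v => rfl
  have hmap : U.map R = U.map (e.toLinearEquiv : E →ₗ[ℝ] E) := by
    congr 1
  unfold TrOn
  rw [hmap]
  rw [← LinearMap.trace_conj' (X ∘ₗ (U.starProjection : E →L[ℝ] E).toLinearMap) e.toLinearEquiv]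
  congr 1
  ext v
  simp only [LinearMap.coe_comp, Function.comp_apply, ContinuousLinearMap.coe_coe,
    LinearEquiv.conj_apply]
  rw [Submodule.starProjection_map_apply e U v]
  rw [he, hc]
  rfl

omit [FiniteDimensional ℝ E] in
private theorem pow_apply_of_eigen {X : E →ₗ[ℝ] E} {v : E} {l : ℝ} (hv : X v = l • v) (K : ℕ) :
    (X ^ K) v = l ^ K • v := by
  induction K with
  | zero => simp
  | succ K ih =>
    rw [pow_succ', Module.End.mul_apply, ih, map_smul, hv, smul_smul, pow_succ]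

/-- Spectral data on an invariant subspace. -/
private theorem exists_eigen {X : E →ₗ[ℝ] E} (hs : X.IsSymmetric) {U : Submodule ℝ E}
    (hU : Invt X U) :
    ∃ (n : ℕ) (b : OrthonormalBasis (Fin n) ℝ U) (l : Fin n → ℝ), ∀ i, X (b i : E) = l i • (b i : E) := by
  have hsr := hs.restrict_invariant hU
  refine ⟨_, hsr.eigenvectorBasis rfl, hsr.eigenvalues rfl, fun i => ?_⟩
  have := hsr.apply_eigenvectorBasis rfl i
  exact congrArg Subtype.val this

omit [FiniteDimensional ℝ E] in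
private theorem inner_pow_unit {X : E →ₗ[ℝ] E} {v : E} {l : ℝ} (hv : X v = l • v) (h1 : ‖v‖ = 1)
    (K : ℕ) : ⟪v, (X ^ K) v⟫_ℝ = l ^ K := by
  rw [pow_apply_of_eigen hv, inner_smul_right, real_inner_self_eq_norm_sq, h1]
  simp

private theorem TrOn_pow_eq {n : ℕ} {X : E →ₗ[ℝ] E} {U : Submodule ℝ E}
    (b : OrthonormalBasis (Fin n) ℝ U) (l : Fin n → ℝ) (hb : ∀ i, X (b i : E) = l i • (b i : E))
    (K : ℕ) : TrOn (X ^ K) U = ∑ i, l i ^ K := by
  rw [TrOn_eq_sum _ U b]
  refine Finset.sum_congr rfl fun i _ => ?_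
  refine inner_pow_unit (hb i) ?_ K
  exact b.norm_eq_one i

private theorem sum_pow_le {ι : Type*} (s : Finset ι) (a : ι → ℝ) (ha : ∀ i ∈ s, 0 ≤ a i) (G : ℕ)
    (hG : 1 ≤ G) : ∑ i ∈ s, a i ^ G ≤ (∑ i ∈ s, a i) ^ G := by
  obtain ⟨g, rfl⟩ : ∃ g, G = g + 1 := ⟨G - 1, by omega⟩
  have hS : 0 ≤ ∑ i ∈ s, a i := Finset.sum_nonneg ha
  calc ∑ i ∈ s, a i ^ (g + 1) ≤ ∑ i ∈ s, a i * (∑ j ∈ s, a j) ^ g := by
        refine Finset.sum_le_sum fun i hi => ?_
        rw [pow_succ']
        refine mul_le_mul_of_nonneg_left ?_ (ha i hi)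
        exact pow_le_pow_left₀ (ha i hi) (Finset.single_le_sum ha hi) g
    _ = (∑ i ∈ s, a i) ^ (g + 1) := by
        rw [← Finset.sum_mul, pow_succ']

/-- Spectral comparison at low levels: `0 ≤ X ≤ 1`, `U` invariant, `M * G ≤ K`, `1 ≤ G`. -/
theorem TrOn_pow_le_pow {X : E →ₗ[ℝ] E} (h : PosOp X) (h1 : ∀ v, ⟪v, X v⟫_ℝ ≤ ‖v‖ ^ 2)
    {U : Submodule ℝ E} (hU : Invt X U) (M G K : ℕ) (hG : 1 ≤ G) (hK : M * G ≤ K) :
    TrOn (X ^ K) U ≤ TrOn (X ^ M) U ^ G := by
  obtain ⟨n, b, l, hb⟩ := exists_eigen h.symm hU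
  rw [TrOn_pow_eq b l hb, TrOn_pow_eq b l hb]
  have hn : ∀ i, ‖(b i : E)‖ = 1 := fun i => b.norm_eq_one i
  have hl0 : ∀ i, 0 ≤ l i := fun i => by
    have := h.nonneg (b i : E)
    have h2 := inner_pow_unit (hb i) (hn i) 1
    simp only [pow_one] at h2
    rwa [h2] at this
  have hl1 : ∀ i, l i ≤ 1 := fun i => by
    have := h1 (b i : E)
    have h2 := inner_pow_unit (hb i) (hn i) 1
    simp only [pow_one] at h2
    rw [h2, hn i] at this
    simpa using this
  calc ∑ i, l i ^ K ≤ ∑ i, (l i ^ M) ^ G := by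
        refine Finset.sum_le_sum fun i _ => ?_
        rw [← pow_mul]
        exact pow_le_pow_of_le_one (hl0 i) (hl1 i) hK
    _ ≤ (∑ i, l i ^ M) ^ G := sum_pow_le _ _ (fun i _ => pow_nonneg (hl0 i) M) G hG

/-- Spectral comparison at high levels. -/
theorem TrOn_pow_contract {X : E →ₗ[ℝ] E} (h : PosOp X) {U : Submodule ℝ E} (hU : Invt X U)
    (ρ : ℝ) (hρ : 0 ≤ ρ) (hX : ∀ v ∈ U, ⟪v, X v⟫_ℝ ≤ ρ * ‖v‖ ^ 2) (M K : ℕ) (hK : M ≤ K) :
    TrOn (X ^ K) U ≤ ρ ^ (K - M) * TrOn (X ^ M) U := by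
  obtain ⟨n, b, l, hb⟩ := exists_eigen h.symm hU
  rw [TrOn_pow_eq b l hb, TrOn_pow_eq b l hb, Finset.mul_sum]
  have hn : ∀ i, ‖(b i : E)‖ = 1 := fun i => b.norm_eq_one i
  have hl0 : ∀ i, 0 ≤ l i := fun i => by
    have := h.nonneg (b i : E)
    have h2 := inner_pow_unit (hb i) (hn i) 1
    simp only [pow_one] at h2
    rwa [h2] at this
  have hl1 : ∀ i, l i ≤ ρ := fun i => by
    have := hX (b i : E) (b i).2
    have h2 := inner_pow_unit (hb i) (hn i) 1
    simp only [pow_one] at h2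
    rw [h2, hn i] at this
    simpa using this
  refine Finset.sum_le_sum fun i _ => ?_
  have : l i ^ K = l i ^ (K - M) * l i ^ M := by
    rw [← pow_add]; congr 1; omega
  rw [this]
  exact mul_le_mul_of_nonneg_right (pow_le_pow_left₀ (hl0 i) (hl1 i) _) (pow_nonneg (hl0 i) M)

end Vale.Agent.Lib.P162T
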