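import Vale.Agent.Lib.P162T.Pure
import Vale.Agent.Lib.P162.LeftRep

/-!
# P162T: the trace of a convolution operator on `Fun K` is a sum over tuples
-/

open scoped InnerProductSpace
open Finset

namespace Vale.Agent.Lib.P162T

open ThorpL2

variable {α : Type*} [DecidableEq α] [Fintype α]

open Classical in
/-- The kernel of a signed law on injective tuples. -/
noncomputable def tupK {k : ℕ} (ν : Equiv.Perm α → ℝ) : Matrix (Fin k ↪ α) (Fin k ↪ α) ℝ :=
  fun u v => ∑ h, ν h * if (∀ a, h (u a) = v a) then 1 else 0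

/-- Kernel of a convolution. -/
theorem tupK_conv {k : ℕ} (ν ν' : Equiv.Perm α → ℝ) :
    (tupK (ThorpL2.conv ν ν') : Matrix (Fin k ↪ α) (Fin k ↪ α) ℝ) = tupK ν' * tupK ν := by
  classical
  ext u v
  simp only [tupK, Matrix.mul_apply, ThorpL2.conv]
  have hw : ∀ h' h : Equiv.Perm α, ∑ w : Fin k ↪ α, ν' h' * ν h * ((if ∀ a, h' (u a) = w a then (1 : ℝ) else 0) * (if ∀ a, h (w a) = v a then (1 : ℝ) else 0))
      = ν' h' * ν h * (if ∀ a, h (h' (u a)) = v a then (1 : ℝ) else 0) := by
    intro h' h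
    rw [← Finset.mul_sum]
    congr 1
    rw [Finset.sum_eq_single (u.trans h'.toEmbedding)]
    · simp
    · intro w _ hne
      have : ¬ ∀ a, h' (u a) = w a := by
        intro hc
        apply hne
        ext a
        simp [hc a]
      simp [this]
    · intro hc
      exact absurd (Finset.mem_univ _) hc
  have hR : (∑ w : Fin k ↪ α, (∑ h', ν' h' * (if ∀ a, h' (u a) = w a then (1 : ℝ) else 0)) * (∑ h, ν h * if ∀ a, h (w a) = v a then (1 : ℝ) else 0))
      = ∑ h', ∑ h, ν' h' * ν h * (if ∀ a, h (h' (u a)) = v a then (1 : ℝ) else 0) := by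
    calc _ = ∑ w : Fin k ↪ α, ∑ h', ∑ h, ν' h' * ν h * ((if ∀ a, h' (u a) = w a then (1 : ℝ) else 0) * (if ∀ a, h (w a) = v a then (1 : ℝ) else 0)) := by
            refine Finset.sum_congr rfl (fun w _ => ?_)
            rw [Finset.sum_mul]
            refine Finset.sum_congr rfl (fun h' _ => ?_)
            rw [mul_assoc, Finset.mul_sum, Finset.mul_sum]
            refine Finset.sum_congr rfl (fun h _ => ?_)
            ring
      _ = ∑ h', ∑ h, ∑ w : Fin k ↪ α, ν' h' * ν h * ((if ∀ a, h' (u a) = w a then (1 : ℝ) else 0) * (if ∀ a, h (w a) = v a then (1 : ℝ) else 0)) := by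
            rw [Finset.sum_comm]
            refine Finset.sum_congr rfl (fun h' _ => ?_)
            rw [Finset.sum_comm]
      _ = _ := by simp only [hw]
  rw [hR]
  have hL : ∀ g : Equiv.Perm α, (∑ h, ν h * ν' (h⁻¹ * g)) * (if ∀ a, g (u a) = v a then (1 : ℝ) else 0)
      = ∑ h, ν h * ν' (h⁻¹ * g) * (if ∀ a, g (u a) = v a then (1 : ℝ) else 0) := by
    intro g
    rw [Finset.sum_mul]
  simp only [hL]
  rw [Finset.sum_comm]
  rw [Finset.sum_comm (s := univ) (t := univ) (f := fun (h' h : Equiv.Perm α) => ν' h' * ν h * (if ∀ a, h (h' (u a)) = v a then (1 : ℝ) else 0))]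
  refine Finset.sum_congr rfl (fun h _ => ?_)
  refine Fintype.sum_equiv (Equiv.mulLeft h⁻¹) _ _ ?_
  intro g
  have hh : ∀ x, h (h⁻¹ x) = x := fun x => by simp
  simp only [Equiv.coe_mulLeft, Equiv.Perm.mul_apply, hh]
  ring


section Basis

variable {k : ℕ}

/-- Every injective tuple is carried to any other one by a permutation. -/
theorem exists_perm_tuple (u v : Fin k ↪ α) : ∃ π : Equiv.Perm α, ∀ a, π (u a) = v a := by
  exact Equiv.Perm.exists_extending_pair u v u.injective v.injective

open Classical in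
/-- The indicator of the event that `g` carries `e` to `u`. -/
noncomputable def tupInd (e u : Fin k ↪ α) : Fn α :=
  WithLp.toLp 2 (fun g => if ∀ a, g (e a) = u a then (1 : ℝ) else 0)

open Classical in
/-- The number of permutations fixing `e` pointwise. -/
noncomputable def tupN (e : Fin k ↪ α) : ℕ :=
  (univ.filter (fun g : Equiv.Perm α => ∀ a, g (e a) = e a)).card

open Classical in
theorem tupN_eq (e u : Fin k ↪ α) :
    (univ.filter (fun g : Equiv.Perm α => ∀ a, g (e a) = u a)).card = tupN e := by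
  obtain ⟨π, hπ⟩ := exists_perm_tuple e u
  unfold tupN
  refine Finset.card_equiv (Equiv.mulLeft π⁻¹) ?_
  intro g
  simp only [mem_filter, mem_univ, true_and, Equiv.coe_mulLeft, Equiv.Perm.mul_apply]
  constructor
  · intro h a
    rw [h a, ← hπ a]
    simp
  · intro h a
    have := congrArg π (h a)
    have hh : ∀ x, π (π⁻¹ x) = x := fun x => by simp
    rw [hh] at this
    rw [this, hπ a]

theorem tupN_pos (e : Fin k ↪ α) : 0 < tupN e := by
  classical
  unfold tupN
  refine Finset.card_pos.mpr ⟨1, ?_⟩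
  simp

open Classical in
theorem tupInd_apply (e u : Fin k ↪ α) (g : Equiv.Perm α) :
    tupInd e u g = if ∀ a, g (e a) = u a then (1 : ℝ) else 0 := rfl

theorem inner_tupInd (e u v : Fin k ↪ α) :
    ⟪tupInd e u, tupInd e v⟫_ℝ = if u = v then (tupN e : ℝ) else 0 := by
  classical
  rw [inner_Fn]
  simp only [tupInd_apply]
  by_cases h : u = v
  · subst h
    rw [if_pos rfl, ← tupN_eq e u, Finset.card_filter]
    push_cast
    refine Finset.sum_congr rfl (fun g _ => ?_)
    split_ifs <;> simp
  · rw [if_neg h]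
    refine Finset.sum_eq_zero (fun g _ => ?_)
    by_cases h1 : ∀ a, g (e a) = u a
    · have h2 : ¬ ∀ a, g (e a) = v a := by
        intro hc
        apply h
        ext a
        rw [← h1 a, hc a]
      simp [h2]
    · simp [h1]

/-- The enumeration of `K`. -/
noncomputable def tupE (K : Finset α) (hK : K.card = k) : Fin k ↪ α :=
  (K.equivFinOfCardEq hK).symm.toEmbedding.trans (Function.Embedding.subtype _)

theorem tupE_mem (K : Finset α) (hK : K.card = k) (a : Fin k) : tupE K hK a ∈ K := by
  simp [tupE]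

theorem exists_tupE (K : Finset α) (hK : K.card = k) {x : α} (hx : x ∈ K) :
    ∃ a, tupE K hK a = x := by
  refine ⟨K.equivFinOfCardEq hK ⟨x, hx⟩, ?_⟩
  simp [tupE]

theorem tupInd_mem (K : Finset α) (hK : K.card = k) (u : Fin k ↪ α) :
    tupInd (tupE K hK) u ∈ Fun K := by
  classical
  intro s hs t ht
  ext g
  change tupInd (tupE K hK) u (g * Equiv.swap s t) = tupInd (tupE K hK) u g
  simp only [tupInd_apply, Equiv.Perm.mul_apply]
  have : ∀ a, Equiv.swap s t (tupE K hK a) = tupE K hK a := by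
    intro a
    refine Equiv.swap_apply_of_ne_of_ne ?_ ?_
    · intro hc
      exact (Finset.mem_compl.mp hs) (by rw [← hc]; exact tupE_mem K hK a)
    · intro hc
      exact (Finset.mem_compl.mp ht) (by rw [← hc]; exact tupE_mem K hK a)
  simp only [this]

/-- A function of `Fun K` only depends on the restriction to `K`. -/
theorem Fun_congr (K : Finset α) (hK : K.card = k) {f : Fn α} (hf : f ∈ Fun K) {g g' : Equiv.Perm α}
    (h : ∀ a, g (tupE K hK a) = g' (tupE K hK a)) : f g = f g' := by
  have := inv_of_fix hf g (g⁻¹ * g') (by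
    intro x hx
    have hxK : x ∈ K := by
      by_contra hc
      exact hx (Finset.mem_compl.mpr hc)
    obtain ⟨a, rfl⟩ := exists_tupE K hK hxK
    rw [Equiv.Perm.mul_apply, ← h a]
    simp)
  rw [← this]
  simp

/-- The normalised basis vectors. -/
noncomputable def tupB (K : Finset α) (hK : K.card = k) (u : Fin k ↪ α) : Fun K :=
  ⟨(Real.sqrt (tupN (tupE K hK)))⁻¹ • tupInd (tupE K hK) u,
    (Fun K).smul_mem _ (tupInd_mem K hK u)⟩

theorem tupB_orthonormal (K : Finset α) (hK : K.card = k) :
    Orthonormal ℝ (tupB K hK) := by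
  classical
  have hN : (0 : ℝ) < tupN (tupE K hK) := by exact_mod_cast tupN_pos _
  rw [orthonormal_iff_ite]
  intro u v
  change ⟪(Real.sqrt (tupN (tupE K hK)))⁻¹ • tupInd (tupE K hK) u,
    (Real.sqrt (tupN (tupE K hK)))⁻¹ • tupInd (tupE K hK) v⟫_ℝ = _
  rw [real_inner_smul_left, real_inner_smul_right, inner_tupInd]
  by_cases h : u = v
  · subst h
    simp only [if_true]
    have h5 := Real.sq_sqrt hN.le
    have h3 : Real.sqrt (tupN (tupE K hK)) ≠ 0 := (Real.sqrt_pos.mpr hN).ne'
    field_simp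
    rw [h5]
  · simp [h]

theorem tupB_span (K : Finset α) (hK : K.card = k) :
    ⊤ ≤ Submodule.span ℝ (Set.range (tupB K hK)) := by
  classical
  have hN : (0 : ℝ) < tupN (tupE K hK) := by exact_mod_cast tupN_pos _
  have h3 : Real.sqrt (tupN (tupE K hK)) ≠ 0 := (Real.sqrt_pos.mpr hN).ne'
  rintro ⟨f, hf⟩ -
  choose π hπ using exists_perm_tuple (tupE K hK)
  have key : (⟨f, hf⟩ : Fun K) = ∑ u : Fin k ↪ α,
      (Real.sqrt (tupN (tupE K hK)) * f (π u)) • tupB K hK u := by
    apply Subtype.ext
    ext g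
    simp only [Submodule.coe_sum, Submodule.coe_smul]
    rw [WithLp.ofLp_sum, Finset.sum_apply]
    rw [Finset.sum_eq_single ((tupE K hK).trans g.toEmbedding)]
    · simp only [tupB, PiLp.smul_apply, smul_eq_mul, tupInd_apply]
      simp only [Function.Embedding.trans_apply, Equiv.coe_toEmbedding, implies_true, if_true, mul_one]
      have h4 := Fun_congr K hK hf (g := g) (g' := π ((tupE K hK).trans g.toEmbedding)) (by
        intro a
        rw [hπ]
        simp)
      rw [h4]
      field_simp
    · intro u _ hu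
      have : ¬ ∀ a, g (tupE K hK a) = u a := by
        intro hc
        apply hu
        ext a
        simp [hc a]
      simp only [tupB, PiLp.smul_apply, smul_eq_mul, tupInd_apply, if_neg this]
      simp
    · intro hc
      exact absurd (Finset.mem_univ _) hc
  rw [key]
  refine Submodule.sum_mem _ (fun u _ => Submodule.smul_mem _ _ (Submodule.subset_span ⟨u, rfl⟩))

/-- The orthonormal basis of `Fun K` indexed by the injective tuples. -/
noncomputable def tupBasis (K : Finset α) (hK : K.card = k) :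
    OrthonormalBasis (Fin k ↪ α) ℝ (Fun K) :=
  OrthonormalBasis.mk (tupB_orthonormal K hK) (tupB_span K hK)

theorem tupBasis_coe (K : Finset α) (hK : K.card = k) (u : Fin k ↪ α) :
    (tupBasis K hK u : Fn α) = (Real.sqrt (tupN (tupE K hK)))⁻¹ • tupInd (tupE K hK) u := by
  simp [tupBasis, tupB]

theorem inner_tupBasis_convOp (K : Finset α) (hK : K.card = k) (ν : Equiv.Perm α → ℝ) (u : Fin k ↪ α) :
    ⟪(tupBasis K hK u : Fn α), convOp ν (tupBasis K hK u : Fn α)⟫_ℝ = tupK ν u u := by
  classical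
  have hN : (0 : ℝ) < tupN (tupE K hK) := by exact_mod_cast tupN_pos _
  rw [tupBasis_coe, map_smul, real_inner_smul_left, real_inner_smul_right]
  have h1 : ⟪tupInd (tupE K hK) u, convOp ν (tupInd (tupE K hK) u)⟫_ℝ
      = tupN (tupE K hK) * tupK ν u u := by
    rw [inner_Fn]
    have h2 : ∀ g : Equiv.Perm α, tupInd (tupE K hK) u g * convOp ν (tupInd (tupE K hK) u) g
        = (if ∀ a, g (tupE K hK a) = u a then (1 : ℝ) else 0) * tupK ν u u := by
      intro g
      rw [tupInd_apply, convOp_apply]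
      by_cases hg : ∀ a, g (tupE K hK a) = u a
      · rw [if_pos hg, one_mul, one_mul]
        simp only [ThorpL2.conv, tupK, tupInd_apply]
        refine Finset.sum_congr rfl (fun h _ => ?_)
        congr 1
        have : (∀ a, (h⁻¹ * g) (tupE K hK a) = u a) ↔ ∀ a, h (u a) = u a := by
          simp only [Equiv.Perm.mul_apply, hg]
          constructor
          · intro h' a
            have := congrArg h (h' a)
            have hh : ∀ x, h (h⁻¹ x) = x := fun x => by simp
            rw [hh] at this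
            exact this.symm
          · intro h' a
            rw [Equiv.Perm.inv_eq_iff_eq]
            exact (h' a).symm
        simp only [this]
      · simp [hg]
    simp only [h2]
    rw [← Finset.sum_mul, ← tupN_eq (tupE K hK) u, Finset.card_filter]
    push_cast
    rfl
  rw [h1]
  have h5 := Real.sq_sqrt hN.le
  have h3 : Real.sqrt (tupN (tupE K hK)) ≠ 0 := (Real.sqrt_pos.mpr hN).ne'
  field_simp
  rw [h5]

end Basis


/-- Trace on `Fun K` for a single convolution operator. -/
theorem TrOn_convOp_Fun {k : ℕ} (K : Finset α) (hK : K.card = k) (ν : Equiv.Perm α → ℝ) :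
    TrOn (convOp ν) (Fun K) = ∑ u : Fin k ↪ α, (tupK ν : Matrix (Fin k ↪ α) (Fin k ↪ α) ℝ) u u := by
  classical
  let e : Fin k ↪ α := tupE K hK
  rw [TrOn_eq_sum _ _ (tupBasis K hK)]
  refine Finset.sum_congr rfl (fun u _ => ?_)
  exact inner_tupBasis_convOp K hK ν u

theorem convOp_comp (μ μ' : Equiv.Perm α → ℝ) :
    convOp μ * convOp μ' = convOp (ThorpL2.conv μ μ') := by
  ext f g
  simp only [Module.End.mul_apply, convOp_apply, ThorpL2.conv]
  calc ∑ h, μ h * ∑ h', μ' h' * f (h'⁻¹ * (h⁻¹ * g))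
      = ∑ h, ∑ h', μ h * μ' h' * f (h'⁻¹ * (h⁻¹ * g)) := by
        refine Finset.sum_congr rfl (fun h _ => ?_)
        rw [Finset.mul_sum]
        refine Finset.sum_congr rfl (fun h' _ => ?_)
        ring
    _ = ∑ h, ∑ l, μ h * μ' (h⁻¹ * l) * f (l⁻¹ * g) := by
        refine Finset.sum_congr rfl (fun h _ => ?_)
        refine Fintype.sum_equiv (Equiv.mulLeft h) _ _ ?_
        intro h'
        simp [mul_assoc]
    _ = ∑ l, ∑ h, μ h * μ' (h⁻¹ * l) * f (l⁻¹ * g) := Finset.sum_comm
    _ = _ := by
        refine Finset.sum_congr rfl (fun l _ => ?_)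
        rw [Finset.sum_mul]

theorem convOp_delta : convOp (α := α) (fun g => if g = 1 then 1 else 0) = 1 := by
  ext f g
  simp [conv]

theorem convOp_pow_eq_convPow (ν : Equiv.Perm α → ℝ) (M : ℕ) :
    (convOp ν) ^ M = convOp (ThorpL2.convPow ν M) := by
  induction M with
  | zero => rw [pow_zero]; exact convOp_delta.symm
  | succ M ih => rw [pow_succ', ih, convOp_comp]; rfl

theorem tupK_delta {k : ℕ} :
    (tupK (α := α) (k := k) (fun g => if g = 1 then 1 else 0)) = 1 := by
  classical
  ext u v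
  rw [Matrix.one_apply]
  simp only [tupK]
  rw [Finset.sum_eq_single 1]
  · by_cases h : u = v
    · subst h; simp
    · have : ¬ ∀ a, u a = v a := fun hc => h (by ext a; simp [hc a])
      simp [h, this]
  · intro b _ hb
    simp [hb]
  · intro hc
    exact absurd (Finset.mem_univ _) hc

theorem tupK_convPow {k : ℕ} (ν : Equiv.Perm α → ℝ) (M : ℕ) :
    (tupK (ThorpL2.convPow ν M) : Matrix (Fin k ↪ α) (Fin k ↪ α) ℝ) = (tupK ν) ^ M := by
  induction M with
  | zero => rw [pow_zero]; exact tupK_delta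
  | succ M ih =>
    change tupK (ThorpL2.conv ν (ThorpL2.convPow ν M)) = _
    rw [tupK_conv, ih, pow_succ]

/-- Trace on `Fun K` for powers. -/
theorem TrOn_convOp_pow_Fun {k : ℕ} (K : Finset α) (hK : K.card = k) (ν : Equiv.Perm α → ℝ) (M : ℕ) :
    TrOn ((convOp ν) ^ M) (Fun K)
      = ∑ u : Fin k ↪ α, ((tupK ν : Matrix (Fin k ↪ α) (Fin k ↪ α) ℝ) ^ M) u u := by
  rw [convOp_pow_eq_convPow, TrOn_convOp_Fun K hK, tupK_convPow]

/-- The reversed law. -/
def rev (μ : Equiv.Perm α → ℝ) : Equiv.Perm α → ℝ := fun g => μ g⁻¹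

theorem adjoint_convOp (μ : Equiv.Perm α → ℝ) : LinearMap.adjoint (convOp μ) = convOp (rev μ) := by
  symm
  rw [LinearMap.eq_adjoint_iff]
  intro f f'
  rw [inner_Fn, inner_Fn]
  simp only [convOp_apply, ThorpL2.conv, rev, Finset.sum_mul, Finset.mul_sum]
  rw [Finset.sum_comm]
  rw [Finset.sum_comm (s := univ) (t := univ) (f := fun (g h : Equiv.Perm α) => f g * (μ h * f' (h⁻¹ * g)))]
  refine Fintype.sum_equiv (Equiv.inv _) _ _ ?_
  intro h
  refine Fintype.sum_equiv (Equiv.mulLeft h⁻¹) _ _ ?_
  intro g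
  simp
  ring


/-- The operator `T T^*` is positive. -/
theorem posOp_XX (μ : Equiv.Perm α → ℝ) : PosOp (convOp μ * convOp (rev μ)) := by
  rw [← adjoint_convOp]
  constructor
  · intro v w
    simp only [Module.End.mul_apply]
    rw [← LinearMap.adjoint_inner_right, LinearMap.adjoint_inner_left]
  · intro v
    simp only [Module.End.mul_apply]
    rw [← LinearMap.adjoint_inner_left]
    exact real_inner_self_nonneg

/-- It is at most one for a probability law. -/
theorem XX_le_one (μ : Equiv.Perm α → ℝ) (h0 : ∀ g, 0 ≤ μ g) (h1 : ∑ g, μ g = 1) (v : Fn α) :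
    ⟪v, (convOp μ * convOp (rev μ)) v⟫_ℝ ≤ ‖v‖ ^ 2 := by
  have h2 : ‖convOp (rev μ) v‖ ≤ ‖v‖ := by
    rw [convOp_eq_sum]
    calc ‖∑ g, rev μ g • leftRep.ρ g v‖ ≤ ∑ g, ‖rev μ g • leftRep.ρ g v‖ := norm_sum_le _ _
      _ = ∑ g, rev μ g * ‖v‖ := by
          refine Finset.sum_congr rfl (fun g _ => ?_)
          have hg : |rev μ g| = rev μ g := abs_of_nonneg (h0 g⁻¹)
          rw [norm_smul, Real.norm_eq_abs, hg]
          congr 1
          exact norm_ltr g v
      _ = (∑ g, rev μ g) * ‖v‖ := by rw [Finset.sum_mul]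
      _ = ‖v‖ := by
          have : ∑ g, rev μ g = 1 := by
            rw [← h1]
            exact Equiv.sum_comp (Equiv.inv _) μ
          rw [this, one_mul]
  have h3 : ⟪v, (convOp μ * convOp (rev μ)) v⟫_ℝ = ‖convOp (rev μ) v‖ ^ 2 := by
    rw [← adjoint_convOp, Module.End.mul_apply, ← LinearMap.adjoint_inner_left, real_inner_self_eq_norm_sq]
  rw [h3]
  exact pow_le_pow_left₀ (norm_nonneg _) h2 2

end Vale.Agent.Lib.P162T
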